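import Crest.Agent.Lib.Ryser.Hat

/-!
# Module BLOCK: balls cannot hit all lines of a large regular family.

Hit lemma. Let `I` be a set of at most `.51 q` balls, `A` lines, `a = |A|`, all degrees `≤ D`, `G = {x | deg_A x ≥ 1.5 a / q}`; `|G| ≤ 4 q³/a` by the variance lemma.
If `I` hits `≥ θ a` lines of `A` then, `∑_I deg(ball) ≥ θ a`, non-`G` balls contribute `< .765 a`, so at least `(θ-.765) a/D` balls lie in `G`.
`rare_balls`: `μ = ∑_{b ∈ I} |G ∩ part b|/q ≤ mm |G| / q`. Two phases (half the balls hit `≥ .8 |A|`, or the other half hit all the rest, which has at least `.2 |A|` lines).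

Self-contained: the variance bound is proved here directly.
-/

open Finset BigOperators

namespace Crest.Agent.Ryser

variable {P V L : Type*} [Fintype P] [DecidableEq P] [Fintype V] [DecidableEq V]
  [Fintype L] [DecidableEq L]
variable {q : ℕ} {h : L → P → V}
variable {B : Type*} [Fintype B] [DecidableEq B]

namespace BlockAux

/-- Number of lines of `A` through `x`. -/
def deg (h : L → P → V) (A : Finset L) (x : P × V) : ℕ := (A.filter fun ℓ => On h ℓ x).card

lemma card_on (hO : OA q h) (ℓ : L) : (univ.filter fun x : P × V => On h ℓ x).card = q + 1 := by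
  rw [← hO.cardP, ← Finset.card_univ (α := P)]
  apply Finset.card_bij' (fun x _ => x.1) (fun i _ => (i, h ℓ i))
  · simp
  · simp [On]
  · rintro ⟨i, y⟩ hx
    simp only [mem_filter, mem_univ, true_and, On] at hx
    simp [hx]
  · simp

lemma card_on_two (hO : OA q h) {ℓ ℓ' : L} (hne : ℓ ≠ ℓ') :
    (univ.filter fun x : P × V => On h ℓ x ∧ On h ℓ' x).card = 1 := by
  obtain ⟨i, hi, huniq⟩ := hO.existsUnique_meet hne
  rw [Finset.card_eq_one]
  refine ⟨(i, h ℓ i), ?_⟩
  ext ⟨j, y⟩
  simp only [mem_filter, mem_univ, true_and, mem_singleton, On, Prod.mk.injEq]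
  constructor
  · rintro ⟨h1, h2⟩
    have hj : j = i := huniq j (h1.trans h2.symm)
    subst hj
    exact ⟨rfl, h1.symm⟩
  · rintro ⟨rfl, rfl⟩
    exact ⟨rfl, hi.symm⟩

lemma sum_deg (hO : OA q h) (A : Finset L) : ∑ x : P × V, deg h A x = A.card * (q + 1) := by
  simp only [deg, card_filter]
  rw [sum_comm]
  have h1 : ∀ ℓ ∈ A, ∑ x : P × V, (if On h ℓ x then 1 else 0) = q + 1 := fun ℓ _ => by
    rw [← card_filter]; exact card_on hO ℓ
  rw [sum_congr rfl h1]
  simp

lemma sum_deg_sq (hO : OA q h) (A : Finset L) :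
    ∑ x : P × V, (deg h A x) ^ 2 = A.card * (A.card + q) := by
  have h0 : ∀ x : P × V, (deg h A x) ^ 2 =
      ∑ ℓ ∈ A, ∑ ℓ' ∈ A, (if On h ℓ x ∧ On h ℓ' x then 1 else 0) := by
    intro x
    simp only [deg, card_filter, sq, sum_mul_sum]
    refine sum_congr rfl fun ℓ _ => sum_congr rfl fun ℓ' _ => ?_
    by_cases h1 : On h ℓ x <;> by_cases h2 : On h ℓ' x <;> simp [h1, h2]
  simp only [h0]
  rw [sum_comm]
  have h1 : ∀ ℓ ∈ A, ∑ x : P × V, ∑ ℓ' ∈ A, (if On h ℓ x ∧ On h ℓ' x then 1 else 0)
      = A.card + q := by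
    intro ℓ hℓ
    rw [sum_comm]
    have h2 : ∀ ℓ' ∈ A, ∑ x : P × V, (if On h ℓ x ∧ On h ℓ' x then 1 else 0)
        = if ℓ' = ℓ then q + 1 else 1 := by
      intro ℓ' _
      rw [← card_filter]
      split_ifs with he
      · subst he
        simpa using card_on hO ℓ'
      · exact card_on_two hO (Ne.symm he)
    rw [sum_congr rfl h2, ← add_sum_erase A _ hℓ]
    simp only [if_true]
    have h3 : ∀ ℓ' ∈ A.erase ℓ, (if ℓ' = ℓ then q + 1 else 1) = 1 := by
      intro ℓ' hℓ'
      simp [(mem_erase.1 hℓ').1]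
    rw [sum_congr rfl h3]
    have : 0 < A.card := card_pos.2 ⟨ℓ, hℓ⟩
    simp only [sum_const, smul_eq_mul, mul_one, card_erase_of_mem hℓ]
    omega
  rw [sum_congr rfl h1]
  simp

/-- The heavy points of `A`: degree at least `1.5 |A| / q`. -/
def Gset (q : ℕ) (h : L → P → V) (A : Finset L) : Finset (P × V) :=
  univ.filter fun x => 3 * A.card ≤ 2 * q * deg h A x

/-- Variance lemma: `|G| |A| ≤ 4 q³`. -/
lemma card_Gset_mul (hO : OA q h) (A : Finset L) :
    (Gset q h A).card * A.card ≤ 4 * q ^ 3 := by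
  rcases A.eq_empty_or_nonempty with rfl | hne
  · simp
  have hapos : (0:ℝ) < A.card := by exact_mod_cast card_pos.2 hne
  have hq0 : (0:ℝ) ≤ q := by positivity
  set a : ℝ := (A.card : ℝ) with ha
  have hs1 : ∑ x : P × V, (deg h A x : ℝ) = a * (q + 1) := by
    have := sum_deg hO A
    rw [ha]
    exact_mod_cast this
  have hs2 : ∑ x : P × V, (deg h A x : ℝ) ^ 2 = a * (a + q) := by
    have := sum_deg_sq hO A
    rw [ha]
    exact_mod_cast this
  have hN : (Fintype.card (P × V) : ℝ) = (q + 1) * q := by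
    rw [hO.card_pt]; push_cast; ring
  have htotal : ∑ x : P × V, (2 * (q:ℝ) * deg h A x - 2 * a) ^ 2 = 4 * q ^ 3 * a - 4 * q * a ^ 2 := by
    have h1 : ∀ x : P × V, (2 * (q:ℝ) * deg h A x - 2 * a) ^ 2 =
        4 * q ^ 2 * (deg h A x : ℝ) ^ 2 - 8 * q * a * (deg h A x : ℝ) + 4 * a ^ 2 := fun x => by ring
    simp only [h1]
    rw [sum_add_distrib, sum_sub_distrib, ← mul_sum, ← mul_sum, hs1, hs2, sum_const, nsmul_eq_mul,
      card_univ, hN]
    ring
  have hlow : ((Gset q h A).card : ℝ) * a ^ 2 ≤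
      ∑ x : P × V, (2 * (q:ℝ) * deg h A x - 2 * a) ^ 2 := by
    calc ((Gset q h A).card : ℝ) * a ^ 2 = ∑ _x ∈ Gset q h A, a ^ 2 := by
          rw [sum_const, nsmul_eq_mul]
      _ ≤ ∑ x ∈ Gset q h A, (2 * (q:ℝ) * deg h A x - 2 * a) ^ 2 := by
          apply sum_le_sum
          intro x hx
          have hx' : 3 * A.card ≤ 2 * q * deg h A x := (mem_filter.1 hx).2
          have hx'' : 3 * a ≤ 2 * q * (deg h A x : ℝ) := by
            rw [ha]; exact_mod_cast hx'
          nlinarith
      _ ≤ _ := sum_le_sum_of_subset_of_nonneg (subset_univ _) (fun _ _ _ => sq_nonneg _)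
  have hfin : ((Gset q h A).card : ℝ) * a ≤ 4 * q ^ 3 := by
    have h2 : ((Gset q h A).card : ℝ) * a * a ≤ 4 * q ^ 3 * a := by
      have : 0 ≤ 4 * (q:ℝ) * a ^ 2 := by positivity
      nlinarith
    exact le_of_mul_le_mul_right h2 hapos
  rw [ha] at hfin
  exact_mod_cast hfin

/-- Deterministic hit count. -/
lemma hit_count {ι : Type*} [Fintype ι] (ball : ι → P × V) (A : Finset L) (D : ℕ)
    (hdeg : ∀ x, deg h A x ≤ D) :
    2 * q * (A.filter fun ℓ => ∃ i, On h ℓ (ball i)).card ≤
      2 * q * D * (univ.filter fun i => ball i ∈ Gset q h A).card + 3 * A.card * Fintype.card ι := by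
  classical
  have hsub : (A.filter fun ℓ => ∃ i, On h ℓ (ball i)) ⊆
      univ.biUnion fun i => A.filter fun ℓ => On h ℓ (ball i) := by
    intro ℓ hℓ
    obtain ⟨hA, i, hi⟩ := mem_filter.1 hℓ
    exact mem_biUnion.2 ⟨i, mem_univ _, mem_filter.2 ⟨hA, hi⟩⟩
  have h1 : (A.filter fun ℓ => ∃ i, On h ℓ (ball i)).card ≤ ∑ i, deg h A (ball i) :=
    (card_le_card hsub).trans card_biUnion_le
  have h2 : ∀ i, 2 * q * deg h A (ball i) ≤
      (if ball i ∈ Gset q h A then 2 * q * D else 0) + 3 * A.card := by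
    intro i
    by_cases hi : ball i ∈ Gset q h A
    · simp only [hi, if_true]
      have := Nat.mul_le_mul_left (2 * q) (hdeg (ball i))
      omega
    · simp only [hi, if_false, zero_add]
      have : ¬ (3 * A.card ≤ 2 * q * deg h A (ball i)) := fun hc =>
        hi (mem_filter.2 ⟨mem_univ _, hc⟩)
      omega
  calc 2 * q * (A.filter fun ℓ => ∃ i, On h ℓ (ball i)).card
      ≤ 2 * q * ∑ i, deg h A (ball i) := Nat.mul_le_mul_left _ h1
    _ = ∑ i, 2 * q * deg h A (ball i) := by rw [mul_sum]
    _ ≤ ∑ i, ((if ball i ∈ Gset q h A then 2 * q * D else 0) + 3 * A.card) :=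
        sum_le_sum fun i _ => h2 i
    _ = _ := by
        rw [sum_add_distrib, ← sum_filter, sum_const, sum_const, smul_eq_mul, smul_eq_mul, card_univ]
        ring

/-- The slices of a point set `G` over the balls. -/
lemma sum_slice_le (bp : B → P) (mm : ℕ) (hmm : ∀ i, (univ.filter fun b => bp b = i).card ≤ mm)
    (G : Finset (P × V)) :
    ∑ b : B, (univ.filter fun y : V => (bp b, y) ∈ G).card ≤ mm * G.card := by
  have h1 : ∀ b : B, (univ.filter fun y : V => (bp b, y) ∈ G).card =
      ∑ x ∈ G, if x.1 = bp b then 1 else 0 := by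
    intro b
    rw [← card_filter]
    apply card_bij (fun y _ => (bp b, y))
    · intro y hy
      simpa using (mem_filter.1 hy).2
    · intro y _ y' _ he
      simpa using he
    · rintro ⟨i, y⟩ hx
      obtain ⟨hx1, hx2⟩ := mem_filter.1 hx
      simp only at hx2
      subst hx2
      exact ⟨y, mem_filter.2 ⟨mem_univ _, hx1⟩, rfl⟩
  simp only [h1]
  rw [sum_comm]
  have h2 : ∀ x ∈ G, ∑ b : B, (if x.1 = bp b then 1 else 0) ≤ mm := by
    intro x _
    rw [← card_filter]
    have : (univ.filter fun b => x.1 = bp b) = univ.filter fun b => bp b = x.1 := by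
      ext b; simp [eq_comm]
    rw [this]
    exact hmm x.1
  calc _ ≤ ∑ _x ∈ G, mm := sum_le_sum h2
    _ = mm * G.card := by rw [sum_const, smul_eq_mul, mul_comm]

/-- A phase: the randomness of the coordinates outside `p`, given the coordinates in `p`. -/
lemma phase [Nonempty V] (hO : OA q h) (bp : B → P) (mm : ℕ)
    (hmm : ∀ i, (univ.filter fun b => bp b = i).card ≤ mm)
    (p : B → Prop) [DecidablePred p] (Γ : ({b // p b} → V) → Finset (P × V)) (μ : ℝ) (hμ0 : 0 < μ)
    (hΓ : ∀ π₁, (mm : ℝ) * (Γ π₁).card / q ≤ μ) (t : ℕ) (ht : 1 ≤ t) :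
    Pr (fun π : B → V =>
      t ≤ (univ.filter fun b : {b // ¬ p b} => (bp b.1, π b.1) ∈ Γ (fun c => π c.1)).card) ≤
      (Real.exp 1 * μ / t) ^ t := by
  classical
  apply Pr_pi_split_le p
  intro π₁
  have hglue : ∀ π₂ : {b // ¬ p b} → V,
      (fun c : {b // p b} => (fun i => if hi : p i then π₁ ⟨i, hi⟩ else π₂ ⟨i, hi⟩) c.1) = π₁ := by
    intro π₂
    funext c
    simp [c.2]
  have hglue2 : ∀ (π₂ : {b // ¬ p b} → V) (b : {b // ¬ p b}),
      (fun i => if hi : p i then π₁ ⟨i, hi⟩ else π₂ ⟨i, hi⟩) b.1 = π₂ b := by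
    intro π₂ b
    simp [b.2]
  simp only [hglue, hglue2]
  have hq : (0:ℝ) < Fintype.card V := by exact_mod_cast Fintype.card_pos
  have hcardV : (Fintype.card V : ℝ) = q := by rw [hO.cardV]
  have hsum : (∑ b : {b // ¬ p b}, (((univ.filter fun y : V => (bp b.1, y) ∈ Γ π₁).card : ℕ) : ℝ) /
      Fintype.card V) ≤ μ := by
    refine le_trans ?_ (hΓ π₁)
    rw [← sum_div, hcardV]
    apply div_le_div_of_nonneg_right _ (by positivity)
    have h1 : ∑ b : {b // ¬ p b}, (univ.filter fun y : V => (bp b.1, y) ∈ Γ π₁).card ≤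
        ∑ b : B, (univ.filter fun y : V => (bp b, y) ∈ Γ π₁).card := by
      rw [← Finset.sum_subtype (univ.filter fun b => ¬ p b) (by simp)
        (fun b : B => (univ.filter fun y : V => (bp b, y) ∈ Γ π₁).card)]
      exact sum_le_sum_of_subset (subset_univ _)
    have h2 := h1.trans (sum_slice_le bp mm hmm (Γ π₁))
    exact_mod_cast h2
  have key := rare_balls (fun b : {b // ¬ p b} => univ.filter fun y : V => (bp b.1, y) ∈ Γ π₁) μ hsum hμ0 t ht
  simpa only [mem_filter, mem_univ, true_and] using key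

end BlockAux

open BlockAux

/-- Probability that the balls hit all lines of `A`. -/
theorem block_bound (hO : OA q h) (bp : B → P) (hB : 100 * Fintype.card B ≤ 102 * q) (hq : 100 ≤ q)
    (mm : ℕ) (hmm : ∀ i, (univ.filter fun b => bp b = i).card ≤ mm)
    (A : Finset L) (hA : A.Nonempty) (D : ℕ) (hdeg : ∀ x, (A.filter fun ℓ => On h ℓ x).card ≤ D)
    (t : ℕ) (ht : 1 ≤ t) (htD : 1000 * t * D ≤ 35 * A.card) :
    Pr (fun π : B → V => HitAll h A (Zof bp π)) ≤
      2 * (Real.exp 1 * (20 * mm * (q:ℝ) ^ 2 / A.card) / t) ^ t := by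
  classical
  haveI : Nonempty V := by
    have : 0 < Fintype.card V := by rw [hO.cardV]; have := hO.two_le; omega
    exact Fintype.card_pos_iff.1 this
  haveI hPne : Nonempty P := by
    have : 0 < Fintype.card P := by rw [hO.cardP]; omega
    exact Fintype.card_pos_iff.1 this
  have hq0 : 0 < q := by omega
  obtain ⟨ℓ₀, hℓ₀⟩ := hA
  obtain ⟨i₀⟩ := hPne
  have hApos : 0 < A.card := card_pos.2 ⟨ℓ₀, hℓ₀⟩
  have hD : 1 ≤ D := by
    have h1 := hdeg (i₀, h ℓ₀ i₀)
    have h2 : 0 < (A.filter fun ℓ => On h ℓ (i₀, h ℓ₀ i₀)).card :=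
      card_pos.2 ⟨ℓ₀, mem_filter.2 ⟨hℓ₀, rfl⟩⟩
    omega
  have hdeg' : ∀ A' : Finset L, A' ⊆ A → ∀ x, deg h A' x ≤ D := fun A' hA' x =>
    (card_le_card (filter_subset_filter _ hA')).trans (hdeg x)
  have hhit : ∀ π : B → V, HitAll h A (Zof bp π) → ∀ ℓ ∈ A, ∃ b, On h ℓ (bp b, π b) := by
    intro π hπ ℓ hℓ
    have h1 := hπ ℓ hℓ
    unfold misses at h1
    push Not at h1
    obtain ⟨x, hx, hOn⟩ := h1
    obtain ⟨b, -, rfl⟩ := mem_image.1 hx
    exact ⟨b, hOn⟩
  rcases Nat.eq_zero_or_pos mm with hmm0 | hmmpos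
  · subst hmm0
    have hE : ∀ b : B, False := by
      intro b
      have h1 := hmm (bp b)
      have hb : b ∈ univ.filter fun b' => bp b' = bp b := by simp
      have h2 := card_pos.2 ⟨b, hb⟩
      omega
    have h0 : Pr (fun π : B → V => HitAll h A (Zof bp π)) ≤ 0 := by
      unfold Pr
      have : (univ.filter fun π : B → V => HitAll h A (Zof bp π)) = ∅ := by
        apply filter_false_of_mem
        intro π _ hπ
        obtain ⟨b, -⟩ := hhit π hπ ℓ₀ hℓ₀
        exact hE b
      rw [this]
      simp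
    refine h0.trans ?_
    positivity
  · have hmmR : (0:ℝ) < mm := by exact_mod_cast hmmpos
    have hqR : (0:ℝ) < q := by exact_mod_cast hq0
    have hAR : (0:ℝ) < A.card := by exact_mod_cast hApos
    set μ : ℝ := 20 * mm * (q:ℝ) ^ 2 / A.card with hμdef
    have hμ0 : 0 < μ := by positivity
    -- the size bound for the heavy set of a big subfamily
    have hΓbound : ∀ A' : Finset L, A.card ≤ 5 * A'.card →
        (mm : ℝ) * (Gset q h A').card / q ≤ μ := by
      intro A' hA'
      have h1 := card_Gset_mul hO A'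
      have h2 : (Gset q h A').card * A.card ≤ 20 * q ^ 3 := by
        calc (Gset q h A').card * A.card ≤ (Gset q h A').card * (5 * A'.card) :=
              Nat.mul_le_mul_left _ hA'
          _ = 5 * ((Gset q h A').card * A'.card) := by ring
          _ ≤ 5 * (4 * q ^ 3) := Nat.mul_le_mul_left _ h1
          _ = 20 * q ^ 3 := by ring
      have h3 : ((Gset q h A').card : ℝ) * A.card ≤ 20 * (q:ℝ) ^ 3 := by exact_mod_cast h2
      rw [hμdef, div_le_div_iff₀ hqR hAR]
      nlinarith [mul_le_mul_of_nonneg_left h3 hmmR.le]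
    -- the split
    obtain ⟨I1, -, hI1⟩ := exists_subset_card_eq (s := (univ : Finset B))
      (n := Fintype.card B / 2) (by rw [card_univ]; omega)
    have hcard1 : Fintype.card {b // ¬ b ∉ I1} = I1.card := by
      rw [Fintype.card_subtype]
      congr 1
      ext b
      simp
    have hcard2 : Fintype.card {b // ¬ b ∈ I1} = Fintype.card B - I1.card := by
      rw [Fintype.card_subtype]
      have : (univ.filter fun b => ¬ b ∈ I1) = univ \ I1 := by
        ext b; simp
      rw [this, card_sdiff_of_subset (subset_univ _), card_univ]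
    -- phase 1
    have hE1 := phase hO bp mm hmm (fun b => b ∉ I1) (fun _ => Gset q h A) μ hμ0
      (fun _ => hΓbound A (by omega)) t ht
    -- phase 2
    let Ar : ({b // b ∈ I1} → V) → Finset L := fun π₁ =>
      A.filter fun ℓ => ∀ c : {b // b ∈ I1}, ¬ On h ℓ (bp c.1, π₁ c)
    let Γ₂ : ({b // b ∈ I1} → V) → Finset (P × V) := fun π₁ =>
      if A.card ≤ 5 * (Ar π₁).card then Gset q h (Ar π₁) else ∅
    have hE2 := phase hO bp mm hmm (fun b => b ∈ I1) Γ₂ μ hμ0 (by
      intro π₁
      by_cases hc : A.card ≤ 5 * (Ar π₁).card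
      · simp only [Γ₂, if_pos hc]
        exact hΓbound _ hc
      · simp only [Γ₂, if_neg hc, card_empty, Nat.cast_zero, mul_zero, zero_div]
        exact hμ0.le) t ht
    -- the inclusion
    have hincl : ∀ π : B → V, HitAll h A (Zof bp π) →
        (t ≤ (univ.filter fun b : {b // ¬ b ∉ I1} =>
            (bp b.1, π b.1) ∈ (fun _ : ({b // b ∉ I1} → V) => Gset q h A) (fun c => π c.1)).card) ∨
        (t ≤ (univ.filter fun b : {b // ¬ b ∈ I1} =>
            (bp b.1, π b.1) ∈ Γ₂ (fun c => π c.1)).card) := by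
      intro π hπ
      let H1 : Finset L := A.filter fun ℓ => ∃ c : {b // ¬ b ∉ I1}, On h ℓ (bp c.1, π c.1)
      have hsplit : A.card ≤ H1.card + (Ar fun c => π c.1).card := by
        refine le_trans (card_le_card ?_) (card_union_le H1 _)
        intro ℓ hℓ
        by_cases hc : ∃ c : {b // ¬ b ∉ I1}, On h ℓ (bp c.1, π c.1)
        · exact mem_union_left _ (mem_filter.2 ⟨hℓ, hc⟩)
        · apply mem_union_right
          refine mem_filter.2 ⟨hℓ, ?_⟩
          intro c hOn
          exact hc ⟨⟨c.1, not_not.2 c.2⟩, hOn⟩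
      by_cases hcase : 4 * A.card ≤ 5 * H1.card
      · left
        by_contra hn
        push Not at hn
        have hc := hit_count (h := h) (q := q) (fun c : {b // ¬ b ∉ I1} => (bp c.1, π c.1)) A D hdeg
        rw [hcard1] at hc
        set n := (univ.filter fun b : {b // ¬ b ∉ I1} => (bp b.1, π b.1) ∈ Gset q h A).card with hn'
        have hI1' : 100 * I1.card ≤ 51 * q := by omega
        have a1 : 1000 * (n * D + D) ≤ 35 * A.card := by
          have : (n + 1) * D ≤ t * D := Nat.mul_le_mul_right _ hn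
          nlinarith
        have a1' := Nat.mul_le_mul_left q a1
        have a2' := Nat.mul_le_mul_left q hcase
        have a3' := Nat.mul_le_mul_left A.card hI1'
        have a4 : 0 < q * D := by positivity
        change 2 * q * H1.card ≤ 2 * q * D * n + 3 * A.card * I1.card at hc
        nlinarith
      · right
        by_contra hn
        push Not at hn
        have hbig : A.card ≤ 5 * (Ar fun c => π c.1).card := by omega
        have hΓ : Γ₂ (fun c => π c.1) = Gset q h (Ar fun c => π c.1) := by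
          simp only [Γ₂, if_pos hbig]
        rw [hΓ] at hn
        have hc := hit_count (h := h) (q := q) (fun c : {b // ¬ b ∈ I1} => (bp c.1, π c.1))
          (Ar fun c => π c.1) D (hdeg' _ (filter_subset _ _))
        have hall : ((Ar fun c => π c.1).filter fun ℓ =>
            ∃ c : {b // ¬ b ∈ I1}, On h ℓ (bp c.1, π c.1)) = Ar fun c => π c.1 := by
          apply filter_true_of_mem
          intro ℓ hℓ
          obtain ⟨hℓA, hℓ2⟩ := mem_filter.1 hℓ
          obtain ⟨b, hb⟩ := hhit π hπ ℓ hℓA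
          by_cases hbI : b ∈ I1
          · exact absurd hb (hℓ2 ⟨b, hbI⟩)
          · exact ⟨⟨b, hbI⟩, hb⟩
        rw [hall, hcard2] at hc
        set n := (univ.filter fun b : {b // ¬ b ∈ I1} =>
          (bp b.1, π b.1) ∈ Gset q h (Ar fun c => π c.1)).card with hn'
        set a' := (Ar fun c => π c.1).card with ha'
        set m2 := Fintype.card B - I1.card with hm2
        have hm2' : 200 * m2 ≤ 103 * q := by omega
        have a1 : 1000 * (n * D + D) ≤ 175 * a' := by
          have : (n + 1) * D ≤ t * D := Nat.mul_le_mul_right _ hn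
          nlinarith
        have a1' := Nat.mul_le_mul_left q a1
        have a3' := Nat.mul_le_mul_left a' hm2'
        have a4 : 0 < q * D := by positivity
        nlinarith
    calc Pr (fun π : B → V => HitAll h A (Zof bp π))
        ≤ Pr (fun π : B → V => _ ∨ _) := Pr_mono hincl
      _ ≤ _ + _ := Pr_or_le _ _
      _ ≤ (Real.exp 1 * μ / t) ^ t + (Real.exp 1 * μ / t) ^ t := add_le_add hE1 hE2
      _ = _ := by ring

/-- Probability that prescribed distinct balls take prescribed values. -/
lemma pr_fixed [Nonempty V] (hO : OA q h) {H : Finset (P × V)} (f : H → B)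
    (hf : Function.Injective f) :
    Pr (fun π : B → V => ∀ x : H, π (f x) = x.1.2) ≤ (1 / (q : ℝ)) ^ H.card := by
  classical
  have hqpos : (0:ℝ) < q := by exact_mod_cast hO.q_pos
  have hcardV : (Fintype.card V : ℝ) = q := by rw [hO.cardV]
  let g : B → V → ℝ := fun b y => if ∀ x : H, f x = b → y = x.1.2 then 1 else 0
  have h1 : Pr (fun π : B → V => ∀ x : H, π (f x) = x.1.2) = Ex (fun π : B → V => ∏ b, g b (π b)) := by
    rw [Pr_eq_Ex]
    congr 1
    funext π
    simp only [g]
    rw [prod_ite_zero]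
    simp only [prod_const_one]
    congr 1
    apply propext
    constructor
    · intro hπ b _ x hx
      rw [← hx]
      exact hπ x
    · intro hπ x
      exact hπ (f x) (mem_univ _) x rfl
  rw [h1, Ex_pi_prod]
  have h2 : ∀ b, Ex (g b) = if b ∈ H.attach.image f then 1 / (q:ℝ) else 1 := by
    intro b
    split_ifs with hb
    · obtain ⟨x, -, rfl⟩ := mem_image.1 hb
      unfold Ex
      have h3 : ∑ y, g (f x) y = 1 := by
        rw [sum_eq_single x.1.2]
        · simp only [g]
          rw [if_pos]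
          intro x' hx'
          rw [hf hx']
        · intro y _ hy
          simp only [g]
          rw [if_neg]
          intro hc
          exact hy (hc x rfl)
        · simp
      rw [h3, hcardV]
    · unfold Ex
      have h3 : ∀ y, g b y = 1 := by
        intro y
        simp only [g]
        rw [if_pos]
        intro x hx
        exact absurd (mem_image.2 ⟨x, mem_attach _ _, hx⟩) hb
      simp only [h3]
      rw [sum_const, card_univ, nsmul_eq_mul, mul_one]
      have : (Fintype.card V : ℝ) ≠ 0 := by rw [hcardV]; exact hqpos.ne'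
      field_simp
  simp only [h2]
  rw [prod_ite, prod_const_one, mul_one, prod_const]
  have h4 : (univ.filter fun b => b ∈ H.attach.image f) = H.attach.image f := by
    ext b; simp
  rw [h4, card_image_of_injective _ hf, card_attach]

/-- Probability that all points of `H` are balls. -/
theorem heavy_bound (hO : OA q h) (bp : B → P) (mm : ℕ) (hmm : ∀ i, (univ.filter fun b => bp b = i).card ≤ mm)
    (hmm1 : 1 ≤ mm) (H : Finset (P × V)) (hH : H.Nonempty) :
    Pr (fun π : B → V => H ⊆ Zof bp π) ≤ (Real.exp 1 * mm / q) ^ H.card := by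
  classical
  haveI : Nonempty V := by
    have : 0 < Fintype.card V := by rw [hO.cardV]; have := hO.two_le; omega
    exact Fintype.card_pos_iff.1 this
  have hqpos : (0:ℝ) < q := by exact_mod_cast hO.q_pos
  let Fam : Finset (H → B) :=
    (Fintype.piFinset fun x : H => univ.filter fun b => bp b = x.1.1).filter Function.Injective
  have hFam : Fam.card ≤ mm ^ H.card := by
    calc Fam.card ≤ (Fintype.piFinset fun x : H => univ.filter fun b => bp b = x.1.1).card :=
          card_filter_le _ _
      _ = ∏ x : H, (univ.filter fun b => bp b = x.1.1).card := Fintype.card_piFinset _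
      _ ≤ ∏ _x : H, mm := prod_le_prod' fun x _ => hmm x.1.1
      _ = mm ^ H.card := by simp
  have hcover : ∀ π : B → V, H ⊆ Zof bp π → ∃ f ∈ Fam, ∀ x : H, π (f x) = x.1.2 := by
    intro π hπ
    have hch : ∀ x : H, ∃ b, (bp b, π b) = x.1 := by
      intro x
      obtain ⟨b, -, hb⟩ := mem_image.1 (hπ x.2)
      exact ⟨b, hb⟩
    choose f hf using hch
    refine ⟨f, ?_, fun x => ?_⟩
    · refine mem_filter.2 ⟨?_, ?_⟩
      · refine Fintype.mem_piFinset.2 fun x => mem_filter.2 ⟨mem_univ _, ?_⟩
        rw [← hf x]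
      · intro x y hxy
        apply Subtype.ext
        rw [← hf x, ← hf y, hxy]
    · rw [← hf x]
  have hexp : (1:ℝ) ≤ Real.exp 1 := by
    have := Real.add_one_le_exp (1:ℝ); linarith
  calc Pr (fun π : B → V => H ⊆ Zof bp π)
      ≤ Pr (fun π : B → V => ∃ f ∈ Fam, ∀ x : H, π (f x) = x.1.2) := Pr_mono hcover
    _ ≤ Fam.card * (1 / (q:ℝ)) ^ H.card := by
        apply Pr_exists_le_card
        intro f hf
        exact pr_fixed hO f (mem_filter.1 hf).2
    _ ≤ (mm:ℝ) ^ H.card * (1 / (q:ℝ)) ^ H.card := by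
        apply mul_le_mul_of_nonneg_right _ (by positivity)
        exact_mod_cast hFam
    _ = ((mm:ℝ) / q) ^ H.card := by
        rw [← mul_pow]; congr 1; ring
    _ ≤ _ := by
        apply pow_le_pow_left₀ (by positivity)
        apply div_le_div_of_nonneg_right _ hqpos.le
        have : (0:ℝ) ≤ mm := by positivity
        nlinarith

end Crest.Agent.Ryser
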