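import Crest.Agent.Lib.Ryser.Hat

/-!
# Module CONTAINER.

`exists_sample`: colour `S` with `D` colours uniformly (uniform on `S → Fin D`), `P0` = colour class of `0`. Chernoff (lower tail, per rich hat line, `rare_balls_lower`) and Markov for the size.
`card_Cont_le`: variance lemma for the ordinary lines with weights `w ℓ = m ℓ 1[m ℓ ≥ θ]`, where `m ℓ = |ℓ ∩ P0|`:
  `∑ w² ≤ ∑ 4 C(m ℓ,2) ≤ 2 |P0|²`, `∑ w ≤ |P0|²/(θ-1)`; and parts with `≥ τ/2` sample points are at most `2|P0|/τ`.
`card_ListS_le`: `S ↦ (P0, S \ Cont P0, S ∩ Cont P0)`.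
-/

open Finset BigOperators

namespace Crest.Agent.Ryser

variable {P V L : Type*} [Fintype P] [DecidableEq P] [Fintype V] [DecidableEq V]
  [Fintype L] [DecidableEq L]
variable {q : ℕ} {h : L → P → V}

lemma Pr_eq_zero_of_forall_not {Ω : Type*} [Fintype Ω] {E : Ω → Prop} (hE : ∀ ω, ¬ E ω) :
    Pr E = 0 := by
  classical
  rw [Pr_eq_card, Finset.filter_false_of_mem (fun ω _ => hE ω)]
  simp

section Sample

variable {Pt : Type*} [DecidableEq Pt]

/-- Average of a function of a single coordinate. -/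
lemma Ex_coord {ι X : Type*} [Fintype ι] [DecidableEq ι] [Fintype X] [Nonempty X] (g : X → ℝ)
    (b : ι) : Ex (fun π : ι → X => g (π b)) = Ex g := by
  have h1 := Ex_pi_prod (ι := ι) (X := X) (fun i => if i = b then g else fun _ => 1)
  have h2 : (fun π : ι → X => ∏ i, (if i = b then g else fun _ => (1 : ℝ)) (π i)) =
      fun π => g (π b) := by
    funext π
    rw [Finset.prod_eq_single b]
    · simp
    · intro c _ hc
      simp [hc]
    · intro hb
      exact absurd (Finset.mem_univ b) hb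
  rw [h2] at h1
  rw [h1, Finset.prod_eq_single b]
  · simp
  · intro c _ hc
    simp only [hc, if_false]
    exact Ex_const 1
  · intro hb
    exact absurd (Finset.mem_univ b) hb

/-- Colour class of `d0`. -/
def colourClass {D : ℕ} (S : Finset Pt) (d0 : Fin D) (ω : S → Fin D) : Finset Pt :=
  (univ.filter fun b : S => ω b = d0).image Subtype.val

lemma colourClass_subset {D : ℕ} (S : Finset Pt) (d0 : Fin D) (ω : S → Fin D) :
    colourClass S d0 ω ⊆ S := by
  intro x hx
  obtain ⟨b, -, rfl⟩ := Finset.mem_image.mp hx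
  exact b.2

lemma card_colourClass_filter {D : ℕ} (S : Finset Pt) (d0 : Fin D) (ω : S → Fin D)
    (p : Pt → Prop) [DecidablePred p] :
    ((colourClass S d0 ω).filter p).card =
      (univ.filter fun b : S => ω b ∈ (if p b.val then ({d0} : Finset (Fin D)) else ∅)).card := by
  classical
  have : (colourClass S d0 ω).filter p =
      (univ.filter fun b : S => ω b ∈ (if p b.val then ({d0} : Finset (Fin D)) else ∅)).image
        Subtype.val := by
    ext x
    simp only [colourClass, Finset.mem_filter, Finset.mem_image, Finset.mem_univ, true_and]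
    constructor
    · rintro ⟨⟨b, hb, rfl⟩, hp⟩
      refine ⟨b, ?_, rfl⟩
      simp [hp, hb]
    · rintro ⟨b, hb, rfl⟩
      by_cases hp : p b.val
      · simp only [hp, if_true, Finset.mem_singleton] at hb
        exact ⟨⟨b, hb, rfl⟩, hp⟩
      · simp [hp] at hb
  rw [this, Finset.card_image_of_injective _ Subtype.val_injective]

lemma card_colourClass {D : ℕ} (S : Finset Pt) (d0 : Fin D) (ω : S → Fin D) :
    (colourClass S d0 ω).card = (univ.filter fun b : S => ω b = d0).card :=
  Finset.card_image_of_injective _ Subtype.val_injective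

/-- Lower tail for the number of sample points in a subset. -/
lemma Pr_colour_lower {D : ℕ} (S : Finset Pt) (d0 : Fin D) (p : Pt → Prop) [DecidablePred p]
    (hD : 1 ≤ D) :
    have : Nonempty (Fin D) := ⟨d0⟩
    Pr (fun ω : S → Fin D =>
      ((((colourClass S d0 ω).filter p).card : ℝ) ≤ ((S.filter p).card : ℝ) / D / 2)) ≤
      Real.exp (-(((S.filter p).card : ℝ) / D / 8)) := by
  classical
  have : Nonempty (Fin D) := ⟨d0⟩
  have hDpos : (0 : ℝ) < D := by exact_mod_cast hD
  have h1 := rare_balls_lower (ι := S) (X := Fin D)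
    (fun b : S => if p b.val then ({d0} : Finset (Fin D)) else ∅)
    (((S.filter p).card : ℝ) / D) (by positivity) (by
      have : ∑ b : S, ((if p b.val then ({d0} : Finset (Fin D)) else ∅).card : ℝ) /
          Fintype.card (Fin D) = ((S.filter p).card : ℝ) / D := by
        rw [Fintype.card_fin, ← Finset.sum_div]
        congr 1
        have h2 : ∀ b : S, (((if p b.val then ({d0} : Finset (Fin D)) else ∅).card : ℕ) : ℝ) =
            if p b.val then (1 : ℝ) else 0 := by
          intro b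
          by_cases hp : p b.val <;> simp [hp]
        simp only [h2]
        rw [Finset.sum_boole]
        congr 1
        rw [Finset.card_filter, Finset.card_filter]
        rw [← Finset.sum_coe_sort S (fun x => if p x then 1 else 0)]
      exact this.ge)
  refine le_trans (Pr_mono ?_) h1
  intro ω hω
  rw [card_colourClass_filter] at hω
  exact hω

/-- Expected size of the colour class. -/
lemma Ex_card_colourClass {D : ℕ} (S : Finset Pt) (d0 : Fin D) :
    have : Nonempty (Fin D) := ⟨d0⟩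
    Ex (fun ω : S → Fin D => ((colourClass S d0 ω).card : ℝ)) = (S.card : ℝ) / D := by
  classical
  have : Nonempty (Fin D) := ⟨d0⟩
  have h1 : (fun ω : S → Fin D => ((colourClass S d0 ω).card : ℝ)) =
      fun ω => ∑ b : S, (if ω b = d0 then (1 : ℝ) else 0) := by
    funext ω
    rw [card_colourClass, Finset.sum_boole]
  rw [h1, Ex_sum]
  have h2 : ∀ b : S, Ex (fun ω : S → Fin D => if ω b = d0 then (1 : ℝ) else 0) = 1 / D := by
    intro b
    rw [Ex_coord (fun x : Fin D => if x = d0 then (1 : ℝ) else 0) b]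
    unfold Ex
    rw [Finset.sum_boole, Fintype.card_fin]
    simp [Finset.filter_eq']
  simp only [h2]
  rw [Finset.sum_const, Finset.card_univ, Fintype.card_coe, nsmul_eq_mul]
  ring

end Sample

/-- There is a sample `P0 ⊆ S` with `|P0| D ≤ 2 q` such that every rich hat line keeps a proportion `1/(2D)` of its points
(the number of hat lines is `q²+q+1`). -/
theorem exists_sample (hO : OA q h) (S : Finset (P × V)) (hS : S.card = q) (L₀ D θ : ℕ) (hD : 1 ≤ D)
    (hθ : 2 * θ * D ≤ L₀)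
    (hnum : (8 : ℝ) * ((q ^ 2 + q + 1 : ℕ) : ℝ) * Real.exp (-((θ : ℝ) / 4)) ≤ 1) :
    ∃ P0 : Finset (P × V), P0 ⊆ S ∧ P0.card * D ≤ 2 * q ∧ ∀ x, Wt h S L₀ x ≤ 2 * D * Wt h P0 θ x := by
  classical
  let d0 : Fin D := ⟨0, hD⟩
  have : Nonempty (Fin D) := ⟨d0⟩
  have hDpos : (0 : ℝ) < D := by exact_mod_cast hD
  have hqpos : (0 : ℝ) < q := by exact_mod_cast hO.q_pos
  -- the bad events
  let Bad : (L ⊕ P) → (S → Fin D) → Prop := fun ℓ ω =>
    L₀ ≤ nH h S ℓ ∧ nH h (colourClass S d0 ω) ℓ * (2 * D) < nH h S ℓ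
  have hBad : ∀ ℓ : L ⊕ P, Pr (Bad ℓ) ≤ Real.exp (-((θ : ℝ) / 4)) := by
    intro ℓ
    by_cases hrich : L₀ ≤ nH h S ℓ
    · have h1 := Pr_colour_lower S d0 (OnH h ℓ) hD
      have h2 : Pr (Bad ℓ) ≤ Pr (fun ω : S → Fin D =>
          (((colourClass S d0 ω).filter (OnH h ℓ)).card : ℝ) ≤
            ((S.filter (OnH h ℓ)).card : ℝ) / D / 2) := by
        apply Pr_mono
        rintro ω ⟨-, hlt⟩
        have hlt' : (((colourClass S d0 ω).filter (OnH h ℓ)).card : ℝ) * (2 * D) <
            ((S.filter (OnH h ℓ)).card : ℝ) := by exact_mod_cast hlt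
        rw [div_div, le_div_iff₀ (by positivity)]
        rw [mul_comm (D : ℝ) 2]
        exact hlt'.le
      refine h2.trans (h1.trans ?_)
      apply Real.exp_le_exp.mpr
      have h3 : (2 * (θ : ℝ) * D) ≤ ((S.filter (OnH h ℓ)).card : ℝ) := by
        have : 2 * θ * D ≤ (S.filter (OnH h ℓ)).card := hθ.trans hrich
        exact_mod_cast this
      have h4 : 2 * (θ : ℝ) ≤ ((S.filter (OnH h ℓ)).card : ℝ) / D := by
        rw [le_div_iff₀ hDpos]
        exact h3
      linarith
    · have : Pr (Bad ℓ) = 0 := Pr_eq_zero_of_forall_not (fun ω hω => hrich hω.1)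
      rw [this]
      exact (Real.exp_pos _).le
  have hunion : Pr (fun ω : S → Fin D => ∃ ℓ ∈ (univ : Finset (L ⊕ P)), Bad ℓ ω) ≤ 1 / 8 := by
    refine (Pr_exists_le_card univ Bad _ (fun ℓ _ => hBad ℓ)).trans ?_
    have hcard : ((univ : Finset (L ⊕ P)).card : ℝ) = ((q ^ 2 + q + 1 : ℕ) : ℝ) := by
      rw [Finset.card_univ, Fintype.card_sum, hO.card_L, hO.cardP]
      push_cast
      ring
    rw [hcard]
    linarith
  have hsize : Pr (fun ω : S → Fin D => 2 * (q : ℝ) / D ≤ ((colourClass S d0 ω).card : ℝ)) ≤ 1 / 2 := by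
    refine (markov (fun ω => by positivity) (by positivity)).trans ?_
    rw [Ex_card_colourClass, hS]
    apply le_of_eq
    field_simp
  have htotal : Pr (fun ω : S → Fin D => (∃ ℓ ∈ (univ : Finset (L ⊕ P)), Bad ℓ ω) ∨
      2 * (q : ℝ) / D ≤ ((colourClass S d0 ω).card : ℝ)) < 1 := by
    have := Pr_or_le (fun ω : S → Fin D => ∃ ℓ ∈ (univ : Finset (L ⊕ P)), Bad ℓ ω)
      (fun ω : S → Fin D => 2 * (q : ℝ) / D ≤ ((colourClass S d0 ω).card : ℝ))
    linarith
  have hΩ : Nonempty (S → Fin D) := inferInstance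
  obtain ⟨ω, hω⟩ := exists_of_Pr_not_lt_one (E := fun ω : S → Fin D =>
    ¬ ((∃ ℓ ∈ (univ : Finset (L ⊕ P)), Bad ℓ ω) ∨
      2 * (q : ℝ) / D ≤ ((colourClass S d0 ω).card : ℝ)))
    (lt_of_le_of_lt (Pr_mono (fun ω hω => not_not.mp hω)) htotal)
  push Not at hω
  obtain ⟨hω1, hω2⟩ := hω
  refine ⟨colourClass S d0 ω, colourClass_subset S d0 ω, ?_, ?_⟩
  · have h3 : ((colourClass S d0 ω).card : ℝ) * D < 2 * q := by
      rwa [lt_div_iff₀ hDpos] at hω2
    have h4 : (colourClass S d0 ω).card * D < 2 * q := by exact_mod_cast h3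
    exact h4.le
  · intro x
    unfold Wt
    have hgood : ∀ ℓ : L ⊕ P, L₀ ≤ nH h S ℓ →
        nH h S ℓ ≤ nH h (colourClass S d0 ω) ℓ * (2 * D) := by
      intro ℓ hℓ
      by_contra hlt
      push Not at hlt
      exact hω1 ℓ (Finset.mem_univ _) ⟨hℓ, hlt⟩
    have hθle : ∀ ℓ : L ⊕ P, L₀ ≤ nH h S ℓ → θ ≤ nH h (colourClass S d0 ω) ℓ := by
      intro ℓ hℓ
      have h1 := hgood ℓ hℓ
      have h2 : 2 * θ * D ≤ nH h (colourClass S d0 ω) ℓ * (2 * D) := hθ.trans (hℓ.trans h1)
      have h3 : 0 < 2 * D := by omega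
      have h4 : θ * (2 * D) ≤ nH h (colourClass S d0 ω) ℓ * (2 * D) := by nlinarith
      exact Nat.le_of_mul_le_mul_right h4 h3
    calc ∑ ℓ ∈ univ.filter (fun ℓ : L ⊕ P => OnH h ℓ x ∧ L₀ ≤ nH h S ℓ), nH h S ℓ
        ≤ ∑ ℓ ∈ univ.filter (fun ℓ : L ⊕ P => OnH h ℓ x ∧ L₀ ≤ nH h S ℓ),
            2 * D * nH h (colourClass S d0 ω) ℓ := by
          apply Finset.sum_le_sum
          intro ℓ hℓ
          have := hgood ℓ (Finset.mem_filter.mp hℓ).2.2
          linarith
      _ = 2 * D * ∑ ℓ ∈ univ.filter (fun ℓ : L ⊕ P => OnH h ℓ x ∧ L₀ ≤ nH h S ℓ),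
            nH h (colourClass S d0 ω) ℓ := by rw [Finset.mul_sum]
      _ ≤ 2 * D * ∑ ℓ ∈ univ.filter (fun ℓ : L ⊕ P => OnH h ℓ x ∧
            θ ≤ nH h (colourClass S d0 ω) ℓ), nH h (colourClass S d0 ω) ℓ := by
          apply Nat.mul_le_mul_left
          apply Finset.sum_le_sum_of_subset
          intro ℓ hℓ
          simp only [Finset.mem_filter, Finset.mem_univ, true_and] at hℓ ⊢
          exact ⟨hℓ.1, hθle ℓ hℓ.2⟩


/-- Number of ordered pairs of distinct points of `P0` on a common line. -/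
lemma sum_pairs_le (hO : OA q h) (P0 : Finset (P × V)) :
    ∑ ℓ : L, (P0.filter (On h ℓ)).card * ((P0.filter (On h ℓ)).card - 1) ≤ P0.card ^ 2 := by
  classical
  have h1 : ∀ ℓ : L, (P0.filter (On h ℓ)).card * ((P0.filter (On h ℓ)).card - 1) =
      ((P0.filter (On h ℓ)).offDiag).card := by
    intro ℓ
    rw [Finset.offDiag_card]
    rw [Nat.mul_sub, mul_one]
  simp only [h1]
  have h2 : ∀ ℓ : L, ((P0.filter (On h ℓ)).offDiag).card =
      (P0.offDiag.filter fun p : (P × V) × (P × V) => On h ℓ p.1 ∧ On h ℓ p.2).card := by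
    intro ℓ
    congr 1
    ext p
    simp only [Finset.mem_offDiag, Finset.mem_filter]
    tauto
  simp only [h2]
  have h3 : ∑ ℓ : L, (P0.offDiag.filter fun p : (P × V) × (P × V) => On h ℓ p.1 ∧ On h ℓ p.2).card =
      ∑ p ∈ P0.offDiag, (univ.filter fun ℓ : L => On h ℓ p.1 ∧ On h ℓ p.2).card := by
    simp only [Finset.card_filter]
    rw [Finset.sum_comm]
  rw [h3]
  have h4 : ∀ p ∈ P0.offDiag, (univ.filter fun ℓ : L => On h ℓ p.1 ∧ On h ℓ p.2).card ≤ 1 := by
    intro p hp
    have hne : p.1 ≠ p.2 := (Finset.mem_offDiag.mp hp).2.2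
    rw [Finset.card_le_one]
    intro a ha b hb
    simp only [Finset.mem_filter, Finset.mem_univ, true_and] at ha hb
    by_cases hpart : p.1.1 = p.2.1
    · exfalso
      apply hne
      have h5 : p.1.2 = p.2.2 := by
        have e1 : h a p.1.1 = p.1.2 := ha.1
        have e2 : h a p.2.1 = p.2.2 := ha.2
        rw [← e1, ← e2, hpart]
      exact Prod.ext hpart h5
    · exact hO.eq_of_two_points ha.1 hb.1 ha.2 hb.2 hpart
  calc ∑ p ∈ P0.offDiag, (univ.filter fun ℓ : L => On h ℓ p.1 ∧ On h ℓ p.2).card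
      ≤ ∑ _p ∈ P0.offDiag, 1 := Finset.sum_le_sum h4
    _ = P0.offDiag.card := by simp
    _ ≤ P0.card ^ 2 := by
        rw [Finset.offDiag_card, sq]
        exact Nat.sub_le _ _

/-- `Wt` splits in the ordinary lines and the part. -/
lemma Wt_eq (P0 : Finset (P × V)) (θ : ℕ) (x : P × V) :
    Wt h P0 θ x = (∑ ℓ ∈ linesThrough h x, if θ ≤ (P0.filter (On h ℓ)).card then
        (P0.filter (On h ℓ)).card else 0) +
      (if θ ≤ (P0.filter fun y => y.1 = x.1).card then (P0.filter fun y => y.1 = x.1).card else 0) := by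
  classical
  unfold Wt
  rw [Finset.sum_filter, Fintype.sum_sum_type]
  have hinl : ∀ ℓ : L, nH h P0 (Sum.inl ℓ) = (P0.filter (On h ℓ)).card := by
    intro ℓ
    unfold nH
    congr 1
  have hinr : ∀ i : P, nH h P0 (Sum.inr i) = (P0.filter fun y => y.1 = i).card := by
    intro i
    unfold nH
    congr 1
  congr 1
  · unfold linesThrough
    rw [Finset.sum_filter]
    apply Finset.sum_congr rfl
    intro ℓ _
    rw [hinl]
    by_cases hon : On h ℓ x
    · have : OnH h (Sum.inl ℓ) x := hon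
      simp [this, hon]
    · have : ¬ OnH h (Sum.inl ℓ) x := hon
      simp [this, hon]
  · rw [Finset.sum_eq_single x.1]
    · have : OnH h (Sum.inr x.1) x := rfl
      simp only [this, true_and, hinr]
    · intro i _ hi
      have : ¬ OnH h (Sum.inr i) x := fun he => hi (Eq.symm he)
      simp [this]
    · intro hn
      exact absurd (Finset.mem_univ _) hn

/-- Size of a container. -/
theorem card_Cont_le (hO : OA q h) (P0 : Finset (P × V)) (θ τ : ℕ) (hθ : 2 ≤ θ) (hτ : 1 ≤ τ)
    (hmean : 4 * P0.card ^ 2 ≤ (θ - 1) * q * τ) :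
    ((Cont h θ τ P0).card : ℝ) ≤
      32 * q * (P0.card : ℝ) ^ 2 / (τ : ℝ) ^ 2 + 2 * (P0.card : ℝ) * q / τ := by
  classical
  obtain ⟨θ', rfl⟩ : ∃ θ', θ = θ' + 1 := ⟨θ - 1, by omega⟩
  simp only [Nat.add_sub_cancel] at hmean
  have hθ'1 : 1 ≤ θ' := by omega
  have hθ'pos : (0 : ℝ) < θ' := by exact_mod_cast hθ'1
  have hτpos : (0 : ℝ) < τ := by exact_mod_cast hτ
  have hqpos : (0 : ℝ) < q := by exact_mod_cast hO.q_pos
  set m : L → ℕ := fun ℓ => (P0.filter (On h ℓ)).card with hm
  set w : L → ℝ := fun ℓ => if θ' + 1 ≤ m ℓ then (m ℓ : ℝ) else 0 with hw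
  have hpairs : (∑ ℓ : L, ((m ℓ : ℝ) * ((m ℓ : ℝ) - 1))) ≤ (P0.card : ℝ) ^ 2 := by
    have h1 := sum_pairs_le hO P0
    have h2 : ((∑ ℓ : L, m ℓ * (m ℓ - 1) : ℕ) : ℝ) ≤ ((P0.card ^ 2 : ℕ) : ℝ) := by
      exact_mod_cast h1
    have h3 : ((∑ ℓ : L, m ℓ * (m ℓ - 1) : ℕ) : ℝ) =
        ∑ ℓ : L, ((m ℓ : ℝ) * ((m ℓ : ℝ) - 1)) := by
      push_cast
      apply Finset.sum_congr rfl
      intro ℓ _
      by_cases h0 : m ℓ = 0
      · simp [h0]
      · rw [Nat.cast_sub (by omega)]
        simp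
    rw [← h3]
    push_cast at h2 ⊢
    exact h2
  have hmnn : ∀ ℓ, 0 ≤ (m ℓ : ℝ) * ((m ℓ : ℝ) - 1) := by
    intro ℓ
    by_cases h0 : m ℓ = 0
    · simp [h0]
    · have : (1 : ℝ) ≤ m ℓ := by exact_mod_cast Nat.one_le_iff_ne_zero.mpr h0
      apply mul_nonneg <;> linarith
  have hsumw : (θ' : ℝ) * ∑ ℓ, w ℓ ≤ (P0.card : ℝ) ^ 2 := by
    refine le_trans ?_ hpairs
    rw [Finset.mul_sum]
    apply Finset.sum_le_sum
    intro ℓ _
    by_cases hc : θ' + 1 ≤ m ℓ
    · simp only [hw, hc, if_true]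
      have : (θ' : ℝ) + 1 ≤ m ℓ := by exact_mod_cast hc
      have h0 : (0 : ℝ) ≤ m ℓ := by positivity
      nlinarith
    · simp only [hw, hc, if_false, mul_zero]
      exact hmnn ℓ
  have hsumw2 : ∑ ℓ, (w ℓ) ^ 2 ≤ 2 * (P0.card : ℝ) ^ 2 := by
    have : ∑ ℓ, (w ℓ) ^ 2 ≤ ∑ ℓ : L, 2 * ((m ℓ : ℝ) * ((m ℓ : ℝ) - 1)) := by
      apply Finset.sum_le_sum
      intro ℓ _
      by_cases hc : θ' + 1 ≤ m ℓ
      · simp only [hw, hc, if_true]
        have h2 : (2 : ℝ) ≤ m ℓ := by
          have : 2 ≤ m ℓ := by omega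
          exact_mod_cast this
        nlinarith
      · simp only [hw, hc, if_false]
        have := hmnn ℓ
        simp only [ne_eq, OfNat.ofNat_ne_zero, not_false_eq_true, zero_pow]
        linarith
    rw [← Finset.mul_sum] at this
    linarith
  -- the first set
  set A := univ.filter fun x : P × V => (τ : ℝ) / 2 ≤ ∑ ℓ ∈ linesThrough h x, w ℓ with hA
  set I := univ.filter fun i : P => (τ : ℝ) / 2 ≤ ((P0.filter fun y => y.1 = i).card : ℝ) with hI
  have hAcard : (A.card : ℝ) ≤ 32 * q * (P0.card : ℝ) ^ 2 / (τ : ℝ) ^ 2 := by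
    have hmean2 : (∑ ℓ, w ℓ) / q ≤ ((τ : ℝ) / 2) / 2 := by
      have h1 : ((4 : ℝ) * (P0.card : ℝ) ^ 2) ≤ θ' * q * τ := by exact_mod_cast hmean
      have h2 : 4 * ∑ ℓ, w ℓ ≤ q * τ := by
        have h3 : (θ' : ℝ) * (4 * ∑ ℓ, w ℓ) ≤ θ' * (q * τ) := by nlinarith
        exact le_of_mul_le_mul_left h3 hθ'pos
      rw [div_le_iff₀ hqpos]
      nlinarith
    have h1 := card_heavy_le hO w ((τ : ℝ) / 2) (by positivity) hmean2
    refine h1.trans ?_
    have : 4 * (q : ℝ) * (∑ ℓ, (w ℓ) ^ 2) / ((τ : ℝ) / 2) ^ 2 =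
        16 * q * (∑ ℓ, (w ℓ) ^ 2) / (τ : ℝ) ^ 2 := by
      field_simp
      ring
    rw [this]
    apply div_le_div_of_nonneg_right _ (by positivity)
    nlinarith
  have hIcard : (I.card : ℝ) * ((τ : ℝ) / 2) ≤ P0.card := by
    have h1 : ∑ i ∈ I, ((τ : ℝ) / 2) ≤ ∑ i ∈ I, ((P0.filter fun y => y.1 = i).card : ℝ) := by
      apply Finset.sum_le_sum
      intro i hi
      exact (Finset.mem_filter.mp hi).2
    rw [Finset.sum_const, nsmul_eq_mul] at h1
    refine h1.trans ?_
    have h2 : ∑ i ∈ I, (P0.filter fun y => y.1 = i).card ≤ P0.card := by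
      have h3 : ∑ i ∈ I, (P0.filter fun y => y.1 = i).card = (P0.filter fun y => y.1 ∈ I).card := by
        rw [Finset.card_eq_sum_card_fiberwise (f := fun y : P × V => y.1) (t := I)]
        · apply Finset.sum_congr rfl
          intro i hi
          congr 1
          ext y
          simp only [Finset.mem_filter]
          constructor
          · rintro ⟨hy, rfl⟩
            exact ⟨⟨hy, hi⟩, rfl⟩
          · rintro ⟨⟨hy, -⟩, rfl⟩
            exact ⟨hy, rfl⟩
        · intro y hy
          exact (Finset.mem_filter.mp hy).2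
      rw [h3]
      exact Finset.card_filter_le _ _
    exact_mod_cast h2
  have hIreal : (I.card : ℝ) ≤ 2 * (P0.card : ℝ) / τ := by
    rw [le_div_iff₀ hτpos]
    nlinarith
  -- covering
  have hcov : Cont h (θ' + 1) τ P0 ⊆ A ∪ (I ×ˢ (univ : Finset V)) := by
    intro x hx
    have hx' : τ ≤ Wt h P0 (θ' + 1) x := (Finset.mem_filter.mp hx).2
    rw [Wt_eq] at hx'
    have hcast : ((∑ ℓ ∈ linesThrough h x, if θ' + 1 ≤ (P0.filter (On h ℓ)).card then
        (P0.filter (On h ℓ)).card else 0 : ℕ) : ℝ) = ∑ ℓ ∈ linesThrough h x, w ℓ := by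
      push_cast
      apply Finset.sum_congr rfl
      intro ℓ _
      simp only [hw, hm]
    by_contra hno
    rw [Finset.mem_union, not_or] at hno
    have h1 : ∑ ℓ ∈ linesThrough h x, w ℓ < (τ : ℝ) / 2 := by
      by_contra hc
      apply hno.1
      simp only [hA, Finset.mem_filter, Finset.mem_univ, true_and]
      linarith
    have h2 : ((P0.filter fun y => y.1 = x.1).card : ℝ) < (τ : ℝ) / 2 := by
      by_contra hc
      apply hno.2
      simp only [hI, Finset.mem_product, Finset.mem_filter, Finset.mem_univ, true_and, and_true]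
      linarith
    have h3 : ((if θ' + 1 ≤ (P0.filter fun y => y.1 = x.1).card then
        (P0.filter fun y => y.1 = x.1).card else 0 : ℕ) : ℝ) ≤
        ((P0.filter fun y => y.1 = x.1).card : ℝ) := by
      split_ifs <;> simp
    have h4 : (τ : ℝ) ≤ ((∑ ℓ ∈ linesThrough h x, if θ' + 1 ≤ (P0.filter (On h ℓ)).card then
        (P0.filter (On h ℓ)).card else 0 : ℕ) : ℝ) +
        ((if θ' + 1 ≤ (P0.filter fun y => y.1 = x.1).card then
        (P0.filter fun y => y.1 = x.1).card else 0 : ℕ) : ℝ) := by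
      exact_mod_cast hx'
    rw [hcast] at h4
    linarith
  have hcard : ((Cont h (θ' + 1) τ P0).card : ℝ) ≤ A.card + (I.card : ℝ) * q := by
    have h1 := (Finset.card_le_card hcov).trans (Finset.card_union_le _ _)
    rw [Finset.card_product, Finset.card_univ, hO.cardV] at h1
    exact_mod_cast h1
  have hlast : (I.card : ℝ) * q ≤ 2 * (P0.card : ℝ) * q / τ := by
    have := mul_le_mul_of_nonneg_right hIreal hqpos.le
    have e : 2 * (P0.card : ℝ) / τ * q = 2 * (P0.card : ℝ) * q / τ := by ring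
    rwa [e] at this
  linarith

/-- Number of subsets of size at most `m`. -/
lemma card_filter_card_le (Pt : Type*) [Fintype Pt] [DecidableEq Pt] (m : ℕ) :
    (univ.filter fun F : Finset Pt => F.card ≤ m).card ≤ (Fintype.card Pt + 1) ^ m := by
  classical
  induction m with
  | zero =>
    have : (univ.filter fun F : Finset Pt => F.card ≤ 0) = {∅} := by
      ext F
      simp
    rw [this]
    simp
  | succ m ih =>
    have hsub : (univ.filter fun F : Finset Pt => F.card ≤ m + 1) ⊆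
        ((univ.filter fun F : Finset Pt => F.card ≤ m) ×ˢ (univ : Finset (Option Pt))).image
          (fun p => p.2.elim p.1 (fun x => insert x p.1)) := by
      intro G hG
      have hG' : G.card ≤ m + 1 := (Finset.mem_filter.mp hG).2
      rw [Finset.mem_image]
      by_cases hc : G.card ≤ m
      · exact ⟨(G, none), by simp [hc], rfl⟩
      · have hpos : G.card = m + 1 := by omega
        have hne : G.Nonempty := by
          rw [← Finset.card_pos]
          omega
        obtain ⟨x, hx⟩ := hne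
        refine ⟨(G.erase x, some x), ?_, by simp [Finset.insert_erase hx]⟩
        simp only [Finset.mem_product, Finset.mem_filter, Finset.mem_univ, true_and, and_true]
        rw [Finset.card_erase_of_mem hx]
        omega
    calc (univ.filter fun F : Finset Pt => F.card ≤ m + 1).card
        ≤ _ := Finset.card_le_card hsub
      _ ≤ _ := Finset.card_image_le
      _ = (univ.filter fun F : Finset Pt => F.card ≤ m).card * (Fintype.card Pt + 1) := by
          rw [Finset.card_product, Finset.card_univ, Fintype.card_option]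
      _ ≤ (Fintype.card Pt + 1) ^ m * (Fintype.card Pt + 1) := Nat.mul_le_mul_right _ ih
      _ = (Fintype.card Pt + 1) ^ (m + 1) := by ring

/-- Size of the list. -/
theorem card_ListS_le (hO : OA q h) (θ τ m₁ n₀ C : ℕ)
    (hC : ∀ P0 : Finset (P × V), P0.card ≤ m₁ → (Cont h θ τ P0).card ≤ C) :
    (ListS h q θ τ m₁ n₀).card ≤ (((q + 1) * q + 1) ^ m₁) * (((q + 1) * q + 1) ^ n₀) * 2 ^ C := by
  classical
  set A₁ := univ.filter fun F : Finset (P × V) => F.card ≤ m₁ with hA₁
  set A₂ := univ.filter fun F : Finset (P × V) => F.card ≤ n₀ with hA₂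
  have hA₁c : A₁.card ≤ ((q + 1) * q + 1) ^ m₁ := by
    have := card_filter_card_le (P × V) m₁
    rwa [hO.card_pt] at this
  have hA₂c : A₂.card ≤ ((q + 1) * q + 1) ^ n₀ := by
    have := card_filter_card_le (P × V) n₀
    rwa [hO.card_pt] at this
  have hsub : ListS h q θ τ m₁ n₀ ⊆ A₁.biUnion fun P0 => A₂.biUnion fun R =>
      ((Cont h θ τ P0).powerset).image fun I => R ∪ I := by
    intro S hS
    obtain ⟨P0, hP0, hR⟩ := (Finset.mem_filter.mp hS).2.2.2
    simp only [Finset.mem_biUnion, Finset.mem_image, Finset.mem_powerset]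
    refine ⟨P0, by simp [hA₁, hP0], S \ Cont h θ τ P0, by simp [hA₂, hR],
      S ∩ Cont h θ τ P0, Finset.inter_subset_right, ?_⟩
    exact Finset.sdiff_union_inter _ _
  calc (ListS h q θ τ m₁ n₀).card
      ≤ _ := Finset.card_le_card hsub
    _ ≤ A₁.card * (A₂.card * 2 ^ C) := by
        apply Finset.card_biUnion_le_card_mul
        intro P0 hP0
        apply Finset.card_biUnion_le_card_mul
        intro R _
        refine Finset.card_image_le.trans ?_
        rw [Finset.card_powerset]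
        exact Nat.pow_le_pow_right (by norm_num) (hC P0 (Finset.mem_filter.mp hP0).2)
    _ ≤ ((q + 1) * q + 1) ^ m₁ * (((q + 1) * q + 1) ^ n₀ * 2 ^ C) := by
        apply Nat.mul_le_mul hA₁c
        exact Nat.mul_le_mul_right _ hA₂c
    _ = _ := by ring

end Crest.Agent.Ryser
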