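import Crest.Agent.Lib.Ryser.OA

/-!
# Definitions for the stability lemma (row 34)
-/

open Finset BigOperators

namespace Crest.Agent.Ryser

variable {P V L : Type*} [Fintype P] [DecidableEq P] [Fintype V] [DecidableEq V]
  [Fintype L] [DecidableEq L]

/-- `ℓ` contains no point of `Z`. -/
def misses (h : L → P → V) (ℓ : L) (Z : Finset (P × V)) : Prop := ∀ x ∈ Z, ¬ On h ℓ x

instance (h : L → P → V) (ℓ : L) (Z : Finset (P × V)) : Decidable (misses h ℓ Z) := by
  unfold misses; infer_instance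

/-- `S` meets every line missing `Z`. -/
def Blocks (h : L → P → V) (S Z : Finset (P × V)) : Prop :=
  ∀ ℓ, misses h ℓ Z → ∃ x ∈ S, On h ℓ x

/-- Number of lines through `u` with no point of `Z` other than possibly `u`. -/
def rho (h : L → P → V) (Z : Finset (P × V)) (u : P × V) : ℕ :=
  ((linesThrough h u).filter fun ℓ => ∀ x ∈ Z, x ≠ u → ¬ On h ℓ x).card

/-- Ordinary lines missing `S`. -/
def skew (h : L → P → V) (S : Finset (P × V)) : Finset L := univ.filter fun ℓ => misses h ℓ S

/-- Hat lines (ordinary lines and parts) missing `S`. -/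
def skewH (h : L → P → V) (S : Finset (P × V)) : Finset (L ⊕ P) :=
  univ.filter fun ℓ => ∀ x ∈ S, ¬ OnH h ℓ x

/-- Number of hat lines through `x` missing `S`. -/
def dSkew (h : L → P → V) (S : Finset (P × V)) (x : P × V) : ℕ :=
  ((skewH h S).filter fun ℓ => OnH h ℓ x).card

/-- Number of points of `S` on a hat line. -/
def nH (h : L → P → V) (S : Finset (P × V)) (ℓ : L ⊕ P) : ℕ := (S.filter (OnH h ℓ)).card

/-- The conclusion of the stability lemma for the ball set `Z`. -/
def SLconcl (h : L → P → V) (q : ℕ) (Z : Finset (P × V)) : Prop :=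
  ∀ S : Finset (P × V), S.card = q → Blocks h S Z →
    ∃ ℓ : L ⊕ P, ∀ x, OnH h ℓ x → x ∉ Z → x ∈ S

/-- Gap property of the plane: the Szőnyi–Weiner type lemma.  For a `q`-set `S` and `x ∉ S` on `d ≥ 1`
skew hat lines, `(d-1)^2 - q (d-1) + s_all - 1 ≥ 0`. -/
def GapProp (h : L → P → V) (q : ℕ) : Prop :=
  ∀ (S : Finset (P × V)) (x : P × V), S.card = q → x ∉ S → 1 ≤ dSkew h S x →
    q * (dSkew h S x - 1) + 1 ≤ (dSkew h S x - 1) ^ 2 + (skewH h S).card

/-! ### Balls -/

section Balls

variable {B : Type*} [Fintype B] [DecidableEq B]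

/-- The set of ball positions. -/
def Zof (bp : B → P) (π : B → V) : Finset (P × V) := univ.image fun b => (bp b, π b)

end Balls

/-! ### Event (P2): sets of `K` points span many lines missing `Z` -/

/-- Lines containing at least two points of `S'`. -/
def spanned (h : L → P → V) (S' : Finset (P × V)) : Finset L :=
  univ.filter fun ℓ => 2 ≤ (S'.filter (On h ℓ)).card

/-- Points off `S'` on at least three spanned lines. -/
def tripPts (h : L → P → V) (S' : Finset (P × V)) : Finset (P × V) :=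
  univ.filter fun y => y ∉ S' ∧ 3 ≤ ((spanned h S').filter fun ℓ => On h ℓ y).card

/-- Spanned lines with no triple point. -/
def goodSpanned (h : L → P → V) (S' : Finset (P × V)) : Finset L :=
  (spanned h S').filter fun ℓ => ∀ y ∈ tripPts h S', ¬ On h ℓ y

/-- Event (P2). -/
def P2good (h : L → P → V) (K : ℕ) (Z : Finset (P × V)) : Prop :=
  ∀ S' : Finset (P × V), S'.card = K → Disjoint S' Z → 2 * K ^ 2 ≤ 5 * (goodSpanned h S').card →
    (goodSpanned h S').card ≤ 20 * ((goodSpanned h S').filter fun ℓ => misses h ℓ Z).card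

/-! ### Rich lines, containers -/

/-- `Wt h S L₀ x` : total number of points of `S` on `L₀`-rich hat lines through `x`
(with multiplicity of lines). -/
def Wt (h : L → P → V) (S : Finset (P × V)) (L₀ : ℕ) (x : P × V) : ℕ :=
  ∑ ℓ ∈ univ.filter (fun ℓ : L ⊕ P => OnH h ℓ x ∧ L₀ ≤ nH h S ℓ), nH h S ℓ

/-- Container of a sample `P0`. -/
def Cont (h : L → P → V) (θ τ : ℕ) (P0 : Finset (P × V)) : Finset (P × V) :=
  univ.filter fun x => τ ≤ Wt h P0 θ x

/-- The list of candidate sets: `q`-sets with at least `q^{3/2}/2` skew hat lines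
which are within `n₀` of the container of a sample of size `≤ m₁`. -/
def ListS (h : L → P → V) (q θ τ m₁ n₀ : ℕ) : Finset (Finset (P × V)) :=
  univ.filter fun S => S.card = q ∧ q ^ 3 ≤ 4 * (skewH h S).card ^ 2 ∧
    ∃ P0 : Finset (P × V), P0.card ≤ m₁ ∧ (S \ Cont h θ τ P0).card ≤ n₀

/-! ### Heavy points; the bad events of a candidate set -/

/-- Points on at least `q/2` skew hat lines of `S`. -/
def Heavy (h : L → P → V) (q : ℕ) (S : Finset (P × V)) : Finset (P × V) :=
  univ.filter fun x => q ≤ 2 * dSkew h S x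

/-- Skew ordinary lines through no heavy point. -/
def LamS (h : L → P → V) (q : ℕ) (S : Finset (P × V)) : Finset L :=
  (skew h S).filter fun ℓ => ∀ x ∈ Heavy h q S, ¬ On h ℓ x

/-- `Z` hits all lines of `A`. -/
def HitAll (h : L → P → V) (A : Finset L) (Z : Finset (P × V)) : Prop := ∀ ℓ ∈ A, ¬ misses h ℓ Z

/-- The bad event of a candidate set `S`, an event on `Z`. `h₁` is the threshold for many heavy points. -/
def BadS (h : L → P → V) (q h₁ : ℕ) (S Z : Finset (P × V)) : Prop :=
  (q ^ 2 ≤ 10 * (skewH h S).card ∧ HitAll h (skew h S) Z) ∨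
  ((10 * (skewH h S).card < q ^ 2) ∧ (skew h S).card ≤ 3 * (LamS h q S).card ∧ HitAll h (LamS h q S) Z) ∨
  ((10 * (skewH h S).card < q ^ 2) ∧ 3 * (LamS h q S).card < (skew h S).card ∧ h₁ ≤ (Heavy h q S).card ∧
    Heavy h q S ⊆ Z)

/-- Event: no candidate set is bad. -/
def ListGood (h : L → P → V) (q θ τ m₁ n₀ h₁ : ℕ) (Z : Finset (P × V)) : Prop :=
  ∀ S ∈ ListS h q θ τ m₁ n₀, ¬ BadS h q h₁ S Z

/-! ### Event (R): few balls in the second container -/

/-- `m ℓ` points of `P0` on the line; pair count of lines with `2 ≤ m ≤ M` through `x`. -/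
def pairCnt (h : L → P → V) (M : ℕ) (P0 : Finset (P × V)) (x : P × V) : ℕ :=
  ∑ ℓ ∈ (linesThrough h x).filter (fun ℓ => 2 ≤ (P0.filter (On h ℓ)).card ∧ (P0.filter (On h ℓ)).card ≤ M),
    ((P0.filter (On h ℓ)).card).choose 2

/-- Sample points on lines through `x` with at least two sample points. -/
def bigCnt (h : L → P → V) (P0 : Finset (P × V)) (x : P × V) : ℕ :=
  ∑ ℓ ∈ (linesThrough h x).filter (fun ℓ => 2 ≤ (P0.filter (On h ℓ)).card), (P0.filter (On h ℓ)).card

/-- The second container: from a sample `P0` of target size `m₀`. -/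
def Cont2 (h : L → P → V) (M τ m₀ : ℕ) (P0 : Finset (P × V)) : Finset (P × V) :=
  univ.filter fun x => τ ≤ pairCnt h M P0 x ∨ m₀ ≤ 8 * bigCnt h P0 x ∨
    m₀ ≤ 6 * (P0.filter fun y => y.1 = x.1).card

/-- Event (R) at level `(M, τ, m₀, n)`: every sample of size `≤ 2 m₀` has few balls in its container:
`2 * |Z ∩ Cont2| < n`. -/
def Rgood (h : L → P → V) (M τ m₀ n : ℕ) (Z : Finset (P × V)) : Prop :=
  ∀ P0 : Finset (P × V), P0.card ≤ 2 * m₀ → 2 * (Z ∩ Cont2 h M τ m₀ P0).card < n

end Crest.Agent.Ryser
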