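import Crest.Agent.Lib.Ryser.Plane

/-!
# Deterministic design data for the Ryser counterexample (rows S0045/S0046)

`Design F ι` records all deterministic outputs of the random construction
(Part A of finding 635): balls `Zall`, chosen actives `Act`, class points `Cls`,
groups `ι × Fin 4 → parts`, gadget lines, conditions D1--D5', E1, E2 and the stability lemma SL.
-/

set_option autoImplicit false

namespace Crest.Agent.Lib.Ryser

open Finset

variable {F : Type} [Field F] [Fintype F] [DecidableEq F]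

/-- Deterministic data and all properties needed to build the hypergraph. -/
structure Design (F : Type) [Field F] [Fintype F] [DecidableEq F]
    (ι : Type) [Fintype ι] [DecidableEq ι] where
  /-- the four special parts of a group, in cyclic order -/
  cl : ι → Fin 4 → Option F
  /-- class points -/
  Cls : Finset (Pt F)
  /-- chosen active points -/
  Act : Finset (Pt F)
  /-- all balls -/
  Zall : Finset (Pt F)
  /-- the group of a chosen active point -/
  grp : Pt F → ι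
  /-- gadget lines: `gad z j` hits the classes `cl (grp z) j` and `cl (grp z) (j+1)` -/
  gad : Pt F → Fin 4 → Finset (Ln F)
  /-- bound on balls per line and per part -/
  R : ℕ
  /-- lower bound on clean lines through a point -/
  rho : ℕ
  cl_inj : ∀ g j g' j', cl g j = cl g' j' → g = g' ∧ j = j'
  cls_sub : Cls ⊆ Zall
  act_sub : Act ⊆ Zall
  act_cls : Disjoint Act Cls
  cls_special : ∀ x ∈ Cls, ∃ g j, x.1 = cl g j
  /-- a normal part carries exactly one chosen active -/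
  act_normal : ∀ i, (∀ g j, i ≠ cl g j) → (Act.filter (fun z => z.1 = i)).card = 1
  /-- a special part carries as many chosen actives as class points -/
  act_special : ∀ g j, (Act.filter (fun z => z.1 = cl g j)).card =
    (Cls.filter (fun z => z.1 = cl g j)).card
  /-- a special part has a class point -/
  cls_nonempty : ∀ g j, (Cls.filter (fun z => z.1 = cl g j)).Nonempty
  /-- D1: gadget lines -/
  gad_through : ∀ z ∈ Act, ∀ j, ∀ l ∈ gad z j, OnLn z l
  gad_card : ∀ z ∈ Act, ∀ j, (gad z j).card = 3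
  gad_cls : ∀ z ∈ Act, ∀ j, ∀ l ∈ gad z j,
    ptOn l (cl (grp z) j) ∈ Cls ∧ ptOn l (cl (grp z) (j + 1)) ∈ Cls
  gad_clean : ∀ z ∈ Act, ∀ j, ∀ l ∈ gad z j, ∀ x ∈ Zall, OnLn x l →
    x = z ∨ x.1 = cl (grp z) j ∨ x.1 = cl (grp z) (j + 1)
  /-- D2 -/
  grp_part : ∀ z ∈ Act, ∀ y ∈ Act, z ≠ y → z.1 = y.1 → grp z ≠ grp y
  /-- D3 -/
  grp_line : ∀ (l : Ln F) (g : ι), (Act.filter (fun z => OnLn z l ∧ grp z = g)).card ≤ 2
  /-- D4 -/
  nongad_hits : ∀ z ∈ Act, ∀ l, OnLn z l → (∀ j, l ∉ gad z j) →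
    (univ.filter (fun k : Fin 4 => ptOn l (cl (grp z) k) ∈ Cls)).card ≤ 1
  free_alone : ∀ z ∈ Act, ∀ l, OnLn z l → (∀ j, l ∉ gad z j) →
    (∃ k, ptOn l (cl (grp z) k) ∈ Cls) → ∀ y ∈ Act, OnLn y l → y ≠ z → grp y ≠ grp z
  /-- D4' -/
  free_count : ∀ l, (Act.filter (fun z => OnLn z l ∧ ∃ k, ptOn l (cl (grp z) k) ∈ Cls)).card ≤ 4
  /-- D5 -/
  pt_line_count : ∀ (p : Pt F) (l : Ln F), ¬ OnLn p l →
    (Act.filter (fun z => OnLn z l ∧ ∃ j, ∃ l' ∈ gad z j, OnLn p l')).card ≤ 8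
  /-- D5' -/
  pt_part_count : ∀ (p : Pt F) (i : Option F), p.1 ≠ i →
    (Act.filter (fun z => z.1 = i ∧ ∃ j, ∃ l' ∈ gad z j, OnLn p l')).card ≤ 6
  /-- E2 -/
  ball_line : ∀ l, (Zall.filter (fun x => OnLn x l)).card ≤ R
  ball_part : ∀ i, (Zall.filter (fun x => x.1 = i)).card ≤ R
  /-- E1 -/
  rho_lb : ∀ u : Pt F, rho ≤ ((linesThrough u).filter (fun l => ∀ x ∈ Zall, OnLn x l → x = u)).card
  R_lt : R + 2 ≤ rho
  /-- SL: the stability lemma -/
  stability : ∀ S : Finset (Pt F), S.card ≤ Fintype.card F →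
    (∀ l : Ln F, (∀ x ∈ Zall, ¬ OnLn x l) → ∃ x ∈ S, OnLn x l) →
    (∃ l : Ln F, ∀ x, OnLn x l → x ∉ Zall → x ∈ S) ∨
    (∃ i : Option F, ∀ y, (i, y) ∉ Zall → (i, y) ∈ S)

/-- Vertices of the hypergraph. -/
inductive Vx (F : Type)
  | ord (x : Pt F)
  | mrg (i : Option F)
  | sg (z : Pt F) (e : Bool)
  deriving DecidableEq

/-- The part of a vertex. -/
def Vx.part : Vx F → Option F
  | .ord x => x.1
  | .mrg i => i
  | .sg z _ => z.1

/-- Parity of a gadget type. -/
def par (j : Fin 4) : Bool := decide (j = 0 ∨ j = 2)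

lemma par_ne (j j' : Fin 4) (h : par j ≠ par j') : j' = j + 1 ∨ j = j' + 1 := by
  revert j j'; decide

lemma fin4_step (j j' : Fin 4) (h5 : j' = j ∨ j' = j + 1) (h6 : j' + 1 = j ∨ j' + 1 = j + 1) :
    j = j' := by
  revert j j'; decide

namespace Design

variable {ι : Type} [Fintype ι] [DecidableEq ι] (D : Design F ι)

/-- The sign of a line at a chosen active. -/
def sign (z : Pt F) (l : Ln F) : Bool := decide (l ∈ D.gad z 0 ∨ l ∈ D.gad z 2)

/-- Label of a line on a part. -/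
def lab (l : Ln F) (i : Option F) : Vx F :=
  if ptOn l i ∈ D.Act then .sg (ptOn l i) (D.sign (ptOn l i) l)
  else if ptOn l i ∈ D.Cls then .mrg i else .ord (ptOn l i)

/-- Edge-lines of the hypergraph. -/
def good (l : Ln F) : Prop := (∀ z ∈ D.Act, ¬ OnLn z l) ∨ ∃ z ∈ D.Act, ∃ j, l ∈ D.gad z j

instance (l : Ln F) : Decidable (D.good l) := by unfold good; infer_instance

/-- The edge of a line. -/
def edge (l : Ln F) : Finset (Vx F) := univ.image (D.lab l)

/-- All edges. -/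
def edges : Finset (Finset (Vx F)) := (univ.filter D.good).image D.edge

@[simp] lemma lab_part (l : Ln F) (i : Option F) : (D.lab l i).part = i := by
  unfold lab
  split_ifs <;> simp [Vx.part, ptOn]

lemma mem_edge {l : Ln F} {v : Vx F} : v ∈ D.edge l ↔ ∃ i, D.lab l i = v := by
  simp [edge]

lemma lab_mem_edge (l : Ln F) (i : Option F) : D.lab l i ∈ D.edge l := D.mem_edge.2 ⟨i, rfl⟩

lemma edge_filter_part (l : Ln F) (i : Option F) :
    (D.edge l).filter (fun v => v.part = i) = {D.lab l i} := by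
  ext v
  simp only [mem_filter, mem_edge, mem_singleton]
  constructor
  · rintro ⟨⟨i', rfl⟩, h⟩
    simp only [lab_part] at h
    rw [h]
  · rintro rfl
    exact ⟨⟨i, rfl⟩, by simp⟩

lemma edge_filter_card (l : Ln F) (i : Option F) :
    ((D.edge l).filter (fun v => v.part = i)).card = 1 := by
  rw [edge_filter_part, card_singleton]

lemma lab_of_not_act {l : Ln F} {i : Option F} (h : ptOn l i ∉ D.Act) :
    D.lab l i = if ptOn l i ∈ D.Cls then .mrg i else .ord (ptOn l i) := by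
  simp [lab, h]

lemma act_not_cls {z : Pt F} (hz : z ∈ D.Act) : z ∉ D.Cls := Finset.disjoint_left.1 D.act_cls hz

lemma cls_not_act {z : Pt F} (hz : z ∈ D.Cls) : z ∉ D.Act := Finset.disjoint_right.1 D.act_cls hz

/-- Only `z` is a chosen active on a gadget line at `z`. -/
lemma act_on_gad {z y : Pt F} (hz : z ∈ D.Act) {j : Fin 4} {l : Ln F} (hl : l ∈ D.gad z j)
    (hy : y ∈ D.Act) (hyl : OnLn y l) : y = z := by
  rcases D.gad_clean z hz j l hl y (D.act_sub hy) hyl with h | h | h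
  · exact h
  · exfalso
    have h1 := (D.gad_cls z hz j l hl).1
    have h2 : y = ptOn l (D.cl (D.grp z) j) := by
      rw [← h]; exact eq_ptOn_of_onLn hyl
    exact D.act_not_cls hy (h2 ▸ h1)
  · exfalso
    have h1 := (D.gad_cls z hz j l hl).2
    have h2 : y = ptOn l (D.cl (D.grp z) (j + 1)) := by
      rw [← h]; exact eq_ptOn_of_onLn hyl
    exact D.act_not_cls hy (h2 ▸ h1)

/-- A class point on a gadget line of type `j` lies on a class part of that type. -/
lemma cls_on_gad {z y : Pt F} (hz : z ∈ D.Act) {j : Fin 4} {l : Ln F} (hl : l ∈ D.gad z j)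
    (hy : y ∈ D.Cls) (hyl : OnLn y l) :
    y.1 = D.cl (D.grp z) j ∨ y.1 = D.cl (D.grp z) (j + 1) := by
  rcases D.gad_clean z hz j l hl y (D.cls_sub hy) hyl with h | h | h
  · exact absurd hz (h ▸ D.cls_not_act hy)
  · exact Or.inl h
  · exact Or.inr h

/-- A gadget line has a unique type. -/
lemma gad_type_unique {z : Pt F} (hz : z ∈ D.Act) {j j' : Fin 4} {l : Ln F}
    (hl : l ∈ D.gad z j) (hl' : l ∈ D.gad z j') : j = j' := by
  obtain ⟨h1, h2⟩ := D.gad_cls z hz j' l hl'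
  have h3 := D.cls_on_gad hz hl h1 (onLn_ptOn _ _)
  have h4 := D.cls_on_gad hz hl h2 (onLn_ptOn _ _)
  simp only [ptOn_fst] at h3 h4
  have h5 : j' = j ∨ j' = j + 1 := by
    rcases h3 with h | h
    · exact Or.inl (D.cl_inj _ _ _ _ h).2
    · exact Or.inr (D.cl_inj _ _ _ _ h).2
  have h6 : j' + 1 = j ∨ j' + 1 = j + 1 := by
    rcases h4 with h | h
    · exact Or.inl (D.cl_inj _ _ _ _ h).2
    · exact Or.inr (D.cl_inj _ _ _ _ h).2
  exact fin4_step j j' h5 h6

lemma sign_gad {z : Pt F} (hz : z ∈ D.Act) {j : Fin 4} {l : Ln F} (hl : l ∈ D.gad z j) :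
    D.sign z l = par j := by
  unfold sign par
  congr 1
  apply propext
  constructor
  · rintro (h | h)
    · exact Or.inl (D.gad_type_unique hz hl h)
    · exact Or.inr (D.gad_type_unique hz hl h)
  · rintro (rfl | rfl)
    · exact Or.inl hl
    · exact Or.inr hl

/-- A good line through a chosen active is a gadget line at it. -/
lemma good_act {l : Ln F} (hl : D.good l) {z : Pt F} (hz : z ∈ D.Act) (hzl : OnLn z l) :
    ∃ j, l ∈ D.gad z j := by
  rcases hl with h | ⟨y, hy, j, hj⟩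
  · exact absurd hzl (h z hz)
  · have := D.act_on_gad hy hj hz hzl
    subst this
    exact ⟨j, hj⟩

lemma good_of_gad {z : Pt F} (hz : z ∈ D.Act) {j : Fin 4} {l : Ln F} (hl : l ∈ D.gad z j) :
    D.good l := Or.inr ⟨z, hz, j, hl⟩

/-- The label at a chosen active. -/
lemma lab_at_act {z : Pt F} (hz : z ∈ D.Act) {j : Fin 4} {l : Ln F} (hl : l ∈ D.gad z j) :
    D.lab l z.1 = .sg z (par j) := by
  have h1 : ptOn l z.1 = z := (eq_ptOn_of_onLn (D.gad_through z hz j l hl)).symm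
  unfold lab
  rw [h1, if_pos hz, D.sign_gad hz hl]

/-- The label at a class point. -/
lemma lab_at_cls {l : Ln F} {i : Option F} (h : ptOn l i ∈ D.Cls) : D.lab l i = .mrg i := by
  rw [D.lab_of_not_act (D.cls_not_act h), if_pos h]

/-- Two edges of good lines intersect. -/
lemma edge_inter {l l' : Ln F} (hl : D.good l) (hl' : D.good l') :
    (D.edge l ∩ D.edge l').Nonempty := by
  obtain ⟨i, hi⟩ := ht_agree_exists l l'
  have hpt : ptOn l i = ptOn l' i := by simp [ptOn, hi]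
  by_cases hact : ptOn l i ∈ D.Act
  · -- both are gadget lines at the chosen active
    obtain ⟨z, hz⟩ : ∃ z, z = ptOn l i := ⟨_, rfl⟩
    rw [← hz] at hact
    have hzl : OnLn z l := by rw [hz]; exact onLn_ptOn l i
    obtain ⟨j, hj⟩ := D.good_act hl hact hzl
    have hzl' : OnLn z l' := by rw [hz, hpt]; exact onLn_ptOn l' i
    obtain ⟨j', hj'⟩ := D.good_act hl' hact hzl'
    by_cases hp : par j = par j'
    · refine ⟨.sg z (par j), mem_inter.2 ⟨?_, ?_⟩⟩
      · rw [← D.lab_at_act hact hj]; exact D.lab_mem_edge _ _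
      · rw [hp, ← D.lab_at_act hact hj']; exact D.lab_mem_edge _ _
    · rcases par_ne j j' hp with h | h
      · subst h
        refine ⟨.mrg (D.cl (D.grp z) (j + 1)), mem_inter.2 ⟨?_, ?_⟩⟩
        · rw [← D.lab_at_cls (D.gad_cls z hact j l hj).2]; exact D.lab_mem_edge _ _
        · rw [← D.lab_at_cls (D.gad_cls z hact _ l' hj').1]; exact D.lab_mem_edge _ _
      · subst h
        refine ⟨.mrg (D.cl (D.grp z) (j' + 1)), mem_inter.2 ⟨?_, ?_⟩⟩
        · rw [← D.lab_at_cls (D.gad_cls z hact _ l hj).1]; exact D.lab_mem_edge _ _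
        · rw [← D.lab_at_cls (D.gad_cls z hact j' l' hj').2]; exact D.lab_mem_edge _ _
  · have hact' : ptOn l' i ∉ D.Act := hpt ▸ hact
    have : D.lab l i = D.lab l' i := by
      rw [D.lab_of_not_act hact, D.lab_of_not_act hact', hpt]
    exact ⟨D.lab l i, mem_inter.2 ⟨D.lab_mem_edge _ _, this ▸ D.lab_mem_edge _ _⟩⟩

/-- The vertex set. -/
def verts : Finset (Vx F) :=
  ((univ.filter (fun x : Pt F => x ∉ D.Act ∧ x ∉ D.Cls)).image Vx.ord) ∪
  ((univ.filter (fun i : Option F => ∃ g j, i = D.cl g j)).image Vx.mrg) ∪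
  ((D.Act ×ˢ (univ : Finset Bool)).image (fun p => Vx.sg p.1 p.2))

lemma mem_verts {v : Vx F} : v ∈ D.verts ↔
    (∃ x, x ∉ D.Act ∧ x ∉ D.Cls ∧ v = .ord x) ∨
    (∃ i, (∃ g j, i = D.cl g j) ∧ v = .mrg i) ∨
    (∃ z e, z ∈ D.Act ∧ v = .sg z e) := by
  simp only [verts, mem_union, mem_image, mem_filter, mem_univ, true_and, mem_product, and_true]
  constructor
  · rintro ((⟨x, ⟨h1, h2⟩, rfl⟩ | ⟨i, h, rfl⟩) | ⟨p, h, rfl⟩)
    · exact Or.inl ⟨x, h1, h2, rfl⟩
    · exact Or.inr (Or.inl ⟨i, h, rfl⟩)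
    · exact Or.inr (Or.inr ⟨p.1, p.2, h, rfl⟩)
  · rintro (⟨x, h1, h2, rfl⟩ | ⟨i, h, rfl⟩ | ⟨z, e, h, rfl⟩)
    · exact Or.inl (Or.inl ⟨x, ⟨h1, h2⟩, rfl⟩)
    · exact Or.inl (Or.inr ⟨i, h, rfl⟩)
    · exact Or.inr ⟨(z, e), h, rfl⟩

lemma lab_mem_verts (l : Ln F) (i : Option F) : D.lab l i ∈ D.verts := by
  rw [mem_verts]
  unfold lab
  split_ifs with h1 h2
  · exact Or.inr (Or.inr ⟨_, _, h1, rfl⟩)
  · obtain ⟨g, j, h⟩ := D.cls_special _ h2
    exact Or.inr (Or.inl ⟨i, ⟨g, j, h⟩, rfl⟩)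
  · exact Or.inl ⟨_, h1, h2, rfl⟩

lemma edge_sub_verts (l : Ln F) : D.edge l ⊆ D.verts := by
  intro v hv
  obtain ⟨i, rfl⟩ := D.mem_edge.1 hv
  exact D.lab_mem_verts l i

/-- A clean line through `u` exists. -/
lemma exists_clean (u : Pt F) : ∃ l, OnLn u l ∧ ∀ x ∈ D.Zall, OnLn x l → x = u := by
  have h := D.rho_lb u
  have h2 : 0 < ((linesThrough u).filter (fun l => ∀ x ∈ D.Zall, OnLn x l → x = u)).card := by
    have := D.R_lt
    omega
  obtain ⟨l, hl⟩ := card_pos.1 h2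
  rw [mem_filter, mem_linesThrough] at hl
  exact ⟨l, hl.1, hl.2⟩

/-- A clean line through a non-active point is good. -/
lemma good_of_clean {u : Pt F} (hu : u ∉ D.Act) {l : Ln F}
    (hl : ∀ x ∈ D.Zall, OnLn x l → x = u) : D.good l := by
  refine Or.inl (fun z hz hzl => ?_)
  have := hl z (D.act_sub hz) hzl
  exact hu (this ▸ hz)

/-- Every vertex lies in an edge. -/
lemma verts_covered {v : Vx F} (hv : v ∈ D.verts) : ∃ l, D.good l ∧ v ∈ D.edge l := by
  rcases D.mem_verts.1 hv with ⟨x, h1, h2, rfl⟩ | ⟨i, ⟨g, j, rfl⟩, rfl⟩ | ⟨z, e, hz, rfl⟩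
  · obtain ⟨l, hl1, hl2⟩ := D.exists_clean x
    refine ⟨l, D.good_of_clean h1 hl2, D.mem_edge.2 ⟨x.1, ?_⟩⟩
    have hpt : ptOn l x.1 = x := (eq_ptOn_of_onLn hl1).symm
    rw [D.lab_of_not_act (by rw [hpt]; exact h1), hpt, if_neg h2]
  · obtain ⟨u, hu⟩ := D.cls_nonempty g j
    rw [mem_filter] at hu
    obtain ⟨l, hl1, hl2⟩ := D.exists_clean u
    refine ⟨l, D.good_of_clean (D.cls_not_act hu.1) hl2, D.mem_edge.2 ⟨u.1, ?_⟩⟩
    have hpt : ptOn l u.1 = u := (eq_ptOn_of_onLn hl1).symm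
    rw [D.lab_at_cls (by rw [hpt]; exact hu.1), hu.2]
  · -- pick a gadget line with the right parity
    obtain ⟨j, hj⟩ : ∃ j : Fin 4, par j = e := by
      cases e
      · exact ⟨1, by decide⟩
      · exact ⟨0, by decide⟩
    have hc := D.gad_card z hz j
    have : 0 < (D.gad z j).card := by omega
    obtain ⟨l, hl⟩ := card_pos.1 this
    refine ⟨l, D.good_of_gad hz hl, D.mem_edge.2 ⟨z.1, ?_⟩⟩
    rw [D.lab_at_act hz hl, hj]

end Design

end Crest.Agent.Lib.Ryser
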