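import Mathlib

/-!
# Finite probability toolkit (row 34, but model independent)

A finite product `Ω = ∀ i, α i` with independent coordinates of weights `W.w i`.
`W.Exp`, `W.Pr`; union bound, Markov; integrating out a coordinate; exponential moment bounds
(adapted / sequential version included); Poisson tail `(e μ / t)^t`; Chernoff upper and lower tails;
McDiarmid's bounded difference inequality.
-/

open Finset Function

namespace Crest.Agent.Lib.Ryser.Prob

set_option linter.unusedSectionVars false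
set_option linter.style.haveILetI false

variable {I : Type*} [Fintype I] [DecidableEq I] {α : I → Type*}
  [∀ i, Fintype (α i)] [∀ i, DecidableEq (α i)]

/-- independent coordinates with given weights -/
structure Wt (α : I → Type*) [∀ i, Fintype (α i)] where
  w : ∀ i, α i → ℝ
  nonneg : ∀ i a, 0 ≤ w i a
  sum_one : ∀ i, ∑ a, w i a = 1

namespace Wt

variable (W : Wt α)

/-- probability of a point -/
noncomputable def pw (ω : ∀ i, α i) : ℝ := ∏ i, W.w i (ω i)

theorem pw_nonneg (ω : ∀ i, α i) : 0 ≤ W.pw ω := Finset.prod_nonneg fun i _ => W.nonneg i _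

theorem sum_pw : ∑ ω, W.pw ω = 1 := by
  have := Finset.prod_univ_sum (fun i => (Finset.univ : Finset (α i))) (fun i a => W.w i a)
  simp only [Fintype.piFinset_univ, W.sum_one, Finset.prod_const_one] at this
  exact this.symm

/-- expectation -/
noncomputable def Exp (f : (∀ i, α i) → ℝ) : ℝ := ∑ ω, W.pw ω * f ω

open scoped Classical in
/-- probability -/
noncomputable def Pr (E : (∀ i, α i) → Prop) : ℝ := W.Exp fun ω => if E ω then 1 else 0

theorem Exp_const (c : ℝ) : W.Exp (fun _ => c) = c := by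
  simp [Exp, ← Finset.sum_mul, W.sum_pw]

theorem Exp_add (f g : (∀ i, α i) → ℝ) : W.Exp (fun ω => f ω + g ω) = W.Exp f + W.Exp g := by
  simp [Exp, mul_add, Finset.sum_add_distrib]

theorem Exp_sub (f g : (∀ i, α i) → ℝ) : W.Exp (fun ω => f ω - g ω) = W.Exp f - W.Exp g := by
  simp [Exp, mul_sub, Finset.sum_sub_distrib]

theorem Exp_const_mul (c : ℝ) (f : (∀ i, α i) → ℝ) : W.Exp (fun ω => c * f ω) = c * W.Exp f := by
  simp only [Exp, Finset.mul_sum]
  exact Finset.sum_congr rfl fun ω _ => by ring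

theorem Exp_sum {κ : Type*} (s : Finset κ) (f : κ → (∀ i, α i) → ℝ) :
    W.Exp (fun ω => ∑ k ∈ s, f k ω) = ∑ k ∈ s, W.Exp (f k) := by
  simp only [Exp, Finset.mul_sum]
  rw [Finset.sum_comm]

theorem Exp_mono {f g : (∀ i, α i) → ℝ} (h : ∀ ω, f ω ≤ g ω) : W.Exp f ≤ W.Exp g :=
  Finset.sum_le_sum fun ω _ => mul_le_mul_of_nonneg_left (h ω) (W.pw_nonneg ω)

theorem Exp_nonneg {f : (∀ i, α i) → ℝ} (h : ∀ ω, 0 ≤ f ω) : 0 ≤ W.Exp f :=
  Finset.sum_nonneg fun ω _ => mul_nonneg (W.pw_nonneg ω) (h ω)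

theorem Pr_nonneg (E : (∀ i, α i) → Prop) : 0 ≤ W.Pr E :=
  W.Exp_nonneg fun ω => by split_ifs <;> norm_num

theorem Pr_le_one (E : (∀ i, α i) → Prop) : W.Pr E ≤ 1 := by
  have := W.Exp_mono (f := fun ω => by classical exact if E ω then (1 : ℝ) else 0)
    (g := fun _ => 1) (fun ω => by split_ifs <;> norm_num)
  rwa [Exp_const] at this

theorem Pr_mono {E F : (∀ i, α i) → Prop} (h : ∀ ω, E ω → F ω) : W.Pr E ≤ W.Pr F := by
  unfold Pr
  refine W.Exp_mono fun ω => ?_
  by_cases hE : E ω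
  · simp [hE, h ω hE]
  · simp only [hE, if_false]; split_ifs <;> norm_num

/-- union bound -/
theorem Pr_exists_le {κ : Type*} (s : Finset κ) (E : κ → (∀ i, α i) → Prop) :
    W.Pr (fun ω => ∃ k ∈ s, E k ω) ≤ ∑ k ∈ s, W.Pr (E k) := by
  classical
  unfold Pr
  rw [← Exp_sum]
  refine W.Exp_mono fun ω => ?_
  split_ifs with h
  · obtain ⟨k, hk, hE⟩ := h
    have h1 : (1 : ℝ) ≤ if E k ω then 1 else 0 := by simp [hE]
    refine h1.trans (Finset.single_le_sum (f := fun k => if E k ω then (1 : ℝ) else 0)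
      (fun x _ => by split_ifs <;> norm_num) hk)
  · exact Finset.sum_nonneg fun x _ => by split_ifs <;> norm_num

/-- if the bad event has probability `< 1`, a good point exists -/
theorem exists_of_Pr_lt_one {E : (∀ i, α i) → Prop} (h : W.Pr E < 1) : ∃ ω, ¬ E ω := by
  by_contra hc
  push Not at hc
  have : W.Pr E = 1 := by
    classical
    unfold Pr
    simp only [hc, if_true]
    exact W.Exp_const 1
  linarith

/-- Markov -/
theorem Pr_le_Exp_div {f : (∀ i, α i) → ℝ} (hf : ∀ ω, 0 ≤ f ω) {a : ℝ} (ha : 0 < a) :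
    W.Pr (fun ω => a ≤ f ω) ≤ W.Exp f / a := by
  rw [le_div_iff₀ ha]
  unfold Pr
  rw [mul_comm, ← Exp_const_mul]
  refine W.Exp_mono fun ω => ?_
  split_ifs with h
  · simpa using h
  · simpa using hf ω

/-- Integrating out a coordinate. -/
noncomputable def Ei (i : I) (f : (∀ i, α i) → ℝ) (ω : ∀ i, α i) : ℝ :=
  ∑ a, W.w i a * f (update ω i a)

theorem pw_update_mul (i : I) (ω : ∀ i, α i) (a : α i) :
    W.pw ω * W.w i a = W.pw (update ω i a) * W.w i (ω i) := by
  unfold pw
  rw [← Finset.mul_prod_erase univ _ (Finset.mem_univ i),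
    ← Finset.mul_prod_erase univ (fun j => W.w j (update ω i a j)) (Finset.mem_univ i)]
  have : ∏ j ∈ univ.erase i, W.w j (update ω i a j) = ∏ j ∈ univ.erase i, W.w j (ω j) :=
    Finset.prod_congr rfl fun j hj => by
      rw [update_of_ne (Finset.ne_of_mem_erase hj)]
  rw [this, update_self]
  ring

/-- Fubini for one coordinate. -/
theorem Exp_Ei (i : I) (f : (∀ i, α i) → ℝ) : W.Exp (W.Ei i f) = W.Exp f := by
  simp only [Exp, Ei, Finset.mul_sum]
  have h1 : ∑ ω, ∑ a, W.pw ω * (W.w i a * f (update ω i a)) =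
      ∑ p : (∀ i, α i) × α i, W.pw p.1 * (W.w i p.2 * f (update p.1 i p.2)) := by
    rw [Fintype.sum_prod_type]
  rw [h1]
  -- the involution
  let e : (∀ i, α i) × α i ≃ (∀ i, α i) × α i :=
    { toFun := fun p => (update p.1 i p.2, p.1 i)
      invFun := fun p => (update p.1 i p.2, p.1 i)
      left_inv := fun p => by simp
      right_inv := fun p => by simp }
  rw [← Equiv.sum_comp e]
  have h2 : ∀ p : (∀ i, α i) × α i,
      W.pw (e p).1 * (W.w i (e p).2 * f (update (e p).1 i (e p).2)) =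
        W.pw p.1 * W.w i p.2 * f p.1 := by
    rintro ⟨ω, a⟩
    simp only [e, Equiv.coe_fn_mk, update_idem, update_eq_self]
    rw [← mul_assoc, ← W.pw_update_mul i ω a]
  rw [Finset.sum_congr rfl fun p _ => h2 p, Fintype.sum_prod_type]
  refine Finset.sum_congr rfl fun ω _ => ?_
  simp only [mul_right_comm (W.pw ω)]
  rw [← Finset.mul_sum, W.sum_one, mul_one]

theorem Ei_nonneg (i : I) {f : (∀ i, α i) → ℝ} (h : ∀ ω, 0 ≤ f ω) (ω : ∀ i, α i) :
    0 ≤ W.Ei i f ω :=
  Finset.sum_nonneg fun a _ => mul_nonneg (W.nonneg i a) (h _)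

/-- A factor that does not depend on the coordinate `i` can be pulled out of `Ei`. -/
theorem Ei_mul_indep (i : I) (g f : (∀ i, α i) → ℝ) (hg : ∀ ω a, g (update ω i a) = g ω)
    (ω : ∀ i, α i) : W.Ei i (fun ω => g ω * f ω) ω = g ω * W.Ei i f ω := by
  simp only [Ei, Finset.mul_sum, hg]
  exact Finset.sum_congr rfl fun a _ => by ring

/-- convexity bound: `exp (θ y) ≤ 1 + (exp (θ D) - 1) y / D` on `[0, D]` -/
theorem exp_le_chord (θ : ℝ) {D y : ℝ} (hD : 0 < D) (h0 : 0 ≤ y) (h1 : y ≤ D) :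
    Real.exp (θ * y) ≤ 1 + (Real.exp (θ * D) - 1) * y / D := by
  have hc := convexOn_exp
  have hy : θ * y = (1 - y / D) • (0 : ℝ) + (y / D) • (θ * D) := by
    simp only [smul_eq_mul, mul_zero, zero_add]
    field_simp
  have hmem : (0 : ℝ) ∈ Set.univ := Set.mem_univ _
  have := hc.2 hmem (Set.mem_univ (θ * D))
    (show (0 : ℝ) ≤ 1 - y / D by rw [sub_nonneg, div_le_one hD]; exact h1)
    (show (0 : ℝ) ≤ y / D from div_nonneg h0 hD.le) (by ring)
  rw [← hy] at this
  simp only [smul_eq_mul, Real.exp_zero, mul_one] at this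
  calc Real.exp (θ * y) ≤ 1 - y / D + y / D * Real.exp (θ * D) := this
    _ = 1 + (Real.exp (θ * D) - 1) * y / D := by ring

/-- One step of the exponential moment bound, `θ ≥ 0`. -/
theorem Exp_step_up (i : I) (G Y : (∀ i, α i) → ℝ) (hG0 : ∀ ω, 0 ≤ G ω)
    (hG : ∀ ω a, G (update ω i a) = G ω) {θ D p : ℝ} (hθ : 0 ≤ θ) (hD : 0 < D)
    (hY0 : ∀ ω, 0 ≤ Y ω) (hY1 : ∀ ω, Y ω ≤ D) (hp : ∀ ω, W.Ei i Y ω ≤ p) :
    W.Exp (fun ω => G ω * Real.exp (θ * Y ω)) ≤
      (1 + (Real.exp (θ * D) - 1) * p / D) * W.Exp G := by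
  rw [← W.Exp_Ei i]
  have hcoef : 0 ≤ Real.exp (θ * D) - 1 := by
    have := Real.add_one_le_exp (θ * D)
    have h2 : 0 ≤ θ * D := mul_nonneg hθ hD.le
    linarith
  have hstep : ∀ ω, W.Ei i (fun ω => G ω * Real.exp (θ * Y ω)) ω ≤
      (1 + (Real.exp (θ * D) - 1) * p / D) * G ω := by
    intro ω
    rw [W.Ei_mul_indep i G _ hG ω, mul_comm]
    refine mul_le_mul_of_nonneg_right ?_ (hG0 ω)
    have h1 : W.Ei i (fun ω => Real.exp (θ * Y ω)) ω ≤
        W.Ei i (fun ω => 1 + (Real.exp (θ * D) - 1) * Y ω / D) ω := by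
      refine Finset.sum_le_sum fun a _ => mul_le_mul_of_nonneg_left ?_ (W.nonneg i a)
      exact exp_le_chord θ hD (hY0 _) (hY1 _)
    refine h1.trans ?_
    have h2 : W.Ei i (fun ω => 1 + (Real.exp (θ * D) - 1) * Y ω / D) ω =
        1 + (Real.exp (θ * D) - 1) * W.Ei i Y ω / D := by
      simp only [Ei, mul_add, Finset.sum_add_distrib, mul_one, W.sum_one]
      congr 1
      rw [Finset.mul_sum, Finset.sum_div]
      exact Finset.sum_congr rfl fun a _ => by ring
    rw [h2]
    have := hp ω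
    gcongr
  calc W.Exp (W.Ei i fun ω => G ω * Real.exp (θ * Y ω))
      ≤ W.Exp (fun ω => (1 + (Real.exp (θ * D) - 1) * p / D) * G ω) := W.Exp_mono hstep
    _ = _ := W.Exp_const_mul _ _

/-- One step of the exponential moment bound, lower tail. -/
theorem Exp_step_down (i : I) (G Y : (∀ i, α i) → ℝ) (hG0 : ∀ ω, 0 ≤ G ω)
    (hG : ∀ ω a, G (update ω i a) = G ω) {θ D p : ℝ} (hθ : 0 ≤ θ) (hD : 0 < D)
    (hY0 : ∀ ω, 0 ≤ Y ω) (hY1 : ∀ ω, Y ω ≤ D) (hp : ∀ ω, p ≤ W.Ei i Y ω) :
    W.Exp (fun ω => G ω * Real.exp (-θ * Y ω)) ≤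
      (1 - (1 - Real.exp (-θ * D)) * p / D) * W.Exp G := by
  rw [← W.Exp_Ei i]
  have hcoef : 0 ≤ 1 - Real.exp (-θ * D) := by
    have h2 : -θ * D ≤ 0 := by nlinarith
    have := Real.exp_le_one_iff.mpr h2
    linarith
  have hstep : ∀ ω, W.Ei i (fun ω => G ω * Real.exp (-θ * Y ω)) ω ≤
      (1 - (1 - Real.exp (-θ * D)) * p / D) * G ω := by
    intro ω
    rw [W.Ei_mul_indep i G _ hG ω, mul_comm]
    refine mul_le_mul_of_nonneg_right ?_ (hG0 ω)
    have h1 : W.Ei i (fun ω => Real.exp (-θ * Y ω)) ω ≤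
        W.Ei i (fun ω => 1 + (Real.exp (-θ * D) - 1) * Y ω / D) ω := by
      refine Finset.sum_le_sum fun a _ => mul_le_mul_of_nonneg_left ?_ (W.nonneg i a)
      exact exp_le_chord (-θ) hD (hY0 _) (hY1 _)
    refine h1.trans ?_
    have h2 : W.Ei i (fun ω => 1 + (Real.exp (-θ * D) - 1) * Y ω / D) ω =
        1 - (1 - Real.exp (-θ * D)) * W.Ei i Y ω / D := by
      have hh : ∀ a, W.w i a * (1 + (Real.exp (-θ * D) - 1) * Y (update ω i a) / D) =
          W.w i a - (1 - Real.exp (-θ * D)) / D * (W.w i a * Y (update ω i a)) := by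
        intro a; ring
      simp only [Ei, hh, Finset.sum_sub_distrib, W.sum_one, ← Finset.mul_sum]
      ring
    rw [h2]
    have := hp ω
    have h3 : (1 - Real.exp (-θ * D)) * p / D ≤ (1 - Real.exp (-θ * D)) * W.Ei i Y ω / D := by
      gcongr
    linarith
  calc W.Exp (W.Ei i fun ω => G ω * Real.exp (-θ * Y ω))
      ≤ W.Exp (fun ω => (1 - (1 - Real.exp (-θ * D)) * p / D) * G ω) := W.Exp_mono hstep
    _ = _ := W.Exp_const_mul _ _

/-- Exponential moment of an adapted sum (`θ ≥ 0`): each `X i` takes values in `[0, D]`, does not depend on the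
coordinates after `i`, and has conditional mean (given the other coordinates) at most `p i`. -/
theorem Exp_adapted_up [LinearOrder I] (T : Finset I) (X : I → (∀ i, α i) → ℝ) (p : I → ℝ) {θ D : ℝ}
    (hθ : 0 ≤ θ) (hD : 0 < D) (hX0 : ∀ i ω, 0 ≤ X i ω) (hX1 : ∀ i ω, X i ω ≤ D)
    (hadapt : ∀ i j, j < i → ∀ ω a, X j (update ω i a) = X j ω)
    (hp : ∀ i ω, W.Ei i (X i) ω ≤ p i) (hp0 : ∀ i, 0 ≤ p i) :
    W.Exp (fun ω => Real.exp (θ * ∑ i ∈ T, X i ω)) ≤
      Real.exp ((Real.exp (θ * D) - 1) / D * ∑ i ∈ T, p i) := by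
  classical
  induction T using Finset.induction_on_max with
  | empty =>
    simp only [Finset.sum_empty, mul_zero, Real.exp_zero]
    rw [Exp_const]
  | insert i T hi ih =>
    have hni : i ∉ T := fun h => lt_irrefl _ (hi i h)
    have hcoef : 0 ≤ Real.exp (θ * D) - 1 := by
      have := Real.add_one_le_exp (θ * D)
      have h2 : 0 ≤ θ * D := mul_nonneg hθ hD.le
      linarith
    simp only [Finset.sum_insert hni]
    have hG : ∀ ω a, Real.exp (θ * ∑ j ∈ T, X j (update ω i a)) = Real.exp (θ * ∑ j ∈ T, X j ω) := by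
      intro ω a
      congr 2
      exact Finset.sum_congr rfl fun j hj => hadapt i j (hi j hj) ω a
    have h1 := W.Exp_step_up i (fun ω => Real.exp (θ * ∑ j ∈ T, X j ω)) (X i)
      (fun ω => (Real.exp_pos _).le) hG hθ hD (hX0 i) (hX1 i) (hp i)
    have h2 : (fun ω => Real.exp (θ * (X i ω + ∑ j ∈ T, X j ω))) =
        fun ω => Real.exp (θ * ∑ j ∈ T, X j ω) * Real.exp (θ * X i ω) := by
      funext ω
      rw [← Real.exp_add]
      congr 1
      ring
    rw [h2]
    refine h1.trans ?_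
    have h3 : 1 + (Real.exp (θ * D) - 1) * p i / D ≤ Real.exp ((Real.exp (θ * D) - 1) / D * p i) := by
      have := Real.add_one_le_exp ((Real.exp (θ * D) - 1) / D * p i)
      have e : (Real.exp (θ * D) - 1) * p i / D = (Real.exp (θ * D) - 1) / D * p i := by ring
      rw [e]; linarith
    have h4 : 0 ≤ 1 + (Real.exp (θ * D) - 1) * p i / D := by
      have : 0 ≤ (Real.exp (θ * D) - 1) * p i / D := div_nonneg (mul_nonneg hcoef (hp0 i)) hD.le
      linarith
    calc _ ≤ Real.exp ((Real.exp (θ * D) - 1) / D * p i) *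
          Real.exp ((Real.exp (θ * D) - 1) / D * ∑ j ∈ T, p j) := by
            exact mul_le_mul h3 ih (W.Exp_nonneg fun ω => (Real.exp_pos _).le) (Real.exp_pos _).le
      _ = _ := by
        rw [← Real.exp_add]
        congr 1
        ring

/-- Exponential moment, lower tail, adapted. -/
theorem Exp_adapted_down [LinearOrder I] (T : Finset I) (X : I → (∀ i, α i) → ℝ) (p : I → ℝ) {θ D : ℝ}
    (hθ : 0 ≤ θ) (hD : 0 < D) (hX0 : ∀ i ω, 0 ≤ X i ω) (hX1 : ∀ i ω, X i ω ≤ D)
    (hadapt : ∀ i j, j < i → ∀ ω a, X j (update ω i a) = X j ω)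
    (hp : ∀ i ω, p i ≤ W.Ei i (X i) ω) :
    W.Exp (fun ω => Real.exp (-θ * ∑ i ∈ T, X i ω)) ≤
      Real.exp (-((1 - Real.exp (-θ * D)) / D) * ∑ i ∈ T, p i) := by
  classical
  induction T using Finset.induction_on_max with
  | empty =>
    simp only [Finset.sum_empty, mul_zero, Real.exp_zero]
    rw [Exp_const]
  | insert i T hi ih =>
    have hni : i ∉ T := fun h => lt_irrefl _ (hi i h)
    simp only [Finset.sum_insert hni]
    have hG : ∀ ω a, Real.exp (-θ * ∑ j ∈ T, X j (update ω i a)) = Real.exp (-θ * ∑ j ∈ T, X j ω) := by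
      intro ω a
      congr 2
      exact Finset.sum_congr rfl fun j hj => hadapt i j (hi j hj) ω a
    have h1 := W.Exp_step_down i (fun ω => Real.exp (-θ * ∑ j ∈ T, X j ω)) (X i)
      (fun ω => (Real.exp_pos _).le) hG hθ hD (hX0 i) (hX1 i) (hp i)
    have h2 : (fun ω => Real.exp (-θ * (X i ω + ∑ j ∈ T, X j ω))) =
        fun ω => Real.exp (-θ * ∑ j ∈ T, X j ω) * Real.exp (-θ * X i ω) := by
      funext ω
      rw [← Real.exp_add]
      congr 1
      ring
    rw [h2]
    refine h1.trans ?_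
    set κ := (1 - Real.exp (-θ * D)) / D with hκ
    have h3 : 1 - (1 - Real.exp (-θ * D)) * p i / D ≤ Real.exp (-κ * p i) := by
      have := Real.add_one_le_exp (-κ * p i)
      have e : (1 - Real.exp (-θ * D)) * p i / D = κ * p i := by rw [hκ]; ring
      rw [e]; linarith
    have hExpG : 0 ≤ W.Exp (fun ω => Real.exp (-θ * ∑ j ∈ T, X j ω)) :=
      W.Exp_nonneg fun ω => (Real.exp_pos _).le
    calc _ ≤ Real.exp (-κ * p i) * W.Exp (fun ω => Real.exp (-θ * ∑ j ∈ T, X j ω)) :=
            mul_le_mul_of_nonneg_right h3 hExpG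
      _ ≤ Real.exp (-κ * p i) * Real.exp (-κ * ∑ j ∈ T, p j) :=
            mul_le_mul_of_nonneg_left ih (Real.exp_pos _).le
      _ = _ := by
        rw [← Real.exp_add]
        congr 1
        ring

/-- Chernoff, upper tail (free parameter `θ`). -/
theorem Pr_adapted_ge [LinearOrder I] (T : Finset I) (X : I → (∀ i, α i) → ℝ) (p : I → ℝ) {θ D : ℝ}
    (hθ : 0 ≤ θ) (hD : 0 < D) (hX0 : ∀ i ω, 0 ≤ X i ω) (hX1 : ∀ i ω, X i ω ≤ D)
    (hadapt : ∀ i j, j < i → ∀ ω a, X j (update ω i a) = X j ω)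
    (hp : ∀ i ω, W.Ei i (X i) ω ≤ p i) (hp0 : ∀ i, 0 ≤ p i) (a : ℝ) :
    W.Pr (fun ω => a ≤ ∑ i ∈ T, X i ω) ≤
      Real.exp ((Real.exp (θ * D) - 1) / D * ∑ i ∈ T, p i - θ * a) := by
  have hm := W.Pr_le_Exp_div (f := fun ω => Real.exp (θ * ∑ i ∈ T, X i ω))
    (fun ω => (Real.exp_pos _).le) (Real.exp_pos (θ * a))
  have hsub : W.Pr (fun ω => a ≤ ∑ i ∈ T, X i ω) ≤
      W.Pr (fun ω => Real.exp (θ * a) ≤ Real.exp (θ * ∑ i ∈ T, X i ω)) :=
    W.Pr_mono fun ω h => Real.exp_le_exp.mpr (mul_le_mul_of_nonneg_left h hθ)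
  refine hsub.trans (hm.trans ?_)
  rw [sub_eq_add_neg, Real.exp_add, Real.exp_neg, div_eq_mul_inv]
  exact mul_le_mul_of_nonneg_right (W.Exp_adapted_up T X p hθ hD hX0 hX1 hadapt hp hp0)
    (inv_nonneg.mpr (Real.exp_pos _).le)

/-- Chernoff, lower tail (free parameter `θ`). -/
theorem Pr_adapted_le [LinearOrder I] (T : Finset I) (X : I → (∀ i, α i) → ℝ) (p : I → ℝ) {θ D : ℝ}
    (hθ : 0 ≤ θ) (hD : 0 < D) (hX0 : ∀ i ω, 0 ≤ X i ω) (hX1 : ∀ i ω, X i ω ≤ D)
    (hadapt : ∀ i j, j < i → ∀ ω a, X j (update ω i a) = X j ω)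
    (hp : ∀ i ω, p i ≤ W.Ei i (X i) ω) (a : ℝ) :
    W.Pr (fun ω => ∑ i ∈ T, X i ω ≤ a) ≤
      Real.exp (θ * a - (1 - Real.exp (-θ * D)) / D * ∑ i ∈ T, p i) := by
  have hm := W.Pr_le_Exp_div (f := fun ω => Real.exp (-θ * ∑ i ∈ T, X i ω))
    (fun ω => (Real.exp_pos _).le) (Real.exp_pos (-θ * a))
  have hsub : W.Pr (fun ω => ∑ i ∈ T, X i ω ≤ a) ≤
      W.Pr (fun ω => Real.exp (-θ * a) ≤ Real.exp (-θ * ∑ i ∈ T, X i ω)) :=
    W.Pr_mono fun ω h => Real.exp_le_exp.mpr (by nlinarith)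
  refine hsub.trans (hm.trans ?_)
  have e : θ * a - (1 - Real.exp (-θ * D)) / D * ∑ i ∈ T, p i =
      -((1 - Real.exp (-θ * D)) / D) * ∑ i ∈ T, p i - (-θ * a) := by ring
  rw [e, sub_eq_add_neg, Real.exp_add, Real.exp_neg (-θ * a), div_eq_mul_inv]
  exact mul_le_mul_of_nonneg_right (W.Exp_adapted_down T X p hθ hD hX0 hX1 hadapt hp)
    (inv_nonneg.mpr (Real.exp_pos _).le)

/-- **Poisson tail** for adapted `0/1` or `[0,1]`-valued variables: `Pr[∑ X ≥ t] ≤ (e μ / t)^t`. -/
theorem Pr_poisson_tail [LinearOrder I] (T : Finset I) (X : I → (∀ i, α i) → ℝ) (p : I → ℝ)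
    (hX0 : ∀ i ω, 0 ≤ X i ω) (hX1 : ∀ i ω, X i ω ≤ 1)
    (hadapt : ∀ i j, j < i → ∀ ω a, X j (update ω i a) = X j ω)
    (hp : ∀ i ω, W.Ei i (X i) ω ≤ p i) (hp0 : ∀ i, 0 ≤ p i)
    {μ : ℝ} (hμ : 0 < μ) (hμp : ∑ i ∈ T, p i ≤ μ) {t : ℕ} (ht : 0 < t) :
    W.Pr (fun ω => (t : ℝ) ≤ ∑ i ∈ T, X i ω) ≤ (Real.exp 1 * μ / t) ^ t := by
  have htR : (0 : ℝ) < t := by exact_mod_cast ht
  by_cases hle : (t : ℝ) ≤ μ
  · refine (W.Pr_le_one _).trans ?_
    refine one_le_pow₀ ?_
    rw [le_div_iff₀ htR, one_mul]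
    have := Real.add_one_le_exp (1 : ℝ)
    nlinarith
  · push Not at hle
    have hlam : 1 < (t : ℝ) / μ := by rwa [one_lt_div hμ]
    set θ := Real.log ((t : ℝ) / μ) with hθdef
    have hθ : 0 ≤ θ := Real.log_nonneg hlam.le
    have hexpθ : Real.exp θ = t / μ := Real.exp_log (by positivity)
    have h := W.Pr_adapted_ge T X p hθ one_pos hX0 hX1 hadapt hp hp0 (t : ℝ)
    refine h.trans ?_
    rw [mul_one, hexpθ, div_one]
    have hcoef : 0 ≤ (t : ℝ) / μ - 1 := by linarith
    have h1 : ((t : ℝ) / μ - 1) * ∑ i ∈ T, p i ≤ ((t : ℝ) / μ - 1) * μ :=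
      mul_le_mul_of_nonneg_left hμp hcoef
    have h2 : ((t : ℝ) / μ - 1) * μ ≤ t := by
      have : ((t : ℝ) / μ - 1) * μ = t - μ := by field_simp
      rw [this]; linarith
    have h3 : (Real.exp 1 * μ / t) ^ t = Real.exp ((t : ℝ) - θ * t) := by
      have hpos : 0 < Real.exp 1 * μ / t := by positivity
      rw [← Real.exp_log hpos, ← Real.exp_nat_mul]
      congr 1
      rw [Real.log_div (by positivity) (by positivity), Real.log_mul (by positivity) (by positivity),
        Real.log_exp, hθdef, Real.log_div (by positivity) (by positivity)]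
      ring
    rw [h3]
    exact Real.exp_le_exp.mpr (by linarith)

end Wt

section Hoeffding

open MeasureTheory ProbabilityTheory

/-- Hoeffding's lemma for finitely supported weights. -/
theorem hoeffding_finite {A : Type*} [Fintype A] (w : A → ℝ) (hw0 : ∀ a, 0 ≤ w a) (hw1 : ∑ a, w a = 1)
    (x : A → ℝ) (hmean : ∑ a, w a * x a = 0) {l u : ℝ} (hlu : ∀ a, l ≤ x a ∧ x a ≤ u) (θ : ℝ) :
    ∑ a, w a * Real.exp (θ * x a) ≤ Real.exp (θ ^ 2 * (u - l) ^ 2 / 8) := by
  classical
  letI : MeasurableSpace A := ⊤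
  haveI : MeasurableSingletonClass A := ⟨fun _ => trivial⟩
  let μ : Measure A := ∑ a, ENNReal.ofReal (w a) • Measure.dirac a
  have hint : ∀ f : A → ℝ, ∫ y, f y ∂μ = ∑ a, w a * f a := by
    intro f
    have hi : ∀ a ∈ (univ : Finset A), Integrable f (ENNReal.ofReal (w a) • Measure.dirac a) := by
      intro a _
      refine Integrable.smul_measure ?_ ENNReal.ofReal_ne_top
      exact integrable_dirac (by simp)
    rw [integral_finsetSum_measure hi]
    refine Finset.sum_congr rfl fun a _ => ?_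
    rw [integral_smul_measure, integral_dirac, ENNReal.toReal_ofReal (hw0 a), smul_eq_mul]
  haveI : IsProbabilityMeasure μ := by
    constructor
    simp only [μ, Measure.coe_finsetSum, Measure.coe_smul, Finset.sum_apply, Pi.smul_apply,
      measure_univ, smul_eq_mul, mul_one]
    rw [← ENNReal.ofReal_sum_of_nonneg (fun a _ => hw0 a), hw1, ENNReal.ofReal_one]
  have hm : AEMeasurable x μ := (measurable_of_countable x).aemeasurable
  have hb : ∀ᵐ ω ∂μ, x ω ∈ Set.Icc l u := Filter.Eventually.of_forall hlu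
  have hc : μ[x] = 0 := by rw [hint]; exact hmean
  have := (hasSubgaussianMGF_of_mem_Icc_of_integral_eq_zero hm hb hc).mgf_le θ
  have h2 : mgf x μ θ = ∑ a, w a * Real.exp (θ * x a) := by
    rw [mgf, hint]
  rw [h2] at this
  refine this.trans (le_of_eq ?_)
  congr 1
  push_cast
  rw [Real.norm_eq_abs, div_pow, sq_abs]
  ring

end Hoeffding

namespace Wt

variable (W : Wt α)

include W in
theorem nonempty_coord (i : I) : Nonempty (α i) := by
  by_contra h
  rw [not_nonempty_iff] at h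
  have := W.sum_one i
  simp at this

/-- A function not depending on any coordinate is constant. -/
theorem eq_of_indep (f : (∀ i, α i) → ℝ) (hf : ∀ i ω a, f (update ω i a) = f ω) (ω ω' : ∀ i, α i) :
    f ω = f ω' := by
  classical
  have key : ∀ S : Finset I, f (fun i => if i ∈ S then ω' i else ω i) = f ω := by
    intro S
    induction S using Finset.induction_on with
    | empty => simp
    | insert i S hi ih =>
      have : (fun j => if j ∈ insert i S then ω' j else ω j) =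
          update (fun j => if j ∈ S then ω' j else ω j) i (ω' i) := by
        funext j
        by_cases hj : j = i
        · subst hj; simp
        · simp [Finset.mem_insert, hj]
      rw [this, hf, ih]
  have := key univ
  simp only [Finset.mem_univ, if_true] at this
  exact this.symm

/-- **McDiarmid**, exponential moment form. -/
theorem Exp_mcdiarmid (c : I → ℝ) (θ : ℝ) (T : Finset I) :
    ∀ f : (∀ i, α i) → ℝ, (∀ i, i ∉ T → ∀ ω a, f (update ω i a) = f ω) →
      (∀ i, i ∈ T → ∀ ω a b, f (update ω i a) - f (update ω i b) ≤ c i) →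
      W.Exp (fun ω => Real.exp (θ * (f ω - W.Exp f))) ≤
        Real.exp (θ ^ 2 * (∑ i ∈ T, c i ^ 2) / 8) := by
  classical
  induction T using Finset.induction_on with
  | empty =>
    intro f h0 _
    have hconst : ∀ ω, f ω = W.Exp f := by
      intro ω
      have hf : ∀ ω', f ω' = f ω := fun ω' => eq_of_indep f (fun i ω a => h0 i (by simp) ω a) ω' ω
      simp only [Exp]
      rw [Finset.sum_congr rfl fun ω' _ => by rw [hf ω'], ← Finset.sum_mul, W.sum_pw, one_mul]
    simp only [hconst, sub_self, mul_zero, Real.exp_zero, Finset.sum_empty, zero_div]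
    rw [Exp_const]
  | insert i T hi ih =>
    intro f h0 hbd
    set g := W.Ei i f with hg
    have hgi : ∀ ω a, g (update ω i a) = g ω := by
      intro ω a
      simp only [hg, Ei, update_idem]
    have hg0 : ∀ j, j ∉ T → ∀ ω a, g (update ω j a) = g ω := by
      intro j hj ω a
      by_cases hji : j = i
      · subst hji; exact hgi ω a
      · simp only [hg, Ei]
        refine Finset.sum_congr rfl fun b _ => ?_
        rw [update_comm hji]
        congr 1
        exact h0 j (by simp [hji, hj]) _ _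
    have hgbd : ∀ j, j ∈ T → ∀ ω a b, g (update ω j a) - g (update ω j b) ≤ c j := by
      intro j hj ω a b
      have hji : j ≠ i := fun h => hi (h ▸ hj)
      simp only [hg, Ei]
      rw [← Finset.sum_sub_distrib]
      have h1 : ∀ d, W.w i d * f (update (update ω j a) i d) - W.w i d * f (update (update ω j b) i d) ≤
          W.w i d * c j := by
        intro d
        rw [← mul_sub]
        refine mul_le_mul_of_nonneg_left ?_ (W.nonneg i d)
        rw [update_comm hji, update_comm hji]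
        exact hbd j (by simp [hj]) _ _ _
      refine (Finset.sum_le_sum fun d _ => h1 d).trans ?_
      rw [← Finset.sum_mul, W.sum_one, one_mul]
    have hEg : W.Exp g = W.Exp f := W.Exp_Ei i f
    have hih := ih g hg0 hgbd
    rw [hEg] at hih
    set G : (∀ i, α i) → ℝ := fun ω => Real.exp (θ * (g ω - W.Exp f)) with hG
    have hGi : ∀ ω a, G (update ω i a) = G ω := by
      intro ω a; simp only [hG, hgi]
    have hfac : (fun ω => Real.exp (θ * (f ω - W.Exp f))) =
        fun ω => G ω * Real.exp (θ * (f ω - g ω)) := by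
      funext ω
      simp only [hG]
      rw [← Real.exp_add]
      congr 1
      ring
    rw [hfac, ← W.Exp_Ei i]
    have hstep : ∀ ω, W.Ei i (fun ω => G ω * Real.exp (θ * (f ω - g ω))) ω ≤
        Real.exp (θ ^ 2 * c i ^ 2 / 8) * G ω := by
      intro ω
      rw [W.Ei_mul_indep i G _ hGi ω, mul_comm]
      refine mul_le_mul_of_nonneg_right ?_ (Real.exp_pos _).le
      simp only [Ei, hgi]
      haveI := W.nonempty_coord i
      -- the range of the coordinate section
      set m := Finset.univ.inf' Finset.univ_nonempty (fun a => f (update ω i a)) with hm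
      obtain ⟨a0, -, ha0⟩ := Finset.exists_mem_eq_inf' Finset.univ_nonempty
        (fun a => f (update ω i a))
      have hl : ∀ a, m ≤ f (update ω i a) := fun a =>
        Finset.inf'_le _ (Finset.mem_univ a)
      have hu : ∀ a, f (update ω i a) ≤ m + c i := by
        intro a
        have := hbd i (by simp) ω a a0
        rw [hm, ha0]
        linarith
      have hmean : ∑ a, W.w i a * (f (update ω i a) - g ω) = 0 := by
        simp only [mul_sub, Finset.sum_sub_distrib, ← Finset.sum_mul, W.sum_one, one_mul]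
        simp only [hg, Ei]
        ring
      have := hoeffding_finite (W.w i) (W.nonneg i) (W.sum_one i)
        (fun a => f (update ω i a) - g ω) hmean (l := m - g ω) (u := m + c i - g ω)
        (fun a => ⟨by have := hl a; linarith, by have := hu a; linarith⟩) θ
      refine this.trans (le_of_eq ?_)
      congr 1
      ring
    have hGnn : ∀ ω, 0 ≤ G ω := fun ω => (Real.exp_pos _).le
    calc W.Exp (W.Ei i fun ω => G ω * Real.exp (θ * (f ω - g ω)))
        ≤ W.Exp (fun ω => Real.exp (θ ^ 2 * c i ^ 2 / 8) * G ω) := W.Exp_mono hstep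
      _ = Real.exp (θ ^ 2 * c i ^ 2 / 8) * W.Exp G := W.Exp_const_mul _ _
      _ ≤ Real.exp (θ ^ 2 * c i ^ 2 / 8) * Real.exp (θ ^ 2 * (∑ j ∈ T, c j ^ 2) / 8) :=
          mul_le_mul_of_nonneg_left hih (Real.exp_pos _).le
      _ = _ := by
        rw [← Real.exp_add, Finset.sum_insert hi]
        congr 1
        ring

/-- **McDiarmid**, upper tail. -/
theorem Pr_mcdiarmid_ge (f : (∀ i, α i) → ℝ) (c : I → ℝ)
    (hbd : ∀ i ω a b, f (update ω i a) - f (update ω i b) ≤ c i) {t : ℝ} (ht : 0 < t)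
    (hcpos : 0 < ∑ i, c i ^ 2) :
    W.Pr (fun ω => W.Exp f + t ≤ f ω) ≤ Real.exp (-(2 * t ^ 2) / ∑ i, c i ^ 2) := by
  set V := ∑ i, c i ^ 2 with hV
  set θ := 4 * t / V with hθ
  have hθpos : 0 < θ := by positivity
  have hm := W.Pr_le_Exp_div (f := fun ω => Real.exp (θ * (f ω - W.Exp f)))
    (fun ω => (Real.exp_pos _).le) (Real.exp_pos (θ * t))
  have hsub : W.Pr (fun ω => W.Exp f + t ≤ f ω) ≤
      W.Pr (fun ω => Real.exp (θ * t) ≤ Real.exp (θ * (f ω - W.Exp f))) :=
    W.Pr_mono fun ω h => Real.exp_le_exp.mpr (mul_le_mul_of_nonneg_left (by linarith) hθpos.le)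
  refine hsub.trans (hm.trans ?_)
  have h1 := W.Exp_mcdiarmid c θ univ f (fun i hi => absurd (Finset.mem_univ i) hi)
    (fun i _ => hbd i)
  rw [div_le_iff₀ (Real.exp_pos _), ← Real.exp_add]
  refine h1.trans (Real.exp_le_exp.mpr (le_of_eq ?_))
  rw [hθ]
  field_simp
  ring

/-- **McDiarmid**, lower tail. -/
theorem Pr_mcdiarmid_le (f : (∀ i, α i) → ℝ) (c : I → ℝ)
    (hbd : ∀ i ω a b, f (update ω i a) - f (update ω i b) ≤ c i) {t : ℝ} (ht : 0 < t)
    (hcpos : 0 < ∑ i, c i ^ 2) :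
    W.Pr (fun ω => f ω ≤ W.Exp f - t) ≤ Real.exp (-(2 * t ^ 2) / ∑ i, c i ^ 2) := by
  have h := W.Pr_mcdiarmid_ge (fun ω => - f ω) c
    (fun i ω a b => by have := hbd i ω b a; linarith) ht hcpos
  have hE : W.Exp (fun ω => - f ω) = - W.Exp f := by
    have := W.Exp_const_mul (-1) f
    simpa using this
  rw [hE] at h
  refine le_trans (W.Pr_mono fun ω hω => ?_) h
  linarith

/-- **Poisson tail** for independent indicators: `E i ⊆ α i`, `∑ i ∈ T, w_i (E i) ≤ μ`.
`Pr[#{i ∈ T : ω i ∈ E i} ≥ t] ≤ (e μ / t)^t`. -/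
theorem Pr_indep_poisson_tail (T : Finset I) (E : ∀ i, Finset (α i)) {μ : ℝ} (hμ : 0 < μ)
    (hμp : ∑ i ∈ T, ∑ a ∈ E i, W.w i a ≤ μ) {t : ℕ} (ht : 0 < t) :
    W.Pr (fun ω => t ≤ (T.filter fun i => ω i ∈ E i).card) ≤ (Real.exp 1 * μ / t) ^ t := by
  classical
  letI : LinearOrder I := LinearOrder.lift' (Fintype.equivFin I) (Fintype.equivFin I).injective
  have h := W.Pr_poisson_tail T (fun i ω => if ω i ∈ E i then (1 : ℝ) else 0)
    (fun i => ∑ a ∈ E i, W.w i a)
    (fun i ω => by split_ifs <;> norm_num) (fun i ω => by split_ifs <;> norm_num)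
    (fun i j hji ω a => by
      have : j ≠ i := ne_of_lt hji
      simp [update_of_ne this])
    (fun i ω => by
      simp only [Ei, update_self, mul_ite, mul_one, mul_zero]
      rw [Finset.sum_ite_mem]
      simp)
    (fun i => Finset.sum_nonneg fun a _ => W.nonneg i a) hμ hμp ht
  refine le_trans (W.Pr_mono fun ω hω => ?_) h
  have : (((T.filter fun i => ω i ∈ E i).card : ℕ) : ℝ) = ∑ i ∈ T, if ω i ∈ E i then (1 : ℝ) else 0 := by
    rw [Finset.card_filter]
    push_cast
    rfl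
  rw [← this]
  exact_mod_cast hω

end Wt

/-- Uniform independent coordinates. -/
noncomputable def unif (α : I → Type*) [∀ i, Fintype (α i)] [∀ i, Nonempty (α i)] : Wt α where
  w i _ := 1 / (Fintype.card (α i) : ℝ)
  nonneg i _ := by positivity
  sum_one i := by
    have : (Fintype.card (α i) : ℝ) ≠ 0 := by
      exact_mod_cast Fintype.card_ne_zero
    simp [this]

theorem unif_pw [∀ i, Nonempty (α i)] (ω : ∀ i, α i) :
    (unif α).pw ω = 1 / (Fintype.card (∀ i, α i) : ℝ) := by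
  simp only [Wt.pw, unif, Fintype.card_pi]
  push_cast
  rw [Finset.prod_div_distrib]
  simp

open scoped Classical in
/-- The uniform probability of an event is the fraction of points. -/
theorem unif_Pr [∀ i, Nonempty (α i)] (E : (∀ i, α i) → Prop) :
    (unif α).Pr E = ((Finset.univ.filter E).card : ℝ) / (Fintype.card (∀ i, α i) : ℝ) := by
  simp only [Wt.Pr, Wt.Exp, unif_pw, mul_ite, mul_one, mul_zero]
  rw [Finset.sum_ite, Finset.sum_const_zero, add_zero, Finset.sum_const, nsmul_eq_mul]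
  ring

end Crest.Agent.Lib.Ryser.Prob
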