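import Crest.Agent.Lib.Ryser.Defs
import Crest.Agent.Lib.Ryser.ProbW

/-!
# Module E1: occupancy concentration for `rho`; bound on balls on a line.

Balls on parts other than `u.1` choose uniformly among the `q` lines through `u`.
We use McDiarmid's inequality for the number of clean lines; its mean is exactly
`q (1 - 1/q)^n`, with `n` the number of balls off the part of `u`.
-/

open Finset BigOperators

namespace Crest.Agent.Ryser

variable {P V L : Type*} [Fintype P] [DecidableEq P] [Fintype V] [DecidableEq V]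
  [Fintype L] [DecidableEq L]
variable {q : ℕ} {h : L → P → V}
variable {B : Type*} [Fintype B] [DecidableEq B]

/-- The clean lines through `u`. -/
def cleanBallLines (h : L → P → V) (bp : B → P) (u : P × V) (π : B → V) : Finset L :=
  (linesThrough h u).filter fun ℓ => ∀ b, bp b ≠ u.1 → π b ≠ h ℓ (bp b)

lemma mem_linesThrough' {x : P × V} {ℓ : L} : ℓ ∈ linesThrough h x ↔ On h ℓ x := by
  simp [linesThrough]

lemma mem_Zof {bp : B → P} {π : B → V} {x : P × V} :
    x ∈ Zof bp π ↔ ∃ b, (bp b, π b) = x := by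
  simp [Zof]

lemma rho_Zof_eq (bp : B → P) (u : P × V) (π : B → V) :
    rho h (Zof bp π) u = (cleanBallLines h bp u π).card := by
  unfold rho cleanBallLines
  congr 1
  apply Finset.filter_congr
  intro ℓ hℓ
  have hℓu : On h ℓ u := mem_linesThrough'.1 hℓ
  constructor
  · intro H b hb he
    have hx : (bp b, π b) ∈ Zof bp π := mem_Zof.2 ⟨b, rfl⟩
    have hne : (bp b, π b) ≠ u := fun h' => hb (by rw [← h'])
    exact H _ hx hne he.symm
  · intro H x hx hxu hxℓ
    obtain ⟨b, rfl⟩ := mem_Zof.1 hx
    by_cases hb : bp b = u.1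
    · apply hxu
      have h1 : π b = u.2 := by
        have h2 : h ℓ (bp b) = π b := hxℓ
        have h3 : h ℓ u.1 = u.2 := hℓu
        rw [← h2, hb, h3]
      exact Prod.ext hb h1
    · exact H b hb (Eq.symm hxℓ)

/-- The clean lines as a sum of products. -/
lemma card_cleanBallLines_eq (bp : B → P) (u : P × V) (π : B → V) :
    ((cleanBallLines h bp u π).card : ℝ) = ∑ ℓ ∈ linesThrough h u,
      ∏ b, (if bp b = u.1 ∨ π b ≠ h ℓ (bp b) then (1:ℝ) else 0) := by
  unfold cleanBallLines
  rw [Finset.card_filter]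
  push_cast
  apply Finset.sum_congr rfl
  intro ℓ _
  by_cases H : ∀ b, bp b ≠ u.1 → π b ≠ h ℓ (bp b)
  · rw [if_pos H, Finset.prod_eq_one]
    intro b _
    rw [if_pos]
    by_cases hb : bp b = u.1
    · exact Or.inl hb
    · exact Or.inr (H b hb)
  · rw [if_neg H]
    push Not at H
    obtain ⟨b, hb, he⟩ := H
    symm
    apply Finset.prod_eq_zero (Finset.mem_univ b)
    rw [if_neg]
    push Not
    exact ⟨hb, he⟩

/-- Mean of the number of clean lines. -/
lemma Ex_cleanBallLines (hO : OA q h) (bp : B → P) (u : P × V) :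
    Ex (fun π : B → V => ((cleanBallLines h bp u π).card : ℝ)) =
      q * (1 - 1 / (q:ℝ)) ^ (univ.filter fun b => bp b ≠ u.1).card := by
  have hq : (q:ℝ) ≠ 0 := by
    have := hO.q_pos
    positivity
  have hV : (Fintype.card V : ℝ) = q := by rw [hO.cardV]
  simp_rw [card_cleanBallLines_eq]
  rw [Ex_sum]
  have key : ∀ ℓ ∈ linesThrough h u, Ex (fun π : B → V => ∏ b, (if bp b = u.1 ∨ π b ≠ h ℓ (bp b) then (1:ℝ) else 0))
      = (1 - 1 / (q:ℝ)) ^ (univ.filter fun b => bp b ≠ u.1).card := by
    intro ℓ _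
    rw [Ex_pi_prod (fun b y => if bp b = u.1 ∨ y ≠ h ℓ (bp b) then (1:ℝ) else 0)]
    have hfac : ∀ b : B, Ex (fun y : V => if bp b = u.1 ∨ y ≠ h ℓ (bp b) then (1:ℝ) else 0) =
        if bp b ≠ u.1 then 1 - 1 / (q:ℝ) else 1 := by
      intro b
      unfold Ex
      rw [hV]
      by_cases hb : bp b = u.1
      · simp only [hb, true_or, if_true, ne_eq, not_true_eq_false, if_false, Finset.sum_const,
          Finset.card_univ, nsmul_eq_mul, mul_one]
        rw [hV]
        field_simp
      · have h1 : (∑ y : V, if bp b = u.1 ∨ y ≠ h ℓ (bp b) then (1:ℝ) else 0) = (q:ℝ) - 1 := by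
          simp only [hb, false_or]
          rw [Finset.sum_ite, Finset.sum_const, Finset.sum_const_zero, add_zero, nsmul_eq_mul, mul_one]
          have h2 : (univ.filter (fun y : V => y ≠ h ℓ (bp b))).card = q - 1 := by
            rw [Finset.filter_ne', Finset.card_erase_of_mem (Finset.mem_univ _), Finset.card_univ, hO.cardV]
          rw [h2, Nat.cast_sub hO.q_pos]
          simp
        rw [h1, if_pos hb]
        field_simp
    simp_rw [hfac]
    rw [Finset.prod_ite, Finset.prod_const_one, mul_one, Finset.prod_const]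
  rw [Finset.sum_congr rfl key, Finset.sum_const, hO.card_linesThrough, nsmul_eq_mul]

/-- Bounded differences. -/
lemma cleanBallLines_diff (hO : OA q h) (bp : B → P) (u : P × V) (π : B → V) (i : B) (a c : V) :
    ((cleanBallLines h bp u (Function.update π i a)).card : ℝ) -
      (cleanBallLines h bp u (Function.update π i c)).card ≤ 1 := by
  classical
  have hle : (cleanBallLines h bp u (Function.update π i a) \ cleanBallLines h bp u (Function.update π i c)).card ≤ 1 := by
    rw [Finset.card_le_one]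
    have hchar : ∀ ℓ ∈ cleanBallLines h bp u (Function.update π i a) \ cleanBallLines h bp u (Function.update π i c),
        On h ℓ u ∧ bp i ≠ u.1 ∧ h ℓ (bp i) = c := by
      intro ℓ hℓ
      rw [Finset.mem_sdiff] at hℓ
      obtain ⟨h1, h2⟩ := hℓ
      have h1' := Finset.mem_filter.1 h1
      have hu : On h ℓ u := mem_linesThrough'.1 h1'.1
      refine ⟨hu, ?_⟩
      unfold cleanBallLines at h2
      rw [Finset.mem_filter] at h2
      push Not at h2
      obtain ⟨b, hb, he⟩ := h2 h1'.1
      by_cases hbi : b = i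
      · subst hbi
        simp only [Function.update_self] at he
        exact ⟨hb, he.symm⟩
      · exfalso
        rw [Function.update_of_ne hbi] at he
        apply h1'.2 b hb
        rw [Function.update_of_ne hbi]
        exact he
    intro ℓ hℓ ℓ' hℓ'
    obtain ⟨h1, h2, h3⟩ := hchar ℓ hℓ
    obtain ⟨h1', _, h3'⟩ := hchar ℓ' hℓ'
    exact hO.eq_of_agree (i := u.1) (j := bp i) (Ne.symm h2) (h1.trans h1'.symm) (h3.trans h3'.symm)
  have h2 := Finset.card_le_card_sdiff_add_card (s := cleanBallLines h bp u (Function.update π i a))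
    (t := cleanBallLines h bp u (Function.update π i c))
  have h3 : ((cleanBallLines h bp u (Function.update π i a)).card : ℝ) ≤
      (cleanBallLines h bp u (Function.update π i c)).card + 1 := by
    have : (cleanBallLines h bp u (Function.update π i a)).card ≤
      (cleanBallLines h bp u (Function.update π i c)).card + 1 := by omega
    exact_mod_cast this
  linarith

section Link

open Crest.Agent.Lib.Ryser.Prob

lemma unif_Exp_eq_Ex [Nonempty V] (f : (B → V) → ℝ) :
    (unif (fun _ : B => V)).Exp f = Ex f := by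
  unfold Wt.Exp Ex
  simp_rw [unif_pw]
  rw [← Finset.mul_sum]
  ring

open scoped Classical in
lemma unif_Pr_eq_Pr [Nonempty V] (E : (B → V) → Prop) :
    (unif (fun _ : B => V)).Pr E = Pr E := by
  rw [unif_Pr, Pr]

end Link

open Crest.Agent.Lib.Ryser.Prob in
/-- Concentration of `rho` with center depending on the number of balls off the part of `u`. -/
theorem rho_tail (hO : OA q h) (bp : B → P) (hB : Fintype.card B ≤ 16 * q) (u : P × V) (Δ : ℝ) (hΔ : 0 < Δ) :
    Pr (fun π : B → V =>
      Δ < |(rho h (Zof bp π) u : ℝ) - q * (1 - 1 / (q:ℝ)) ^ (univ.filter fun b => bp b ≠ u.1).card|) ≤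
      2 * Real.exp (-(Δ ^ 2 / (8 * q))) := by
  classical
  have hq : 0 < q := hO.q_pos
  have hqR : (0:ℝ) < q := by exact_mod_cast hq
  haveI : Nonempty V := by
    have : 0 < Fintype.card V := by rw [hO.cardV]; exact hq
    exact Fintype.card_pos_iff.1 this
  by_cases hBe : Fintype.card B = 0
  · -- no ball
    have hempty : IsEmpty B := Fintype.card_eq_zero_iff.1 hBe
    have hzero : Pr (fun π : B → V =>
        Δ < |(rho h (Zof bp π) u : ℝ) - q * (1 - 1 / (q:ℝ)) ^ (univ.filter fun b => bp b ≠ u.1).card|) ≤ 0 := by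
      have hfalse : ∀ π : B → V, ¬ (Δ < |(rho h (Zof bp π) u : ℝ) - q * (1 - 1 / (q:ℝ)) ^ (univ.filter fun b => bp b ≠ u.1).card|) := by
        intro π hlt
        rw [rho_Zof_eq] at hlt
        have h1 : cleanBallLines h bp u π = linesThrough h u := by
          unfold cleanBallLines
          apply Finset.filter_true_of_mem
          intro ℓ _ b
          exact (hempty.false b).elim
        have h2 : (univ.filter fun b => bp b ≠ u.1) = ∅ := by
          ext b; exact (hempty.false b).elim
        rw [h1, h2, hO.card_linesThrough] at hlt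
        simp at hlt
        linarith
      rw [Pr_eq_card]
      have : univ.filter (fun π : B → V => Δ < |(rho h (Zof bp π) u : ℝ) - q * (1 - 1 / (q:ℝ)) ^ (univ.filter fun b => bp b ≠ u.1).card|) = ∅ :=
        Finset.filter_false_of_mem (fun π _ => hfalse π)
      rw [this]
      simp
    exact hzero.trans (by positivity)
  · have hBpos : (0:ℝ) < Fintype.card B := by
      have : 0 < Fintype.card B := Nat.pos_of_ne_zero hBe
      exact_mod_cast this
    set f : (B → V) → ℝ := fun π => ((cleanBallLines h bp u π).card : ℝ) with hf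
    set W := unif (fun _ : B => V) with hW
    have hmean : W.Exp f = q * (1 - 1 / (q:ℝ)) ^ (univ.filter fun b => bp b ≠ u.1).card := by
      rw [hW, unif_Exp_eq_Ex, hf, Ex_cleanBallLines hO]
    have hsum : (∑ _i : B, (1:ℝ) ^ 2) = Fintype.card B := by simp
    have hupper := W.Pr_mcdiarmid_ge f (fun _ => (1:ℝ))
      (fun i ω a b => cleanBallLines_diff hO bp u ω i a b) hΔ (by rw [hsum]; exact hBpos)
    have hlower := W.Pr_mcdiarmid_le f (fun _ => (1:ℝ))
      (fun i ω a b => cleanBallLines_diff hO bp u ω i a b) hΔ (by rw [hsum]; exact hBpos)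
    rw [hsum, hmean] at hupper hlower
    rw [hW, unif_Pr_eq_Pr] at hupper hlower
    have hexp : Real.exp (-(2 * Δ ^ 2) / (Fintype.card B : ℝ)) ≤ Real.exp (-(Δ ^ 2 / (8 * q))) := by
      apply Real.exp_le_exp.2
      have hB' : (Fintype.card B : ℝ) ≤ 16 * q := by exact_mod_cast hB
      rw [neg_div, neg_le_neg_iff, div_le_div_iff₀ (by positivity) hBpos]
      nlinarith [sq_nonneg Δ]
    calc _ ≤ Pr (fun π : B → V => (q * (1 - 1 / (q:ℝ)) ^ (univ.filter fun b => bp b ≠ u.1).card) + Δ ≤ f π ∨
            f π ≤ (q * (1 - 1 / (q:ℝ)) ^ (univ.filter fun b => bp b ≠ u.1).card) - Δ) := by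
          apply Pr_mono
          intro π hπ
          rw [rho_Zof_eq, lt_abs] at hπ
          rcases hπ with h1 | h1
          · left
            simp only [hf]
            linarith
          · right
            simp only [hf]
            linarith
      _ ≤ _ := Pr_or_le _ _
      _ ≤ _ := by
          have := hupper.trans hexp
          have := hlower.trans hexp
          linarith

/-- Uniform version: `|rho - ρ₀| ≤ Δ + mm` for all `u` where `ρ₀ = q (1-1/q)^{|B|}`
and `mm` bounds the number of balls on a part. -/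
theorem E1_prob (hO : OA q h) (bp : B → P) (hB : Fintype.card B ≤ 16 * q) (mm : ℕ)
    (hmm : ∀ i, (univ.filter fun b => bp b = i).card ≤ mm)
    (Δ : ℝ) (hΔ : 0 < Δ) :
    Pr (fun π : B → V => ∃ u : P × V,
      Δ + mm < |(rho h (Zof bp π) u : ℝ) - q * (1 - 1 / (q:ℝ)) ^ Fintype.card B|) ≤
      ((q + 1) * q : ℝ) * (2 * Real.exp (-(Δ ^ 2 / (8 * q)))) := by
  classical
  have hq : 0 < q := hO.q_pos
  have hqR : (0:ℝ) < q := by exact_mod_cast hq
  have hq1 : (1:ℝ) ≤ q := by exact_mod_cast hq
  have hcard : ((univ : Finset (P × V)).card : ℝ) = (q + 1) * q := by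
    rw [Finset.card_univ, hO.card_pt]
    push_cast
    ring
  have h1 := Pr_exists_le_card (univ : Finset (P × V))
    (fun u (π : B → V) => Δ < |(rho h (Zof bp π) u : ℝ) -
      q * (1 - 1 / (q:ℝ)) ^ (univ.filter fun b => bp b ≠ u.1).card|)
    (2 * Real.exp (-(Δ ^ 2 / (8 * q))))
    (fun u _ => rho_tail hO bp hB u Δ hΔ)
  rw [hcard] at h1
  refine le_trans (Pr_mono ?_) h1
  rintro π ⟨u, hu⟩
  refine ⟨u, Finset.mem_univ _, ?_⟩
  set r : ℝ := 1 - 1 / (q:ℝ) with hr
  have hr0 : 0 ≤ r := by
    rw [hr, sub_nonneg, div_le_one hqR]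
    exact hq1
  have hr1 : r ≤ 1 := by
    rw [hr]
    have : 0 ≤ 1 / (q:ℝ) := by positivity
    linarith
  set n := (univ.filter fun b => bp b ≠ u.1).card with hn
  have hk : Fintype.card B = n + (univ.filter fun b => bp b = u.1).card := by
    have := Finset.card_filter_add_card_filter_not (s := (univ : Finset B)) (fun b => bp b = u.1)
    rw [Finset.card_univ] at this
    rw [← this, hn]
    have h2 : (univ.filter fun b => ¬ bp b = u.1) = (univ.filter fun b => bp b ≠ u.1) := rfl
    rw [h2]
    ring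
  set k := (univ.filter fun b => bp b = u.1).card with hkdef
  have hkmm : (k : ℝ) ≤ mm := by exact_mod_cast hmm u.1
  have hdiff : 0 ≤ (q:ℝ) * r ^ n - q * r ^ Fintype.card B ∧ (q:ℝ) * r ^ n - q * r ^ Fintype.card B ≤ k := by
    rw [hk, pow_add]
    have hb1 : 1 - (k:ℝ) / q ≤ r ^ k := by
      have := one_add_mul_le_pow (a := -(1 / (q:ℝ))) (by
        have : 1 / (q:ℝ) ≤ 1 := by
          rw [div_le_one hqR]; exact hq1
        linarith) k
      have h3 : (1 + (-(1 / (q:ℝ)))) = r := by rw [hr]; ring
      rw [h3] at this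
      have h4 : 1 + (k:ℝ) * -(1 / (q:ℝ)) = 1 - (k:ℝ) / q := by ring
      rw [h4] at this
      exact this
    have hrn : 0 ≤ r ^ n := pow_nonneg hr0 n
    have hrn1 : r ^ n ≤ 1 := pow_le_one₀ hr0 hr1
    have hrk1 : r ^ k ≤ 1 := pow_le_one₀ hr0 hr1
    have hrk0 : 0 ≤ r ^ k := pow_nonneg hr0 k
    constructor
    · have : r ^ n * r ^ k ≤ r ^ n := by nlinarith
      nlinarith
    · have h5 : (q:ℝ) * (1 - r ^ k) ≤ k := by
        have h6 : (q:ℝ) * (1 - r ^ k) ≤ q * ((k:ℝ) / q) := by
          apply mul_le_mul_of_nonneg_left _ hqR.le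
          linarith
        have h7 : (q:ℝ) * ((k:ℝ) / q) = k := by field_simp
        linarith
      have h8 : (q:ℝ) * r ^ n - q * (r ^ n * r ^ k) = r ^ n * ((q:ℝ) * (1 - r ^ k)) := by ring
      rw [h8]
      have h9 : 0 ≤ (q:ℝ) * (1 - r ^ k) := by
        apply mul_nonneg hqR.le; linarith
      nlinarith
  rw [lt_abs] at hu ⊢
  rcases hu with hu | hu
  · left; linarith [hdiff.1, hdiff.2]
  · right; linarith [hdiff.1, hdiff.2]

/-- Bound on the number of points of `Z` on a line: `P(∃ ℓ, r ≤ #balls on ℓ) ≤ q^2 (e |B|/(q r))^r`. -/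
theorem E2_prob (hO : OA q h) (bp : B → P) (r : ℕ) (hr : 1 ≤ r) :
    Pr (fun π : B → V => ∃ ℓ : L, r ≤ ((Zof bp π).filter (On h ℓ)).card) ≤
      (q ^ 2 : ℝ) * (Real.exp 1 * ((Fintype.card B : ℝ) / q) / r) ^ r := by
  classical
  have hq : 0 < q := hO.q_pos
  have hqR : (0:ℝ) < q := by exact_mod_cast hq
  haveI : Nonempty V := by
    have : 0 < Fintype.card V := by rw [hO.cardV]; exact hq
    exact Fintype.card_pos_iff.1 this
  have hle : ∀ (ℓ : L) (π : B → V), ((Zof bp π).filter (On h ℓ)).card ≤
      (univ.filter (fun b => π b ∈ ({h ℓ (bp b)} : Finset V))).card := by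
    intro ℓ π
    have hsub : (Zof bp π).filter (On h ℓ) ⊆
        (univ.filter (fun b => π b ∈ ({h ℓ (bp b)} : Finset V))).image (fun b => (bp b, π b)) := by
      intro x hx
      rw [Finset.mem_filter] at hx
      obtain ⟨b, rfl⟩ := mem_Zof.1 hx.1
      refine Finset.mem_image.2 ⟨b, ?_, rfl⟩
      rw [Finset.mem_filter, Finset.mem_singleton]
      exact ⟨Finset.mem_univ _, Eq.symm hx.2⟩
    exact (Finset.card_le_card hsub).trans Finset.card_image_le
  by_cases hBe : Fintype.card B = 0
  · have hempty : IsEmpty B := Fintype.card_eq_zero_iff.1 hBe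
    have hfalse : ∀ π : B → V, ¬ ∃ ℓ : L, r ≤ ((Zof bp π).filter (On h ℓ)).card := by
      rintro π ⟨ℓ, hℓ⟩
      have h1 := hle ℓ π
      have h2 : (univ.filter (fun b => π b ∈ ({h ℓ (bp b)} : Finset V))) = ∅ := by
        ext b; exact (hempty.false b).elim
      rw [h2, Finset.card_empty] at h1
      omega
    have hP : Pr (fun π : B → V => ∃ ℓ : L, r ≤ ((Zof bp π).filter (On h ℓ)).card) = 0 := by
      rw [Pr_eq_card, Finset.filter_false_of_mem (fun π _ => hfalse π)]
      simp
    rw [hP, hBe]
    simp only [Nat.cast_zero, zero_div, mul_zero]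
    rw [zero_pow (by omega)]
    simp
  · have hBpos : (0:ℝ) < Fintype.card B := by
      have : 0 < Fintype.card B := Nat.pos_of_ne_zero hBe
      exact_mod_cast this
    have hμ : 0 < (Fintype.card B : ℝ) / q := by positivity
    have hone : ∀ ℓ : L, Pr (fun π : B → V => r ≤ ((Zof bp π).filter (On h ℓ)).card) ≤
        (Real.exp 1 * ((Fintype.card B : ℝ) / q) / r) ^ r := by
      intro ℓ
      refine le_trans (Pr_mono (fun π hπ => (?_ : r ≤ (univ.filter (fun b => π b ∈ ({h ℓ (bp b)} : Finset V))).card))) ?_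
      · exact hπ.trans (hle ℓ π)
      · apply rare_balls (fun b => ({h ℓ (bp b)} : Finset V)) _ _ hμ r hr
        simp only [Finset.card_singleton, Nat.cast_one, Finset.sum_const, Finset.card_univ, nsmul_eq_mul, hO.cardV]
        rw [mul_one_div]
    have h1 := Pr_exists_le_card (univ : Finset L)
      (fun ℓ (π : B → V) => r ≤ ((Zof bp π).filter (On h ℓ)).card)
      _ (fun ℓ _ => hone ℓ)
    have hcard : ((univ : Finset L).card : ℝ) = (q:ℝ) ^ 2 := by
      rw [Finset.card_univ, hO.card_L]
      push_cast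
      ring
    rw [hcard] at h1
    refine le_trans (Pr_mono ?_) h1
    rintro π ⟨ℓ, hℓ⟩
    exact ⟨ℓ, Finset.mem_univ _, hℓ⟩

end Crest.Agent.Ryser
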