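import Crest.Agent.Lib.Ryser.Design

/-!
# Endgame (Part C of finding 635): no cover of size `≤ q`
-/

set_option autoImplicit false

namespace Crest.Agent.Lib.Ryser

open Finset

variable {F : Type} [Field F] [Fintype F] [DecidableEq F]

/-- Generic double counting. -/
lemma double_count {α β γ : Type} [DecidableEq γ] (A : Finset α) (X : Finset β)
    (h : α → Finset γ) (W : α → ℕ) (inc : β → γ → Prop) [∀ x l, Decidable (inc x l)] (N₁ N₂ : ℕ)
    (h1 : ∀ z ∈ A, N₁ ≤ W z * (h z).card)
    (h2 : ∀ z ∈ A, ∀ l ∈ h z, ∃ x ∈ X, inc x l)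
    (h3 : ∀ x ∈ X, ∑ z ∈ A, W z * ((h z).filter (inc x)).card ≤ N₂) :
    A.card * N₁ ≤ X.card * N₂ := by
  classical
  have hz : ∀ z ∈ A, (h z).card ≤ ∑ x ∈ X, ((h z).filter (inc x)).card := by
    intro z hzA
    have hsub : h z ⊆ X.biUnion (fun x => (h z).filter (inc x)) := by
      intro l hl
      obtain ⟨x, hx, hxl⟩ := h2 z hzA l hl
      exact mem_biUnion.2 ⟨x, hx, mem_filter.2 ⟨hl, hxl⟩⟩
    exact (card_le_card hsub).trans card_biUnion_le
  calc A.card * N₁ = ∑ z ∈ A, N₁ := by simp
    _ ≤ ∑ z ∈ A, W z * (h z).card := sum_le_sum h1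
    _ ≤ ∑ z ∈ A, W z * ∑ x ∈ X, ((h z).filter (inc x)).card :=
        sum_le_sum (fun z hzA => Nat.mul_le_mul_left _ (hz z hzA))
    _ = ∑ x ∈ X, ∑ z ∈ A, W z * ((h z).filter (inc x)).card := by
        simp_rw [mul_sum]
        exact sum_comm
    _ ≤ ∑ x ∈ X, N₂ := sum_le_sum h3
    _ = X.card * N₂ := by simp

/-! Pure `Fin 4` facts. -/

/-- Weight of a gadget with hit set `H`. -/
def wt (H : Finset (Fin 4)) : ℕ := if H.Nonempty then 2 else 1

/-- Types not touching the hit set. -/
def tyOf (H : Finset (Fin 4)) : Finset (Fin 4) := univ.filter (fun j => j ∉ H ∧ j + 1 ∉ H)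

lemma wt_tyOf (H : Finset (Fin 4)) (hH : H.card ≤ 1) : 12 ≤ wt H * (3 * (tyOf H).card) := by
  revert H; decide

lemma wt_tyOf_par (H : Finset (Fin 4)) (hH : H.card ≤ 1) (e : Bool) :
    wt H * ((tyOf H).filter (fun j => par j = e)).card ≤ 2 := by
  revert H e; decide

lemma fin4_adj (k : Fin 4) : (univ.filter (fun j : Fin 4 => j = k ∨ j + 1 = k)).card = 2 := by
  revert k; decide

lemma fin4_par (e : Bool) : (univ.filter (fun j : Fin 4 => par j = e)).card = 2 := by
  revert e; decide

lemma fin4_opp (j k : Fin 4) (h1 : k = j + 2 ∨ k = j + 2 + 1) (h2 : k = j ∨ k = j + 1) : False := by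
  revert j k; decide

lemma fin4_ne (j : Fin 4) : j ≠ j + 2 := by revert j; decide

namespace Design

variable {ι : Type} [Fintype ι] [DecidableEq ι] (D : Design F ι)

/-- The label of a non-active point. -/
def ptLab (u : Pt F) : Vx F := if u ∈ D.Cls then .mrg u.1 else .ord u

lemma lab_eq_ptLab {l : Ln F} {u : Pt F} (hu : u ∉ D.Act) (hul : OnLn u l) :
    D.lab l u.1 = D.ptLab u := by
  have h : ptOn l u.1 = u := (eq_ptOn_of_onLn hul).symm
  rw [D.lab_of_not_act (by rw [h]; exact hu), h]
  rfl

lemma lab_eq_sg {l : Ln F} {i : Option F} {z : Pt F} {e : Bool} (h : D.lab l i = .sg z e) :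
    ptOn l i = z ∧ z ∈ D.Act := by
  unfold lab at h
  split_ifs at h with h1 h2
  simp only [Vx.sg.injEq] at h
  exact ⟨h.1, h.1 ▸ h1⟩

lemma lab_eq_mrg {l : Ln F} {i c : Option F} (h : D.lab l i = .mrg c) :
    i = c ∧ ptOn l i ∈ D.Cls := by
  unfold lab at h
  split_ifs at h with h1 h2
  simp only [Vx.mrg.injEq] at h
  exact ⟨h, h2⟩

lemma lab_eq_ord {l : Ln F} {i : Option F} {p : Pt F} (h : D.lab l i = .ord p) :
    ptOn l i = p ∧ p ∉ D.Act ∧ p ∉ D.Cls := by
  unfold lab at h
  split_ifs at h with h1 h2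
  simp only [Vx.ord.injEq] at h
  exact ⟨h, h ▸ h1, h ▸ h2⟩

/-- The forcing lemma: if too many clean lines through `u` avoid the set `B` of points whose
ordinary labels lie in `T`, then the label of `u` lies in `T`. -/
lemma forced (T : Finset (Vx F)) (hT : ∀ l, D.good l → ∃ i, D.lab l i ∈ T)
    (hcard : T.card ≤ Fintype.card F) (B : Finset (Pt F)) (hB : ∀ y ∈ B, Vx.ord y ∈ T)
    {u : Pt F} (hu : u ∉ D.Act) (L' : Finset (Ln F))
    (hL1 : ∀ l' ∈ L', OnLn u l') (hL2 : ∀ l' ∈ L', ∀ x ∈ D.Zall, OnLn x l' → x = u)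
    (hL3 : ∀ l' ∈ L', ∀ y ∈ B, ¬ OnLn y l')
    (hbig : Fintype.card F < B.card + L'.card) : D.ptLab u ∈ T := by
  classical
  by_contra hnot
  have key : ∀ l' ∈ L', ∃ x, OnLn x l' ∧ x ≠ u ∧ Vx.ord x ∈ T := by
    intro l' hl'
    obtain ⟨i, hi⟩ := hT l' (D.good_of_clean hu (hL2 l' hl'))
    by_cases hiu : i = u.1
    · subst hiu
      rw [D.lab_eq_ptLab hu (hL1 l' hl')] at hi
      exact absurd hi hnot
    · have hne : ptOn l' i ≠ u := fun h => hiu (by rw [← h]; rfl)
      have hz : ptOn l' i ∉ D.Zall := fun h => hne (hL2 l' hl' _ h (onLn_ptOn _ _))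
      have ha : ptOn l' i ∉ D.Act := fun h => hz (D.act_sub h)
      have hc : ptOn l' i ∉ D.Cls := fun h => hz (D.cls_sub h)
      rw [D.lab_of_not_act ha, if_neg hc] at hi
      exact ⟨ptOn l' i, onLn_ptOn _ _, hne, hi⟩
  choose! f hf1 hf2 hf3 using key
  have hinj : Set.InjOn f L' := by
    intro l hl l' hl' h
    by_contra hne
    have hx := hf1 l hl
    have hx' := hf1 l' hl'
    rw [← h] at hx'
    exact hf2 l hl (eq_of_onLn_of_onLn hne (hL1 l hl) (hL1 l' hl') hx hx').symm
  have hdisj : Disjoint B (L'.image f) := by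
    rw [Finset.disjoint_left]
    intro y hy hy'
    obtain ⟨l', hl', rfl⟩ := mem_image.1 hy'
    exact hL3 l' hl' _ hy (hf1 l' hl')
  have hcardP : (B ∪ L'.image f).card = B.card + L'.card := by
    rw [card_union_of_disjoint hdisj, card_image_of_injOn hinj]
  have hsub : (B ∪ L'.image f).image Vx.ord ⊆ T := by
    intro v hv
    obtain ⟨y, hy, rfl⟩ := mem_image.1 hv
    rcases mem_union.1 hy with hy | hy
    · exact hB y hy
    · obtain ⟨l', hl', rfl⟩ := mem_image.1 hy
      exact hf3 l' hl'
  have hle := card_le_card hsub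
  rw [card_image_of_injective _ (fun a b h => by simpa using h), hcardP] at hle
  omega

/-! ### Lines through a chosen active -/

lemma gad_card_union {z : Pt F} (hz : z ∈ D.Act) (J : Finset (Fin 4)) :
    (J.biUnion (D.gad z)).card = 3 * J.card := by
  rw [card_biUnion]
  · simp only [D.gad_card z hz, sum_const, smul_eq_mul]
    ring
  · intro j _ j' _ hne
    show Disjoint (D.gad z j) (D.gad z j')
    rw [Finset.disjoint_left]
    intro l hl hl'
    exact hne (D.gad_type_unique hz hl hl')

/-- Gadget-line analysis: equal labels of `l₀` and a gadget line `l' ≠ l₀` at a non-active point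
of `l₀` can only be merged labels. -/
lemma lab_forced_analysis {z : Pt F} (hz : z ∈ D.Act) {l₀ l' : Ln F} (hne : l₀ ≠ l')
    (hz0 : OnLn z l₀) {j : Fin 4} (hl' : l' ∈ D.gad z j) {i : Option F}
    (hi : ptOn l₀ i ∉ D.Act) (h : D.lab l₀ i = D.lab l' i) :
    ptOn l₀ i ∈ D.Cls ∧ ptOn l' i ∈ D.Cls := by
  have hzl' := D.gad_through z hz j l' hl'
  have hiz : i ≠ z.1 := by
    intro hiz
    subst hiz
    have : ptOn l₀ z.1 = z := (eq_ptOn_of_onLn hz0).symm
    rw [this] at hi
    exact hi hz
  have hx' : ptOn l' i ∉ D.Act := by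
    intro hact
    have := D.act_on_gad hz hl' hact (onLn_ptOn _ _)
    exact hiz (by rw [← this]; rfl)
  have hne2 : ptOn l₀ i ≠ ptOn l' i := by
    intro he
    have h1 : ht l₀ i = ht l' i := congrArg Prod.snd he
    exact hiz (ht_agree_unique hne h1 (hz0.trans hzl'.symm))
  rw [D.lab_of_not_act hi, D.lab_of_not_act hx'] at h
  by_cases h1 : ptOn l₀ i ∈ D.Cls <;> by_cases h2 : ptOn l' i ∈ D.Cls
  · exact ⟨h1, h2⟩
  · rw [if_pos h1, if_neg h2] at h; cases h
  · rw [if_neg h1, if_pos h2] at h; cases h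
  · rw [if_neg h1, if_neg h2] at h
    simp only [Vx.ord.injEq] at h
    exact absurd h hne2

/-! ### Counting on a part -/

omit [Field F] in
lemma card_part_filter (A : Finset (Pt F)) (i : Option F) :
    (A.filter (fun z => z.1 = i)).card = (univ.filter (fun y : F => (i, y) ∈ A)).card := by
  apply card_nbij' (fun z => z.2) (fun y => (i, y))
  · intro z hz
    simp only [coe_filter, Set.mem_ofPred_eq, mem_univ, true_and] at hz ⊢
    have : (i, z.2) = z := by ext1; exact hz.2.symm; rfl
    rw [this]; exact hz.1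
  · intro y hy
    simpa using hy
  · intro z hz
    simp only [coe_filter, Set.mem_ofPred_eq] at hz
    ext1
    · exact hz.2.symm
    · rfl
  · intro y _
    rfl

/-- Ordinary points of a part. -/
def ordsOn (i : Option F) : Finset F := univ.filter (fun y => (i, y) ∉ D.Act ∧ (i, y) ∉ D.Cls)

lemma card_ordsOn_add (i : Option F) :
    (D.ordsOn i).card + (D.Act.filter (fun z => z.1 = i)).card +
      (D.Cls.filter (fun z => z.1 = i)).card = Fintype.card F := by
  classical
  rw [card_part_filter, card_part_filter]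
  have hdisj : Disjoint (univ.filter (fun y : F => (i, y) ∈ D.Act))
      (univ.filter (fun y : F => (i, y) ∈ D.Cls)) := by
    rw [Finset.disjoint_left]
    intro y hy hy'
    simp only [mem_filter, mem_univ, true_and] at hy hy'
    exact D.act_not_cls hy hy'
  have hdisj2 : Disjoint (D.ordsOn i) (univ.filter (fun y : F => (i, y) ∈ D.Act) ∪
      univ.filter (fun y : F => (i, y) ∈ D.Cls)) := by
    rw [Finset.disjoint_left]
    intro y hy hy'
    simp only [ordsOn, mem_filter, mem_univ, true_and, mem_union] at hy hy'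
    rcases hy' with h | h
    · exact hy.1 h
    · exact hy.2 h
  have hunion : D.ordsOn i ∪ (univ.filter (fun y : F => (i, y) ∈ D.Act) ∪
      univ.filter (fun y : F => (i, y) ∈ D.Cls)) = univ := by
    ext y
    simp only [ordsOn, mem_union, mem_filter, mem_univ, true_and, iff_true]
    tauto
  have := congrArg card hunion
  rw [card_union_of_disjoint hdisj2, card_union_of_disjoint hdisj, card_univ] at this
  omega

/-- The forced labels of a part. -/
def forcedPart (i : Option F) : Finset (Vx F) :=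
  (D.ordsOn i).image (fun y => Vx.ord (i, y)) ∪
    (if ∃ g j, i = D.cl g j then {Vx.mrg i} else ∅)

lemma forcedPart_part {i : Option F} {v : Vx F} (hv : v ∈ D.forcedPart i) : v.part = i := by
  rcases mem_union.1 hv with h | h
  · obtain ⟨y, _, rfl⟩ := mem_image.1 h
    rfl
  · split_ifs at h
    · rw [mem_singleton] at h
      rw [h]; rfl
    · simp at h

lemma forcedPart_not_sg {i : Option F} {z : Pt F} {e : Bool} : Vx.sg z e ∉ D.forcedPart i := by
  intro hv
  rcases mem_union.1 hv with h | h
  · obtain ⟨y, _, h⟩ := mem_image.1 h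
    cases h
  · split_ifs at h
    · rw [mem_singleton] at h
      cases h
    · simp at h

lemma card_forcedPart_add (i : Option F) :
    (D.forcedPart i).card + 2 * (D.Act.filter (fun z => z.1 = i)).card = Fintype.card F + 1 := by
  classical
  have h0 := D.card_ordsOn_add i
  have hinj : ((D.ordsOn i).image (fun y => Vx.ord (i, y))).card = (D.ordsOn i).card :=
    card_image_of_injective _ (fun a b h => by simpa using h)
  by_cases hsp : ∃ g j, i = D.cl g j
  · have hdisj : Disjoint ((D.ordsOn i).image (fun y => Vx.ord (i, y))) {Vx.mrg i} := by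
      rw [Finset.disjoint_left]
      intro v hv hv'
      obtain ⟨y, _, rfl⟩ := mem_image.1 hv
      simp at hv'
    rw [forcedPart, if_pos hsp, card_union_of_disjoint hdisj, hinj, card_singleton]
    obtain ⟨g, j, rfl⟩ := hsp
    have := D.act_special g j
    omega
  · push Not at hsp
    rw [forcedPart, if_neg (by push Not; exact hsp), union_empty, hinj]
    have h1 := D.act_normal i hsp
    have h2 : (D.Cls.filter (fun z => z.1 = i)).card = 0 := by
      rw [card_eq_zero, filter_eq_empty_iff]
      intro x hx hxi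
      obtain ⟨g, j, h⟩ := D.cls_special x hx
      exact hsp g j (hxi ▸ h)
    omega

lemma ball_part_B (i : Option F) :
    Fintype.card F ≤ ((univ.filter (fun y : F => (i, y) ∉ D.Zall)).image (fun y => ((i, y) : Pt F))).card
      + D.R := by
  classical
  have h1 := D.ball_part i
  rw [card_part_filter] at h1
  rw [card_image_of_injective _ (fun a b h => by simpa using h)]
  have h2 := card_filter_add_card_filter_not (s := (univ : Finset F))
    (fun y : F => (i, y) ∈ D.Zall)
  rw [card_univ] at h2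
  omega

/-- Clean lines through `u`. -/
def cleanThrough (u : Pt F) : Finset (Ln F) :=
  (linesThrough u).filter (fun l => ∀ x ∈ D.Zall, OnLn x l → x = u)

lemma mem_cleanThrough {u : Pt F} {l : Ln F} :
    l ∈ D.cleanThrough u ↔ OnLn u l ∧ ∀ x ∈ D.Zall, OnLn x l → x = u := by
  simp [cleanThrough, mem_linesThrough]

/-! ### The case of a part -/

theorem no_part_case (T : Finset (Vx F)) (hT : ∀ l, D.good l → ∃ i, D.lab l i ∈ T)
    (hcard : T.card ≤ Fintype.card F) (i : Option F)
    (hB : ∀ y, ((i, y) : Pt F) ∉ D.Zall → Vx.ord (i, y) ∈ T) : False := by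
  classical
  set B : Finset (Pt F) := (univ.filter (fun y : F => (i, y) ∉ D.Zall)).image (fun y => ((i, y) : Pt F))
    with hBdef
  have hBT : ∀ y ∈ B, Vx.ord y ∈ T := by
    intro y hy
    obtain ⟨y', hy', rfl⟩ := mem_image.1 hy
    exact hB y' (mem_filter.1 hy').2
  -- forcing for a ball `u` on the part `i`
  have hforce : ∀ u : Pt F, u.1 = i → u ∈ D.Zall → u ∉ D.Act → D.ptLab u ∈ T := by
    intro u hui huZ huA
    refine D.forced T hT hcard B hBT huA (D.cleanThrough u)
      (fun l hl => (D.mem_cleanThrough.1 hl).1) (fun l hl => (D.mem_cleanThrough.1 hl).2) ?_ ?_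
    · intro l hl y hy hyl
      obtain ⟨y', hy', rfl⟩ := mem_image.1 hy
      have h1 : ((i, y') : Pt F) = u :=
        eq_of_onLn_same_part (by simpa using hui.symm) hyl (D.mem_cleanThrough.1 hl).1
      exact (mem_filter.1 hy').2 (h1 ▸ huZ)
    · have h1 : Fintype.card F ≤ B.card + D.R := D.ball_part_B i
      have h2 := D.rho_lb u
      have h3 := D.R_lt
      have h4 : D.rho ≤ (D.cleanThrough u).card := h2
      omega
  -- the forced set lies in `T`
  have hsub : D.forcedPart i ⊆ T := by
    intro v hv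
    rcases mem_union.1 hv with h | h
    · obtain ⟨y, hy, rfl⟩ := mem_image.1 h
      have hy2 := (mem_filter.1 hy).2
      by_cases hZ : ((i, y) : Pt F) ∈ D.Zall
      · have := hforce (i, y) rfl hZ hy2.1
        rwa [ptLab, if_neg hy2.2] at this
      · exact hB y hZ
    · split_ifs at h with hsp
      · rw [mem_singleton] at h
        subst h
        obtain ⟨g, j, rfl⟩ := hsp
        obtain ⟨u, hu⟩ := D.cls_nonempty g j
        rw [mem_filter] at hu
        have := hforce u hu.2 (D.cls_sub hu.1) (D.cls_not_act hu.1)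
        rwa [ptLab, if_pos hu.1, hu.2] at this
      · simp at h
  set X := T \ D.forcedPart i with hX
  have hXcard : X.card + (D.forcedPart i).card = T.card := by
    rw [hX, card_sdiff_add_card_eq_card hsub]
  set A := D.Act.filter (fun z => z.1 = i) with hA
  have hFcard : (D.forcedPart i).card + 2 * A.card = Fintype.card F + 1 := D.card_forcedPart_add i
  have hAz : ∀ z ∈ A, z ∈ D.Act ∧ z.1 = i := fun z hz => mem_filter.1 hz
  -- double counting
  have hdc := double_count A X (fun z => (univ : Finset (Fin 4)).biUnion (D.gad z)) (fun _ => 1)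
    (fun x l => x ∈ D.edge l) 12 6 ?_ ?_ ?_
  · have : X.card + 1 ≤ 2 * A.card := by omega
    omega
  · intro z hz
    rw [D.gad_card_union (hAz z hz).1]
    simp
  · intro z hz l hl
    obtain ⟨j, _, hj⟩ := mem_biUnion.1 hl
    obtain ⟨hzA, hzi⟩ := hAz z hz
    obtain ⟨i₁, hi₁⟩ := hT l (D.good_of_gad hzA hj)
    refine ⟨D.lab l i₁, mem_sdiff.2 ⟨hi₁, ?_⟩, D.lab_mem_edge _ _⟩
    intro hmem
    have hp := D.forcedPart_part hmem
    simp only [lab_part] at hp
    subst hp
    rw [← hzi, D.lab_at_act hzA hj] at hmem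
    exact D.forcedPart_not_sg hmem
  · intro x hx
    simp only [one_mul]
    have hxF : x ∉ D.forcedPart i := (mem_sdiff.1 hx).2
    cases x with
    | sg z₀ e =>
      -- only `z₀` counts
      have hsingle : ∀ z ∈ A, z ≠ z₀ →
          ((univ.biUnion (D.gad z)).filter (fun l => Vx.sg z₀ e ∈ D.edge l)).card = 0 := by
        intro z hz hne
        rw [card_eq_zero, filter_eq_empty_iff]
        intro l hl hmem
        obtain ⟨j, _, hj⟩ := mem_biUnion.1 hl
        obtain ⟨i₁, hi₁⟩ := D.mem_edge.1 hmem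
        obtain ⟨h1, h2⟩ := D.lab_eq_sg hi₁
        have := D.act_on_gad (hAz z hz).1 hj h2 (h1 ▸ onLn_ptOn l i₁)
        exact hne this.symm
      have hbound : ((univ.biUnion (D.gad z₀)).filter (fun l => Vx.sg z₀ e ∈ D.edge l)).card ≤ 6 ∨
          z₀ ∉ A := by
        by_cases hz₀ : z₀ ∈ A
        · left
          have hsubs : (univ.biUnion (D.gad z₀)).filter (fun l => Vx.sg z₀ e ∈ D.edge l) ⊆
              (univ.filter (fun j : Fin 4 => par j = e)).biUnion (D.gad z₀) := by
            intro l hl
            obtain ⟨hl1, hl2⟩ := mem_filter.1 hl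
            obtain ⟨j, _, hj⟩ := mem_biUnion.1 hl1
            obtain ⟨i₁, hi₁⟩ := D.mem_edge.1 hl2
            obtain ⟨h1, h2⟩ := D.lab_eq_sg hi₁
            have hi₁z : i₁ = z₀.1 := by rw [← h1]; rfl
            subst hi₁z
            rw [D.lab_at_act (hAz z₀ hz₀).1 hj] at hi₁
            simp only [Vx.sg.injEq] at hi₁
            exact mem_biUnion.2 ⟨j, mem_filter.2 ⟨mem_univ _, hi₁.2⟩, hj⟩
          have := card_le_card hsubs
          rw [D.gad_card_union (hAz z₀ hz₀).1, fin4_par] at this
          omega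
        · exact Or.inr hz₀
      by_cases hz₀ : z₀ ∈ A
      · rw [sum_eq_single_of_mem z₀ hz₀ (fun z hz hne => hsingle z hz hne)]
        rcases hbound with h | h
        · exact h
        · exact absurd hz₀ h
      · rw [sum_eq_zero]
        · omega
        · intro z hz
          exact hsingle z hz (fun h => hz₀ (h ▸ hz))
    | mrg c =>
      -- at most one active of the part has `c` in its group
      have hn : ∀ z ∈ A, (∀ k, D.cl (D.grp z) k ≠ c) →
          ((univ.biUnion (D.gad z)).filter (fun l => Vx.mrg c ∈ D.edge l)).card = 0 := by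
        intro z hz hk
        rw [card_eq_zero, filter_eq_empty_iff]
        intro l hl hmem
        obtain ⟨j, _, hj⟩ := mem_biUnion.1 hl
        obtain ⟨i₁, hi₁⟩ := D.mem_edge.1 hmem
        obtain ⟨h1, h2⟩ := D.lab_eq_mrg hi₁
        subst h1
        rcases D.cls_on_gad (hAz z hz).1 hj h2 (onLn_ptOn _ _) with h | h
        · exact hk j h.symm
        · exact hk (j + 1) h.symm
      have hn6 : ∀ z ∈ A, ((univ.biUnion (D.gad z)).filter (fun l => Vx.mrg c ∈ D.edge l)).card ≤ 6 := by
        intro z hz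
        by_cases hk : ∀ k, D.cl (D.grp z) k ≠ c
        · rw [hn z hz hk]; omega
        · push Not at hk
          obtain ⟨k, hk⟩ := hk
          have hsubs : (univ.biUnion (D.gad z)).filter (fun l => Vx.mrg c ∈ D.edge l) ⊆
              (univ.filter (fun j : Fin 4 => j = k ∨ j + 1 = k)).biUnion (D.gad z) := by
            intro l hl
            obtain ⟨hl1, hl2⟩ := mem_filter.1 hl
            obtain ⟨j, _, hj⟩ := mem_biUnion.1 hl1
            obtain ⟨i₁, hi₁⟩ := D.mem_edge.1 hl2
            obtain ⟨h1, h2⟩ := D.lab_eq_mrg hi₁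
            subst h1
            refine mem_biUnion.2 ⟨j, mem_filter.2 ⟨mem_univ _, ?_⟩, hj⟩
            rcases D.cls_on_gad (hAz z hz).1 hj h2 (onLn_ptOn _ _) with h | h
            · left
              exact (D.cl_inj _ _ _ _ (h.symm.trans hk.symm)).2
            · right
              exact (D.cl_inj _ _ _ _ (h.symm.trans hk.symm)).2
          have := card_le_card hsubs
          rw [D.gad_card_union (hAz z hz).1, fin4_adj] at this
          omega
      by_cases hex : ∃ z ∈ A, ∃ k, D.cl (D.grp z) k = c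
      · obtain ⟨z₁, hz₁, k₁, hk₁⟩ := hex
        rw [sum_eq_single_of_mem z₁ hz₁]
        · exact hn6 z₁ hz₁
        · intro z hz hne
          apply hn z hz
          intro k hk
          have hg := (D.cl_inj _ _ _ _ (hk.trans hk₁.symm)).1
          exact D.grp_part z (hAz z hz).1 z₁ (hAz z₁ hz₁).1 hne
            ((hAz z hz).2.trans (hAz z₁ hz₁).2.symm) hg
      · push Not at hex
        rw [sum_eq_zero]
        · omega
        · intro z hz
          exact hn z hz (hex z hz)
    | ord p =>
      -- `p` is not on the part, or nothing is counted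
      have hzero : p.1 = i → ∀ z ∈ A,
          ((univ.biUnion (D.gad z)).filter (fun l => Vx.ord p ∈ D.edge l)).card = 0 := by
        intro hpi z hz
        rw [card_eq_zero, filter_eq_empty_iff]
        intro l hl hmem
        obtain ⟨j, _, hj⟩ := mem_biUnion.1 hl
        obtain ⟨i₁, hi₁⟩ := D.mem_edge.1 hmem
        obtain ⟨h1, h2, h3⟩ := D.lab_eq_ord hi₁
        have hi₁p : i₁ = p.1 := by rw [← h1]; rfl
        have hzl := D.gad_through z (hAz z hz).1 j l hj
        have hp : p = z := eq_of_onLn_same_part (by rw [hpi, (hAz z hz).2]) (h1 ▸ onLn_ptOn l i₁) hzl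
        exact h2 (hp ▸ (hAz z hz).1)
      by_cases hpi : p.1 = i
      · rw [sum_eq_zero]
        · omega
        · exact hzero hpi
      · have hone : ∀ z ∈ A,
            ((univ.biUnion (D.gad z)).filter (fun l => Vx.ord p ∈ D.edge l)).card ≤ 1 := by
          intro z hz
          rw [card_le_one]
          intro l hl l' hl'
          obtain ⟨hl1, hl2⟩ := mem_filter.1 hl
          obtain ⟨hl1', hl2'⟩ := mem_filter.1 hl'
          obtain ⟨j, _, hj⟩ := mem_biUnion.1 hl1
          obtain ⟨j', _, hj'⟩ := mem_biUnion.1 hl1'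
          obtain ⟨i₁, hi₁⟩ := D.mem_edge.1 hl2
          obtain ⟨i₂, hi₂⟩ := D.mem_edge.1 hl2'
          have hp1 := (D.lab_eq_ord hi₁).1
          have hp2 := (D.lab_eq_ord hi₂).1
          have hp1' : OnLn p l := hp1 ▸ onLn_ptOn l i₁
          have hp2' : OnLn p l' := hp2 ▸ onLn_ptOn l' i₂
          have hne : z.1 ≠ p.1 := by
            rw [(hAz z hz).2]; exact fun h => hpi h.symm
          exact line_through_unique hne (D.gad_through z (hAz z hz).1 j l hj) hp1'
            (D.gad_through z (hAz z hz).1 j' l' hj') hp2'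
        set Gp := A.filter (fun z => 1 ≤ ((univ.biUnion (D.gad z)).filter
          (fun l => Vx.ord p ∈ D.edge l)).card) with hGp
        have hGcard : Gp.card ≤ 6 := by
          refine le_trans (card_le_card ?_) (D.pt_part_count p i hpi)
          intro z hz
          obtain ⟨hzA, hz1⟩ := mem_filter.1 hz
          obtain ⟨hz2, hz3⟩ := hAz z hzA
          refine mem_filter.2 ⟨hz2, hz3, ?_⟩
          obtain ⟨l, hl⟩ := card_pos.1 hz1
          obtain ⟨hl1, hl2⟩ := mem_filter.1 hl
          obtain ⟨j, _, hj⟩ := mem_biUnion.1 hl1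
          obtain ⟨i₁, hi₁⟩ := D.mem_edge.1 hl2
          exact ⟨j, l, hj, (D.lab_eq_ord hi₁).1 ▸ onLn_ptOn l i₁⟩
        calc ∑ z ∈ A, ((univ.biUnion (D.gad z)).filter (fun l => Vx.ord p ∈ D.edge l)).card
            ≤ ∑ z ∈ A, if 1 ≤ ((univ.biUnion (D.gad z)).filter
                (fun l => Vx.ord p ∈ D.edge l)).card then 1 else 0 := by
              refine sum_le_sum (fun z hz => ?_)
              have := hone z hz
              split_ifs with h
              · exact this
              · omega
          _ = Gp.card := (card_filter _ _).symm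
          _ ≤ 6 := hGcard

/-! ### The case of a line -/

/-- The forced labels of a line. -/
def forcedLine (l₀ : Ln F) : Finset (Vx F) :=
  (univ.filter (fun i => ptOn l₀ i ∉ D.Act)).image (D.lab l₀)

lemma mem_forcedLine {l₀ : Ln F} {v : Vx F} :
    v ∈ D.forcedLine l₀ ↔ ∃ i, ptOn l₀ i ∉ D.Act ∧ D.lab l₀ i = v := by
  simp [forcedLine]

lemma card_forcedLine_add (l₀ : Ln F) :
    (D.forcedLine l₀).card + (D.Act.filter (fun z => OnLn z l₀)).card = Fintype.card F + 1 := by
  classical
  have hinj : Function.Injective (D.lab l₀) := by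
    intro i j h
    have := congrArg Vx.part h
    simpa using this
  rw [forcedLine, card_image_of_injective _ hinj]
  have h1 : (D.Act.filter (fun z => OnLn z l₀)).card = (univ.filter (fun i => ptOn l₀ i ∈ D.Act)).card := by
    apply card_nbij' (fun z => z.1) (ptOn l₀)
    · intro z hz
      simp only [coe_filter, Set.mem_ofPred_eq, mem_univ, true_and] at hz ⊢
      rw [← eq_ptOn_of_onLn hz.2]; exact hz.1
    · intro i hi
      simp only [coe_filter, Set.mem_ofPred_eq, mem_univ, true_and] at hi ⊢
      exact ⟨hi, onLn_ptOn _ _⟩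
    · intro z hz
      simp only [coe_filter, Set.mem_ofPred_eq] at hz
      exact (eq_ptOn_of_onLn hz.2).symm
    · intro i _
      rfl
  rw [h1]
  have h2 := card_filter_add_card_filter_not (s := (univ : Finset (Option F)))
    (fun i => ptOn l₀ i ∈ D.Act)
  rw [card_univ, Fintype.card_option] at h2
  omega

lemma forcedLine_sub (T : Finset (Vx F)) (hT : ∀ l, D.good l → ∃ i, D.lab l i ∈ T)
    (hcard : T.card ≤ Fintype.card F) (l₀ : Ln F)
    (hA : ∀ x, OnLn x l₀ → x ∉ D.Zall → Vx.ord x ∈ T) : D.forcedLine l₀ ⊆ T := by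
  classical
  intro v hv
  obtain ⟨i, hi, rfl⟩ := D.mem_forcedLine.1 hv
  set u := ptOn l₀ i with hu
  have hul : OnLn u l₀ := onLn_ptOn _ _
  have hlab : D.lab l₀ i = D.ptLab u := D.lab_eq_ptLab hi hul
  rw [hlab]
  by_cases hZ : u ∈ D.Zall
  · set B := (ptsOf l₀).filter (fun x => x ∉ D.Zall) with hB
    have hBcard : Fintype.card F + 1 ≤ B.card + D.R := by
      have h1 := card_filter_add_card_filter_not (s := ptsOf l₀) (fun x => x ∈ D.Zall)
      rw [card_ptsOf] at h1
      have h2 : ((ptsOf l₀).filter (fun x => x ∈ D.Zall)).card ≤ D.R := by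
        refine le_trans (card_le_card ?_) (D.ball_line l₀)
        intro x hx
        rw [mem_filter] at hx ⊢
        exact ⟨hx.2, mem_ptsOf.1 hx.1⟩
      rw [hB]
      omega
    refine D.forced T hT hcard B ?_ hi ((D.cleanThrough u).erase l₀) ?_ ?_ ?_ ?_
    · intro y hy
      rw [hB, mem_filter, mem_ptsOf] at hy
      exact hA y hy.1 hy.2
    · intro l hl
      exact (D.mem_cleanThrough.1 (mem_of_mem_erase hl)).1
    · intro l hl
      exact (D.mem_cleanThrough.1 (mem_of_mem_erase hl)).2
    · intro l hl y hy hyl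
      rw [hB, mem_filter, mem_ptsOf] at hy
      have hne : l ≠ l₀ := ne_of_mem_erase hl
      have := eq_of_onLn_of_onLn hne (D.mem_cleanThrough.1 (mem_of_mem_erase hl)).1 hul hyl hy.1
      exact hy.2 (this ▸ hZ)
    · have h2 : D.rho ≤ (D.cleanThrough u).card := D.rho_lb u
      have h3 := D.R_lt
      have h4 := pred_card_le_card_erase (s := D.cleanThrough u) (a := l₀)
      omega
  · have ha : u ∉ D.Cls := fun h => hZ (D.cls_sub h)
    rw [ptLab, if_neg ha]
    exact hA u hul hZ

/-- The case of a gadget line. -/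
theorem no_gadget_line_case (T : Finset (Vx F)) (hT : ∀ l, D.good l → ∃ i, D.lab l i ∈ T)
    (hcard : T.card ≤ Fintype.card F) {l₀ : Ln F}
    (hsub : D.forcedLine l₀ ⊆ T) {z : Pt F} (hz : z ∈ D.Act) {j : Fin 4} (hj : l₀ ∈ D.gad z j) :
    False := by
  classical
  have hF := D.card_forcedLine_add l₀
  have hA0 : D.Act.filter (fun y => OnLn y l₀) = {z} := by
    ext y
    simp only [mem_filter, mem_singleton]
    constructor
    · rintro ⟨h1, h2⟩
      exact D.act_on_gad hz hj h1 h2
    · rintro rfl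
      exact ⟨hz, D.gad_through y hz j l₀ hj⟩
  rw [hA0, card_singleton] at hF
  have hTeq : T = D.forcedLine l₀ := by
    symm
    apply eq_of_subset_of_card_le hsub
    omega
  have hc := D.gad_card z hz (j + 2)
  have : 0 < (D.gad z (j + 2)).card := by omega
  obtain ⟨l', hl'⟩ := card_pos.1 this
  have hne : l₀ ≠ l' := by
    rintro rfl
    exact fin4_ne j (D.gad_type_unique hz hj hl')
  obtain ⟨i, hi⟩ := hT l' (D.good_of_gad hz hl')
  rw [hTeq] at hi
  obtain ⟨i₁, hi₁, he⟩ := D.mem_forcedLine.1 hi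
  have hii : i₁ = i := by
    have := congrArg Vx.part he
    simpa using this
  subst hii
  obtain ⟨h1, h2⟩ := D.lab_forced_analysis hz hne (D.gad_through z hz j l₀ hj) hl' hi₁ he
  have h3 := D.cls_on_gad hz hj h1 (onLn_ptOn _ _)
  have h4 := D.cls_on_gad hz hl' h2 (onLn_ptOn _ _)
  simp only [ptOn_fst] at h3 h4
  obtain ⟨k, hk⟩ : ∃ k, i₁ = D.cl (D.grp z) k := by
    rcases h3 with h | h
    · exact ⟨_, h⟩
    · exact ⟨_, h⟩
  rw [hk] at h3 h4
  have h5 : k = j ∨ k = j + 1 := by
    rcases h3 with h | h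
    · exact Or.inl (D.cl_inj _ _ _ _ h).2
    · exact Or.inr (D.cl_inj _ _ _ _ h).2
  have h6 : k = j + 2 ∨ k = j + 2 + 1 := by
    rcases h4 with h | h
    · exact Or.inl (D.cl_inj _ _ _ _ h).2
    · exact Or.inr (D.cl_inj _ _ _ _ h).2
  exact fin4_opp j k h6 h5

/-- Hit set of a line for a chosen active. -/
def hitSet (l₀ : Ln F) (z : Pt F) : Finset (Fin 4) :=
  univ.filter (fun k => ptOn l₀ (D.cl (D.grp z) k) ∈ D.Cls)

/-- Gadget lines at `z` not covered by forced classes of `l₀`. -/
def hLines (l₀ : Ln F) (z : Pt F) : Finset (Ln F) := (tyOf (D.hitSet l₀ z)).biUnion (D.gad z)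

lemma wt_eq (l₀ : Ln F) (z : Pt F) :
    wt (D.hitSet l₀ z) = if ∃ k, ptOn l₀ (D.cl (D.grp z) k) ∈ D.Cls then 2 else 1 := by
  unfold wt hitSet
  congr 1
  apply propext
  constructor
  · rintro ⟨k, hk⟩
    exact ⟨k, (mem_filter.1 hk).2⟩
  · rintro ⟨k, hk⟩
    exact ⟨k, mem_filter.2 ⟨mem_univ _, hk⟩⟩

theorem no_line_case (T : Finset (Vx F)) (hT : ∀ l, D.good l → ∃ i, D.lab l i ∈ T)
    (hcard : T.card ≤ Fintype.card F) {l₀ : Ln F}
    (hsub : D.forcedLine l₀ ⊆ T)
    (hng : ∀ z ∈ D.Act, OnLn z l₀ → ∀ j, l₀ ∉ D.gad z j) : False := by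
  classical
  set A := D.Act.filter (fun z => OnLn z l₀) with hA
  have hAz : ∀ z ∈ A, z ∈ D.Act ∧ OnLn z l₀ := fun z hz => mem_filter.1 hz
  have hFc : (D.forcedLine l₀).card + A.card = Fintype.card F + 1 := D.card_forcedLine_add l₀
  set X := T \ D.forcedLine l₀ with hX
  have hXcard : X.card + (D.forcedLine l₀).card = T.card := by
    rw [hX, card_sdiff_add_card_eq_card hsub]
  have hdc := double_count A X (fun z => D.hLines l₀ z) (fun z => wt (D.hitSet l₀ z))
    (fun x l => x ∈ D.edge l) 12 12 ?_ ?_ ?_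
  · have : X.card + 1 ≤ A.card := by omega
    omega
  · intro z hz
    obtain ⟨h1, h2⟩ := hAz z hz
    have h3 := D.nongad_hits z h1 l₀ h2 (hng z h1 h2)
    have h4 := wt_tyOf (D.hitSet l₀ z) h3
    rw [hLines, D.gad_card_union h1]
    exact h4
  · intro z hz l hl
    obtain ⟨h1, h2⟩ := hAz z hz
    obtain ⟨j, hj, hjl⟩ := mem_biUnion.1 hl
    obtain ⟨i, hi⟩ := hT l (D.good_of_gad h1 hjl)
    refine ⟨D.lab l i, mem_sdiff.2 ⟨hi, ?_⟩, D.lab_mem_edge _ _⟩
    intro hmem
    obtain ⟨i₁, hi₁, he⟩ := D.mem_forcedLine.1 hmem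
    have hii : i₁ = i := by
      have := congrArg Vx.part he
      simpa using this
    subst hii
    have hne : l₀ ≠ l := by
      rintro rfl
      exact hng z h1 h2 j hjl
    obtain ⟨h3, h4⟩ := D.lab_forced_analysis h1 hne h2 hjl hi₁ he
    have h5 := D.cls_on_gad h1 hjl h4 (onLn_ptOn _ _)
    simp only [ptOn_fst] at h5
    have hj2 := (mem_filter.1 hj).2
    rcases h5 with h | h
    · apply hj2.1
      rw [hitSet, mem_filter]
      exact ⟨mem_univ _, h ▸ h3⟩
    · apply hj2.2
      rw [hitSet, mem_filter]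
      exact ⟨mem_univ _, h ▸ h3⟩
  · intro x hx
    have hxF : x ∉ D.forcedLine l₀ := (mem_sdiff.1 hx).2
    cases x with
    | sg z₀ e =>
      have hsingle : ∀ z ∈ A, z ≠ z₀ →
          ((D.hLines l₀ z).filter (fun l => Vx.sg z₀ e ∈ D.edge l)).card = 0 := by
        intro z hz hne
        rw [card_eq_zero, filter_eq_empty_iff]
        intro l hl hmem
        obtain ⟨j, _, hj⟩ := mem_biUnion.1 hl
        obtain ⟨i₁, hi₁⟩ := D.mem_edge.1 hmem
        obtain ⟨h1, h2⟩ := D.lab_eq_sg hi₁
        have := D.act_on_gad (hAz z hz).1 hj h2 (h1 ▸ onLn_ptOn l i₁)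
        exact hne this.symm
      by_cases hz₀ : z₀ ∈ A
      · rw [sum_eq_single_of_mem z₀ hz₀ (fun z hz hne => by rw [hsingle z hz hne, mul_zero])]
        have hsubs : (D.hLines l₀ z₀).filter (fun l => Vx.sg z₀ e ∈ D.edge l) ⊆
            ((tyOf (D.hitSet l₀ z₀)).filter (fun j => par j = e)).biUnion (D.gad z₀) := by
          intro l hl
          obtain ⟨hl1, hl2⟩ := mem_filter.1 hl
          obtain ⟨j, hj1, hj⟩ := mem_biUnion.1 hl1
          obtain ⟨i₁, hi₁⟩ := D.mem_edge.1 hl2
          obtain ⟨h1, h2⟩ := D.lab_eq_sg hi₁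
          have hi₁z : i₁ = z₀.1 := by rw [← h1]; rfl
          subst hi₁z
          rw [D.lab_at_act (hAz z₀ hz₀).1 hj] at hi₁
          simp only [Vx.sg.injEq] at hi₁
          exact mem_biUnion.2 ⟨j, mem_filter.2 ⟨hj1, hi₁.2⟩, hj⟩
        have h1 := card_le_card hsubs
        rw [D.gad_card_union (hAz z₀ hz₀).1] at h1
        have h3 := D.nongad_hits z₀ (hAz z₀ hz₀).1 l₀ (hAz z₀ hz₀).2 (hng z₀ (hAz z₀ hz₀).1 (hAz z₀ hz₀).2)
        have h4 := wt_tyOf_par (D.hitSet l₀ z₀) h3 e
        calc wt (D.hitSet l₀ z₀) * ((D.hLines l₀ z₀).filter (fun l => Vx.sg z₀ e ∈ D.edge l)).card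
            ≤ wt (D.hitSet l₀ z₀) * (3 * ((tyOf (D.hitSet l₀ z₀)).filter (fun j => par j = e)).card) :=
              Nat.mul_le_mul_left _ h1
          _ = 3 * (wt (D.hitSet l₀ z₀) * ((tyOf (D.hitSet l₀ z₀)).filter (fun j => par j = e)).card) := by
              ring
          _ ≤ 12 := by omega
      · rw [sum_eq_zero]
        · omega
        · intro z hz
          rw [hsingle z hz (fun h => hz₀ (h ▸ hz)), mul_zero]
    | mrg c =>
      have hn : ∀ z ∈ A, (∀ k, D.cl (D.grp z) k ≠ c) →
          ((D.hLines l₀ z).filter (fun l => Vx.mrg c ∈ D.edge l)).card = 0 := by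
        intro z hz hk
        rw [card_eq_zero, filter_eq_empty_iff]
        intro l hl hmem
        obtain ⟨j, _, hj⟩ := mem_biUnion.1 hl
        obtain ⟨i₁, hi₁⟩ := D.mem_edge.1 hmem
        obtain ⟨h1, h2⟩ := D.lab_eq_mrg hi₁
        subst h1
        rcases D.cls_on_gad (hAz z hz).1 hj h2 (onLn_ptOn _ _) with h | h
        · exact hk j h.symm
        · exact hk (j + 1) h.symm
      have hn6 : ∀ z ∈ A, ((D.hLines l₀ z).filter (fun l => Vx.mrg c ∈ D.edge l)).card ≤ 6 := by
        intro z hz
        by_cases hk : ∀ k, D.cl (D.grp z) k ≠ c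
        · rw [hn z hz hk]; omega
        · push Not at hk
          obtain ⟨k, hk⟩ := hk
          have hsubs : (D.hLines l₀ z).filter (fun l => Vx.mrg c ∈ D.edge l) ⊆
              (univ.filter (fun j : Fin 4 => j = k ∨ j + 1 = k)).biUnion (D.gad z) := by
            intro l hl
            obtain ⟨hl1, hl2⟩ := mem_filter.1 hl
            obtain ⟨j, _, hj⟩ := mem_biUnion.1 hl1
            obtain ⟨i₁, hi₁⟩ := D.mem_edge.1 hl2
            obtain ⟨h1, h2⟩ := D.lab_eq_mrg hi₁
            subst h1
            refine mem_biUnion.2 ⟨j, mem_filter.2 ⟨mem_univ _, ?_⟩, hj⟩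
            rcases D.cls_on_gad (hAz z hz).1 hj h2 (onLn_ptOn _ _) with h | h
            · left
              exact (D.cl_inj _ _ _ _ (h.symm.trans hk.symm)).2
            · right
              exact (D.cl_inj _ _ _ _ (h.symm.trans hk.symm)).2
          have := card_le_card hsubs
          rw [D.gad_card_union (hAz z hz).1, fin4_adj] at this
          omega
      by_cases hex : ∃ z ∈ A, ∃ k, D.cl (D.grp z) k = c
      · obtain ⟨z₁, hz₁, k₁, hk₁⟩ := hex
        -- all relevant actives have the group of `z₁`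
        set Gc := A.filter (fun z => D.grp z = D.grp z₁) with hGc
        have hGcard : Gc.card ≤ 2 := by
          refine le_trans (card_le_card ?_) (D.grp_line l₀ (D.grp z₁))
          intro z hz
          obtain ⟨h1, h2⟩ := mem_filter.1 hz
          exact mem_filter.2 ⟨(hAz z h1).1, (hAz z h1).2, h2⟩
        have hoff : ∀ z ∈ A, z ∉ Gc → wt (D.hitSet l₀ z) *
            ((D.hLines l₀ z).filter (fun l => Vx.mrg c ∈ D.edge l)).card = 0 := by
          intro z hz hzG
          rw [hn z hz, mul_zero]
          intro k hk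
          apply hzG
          exact mem_filter.2 ⟨hz, (D.cl_inj _ _ _ _ (hk.trans hk₁.symm)).1⟩
        have hGsub : Gc ⊆ A := filter_subset _ _
        rw [← sum_subset hGsub hoff]
        by_cases hfree : ∃ k, ptOn l₀ (D.cl (D.grp z₁) k) ∈ D.Cls
        · -- `z₁` is free, hence alone
          have hG1 : Gc = {z₁} := by
            ext y
            simp only [mem_singleton]
            constructor
            · intro hy
              obtain ⟨h1, h2⟩ := mem_filter.1 hy
              by_contra hne
              exact D.free_alone z₁ (hAz z₁ hz₁).1 l₀ (hAz z₁ hz₁).2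
                (hng z₁ (hAz z₁ hz₁).1 (hAz z₁ hz₁).2) hfree y (hAz y h1).1 (hAz y h1).2 hne h2
            · rintro rfl
              exact mem_filter.2 ⟨hz₁, rfl⟩
          rw [hG1, sum_singleton]
          have h6 := hn6 z₁ hz₁
          have hw : wt (D.hitSet l₀ z₁) ≤ 2 := by
            rw [wt_eq]; split_ifs <;> omega
          calc _ ≤ 2 * 6 := Nat.mul_le_mul hw h6
            _ = 12 := rfl
        · -- none is free
          have hw : ∀ z ∈ Gc, wt (D.hitSet l₀ z) = 1 := by
            intro z hz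
            rw [wt_eq, if_neg]
            rw [(mem_filter.1 hz).2]
            exact hfree
          calc _ ≤ ∑ z ∈ Gc, 6 := by
                refine sum_le_sum (fun z hz => ?_)
                rw [hw z hz, one_mul]
                exact hn6 z (hGsub hz)
            _ = Gc.card * 6 := by simp
            _ ≤ 12 := by omega
      · push Not at hex
        rw [sum_eq_zero]
        · omega
        · intro z hz
          rw [hn z hz (hex z hz), mul_zero]
    | ord p =>
      -- either `p` is off `l₀`, or nothing is counted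
      by_cases hpl : ¬ OnLn p l₀
      · have hone : ∀ z ∈ A, ((D.hLines l₀ z).filter (fun l => Vx.ord p ∈ D.edge l)).card ≤ 1 := by
          intro z hz
          rw [card_le_one]
          intro l hl l' hl'
          obtain ⟨hl1, hl2⟩ := mem_filter.1 hl
          obtain ⟨hl1', hl2'⟩ := mem_filter.1 hl'
          obtain ⟨j, _, hj⟩ := mem_biUnion.1 hl1
          obtain ⟨j', _, hj'⟩ := mem_biUnion.1 hl1'
          obtain ⟨i₁, hi₁⟩ := D.mem_edge.1 hl2
          obtain ⟨i₂, hi₂⟩ := D.mem_edge.1 hl2'
          have hp1 := (D.lab_eq_ord hi₁).1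
          have hp2 := (D.lab_eq_ord hi₂).1
          have hp1' : OnLn p l := hp1 ▸ onLn_ptOn l i₁
          have hp2' : OnLn p l' := hp2 ▸ onLn_ptOn l' i₂
          have hzl := D.gad_through z (hAz z hz).1 j l hj
          have hne : z.1 ≠ p.1 := by
            intro h
            have : z = p := eq_of_onLn_same_part h hzl hp1'
            exact hpl (this ▸ (hAz z hz).2)
          exact line_through_unique hne hzl hp1' (D.gad_through z (hAz z hz).1 j' l' hj') hp2'
        set Gp := A.filter (fun z => 1 ≤ ((D.hLines l₀ z).filter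
          (fun l => Vx.ord p ∈ D.edge l)).card) with hGp
        have hGcard : Gp.card ≤ 8 := by
          refine le_trans (card_le_card ?_) (D.pt_line_count p l₀ hpl)
          intro z hz
          obtain ⟨hzA, hz1⟩ := mem_filter.1 hz
          obtain ⟨hz2, hz3⟩ := hAz z hzA
          refine mem_filter.2 ⟨hz2, hz3, ?_⟩
          obtain ⟨l, hl⟩ := card_pos.1 hz1
          obtain ⟨hl1, hl2⟩ := mem_filter.1 hl
          obtain ⟨j, _, hj⟩ := mem_biUnion.1 hl1
          obtain ⟨i₁, hi₁⟩ := D.mem_edge.1 hl2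
          exact ⟨j, l, hj, (D.lab_eq_ord hi₁).1 ▸ onLn_ptOn l i₁⟩
        have hGfree : (Gp.filter (fun z => ∃ k, ptOn l₀ (D.cl (D.grp z) k) ∈ D.Cls)).card ≤ 4 := by
          refine le_trans (card_le_card ?_) (D.free_count l₀)
          intro z hz
          obtain ⟨hzA, hz1⟩ := mem_filter.1 hz
          obtain ⟨hzA', _⟩ := mem_filter.1 hzA
          obtain ⟨hz2, hz3⟩ := hAz z hzA'
          exact mem_filter.2 ⟨hz2, hz3, hz1⟩
        calc ∑ z ∈ A, wt (D.hitSet l₀ z) * ((D.hLines l₀ z).filter (fun l => Vx.ord p ∈ D.edge l)).card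
            = ∑ z ∈ Gp, wt (D.hitSet l₀ z) * ((D.hLines l₀ z).filter (fun l => Vx.ord p ∈ D.edge l)).card := by
              symm
              apply sum_subset (filter_subset _ _)
              intro z hz hzG
              have h1 : ¬ 1 ≤ ((D.hLines l₀ z).filter (fun l => Vx.ord p ∈ D.edge l)).card := by
                intro h
                exact hzG (mem_filter.2 ⟨hz, h⟩)
              have h2 : ((D.hLines l₀ z).filter (fun l => Vx.ord p ∈ D.edge l)).card = 0 := by omega
              rw [h2, mul_zero]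
          _ ≤ ∑ z ∈ Gp, (1 + if (∃ k, ptOn l₀ (D.cl (D.grp z) k) ∈ D.Cls) then 1 else 0) := by
              refine sum_le_sum (fun z hz => ?_)
              have h1 := hone z (mem_filter.1 hz).1
              rw [wt_eq]
              split_ifs with h
              · omega
              · omega
          _ = Gp.card + (Gp.filter (fun z => ∃ k, ptOn l₀ (D.cl (D.grp z) k) ∈ D.Cls)).card := by
              have e1 : ∑ z ∈ Gp, 1 = Gp.card := (card_eq_sum_ones _).symm
              rw [sum_add_distrib, e1]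
              exact congrArg (Gp.card + ·) (card_filter _ _).symm
          _ ≤ 12 := by omega
      · push Not at hpl
        -- if counted, `ord p` would be forced
        rw [sum_eq_zero]
        · omega
        · intro z hz
          have : ((D.hLines l₀ z).filter (fun l => Vx.ord p ∈ D.edge l)).card = 0 := by
            rw [card_eq_zero, filter_eq_empty_iff]
            intro l _ hmem
            obtain ⟨i₁, hi₁⟩ := D.mem_edge.1 hmem
            obtain ⟨_, h2, h3⟩ := D.lab_eq_ord hi₁
            apply hxF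
            rw [D.mem_forcedLine]
            have h5 : ptOn l₀ p.1 = p := (eq_ptOn_of_onLn hpl).symm
            refine ⟨p.1, by rw [h5]; exact h2, ?_⟩
            rw [D.lab_of_not_act (by rw [h5]; exact h2), h5, if_neg h3]
          rw [this, mul_zero]

/-- **Part C**: the covering number of the hypergraph exceeds `q`. -/
theorem cover_bound (T : Finset (Vx F)) (hT : ∀ l, D.good l → (D.edge l ∩ T).Nonempty) :
    Fintype.card F + 1 ≤ T.card := by
  classical
  by_contra hlt
  have hcard : T.card ≤ Fintype.card F := by omega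
  have hT' : ∀ l, D.good l → ∃ i, D.lab l i ∈ T := by
    intro l hl
    obtain ⟨v, hv⟩ := hT l hl
    obtain ⟨h1, h2⟩ := mem_inter.1 hv
    obtain ⟨i, rfl⟩ := D.mem_edge.1 h1
    exact ⟨i, h2⟩
  set S : Finset (Pt F) := univ.filter (fun x => x ∉ D.Zall ∧ Vx.ord x ∈ T) with hS
  have hScard : S.card ≤ Fintype.card F := by
    refine le_trans ?_ hcard
    apply card_le_card_of_injOn Vx.ord
    · intro x hx
      exact (mem_filter.1 hx).2.2
    · intro a _ b _ h
      simpa using h
  have hblock : ∀ l : Ln F, (∀ x ∈ D.Zall, ¬ OnLn x l) → ∃ x ∈ S, OnLn x l := by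
    intro l hl
    have hg : D.good l := Or.inl (fun z hz => hl z (D.act_sub hz))
    obtain ⟨i, hi⟩ := hT' l hg
    have hz : ptOn l i ∉ D.Zall := fun h => hl _ h (onLn_ptOn _ _)
    have ha : ptOn l i ∉ D.Act := fun h => hz (D.act_sub h)
    have hc : ptOn l i ∉ D.Cls := fun h => hz (D.cls_sub h)
    rw [D.lab_of_not_act ha, if_neg hc] at hi
    exact ⟨ptOn l i, mem_filter.2 ⟨mem_univ _, hz, hi⟩, onLn_ptOn _ _⟩
  rcases D.stability S hScard hblock with ⟨l₀, hl₀⟩ | ⟨i, hi⟩
  · have hA : ∀ x, OnLn x l₀ → x ∉ D.Zall → Vx.ord x ∈ T := by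
      intro x h1 h2
      exact (mem_filter.1 (hl₀ x h1 h2)).2.2
    have hsub := D.forcedLine_sub T hT' hcard l₀ hA
    by_cases hng : ∀ z ∈ D.Act, OnLn z l₀ → ∀ j, l₀ ∉ D.gad z j
    · exact D.no_line_case T hT' hcard hsub hng
    · push Not at hng
      obtain ⟨z, hz, _, j, hj⟩ := hng
      exact D.no_gadget_line_case T hT' hcard hsub hz hj
  · exact D.no_part_case T hT' hcard i (fun y hy => (mem_filter.1 (hi y hy)).2.2)

end Design

end Crest.Agent.Lib.Ryser
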