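import Mathlib

/-!
# Gap lemma (Szőnyi–Weiner form), row 34 (S0045/S0046)

`S ⊆ F × F`, `|S| = q = |F|`. For `m : F` let `k(m)` be the number of distinct values `c - m a`,
`(a,c) ∈ S` (the number of lines of slope `m` meeting `S`).  With `t = k(m₀)`:

  `∑ m, (k m - t) ≤ (q - t)^2`      (truncated subtraction).

Proof: the `t`-th principal subresultant of `u_m = ∏_{(a,c)∈S} (Y - (c - m a))` and `Y^q - Y` is a polynomial
`D(m)` of degree `≤ (q-t)^2`, nonzero at `m₀`, vanishing to order `≥ k(m) - t` at `m`.
-/

open Polynomial Finset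

namespace Crest.Agent.Lib.Ryser

section DetDvd

variable {F : Type*} [Field F] {ι : Type*} [Fintype ι] [DecidableEq ι]

/-- If a polynomial matrix evaluated at `m₁` has `r` independent kernel vectors,
then `(X - m₁)^r` divides its determinant. -/
theorem pow_dvd_det_of_ker (M : Matrix ι ι F[X]) (m₁ : F) (r : ℕ) (w : Fin r → ι → F)
    (hw : LinearIndependent F w) (hker : ∀ i, (M.map (eval m₁)).mulVec (w i) = 0) :
    (X - C m₁) ^ r ∣ M.det := by
  classical
  have hs := hw.linearIndepOn_id
  let b := Module.Basis.extend hs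
  have hbv : ∀ x, b x = (x : ι → F) := fun x => by simp [b]
  have hmem : ∀ i, w i ∈ hs.extend (Set.subset_univ _) :=
    fun i => Module.Basis.subset_extend hs (Set.mem_range_self i)
  let e := b.indexEquiv (Pi.basisFun F ι)
  let b' := b.reindex e
  let P : Matrix ι ι F := (Pi.basisFun F ι).toMatrix b'
  have hP : IsUnit P.det := by
    have : Invertible P := Module.Basis.invertibleToMatrix _ _
    exact Matrix.isUnit_det_of_invertible P
  have hbcol : ∀ i j, P i j = b' j i := by
    intro i j
    simp [P, Module.Basis.toMatrix_apply]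
  let jj : Fin r → ι := fun i => e ⟨w i, hmem i⟩
  have hjj : Function.Injective jj := by
    intro i i' h
    have := e.injective h
    exact hw.injective (Subtype.ext_iff.mp this)
  have hbw : ∀ i a, P a (jj i) = w i a := by
    intro i a
    rw [hbcol]
    have : b' (jj i) = w i := by simp [b', jj, hbv]
    rw [this]
  set M' : Matrix ι ι F[X] := M * P.map C with hM'
  have hdet : M'.det = M.det * C P.det := by
    rw [hM', Matrix.det_mul]
    congr 1
    exact (RingHom.map_det (C : F →+* F[X]) P).symm
  have hcol : ∀ i a, (X - C m₁) ∣ M' a (jj i) := by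
    intro i a
    rw [dvd_iff_isRoot, IsRoot.def, hM', Matrix.mul_apply, eval_finsetSum]
    have := congrFun (hker i) a
    simp only [Matrix.mulVec, dotProduct, Matrix.map_apply, Pi.zero_apply] at this
    rw [← this]
    refine Finset.sum_congr rfl fun x _ => ?_
    simp [hbw]
  let J : Finset ι := univ.image jj
  have hJ : J.card = r := by
    rw [Finset.card_image_of_injective _ hjj]; simp
  let d : ι → F[X] := fun j => if j ∈ J then X - C m₁ else 1
  have hdp : ∏ j, d j = (X - C m₁) ^ r := by
    rw [← hJ]
    simp only [d]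
    rw [Finset.prod_ite_mem]
    simp
  have hex : ∀ a j, ∃ c, M' a j = d j * c := by
    intro a j
    by_cases hj : j ∈ J
    · obtain ⟨i, -, rfl⟩ := Finset.mem_image.mp hj
      obtain ⟨c, hc⟩ := hcol i a
      exact ⟨c, by simp only [d, if_pos hj]; exact hc⟩
    · exact ⟨M' a j, by simp [d, hj]⟩
  choose N hN using hex
  have hMN : M' = Matrix.of (fun a j => d j * N a j) := by
    exact Matrix.ext fun a j => by simpa using hN a j
  have h2 : M'.det = (X - C m₁) ^ r * (Matrix.of N).det := by
    rw [hMN]
    have := Matrix.det_mul_row d (Matrix.of N)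
    simpa [hdp] using this
  have hu : IsUnit (C P.det : F[X]) := hP.map C
  rw [hdet] at h2
  exact (IsUnit.dvd_mul_right hu).mp ⟨_, h2⟩

end DetDvd

section Sums

/-- Distinct naturals have sum at least `0 + 1 + ⋯ + (n-1)`. -/
theorem sum_range_le_of_card (n : ℕ) (T : Finset ℕ) (hT : T.card = n) :
    ∑ i ∈ range n, i ≤ ∑ x ∈ T, x := by
  induction n generalizing T with
  | zero => simp
  | succ n ih =>
    have hne : T.Nonempty := by
      rw [← Finset.card_pos]; omega
    set a := T.max' hne with ha
    have hamem : a ∈ T := T.max'_mem hne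
    have hale : n ≤ a := by
      have hsub : T ⊆ range (a + 1) := fun x hx => by
        have := T.le_max' x hx
        simp only [Finset.mem_range]; omega
      have := Finset.card_le_card hsub
      simp only [Finset.card_range] at this
      omega
    have h1 := ih (T.erase a) (by rw [Finset.card_erase_of_mem hamem]; omega)
    rw [Finset.sum_range_succ, ← Finset.add_sum_erase T _ hamem]
    omega

/-- For an injective map `x : Fin n → ℕ`, `∑ j, j ≤ ∑ j, x j`. -/
theorem sum_fin_le_of_injective (n : ℕ) (x : Fin n → ℕ) (hx : Function.Injective x) :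
    ∑ j : Fin n, (j : ℕ) ≤ ∑ j, x j := by
  have h1 : ∑ j : Fin n, (j : ℕ) = ∑ i ∈ range n, i := Fin.sum_univ_eq_sum_range (fun i => i) n
  have h2 : ∑ j, x j = ∑ y ∈ univ.image x, y := by
    rw [Finset.sum_image (fun a _ b _ h => hx h)]
  rw [h1, h2]
  exact sum_range_le_of_card n _ (by rw [Finset.card_image_of_injective _ hx]; simp)

end Sums

section Subres

variable {A : Type*} [CommRing A]

/-- row positions -/
def pos (t n : ℕ) : Fin n ⊕ Fin n → ℕ
  | Sum.inl i => t + i
  | Sum.inr i => t + n + i

theorem pos_injective (t n : ℕ) : Function.Injective (pos t n) := by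
  rintro (i | i) (j | j) h <;> simp only [pos] at h
  · congr; exact Fin.ext (by omega)
  · have := j.2; have := i.2; omega
  · have := j.2; have := i.2; omega
  · congr; exact Fin.ext (by omega)

/-- The subresultant (Sylvester type) matrix of `U`, `V`: columns `X^j U`, `X^j V` (`j < n`), rows the coefficients of
`X^t, ..., X^(t+2n-1)`. -/
noncomputable def subresMat (t n : ℕ) (U V : A[X]) : Matrix (Fin n ⊕ Fin n) (Fin n ⊕ Fin n) A :=
  Matrix.of fun ρ c =>
    match c with
    | Sum.inl j => (X ^ (j : ℕ) * U).coeff (pos t n ρ)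
    | Sum.inr j => (X ^ (j : ℕ) * V).coeff (pos t n ρ)

theorem subresMat_map {B : Type*} [CommRing B] (f : A →+* B) (t n : ℕ) (U V : A[X]) :
    (subresMat t n U V).map f = subresMat t n (U.map f) (V.map f) := by
  ext ρ c
  rcases c with j | j <;> simp [subresMat, ← coeff_map, Polynomial.map_mul, Polynomial.map_pow]

end Subres

section FieldPart

variable {F : Type*} [Field F]

/-- polynomial with coefficient vector `w` -/
noncomputable def polyOf {n : ℕ} (w : Fin n → F) : F[X] := ∑ j, C (w j) * X ^ (j : ℕ)

theorem coeff_polyOf {n : ℕ} (w : Fin n → F) (j : Fin n) : (polyOf w).coeff j = w j := by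
  classical
  simp only [polyOf, finsetSum_coeff, coeff_C_mul, coeff_X_pow]
  rw [Finset.sum_eq_single j]
  · simp
  · intro b _ hb
    have : (j : ℕ) ≠ b := fun h => hb (Fin.ext h.symm)
    simp [this]
  · simp

theorem natDegree_polyOf_lt {n : ℕ} (hn : 0 < n) (w : Fin n → F) : (polyOf w).natDegree < n := by
  refine lt_of_le_of_lt (natDegree_sum_le_of_forall_le _ _ (n := n - 1) ?_) (by omega)
  intro j _
  refine (natDegree_C_mul_X_pow_le _ _).trans ?_
  have := j.2; omega

theorem polyOf_coeff {n : ℕ} (f : F[X]) (hf : f.natDegree < n) :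
    polyOf (fun j : Fin n => f.coeff j) = f := by
  conv_rhs => rw [as_sum_range' f n hf]
  simp only [polyOf]
  rw [Fin.sum_univ_eq_sum_range (fun j => C (f.coeff j) * X ^ j) n]
  refine Finset.sum_congr rfl fun j _ => ?_
  rw [C_mul_X_pow_eq_monomial]

theorem subresMat_mulVec (t n : ℕ) (U V : F[X]) (w : Fin n ⊕ Fin n → F) (ρ : Fin n ⊕ Fin n) :
    ((subresMat t n U V).mulVec w) ρ =
      (polyOf (fun j => w (Sum.inl j)) * U + polyOf (fun j => w (Sum.inr j)) * V).coeff (pos t n ρ) := by
  simp only [Matrix.mulVec, dotProduct, Fintype.sum_sum_type, subresMat, Matrix.of_apply, polyOf,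
    coeff_add, Finset.sum_mul, finsetSum_coeff]
  congr 1 <;> refine Finset.sum_congr rfl fun j _ => ?_ <;>
    rw [mul_assoc, coeff_C_mul, mul_comm]

end FieldPart

section Gap

set_option linter.unusedSectionVars false

variable {F : Type*} [Field F] [Fintype F] [DecidableEq F]

/-- the values `c - m a`, i.e. the lines of slope `m` meeting `S` -/
def vals (S : Finset (F × F)) (m : F) : Finset F := S.image fun p => p.2 - m * p.1

/-- `u_m` -/
noncomputable def uPoly (S : Finset (F × F)) (m : F) : F[X] := ∏ p ∈ S, (X - C (p.2 - m * p.1))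

/-- `u` with `m` an indeterminate -/
noncomputable def UPoly (S : Finset (F × F)) : (F[X])[X] := ∏ p ∈ S, (X - C (C p.2 - X * C p.1))

theorem UPoly_map (S : Finset (F × F)) (m : F) : (UPoly S).map (evalRingHom m) = uPoly S m := by
  simp only [UPoly, uPoly, Polynomial.map_prod]
  refine Finset.prod_congr rfl fun p _ => ?_
  simp only [Polynomial.map_sub, map_X, map_C, coe_evalRingHom, eval_sub, eval_C, eval_mul, eval_X]

theorem UPoly_monic (S : Finset (F × F)) : (UPoly S).Monic :=
  monic_prod_of_monic _ _ fun _ _ => monic_X_sub_C _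

theorem UPoly_natDegree (S : Finset (F × F)) : (UPoly S).natDegree = S.card := by
  rw [UPoly, natDegree_prod_of_monic _ _ fun _ _ => monic_X_sub_C _]
  rw [Finset.sum_congr rfl (fun _ _ => natDegree_X_sub_C _)]
  simp

theorem natDegree_coeff_UPoly (S : Finset (F × F)) (d : ℕ) :
    ((UPoly S).coeff d).natDegree ≤ S.card - d := by
  classical
  induction S using Finset.induction_on generalizing d with
  | empty =>
    simp only [UPoly, Finset.prod_empty, Finset.card_empty, Nat.zero_sub]
    rw [coeff_one]
    split_ifs <;> simp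
  | insert p S hp ih =>
    have hU : UPoly (insert p S) = (X - C (C p.2 - X * C p.1)) * UPoly S := by
      simp [UPoly, Finset.prod_insert hp]
    rw [hU, Finset.card_insert_of_notMem hp, sub_mul, coeff_sub]
    set a : F[X] := C p.2 - X * C p.1 with ha
    have hadeg : a.natDegree ≤ 1 := by
      refine (natDegree_sub_le _ _).trans ?_
      simp only [natDegree_C]
      refine max_le (by omega) ?_
      refine natDegree_mul_le.trans ?_
      simp
    rw [coeff_C_mul]
    refine (natDegree_sub_le _ _).trans (max_le ?_ ?_)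
    · rcases d with _ | d
      · simp
      · rw [coeff_X_mul]
        have := ih d
        omega
    · by_cases hd : S.card < d
      · rw [coeff_eq_zero_of_natDegree_lt (by rw [UPoly_natDegree]; exact hd)]
        simp
      · refine natDegree_mul_le.trans ?_
        have := ih d
        omega

theorem prod_X_sub_C_univ : ∏ y : F, (X - C y) = (X ^ Fintype.card F - X : F[X]) := by
  have hq : 1 < Fintype.card F := Fintype.one_lt_card
  have hm : (X ^ Fintype.card F - X : F[X]).Monic :=
    monic_X_pow_sub (by rw [degree_X]; exact_mod_cast hq)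
  have hr := FiniteField.roots_X_pow_card_sub_X F
  have := prod_multiset_X_sub_C_of_monic_of_roots_card_eq hm (by
    rw [hr, FiniteField.X_pow_card_sub_X_natDegree_eq F hq]; simp)
  rw [hr] at this
  exact this

/-- `g_m` -/
noncomputable def gPoly (S : Finset (F × F)) (m : F) : F[X] := ∏ y ∈ vals S m, (X - C y)

/-- `(Y^q - Y) / g_m` -/
noncomputable def vPrime (S : Finset (F × F)) (m : F) : F[X] := ∏ y ∈ (vals S m)ᶜ, (X - C y)

/-- `u_m / g_m` -/
noncomputable def uPrime (S : Finset (F × F)) (m : F) : F[X] :=
  ∏ y ∈ vals S m, (X - C y) ^ ((S.filter fun p => p.2 - m * p.1 = y).card - 1)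

theorem gPoly_monic (S : Finset (F × F)) (m : F) : (gPoly S m).Monic :=
  monic_prod_of_monic _ _ fun _ _ => monic_X_sub_C _

theorem gPoly_natDegree (S : Finset (F × F)) (m : F) : (gPoly S m).natDegree = (vals S m).card := by
  rw [gPoly, natDegree_prod_of_monic _ _ fun _ _ => monic_X_sub_C _]
  simp

theorem vPrime_monic (S : Finset (F × F)) (m : F) : (vPrime S m).Monic :=
  monic_prod_of_monic _ _ fun _ _ => monic_X_sub_C _

theorem uPrime_monic (S : Finset (F × F)) (m : F) : (uPrime S m).Monic :=
  monic_prod_of_monic _ _ fun _ _ => (monic_X_sub_C _).pow _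

theorem vPrime_natDegree (S : Finset (F × F)) (m : F) :
    (vPrime S m).natDegree = Fintype.card F - (vals S m).card := by
  rw [vPrime, natDegree_prod_of_monic _ _ fun _ _ => monic_X_sub_C _]
  simp [Finset.card_compl]

theorem g_mul_vPrime (S : Finset (F × F)) (m : F) :
    gPoly S m * vPrime S m = (X ^ Fintype.card F - X : F[X]) := by
  rw [← prod_X_sub_C_univ, gPoly, vPrime]
  exact Finset.prod_mul_prod_compl _ _

theorem g_mul_uPrime (S : Finset (F × F)) (m : F) : gPoly S m * uPrime S m = uPoly S m := by
  rw [gPoly, uPrime, uPoly, ← Finset.prod_mul_distrib]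
  rw [Finset.prod_comp (fun y => X - C y) (fun p : F × F => p.2 - m * p.1)]
  refine Finset.prod_congr rfl fun y hy => ?_
  obtain ⟨p, hp, rfl⟩ := Finset.mem_image.mp hy
  have hpos : 0 < (S.filter fun p' : F × F => p'.2 - m * p'.1 = p.2 - m * p.1).card :=
    Finset.card_pos.mpr ⟨p, by simp [hp]⟩
  rw [← pow_succ']
  congr 1
  omega

theorem uPoly_natDegree (S : Finset (F × F)) (m : F) : (uPoly S m).natDegree = S.card := by
  rw [uPoly, natDegree_prod_of_monic _ _ fun _ _ => monic_X_sub_C _]
  rw [Finset.sum_congr rfl (fun _ _ => natDegree_X_sub_C _)]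
  simp

theorem uPrime_natDegree (S : Finset (F × F)) (m : F) :
    (uPrime S m).natDegree = S.card - (vals S m).card := by
  have h := g_mul_uPrime S m
  have h2 := congrArg natDegree h
  rw [(gPoly_monic S m).natDegree_mul (uPrime_monic S m), gPoly_natDegree, uPoly_natDegree] at h2
  omega

theorem isCoprime_uPrime_vPrime (S : Finset (F × F)) (m : F) :
    IsCoprime (uPrime S m) (vPrime S m) := by
  refine IsCoprime.prod_left fun y hy => IsCoprime.pow_left ?_
  refine IsCoprime.prod_right fun z hz => ?_
  refine isCoprime_X_sub_C_of_isUnit_sub (sub_ne_zero.mpr ?_).isUnit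
  rintro rfl
  exact (Finset.mem_compl.mp hz) hy

theorem card_vals_le (S : Finset (F × F)) (m : F) : (vals S m).card ≤ S.card :=
  Finset.card_image_le

/-- a polynomial divisible by `g`, with vanishing coefficients from `natDegree g` on, is zero -/
theorem eq_zero_of_dvd_of_coeff {g P : F[X]} (hg : g.Monic) (hd : g ∣ P)
    (hc : ∀ d, g.natDegree ≤ d → P.coeff d = 0) : P = 0 := by
  by_contra hP
  obtain ⟨c, rfl⟩ := hd
  have hc0 : c ≠ 0 := by
    rintro rfl
    simp at hP
  have := hc _ (Nat.le.intro (hg.natDegree_mul' hc0).symm)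
  rw [coeff_natDegree, leadingCoeff_eq_zero] at this
  exact hP this

/-- the kernel is trivial at a slope with exactly `t` values -/
theorem ker_trivial (S : Finset (F × F)) (hS : S.card = Fintype.card F) (m : F) (n t : ℕ)
    (ht : (vals S m).card = t) (hn : Fintype.card F = n + t)
    (w : Fin n ⊕ Fin n → F)
    (hw : (subresMat t n (uPoly S m) (X ^ Fintype.card F - X)).mulVec w = 0) : w = 0 := by
  set Aw := polyOf (fun j => w (Sum.inl j)) with hA
  set Bw := polyOf (fun j => w (Sum.inr j)) with hB
  have hq1 : 1 < Fintype.card F := Fintype.one_lt_card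
  set P := Aw * uPoly S m + Bw * (X ^ Fintype.card F - X : F[X]) with hP
  have hcoeff : ∀ ρ, P.coeff (pos t n ρ) = 0 := by
    intro ρ
    have := congrFun hw ρ
    rw [subresMat_mulVec] at this
    exact this
  by_cases hn0 : n = 0
  · subst hn0
    ext ρ
    rcases ρ with j | j <;> exact absurd j.2 (by omega)
  have hnpos : 0 < n := Nat.pos_of_ne_zero hn0
  have hAd : Aw.natDegree < n := natDegree_polyOf_lt hnpos _
  have hBd : Bw.natDegree < n := natDegree_polyOf_lt hnpos _
  have hPd : P.natDegree < t + 2 * n := by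
    refine lt_of_le_of_lt (natDegree_add_le _ _) ?_
    refine max_lt ?_ ?_
    · refine lt_of_le_of_lt natDegree_mul_le ?_
      rw [uPoly_natDegree, hS]; omega
    · refine lt_of_le_of_lt natDegree_mul_le ?_
      rw [FiniteField.X_pow_card_sub_X_natDegree_eq F hq1]; omega
  have hall : ∀ d, t ≤ d → P.coeff d = 0 := by
    intro d hd
    by_cases h1 : d < t + n
    · have := hcoeff (Sum.inl ⟨d - t, by omega⟩)
      simpa [pos, Nat.add_sub_cancel' hd] using this
    · by_cases h2 : d < t + 2 * n
      · have := hcoeff (Sum.inr ⟨d - t - n, by omega⟩)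
        have e : t + n + (d - t - n) = d := by omega
        simpa [pos, e] using this
      · exact coeff_eq_zero_of_natDegree_lt (by omega)
  have hdvd : gPoly S m ∣ P := by
    refine dvd_add (Dvd.dvd.mul_left ?_ _) (Dvd.dvd.mul_left ?_ _)
    · exact ⟨_, (g_mul_uPrime S m).symm⟩
    · exact ⟨_, (g_mul_vPrime S m).symm⟩
  have hP0 : P = 0 := eq_zero_of_dvd_of_coeff (gPoly_monic S m) hdvd (by
    rw [gPoly_natDegree, ht]; exact hall)
  have hgne : gPoly S m ≠ 0 := (gPoly_monic S m).ne_zero
  have hred : Aw * uPrime S m + Bw * vPrime S m = 0 := by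
    apply mul_left_cancel₀ hgne
    rw [mul_zero, ← hP0, hP, ← g_mul_uPrime S m, ← g_mul_vPrime S m]
    ring
  have hdv : vPrime S m ∣ Aw := by
    have h1 : vPrime S m ∣ Aw * uPrime S m := by
      refine ⟨-Bw, ?_⟩
      linear_combination hred
    exact ((isCoprime_uPrime_vPrime S m).symm).dvd_of_dvd_mul_right h1
  have hA0 : Aw = 0 := by
    refine eq_zero_of_dvd_of_natDegree_lt hdv ?_
    rw [vPrime_natDegree, ht]
    omega
  have hB0 : Bw = 0 := by
    have h3 : Bw * vPrime S m = 0 := by
      rw [hA0, zero_mul, zero_add] at hred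
      exact hred
    exact (mul_eq_zero.mp h3).resolve_right (vPrime_monic S m).ne_zero
  ext ρ
  rcases ρ with j | j
  · have := coeff_polyOf (fun j => w (Sum.inl j)) j
    rw [← hA, hA0] at this
    simpa using this.symm
  · have := coeff_polyOf (fun j => w (Sum.inr j)) j
    rw [← hB, hB0] at this
    simpa using this.symm

/-- kernel vectors at a slope with `t + r` values -/
theorem ker_vectors (S : Finset (F × F)) (hS : S.card = Fintype.card F) (m : F) (n t r : ℕ)
    (hk : (vals S m).card = t + r) (hn : Fintype.card F = n + t) :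
    ∃ w : Fin r → (Fin n ⊕ Fin n → F), LinearIndependent F w ∧
      ∀ i, (subresMat t n (uPoly S m) (X ^ Fintype.card F - X)).mulVec (w i) = 0 := by
  have hkq : t + r ≤ Fintype.card F := hk ▸ hS ▸ card_vals_le S m
  have hrn : r ≤ n := by omega
  have hvd : ∀ i : Fin r, (vPrime S m * X ^ (i : ℕ)).natDegree < n := by
    intro i
    rw [(vPrime_monic S m).natDegree_mul (monic_X_pow _), vPrime_natDegree, natDegree_X_pow, hk]
    have := i.2; omega
  have hud : ∀ i : Fin r, (-(uPrime S m * X ^ (i : ℕ))).natDegree < n := by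
    intro i
    rw [natDegree_neg, (uPrime_monic S m).natDegree_mul (monic_X_pow _), uPrime_natDegree,
      natDegree_X_pow, hk, hS]
    have := i.2; omega
  let w : Fin r → (Fin n ⊕ Fin n → F) := fun i ρ =>
    match ρ with
    | Sum.inl j => (vPrime S m * X ^ (i : ℕ)).coeff j
    | Sum.inr j => (-(uPrime S m * X ^ (i : ℕ))).coeff j
  refine ⟨w, ?_, ?_⟩
  · rw [Fintype.linearIndependent_iff]
    intro c hc i
    have hr : 0 < r := Nat.pos_of_ne_zero (by rintro rfl; exact i.elim0)
    set f := polyOf c with hf
    have hfd : f.natDegree < r := natDegree_polyOf_lt hr c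
    have hcoef : ∀ j : Fin n, (f * vPrime S m).coeff j = 0 := by
      intro j
      have h1 := congrFun hc (Sum.inl j)
      simp only [Finset.sum_apply, Pi.smul_apply, smul_eq_mul, Pi.zero_apply, w] at h1
      rw [← h1, hf, polyOf, Finset.sum_mul, finsetSum_coeff]
      refine Finset.sum_congr rfl fun i' _ => ?_
      have : C (c i') * X ^ (i' : ℕ) * vPrime S m = C (c i') * (vPrime S m * X ^ (i' : ℕ)) := by ring
      rw [this, coeff_C_mul]
    have hdeg : (f * vPrime S m).natDegree < n := by
      refine lt_of_le_of_lt natDegree_mul_le ?_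
      rw [vPrime_natDegree, hk]
      omega
    have h0 : f * vPrime S m = 0 := by
      ext d
      by_cases hd : d < n
      · simpa using hcoef ⟨d, hd⟩
      · simpa using coeff_eq_zero_of_natDegree_lt (by omega : (f * vPrime S m).natDegree < d)
    have hf0 : f = 0 := (mul_eq_zero.mp h0).resolve_right (vPrime_monic S m).ne_zero
    have := coeff_polyOf c i
    rw [← hf, hf0] at this
    simpa using this.symm
  · intro i
    ext ρ
    rw [subresMat_mulVec]
    have h1 : polyOf (fun j : Fin n => w i (Sum.inl j)) = vPrime S m * X ^ (i : ℕ) :=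
      polyOf_coeff _ (hvd i)
    have h2 : polyOf (fun j : Fin n => w i (Sum.inr j)) = -(uPrime S m * X ^ (i : ℕ)) :=
      polyOf_coeff _ (hud i)
    rw [h1, h2, ← g_mul_uPrime S m, ← g_mul_vPrime S m]
    have : vPrime S m * X ^ (i : ℕ) * (gPoly S m * uPrime S m) +
        -(uPrime S m * X ^ (i : ℕ)) * (gPoly S m * vPrime S m) = 0 := by ring
    rw [this]
    simp

/-- The matrix with `m` an indeterminate has determinant of degree at most `n^2`. -/
theorem natDegree_subres_det (S : Finset (F × F)) (hS : S.card = Fintype.card F) (n t : ℕ)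
    (hn : Fintype.card F = n + t) :
    (subresMat t n (UPoly S) (X ^ Fintype.card F - X : (F[X])[X])).det.natDegree ≤ n ^ 2 := by
  classical
  rw [Matrix.det_apply]
  refine natDegree_sum_le_of_forall_le _ _ fun σ _ => ?_
  have hsm : ∀ (u : ℤˣ) (p : F[X]), (u • p).natDegree ≤ p.natDegree := by
    intro u p
    rcases Int.units_eq_one_or u with rfl | rfl
    · simp
    · simp
  refine (hsm _ _).trans ?_
  by_cases hz : ∃ j : Fin n, Fintype.card F + j < pos t n (σ (Sum.inl j))
  · obtain ⟨j, hj⟩ := hz
    have h0 : subresMat t n (UPoly S) (X ^ Fintype.card F - X : (F[X])[X]) (σ (Sum.inl j)) (Sum.inl j) = 0 := by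
      simp only [subresMat, Matrix.of_apply]
      refine coeff_eq_zero_of_natDegree_lt ?_
      refine lt_of_le_of_lt natDegree_mul_le ?_
      rw [natDegree_X_pow, UPoly_natDegree, hS]
      omega
    have hp : ∏ i, subresMat t n (UPoly S) (X ^ Fintype.card F - X : (F[X])[X]) (σ i) i = 0 :=
      Finset.prod_eq_zero (i := Sum.inl j) (Finset.mem_univ _) h0
    rw [hp]
    simp
  · push Not at hz
    refine natDegree_prod_le _ _ |>.trans ?_
    rw [Fintype.sum_sum_type]
    -- the `V` columns are constant
    have hV : ∀ j : Fin n, ∀ ρ, (subresMat t n (UPoly S) (X ^ Fintype.card F - X : (F[X])[X]) ρ (Sum.inr j)).natDegree = 0 := by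
      intro j ρ
      simp only [subresMat, Matrix.of_apply]
      have : (X ^ (j : ℕ) * (X ^ Fintype.card F - X) : (F[X])[X]) =
          (X ^ (j : ℕ) * (X ^ Fintype.card F - X) : F[X]).map C := by
        simp [Polynomial.map_mul, Polynomial.map_sub, Polynomial.map_pow]
      rw [this, coeff_map, natDegree_C]
    simp only [hV, Finset.sum_const_zero, add_zero]
    -- the `U` columns
    let x : Fin n → ℕ := fun j => pos t n (σ (Sum.inl j)) - t
    have hpt : ∀ ρ, t ≤ pos t n ρ := by
      rintro (i | i) <;> simp only [pos] <;> omega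
    have hx : Function.Injective x := by
      intro j j' h
      have h1 := hpt (σ (Sum.inl j))
      have h2 := hpt (σ (Sum.inl j'))
      have h3 : pos t n (σ (Sum.inl j)) = pos t n (σ (Sum.inl j')) := by
        simp only [x] at h; omega
      exact Sum.inl_injective (σ.injective (pos_injective t n h3))
    have hU : ∀ j : Fin n, (subresMat t n (UPoly S) (X ^ Fintype.card F - X : (F[X])[X]) (σ (Sum.inl j)) (Sum.inl j)).natDegree ≤ n + j - x j := by
      intro j
      simp only [subresMat, Matrix.of_apply]
      rw [coeff_X_pow_mul']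
      split_ifs with hle
      · refine (natDegree_coeff_UPoly S _).trans ?_
        have h1 := hpt (σ (Sum.inl j))
        have h2 := hz j
        simp only [x]
        rw [hS]
        omega
      · simp
    refine (Finset.sum_le_sum fun j _ => hU j).trans ?_
    have hle : ∀ j : Fin n, x j ≤ n + j := by
      intro j
      have h1 := hpt (σ (Sum.inl j))
      have h2 := hz j
      simp only [x]; omega
    have hsum : ∑ j : Fin n, (n + (j : ℕ) - x j) + ∑ j : Fin n, x j = ∑ j : Fin n, (n + (j : ℕ)) := by
      rw [← Finset.sum_add_distrib]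
      exact Finset.sum_congr rfl fun j _ => Nat.sub_add_cancel (hle j)
    have hsum2 : ∑ j : Fin n, (n + (j : ℕ)) = n ^ 2 + ∑ j : Fin n, (j : ℕ) := by
      rw [Finset.sum_add_distrib]
      simp [pow_two]
    have hsum3 := sum_fin_le_of_injective n x hx
    omega

/-- **Gap lemma**. `S ⊆ F × F` with `|S| = q`: `∑ m, (k m - k m₀) ≤ (q - k m₀)^2`. -/
theorem gap_sum (S : Finset (F × F)) (hS : S.card = Fintype.card F) (m₀ : F) :
    ∑ m, ((vals S m).card - (vals S m₀).card) ≤ (Fintype.card F - (vals S m₀).card) ^ 2 := by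
  classical
  set t := (vals S m₀).card with ht
  have htq : t ≤ Fintype.card F := hS ▸ card_vals_le S m₀
  set n := Fintype.card F - t with hn
  have hnt : Fintype.card F = n + t := by omega
  set V : (F[X])[X] := X ^ Fintype.card F - X with hV
  set M := subresMat t n (UPoly S) V with hM
  have hmap : ∀ m : F, M.map (eval m) = subresMat t n (uPoly S m) (X ^ Fintype.card F - X) := by
    intro m
    have := subresMat_map (evalRingHom m) t n (UPoly S) V
    rw [UPoly_map] at this
    have hV' : V.map (evalRingHom m) = X ^ Fintype.card F - X := by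
      simp [hV, Polynomial.map_sub, Polynomial.map_pow]
    rw [hV'] at this
    rw [← this, hM]
    rfl
  have hD : M.det ≠ 0 := by
    intro h0
    have h1 : (M.map (eval m₀)).det = 0 := by
      have := RingHom.map_det (evalRingHom m₀) M
      rw [h0, map_zero] at this
      exact this.symm
    obtain ⟨v, hv, hv0⟩ := Matrix.exists_mulVec_eq_zero_iff.mpr h1
    rw [hmap] at hv0
    exact hv (ker_trivial S hS m₀ n t rfl hnt v hv0)
  have hdvd : ∀ m, (X - C m) ^ ((vals S m).card - t) ∣ M.det := by
    intro m
    by_cases hle : t ≤ (vals S m).card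
    · obtain ⟨w, hw, hw0⟩ := ker_vectors S hS m n t ((vals S m).card - t) (by omega) hnt
      refine pow_dvd_det_of_ker M m _ w hw fun i => ?_
      rw [hmap]
      exact hw0 i
    · rw [Nat.sub_eq_zero_of_le (by omega)]
      simp
  have hprod : ∏ m : F, (X - C m) ^ ((vals S m).card - t) ∣ M.det := by
    refine Finset.prod_dvd_of_coprime ?_ fun m _ => hdvd m
    intro a _ b _ hab
    exact ((pairwise_coprime_X_sub_C (s := (id : F → F)) Function.injective_id) hab).pow
  have hdeg := natDegree_le_of_dvd hprod hD
  rw [natDegree_prod_of_monic _ _ fun _ _ => (monic_X_sub_C _).pow _] at hdeg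
  simp only [natDegree_pow, natDegree_X_sub_C, mul_one] at hdeg
  exact hdeg.trans (natDegree_subres_det S hS n t hnt)

/-- Integer form: with `s₀ = q - k m₀` and `s_aff = ∑ m, (q - k m)` (the number of skew non-vertical
affine lines), `q s₀ - s_aff ≤ s₀²`. -/
theorem gap_int (S : Finset (F × F)) (hS : S.card = Fintype.card F) (m₀ : F) :
    (Fintype.card F : ℤ) * ((Fintype.card F : ℤ) - (vals S m₀).card) -
        ∑ m, ((Fintype.card F : ℤ) - (vals S m).card) ≤
      ((Fintype.card F : ℤ) - (vals S m₀).card) ^ 2 := by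
  have h := gap_sum S hS m₀
  have htq : (vals S m₀).card ≤ Fintype.card F := hS ▸ card_vals_le S m₀
  have h1 : (∑ m : F, ((vals S m).card - (vals S m₀).card) : ℕ) ≤ _ := h
  have h2 : ((∑ m : F, ((vals S m).card - (vals S m₀).card) : ℕ) : ℤ) ≤
      (((Fintype.card F - (vals S m₀).card) ^ 2 : ℕ) : ℤ) := by exact_mod_cast h1
  push_cast [Nat.cast_sub htq] at h2
  have h3 : ∑ m : F, (((vals S m).card : ℤ) - (vals S m₀).card) ≤
      ∑ m : F, (((vals S m).card - (vals S m₀).card : ℕ) : ℤ) := by
    refine Finset.sum_le_sum fun m _ => ?_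
    omega
  have h4 : (Fintype.card F : ℤ) * ((Fintype.card F : ℤ) - (vals S m₀).card) -
        ∑ m, ((Fintype.card F : ℤ) - (vals S m).card) =
      ∑ m : F, (((vals S m).card : ℤ) - (vals S m₀).card) := by
    have : (Fintype.card F : ℤ) * ((Fintype.card F : ℤ) - (vals S m₀).card) =
        ∑ _m : F, ((Fintype.card F : ℤ) - (vals S m₀).card) := by
      simp only [Finset.sum_const, Finset.card_univ, nsmul_eq_mul]
    rw [this, ← Finset.sum_sub_distrib]
    refine Finset.sum_congr rfl fun m _ => ?_
    ring
  rw [h4]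
  exact h3.trans h2

end Gap

end Crest.Agent.Lib.Ryser
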