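import Mathlib

/-!
# The truncated plane used for the Ryser counterexamples (rows S0045/S0046)

Parts are `Option F` (`some c` = the vertical `x = c`, `none` = the part at infinity),
points are pairs `(i, y)`, lines are pairs `(m, b)`, with height `m * c + b` on part `some c`
and height `m` on part `none`.  Equivalently: `PG(2, q)` minus a point `P∞`, lines not through `P∞`,
and the parts are the lines through `P∞`.
-/

set_option autoImplicit false

namespace Crest.Agent.Lib.Ryser

open Finset

variable {F : Type} [Field F]

/-- Points of the truncated plane. -/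
abbrev Pt (F : Type) := Option F × F
/-- Lines of the truncated plane. -/
abbrev Ln (F : Type) := F × F

/-- Height of a line on a part. -/
def ht (l : Ln F) : Option F → F
  | none => l.1
  | some c => l.1 * c + l.2

/-- The point of `l` on part `i`. -/
def ptOn (l : Ln F) (i : Option F) : Pt F := (i, ht l i)

/-- Incidence. -/
def OnLn (x : Pt F) (l : Ln F) : Prop := ht l x.1 = x.2

instance [DecidableEq F] (x : Pt F) (l : Ln F) : Decidable (OnLn x l) :=
  inferInstanceAs (Decidable (ht l x.1 = x.2))

@[simp] lemma ptOn_fst (l : Ln F) (i : Option F) : (ptOn l i).1 = i := rfl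
@[simp] lemma ptOn_snd (l : Ln F) (i : Option F) : (ptOn l i).2 = ht l i := rfl

lemma onLn_ptOn (l : Ln F) (i : Option F) : OnLn (ptOn l i) l := rfl

lemma eq_ptOn_of_onLn {x : Pt F} {l : Ln F} (h : OnLn x l) : x = ptOn l x.1 := by
  ext1
  · rfl
  · exact h.symm

lemma onLn_iff_eq_ptOn {x : Pt F} {l : Ln F} : OnLn x l ↔ x = ptOn l x.1 :=
  ⟨eq_ptOn_of_onLn, fun h => by rw [h]; exact onLn_ptOn _ _⟩

lemma ptOn_injective (l : Ln F) : Function.Injective (ptOn l) := fun _ _ h => congrArg Prod.fst h

/-- Two distinct lines agree on at most one part. -/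
lemma ht_agree_unique {l l' : Ln F} (hne : l ≠ l') {i j : Option F}
    (hi : ht l i = ht l' i) (hj : ht l j = ht l' j) : i = j := by
  obtain ⟨m, b⟩ := l
  obtain ⟨m', b'⟩ := l'
  cases i with
  | none =>
    cases j with
    | none => rfl
    | some c =>
      simp only [ht] at hi hj
      subst hi
      have : b = b' := by linear_combination hj
      subst this
      exact absurd rfl hne
  | some c =>
    cases j with
    | none =>
      simp only [ht] at hi hj
      subst hj
      have : b = b' := by linear_combination hi
      subst this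
      exact absurd rfl hne
    | some d =>
      simp only [ht] at hi hj
      have h1 : (m - m') * (c - d) = 0 := by linear_combination hi - hj
      rcases mul_eq_zero.1 h1 with h2 | h2
      · have hm : m = m' := sub_eq_zero.1 h2
        subst hm
        have : b = b' := by linear_combination hi
        subst this
        exact absurd rfl hne
      · rw [sub_eq_zero.1 h2]

/-- Two distinct lines agree on some part. -/
lemma ht_agree_exists (l l' : Ln F) : ∃ i, ht l i = ht l' i := by
  obtain ⟨m, b⟩ := l
  obtain ⟨m', b'⟩ := l'
  by_cases hm : m = m'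
  · exact ⟨none, hm⟩
  · refine ⟨some ((b' - b) / (m - m')), ?_⟩
    simp only [ht]
    have : m - m' ≠ 0 := sub_ne_zero.2 hm
    field_simp
    ring

/-- Two points on different parts lie on a common line. -/
lemma exists_line_through {x y : Pt F} (h : x.1 ≠ y.1) : ∃ l : Ln F, OnLn x l ∧ OnLn y l := by
  obtain ⟨i, a⟩ := x
  obtain ⟨j, b⟩ := y
  cases i with
  | none =>
    cases j with
    | none => exact absurd rfl h
    | some d => exact ⟨(a, b - a * d), rfl, by simp [OnLn, ht]⟩
  | some c =>
    cases j with
    | none => exact ⟨(b, a - b * c), by simp [OnLn, ht], rfl⟩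
    | some d =>
      have hcd : c - d ≠ 0 := sub_ne_zero.2 (fun e => h (by simp [e]))
      refine ⟨((a - b) / (c - d), a - (a - b) / (c - d) * c), by simp [OnLn, ht], ?_⟩
      simp only [OnLn, ht]
      field_simp
      ring

/-- Two points on different parts lie on at most one common line. -/
lemma line_through_unique {x y : Pt F} (h : x.1 ≠ y.1) {l l' : Ln F}
    (hx : OnLn x l) (hy : OnLn y l) (hx' : OnLn x l') (hy' : OnLn y l') : l = l' := by
  by_contra hne
  exact h (ht_agree_unique hne (hx.trans hx'.symm) (hy.trans hy'.symm))

/-- Two distinct lines through the point `x` share no other point. -/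
lemma eq_of_onLn_of_onLn {x y : Pt F} {l l' : Ln F} (hne : l ≠ l')
    (hx : OnLn x l) (hx' : OnLn x l') (hy : OnLn y l) (hy' : OnLn y l') : x = y := by
  have h : x.1 = y.1 := ht_agree_unique hne (hx.trans hx'.symm) (hy.trans hy'.symm)
  ext1
  · exact h
  · have h2 : ht l x.1 = x.2 := hx
    have h3 : ht l y.1 = y.2 := hy
    rw [← h2, ← h3, h]

/-- A line does not contain two points of the same part. -/
lemma eq_of_onLn_same_part {x y : Pt F} {l : Ln F} (h : x.1 = y.1) (hx : OnLn x l) (hy : OnLn y l) :
    x = y := by
  ext1
  · exact h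
  · have h2 : ht l x.1 = x.2 := hx
    have h3 : ht l y.1 = y.2 := hy
    rw [← h2, ← h3, h]

section counting

variable [Fintype F] [DecidableEq F]

/-- The points of a line. -/
def ptsOf (l : Ln F) : Finset (Pt F) := univ.filter (fun x => OnLn x l)


lemma mem_ptsOf {l : Ln F} {x : Pt F} : x ∈ ptsOf l ↔ OnLn x l := by simp [ptsOf]

lemma ptsOf_eq_image (l : Ln F) : ptsOf l = univ.image (ptOn l) := by
  ext x
  simp only [mem_ptsOf, mem_image, mem_univ, true_and]
  constructor
  · intro h
    exact ⟨x.1, (eq_ptOn_of_onLn h).symm⟩
  · rintro ⟨i, rfl⟩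
    exact onLn_ptOn _ _

lemma card_ptsOf (l : Ln F) : (ptsOf l).card = Fintype.card F + 1 := by
  rw [ptsOf_eq_image, card_image_of_injective _ (ptOn_injective l), card_univ, Fintype.card_option]

/-- Lines through a point. -/
def linesThrough (x : Pt F) : Finset (Ln F) := univ.filter (fun l => OnLn x l)

lemma mem_linesThrough {x : Pt F} {l : Ln F} : l ∈ linesThrough x ↔ OnLn x l := by
  simp [linesThrough]

/-- A point on another part determines a bijection lines through `x` ↔ heights on the part `i`. -/
lemma height_bij (x : Pt F) {i : Option F} (hi : i ≠ x.1) :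
    Set.BijOn (fun l : Ln F => ht l i) (linesThrough x : Set (Ln F)) Set.univ := by
  refine ⟨fun _ _ => Set.mem_univ _, ?_, ?_⟩
  · intro l hl l' hl' h
    have hl1 : OnLn x l := mem_linesThrough.1 hl
    have hl2 : OnLn x l' := mem_linesThrough.1 hl'
    have : OnLn (i, ht l i) l := rfl
    have h2 : OnLn (i, ht l i) l' := by simpa [OnLn] using h.symm
    exact line_through_unique (x := x) (y := (i, ht l i)) (Ne.symm hi) hl1 this hl2 h2
  · intro y _
    obtain ⟨l, hl, hl2⟩ := exists_line_through (x := x) (y := (i, y)) (Ne.symm hi)
    exact ⟨l, mem_linesThrough.2 hl, hl2⟩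

/-- There are exactly `q` lines through a point. -/
lemma card_linesThrough (x : Pt F) : (linesThrough x).card = Fintype.card F := by
  classical
  -- pick a part different from `x.1`
  obtain ⟨i, hi⟩ : ∃ i : Option F, i ≠ x.1 := by
    cases h : x.1 with
    | none => exact ⟨some 0, by simp⟩
    | some c => exact ⟨none, by simp⟩
  have h := (height_bij x hi)
  have : (linesThrough x).card = (univ : Finset F).card := by
    apply Finset.card_bij (fun l _ => ht l i)
    · intro _ _; exact mem_univ _
    · intro a ha b hb hab
      exact h.injOn (by exact_mod_cast ha) (by exact_mod_cast hb) hab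
    · intro b _
      obtain ⟨a, ha, hab⟩ := h.surjOn (Set.mem_univ b)
      exact ⟨a, by exact_mod_cast ha, hab⟩
  simpa using this

end counting

end Crest.Agent.Lib.Ryser
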