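import Crest.Agent.Lib.Ryser.Defs
import Crest.Agent.Lib.Ryser.Plane
import Crest.Agent.Lib.Ryser.Gap

/-!
# Link between the field plane and the abstract orthogonal array (row 34)

`ht_OA : OA q ht` and `ht_gap : GapProp ht q`: the Szőnyi–Weiner lemma `gap_int` transported to `PG(2,q)` by an
affine chart adapted to the given flag (point on a skew hat line).
-/

set_option autoImplicit false

namespace Crest.Agent.Ryser

open Finset Crest.Agent.Lib.Ryser

set_option linter.unusedSectionVars false

variable {F : Type} [Field F] [Fintype F] [DecidableEq F]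

theorem ht_OA : OA (Fintype.card F) (ht : Ln F → Option F → F) where
  cardP := by simp
  cardV := rfl
  two_le := Fintype.one_lt_card
  bij i j hij := by
    have hinj : Function.Injective fun l : Ln F => (ht l i, ht l j) := by
      intro l l' h
      by_contra hne
      simp only [Prod.mk.injEq] at h
      exact hij (ht_agree_unique hne h.1 h.2)
    exact Finite.injective_iff_bijective.mp hinj

/-- Homogeneous coordinates `[Z : C : Y]` of a point. -/
def pvec : Pt F → (Fin 3 → F)
  | (some c, y) => ![1, c, y]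
  | (none, m) => ![0, 1, m]

/-- The functional of a hat line. -/
def lvec : Ln F ⊕ Option F → (Fin 3 → F)
  | Sum.inl (m, b) => ![-b, -m, 1]
  | Sum.inr (some c) => ![-c, 1, 0]
  | Sum.inr none => ![1, 0, 0]

theorem onH_iff (x : Pt F) (L : Ln F ⊕ Option F) :
    OnH (ht : Ln F → Option F → F) L x ↔ lvec L ⬝ᵥ pvec x = 0 := by
  obtain ⟨i, y⟩ := x
  rcases L with ⟨m, b⟩ | (_ | c)
  · cases i with
    | none =>
      simp only [OnH, On, ht, lvec, pvec, dotProduct, Fin.sum_univ_three]
      simp
      constructor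
      · intro h; rw [h]; ring
      · intro h; linear_combination -h
    | some c =>
      simp only [OnH, On, ht, lvec, pvec, dotProduct, Fin.sum_univ_three]
      simp
      constructor
      · intro h; rw [← h]; ring
      · intro h; linear_combination -h
  · cases i with
    | none => simp [OnH, lvec, pvec, dotProduct, Fin.sum_univ_three]
    | some c => simp [OnH, lvec, pvec, dotProduct, Fin.sum_univ_three]
  · cases i with
    | none => simp [OnH, lvec, pvec, dotProduct, Fin.sum_univ_three]
    | some c' =>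
      simp [OnH, lvec, pvec, dotProduct, Fin.sum_univ_three]
      constructor
      · intro h; rw [h]; ring
      · intro h; linear_combination h

theorem lvec_ne_zero (L : Ln F ⊕ Option F) : lvec L ≠ 0 := by
  rcases L with ⟨m, b⟩ | (_ | c)
  · intro h; simpa [lvec] using congrFun h 2
  · intro h; simpa [lvec] using congrFun h 0
  · intro h; simpa [lvec] using congrFun h 1

theorem lvec_smul_inj {L L' : Ln F ⊕ Option F} {r : F} (h : lvec L = r • lvec L') : L = L' := by
  have h0 := congrFun h 0
  have h1 := congrFun h 1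
  have h2 := congrFun h 2
  rcases L with ⟨m, b⟩ | (_ | c) <;> rcases L' with ⟨m', b'⟩ | (_ | c')
  · have hr : (1 : F) = r := by simpa [lvec] using h2
    subst hr
    have e0 : b = b' := by simpa [lvec] using h0
    have e1 : m = m' := by simpa [lvec] using h1
    rw [e0, e1]
  · simp [lvec] at h2
  · simp [lvec] at h2
  · have hr : (0 : F) = r := by simpa [lvec] using h2
    subst hr
    simp [lvec] at h0
  · rfl
  · have hr : (0 : F) = r := by simpa [lvec] using h1
    subst hr
    simp [lvec] at h0
  · have hr : (0 : F) = r := by simpa [lvec] using h2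
    subst hr
    simp [lvec] at h1
  · simp [lvec] at h1
  · have hr : (1 : F) = r := by simpa [lvec] using h1
    subst hr
    have e0 : c = c' := by simpa [lvec] using h0
    rw [e0]

theorem exists_smul_lvec {g : Fin 3 → F} (hg : g ≠ 0) :
    ∃ (L : Ln F ⊕ Option F) (r : F), r ≠ 0 ∧ g = r • lvec L := by
  by_cases h2 : g 2 = 0
  · by_cases h1 : g 1 = 0
    · have h0 : g 0 ≠ 0 := by
        intro h0
        apply hg
        funext i
        fin_cases i <;> simp [h0, h1, h2]
      refine ⟨Sum.inr none, g 0, h0, ?_⟩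
      funext i
      fin_cases i <;> simp [lvec, h1, h2]
    · refine ⟨Sum.inr (some (-(g 0) / g 1)), g 1, h1, ?_⟩
      funext i
      fin_cases i
      · simp [lvec]; field_simp
      · simp [lvec]
      · simp [lvec, h2]
  · refine ⟨Sum.inl (-(g 1) / g 2, -(g 0) / g 2), g 2, h2, ?_⟩
    funext i
    fin_cases i
    · simp [lvec]; field_simp
    · simp [lvec]; field_simp
    · simp [lvec]

theorem pvec_smul_inj {p p' : Pt F} {r : F} (h : pvec p' = r • pvec p) : p' = p := by
  obtain ⟨i, y⟩ := p
  obtain ⟨i', y'⟩ := p'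
  have h0 := congrFun h 0
  have h1 := congrFun h 1
  have h2 := congrFun h 2
  cases i with
  | none =>
    cases i' with
    | none =>
      have hr : (1 : F) = r := by simpa [pvec] using h1
      subst hr
      have e : y' = y := by simpa [pvec] using h2
      rw [e]
    | some c' => simp [pvec] at h0
  | some c =>
    cases i' with
    | none =>
      have hr : (0 : F) = r := by simpa [pvec] using h0
      subst hr
      simp [pvec] at h1
    | some c' =>
      have hr : (1 : F) = r := by simpa [pvec] using h0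
      subst hr
      have e1 : c' = c := by simpa [pvec] using h1
      have e2 : y' = y := by simpa [pvec] using h2
      rw [e1, e2]

/-- The height function as an array. -/
abbrev hh (F : Type) [Field F] : Ln F → Option F → F := ht

theorem card_hatThrough (x : Pt F) :
    (univ.filter fun M : Ln F ⊕ Option F => OnH (hh F) M x).card = Fintype.card F + 1 := by
  classical
  have hT : (univ.filter fun M : Ln F ⊕ Option F => OnH (hh F) M x) =
      (Crest.Agent.Ryser.linesThrough (hh F) x).image Sum.inl ∪ {Sum.inr x.1} := by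
    ext M
    rcases M with l | i
    · simp [OnH, Crest.Agent.Ryser.linesThrough]
    · simp [OnH, eq_comm]
  rw [hT, Finset.card_union_of_disjoint, Finset.card_image_of_injective _ Sum.inl_injective,
    (ht_OA (F := F)).card_linesThrough x, Finset.card_singleton]
  simp

theorem ht_gap : GapProp (hh F) (Fintype.card F) := by
  classical
  intro S x hS _hx hd
  have hne0 : ((skewH (hh F) S).filter fun ℓ => OnH (hh F) ℓ x).Nonempty := by
    rw [← Finset.card_pos]; exact hd
  obtain ⟨ℓ0, hℓ0⟩ := hne0
  rw [Finset.mem_filter] at hℓ0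
  obtain ⟨hℓ0s, hℓ0x⟩ := hℓ0
  have hskew : ∀ y ∈ S, ¬ OnH (hh F) ℓ0 y := by
    simpa [skewH] using hℓ0s
  -- a second hat line through `x`
  obtain ⟨ℓ1, hℓ1x, hne⟩ : ∃ ℓ1 : Ln F ⊕ Option F, OnH (hh F) ℓ1 x ∧ ℓ1 ≠ ℓ0 := by
    by_cases h0 : ℓ0 = Sum.inr x.1
    · obtain ⟨i, y⟩ := x
      cases i with
      | none => exact ⟨Sum.inl (y, 0), rfl, by rw [h0]; simp⟩
      | some c =>
        refine ⟨Sum.inl (0, y), ?_, by rw [h0]; simp⟩
        simp [OnH, On, ht]
    · exact ⟨Sum.inr x.1, rfl, fun h => h0 h.symm⟩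
  obtain ⟨ε1, hε⟩ : ∃ ε1 : Fin 3 → F, ε1 ⬝ᵥ pvec x = 1 := by
    obtain ⟨i, y⟩ := x
    cases i with
    | none => exact ⟨![0, 1, 0], by simp [pvec, dotProduct, Fin.sum_univ_three]⟩
    | some c => exact ⟨![1, 0, 0], by simp [pvec, dotProduct, Fin.sum_univ_three]⟩
  set φ := lvec ℓ0 with hφ
  set ε2 := lvec ℓ1 with hε2
  have hφξ : φ ⬝ᵥ pvec x = 0 := (onH_iff x ℓ0).mp hℓ0x
  have hε2ξ : ε2 ⬝ᵥ pvec x = 0 := (onH_iff x ℓ1).mp hℓ1x
  -- independence
  have indep : ∀ c0 c1 c2 : F, c0 • ε1 + c1 • ε2 + c2 • φ = 0 → c0 = 0 ∧ c1 = 0 ∧ c2 = 0 := by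
    intro c0 c1 c2 H
    have h1 : (c0 • ε1 + c1 • ε2 + c2 • φ) ⬝ᵥ pvec x = 0 := by rw [H]; simp
    simp only [add_dotProduct, smul_dotProduct, hε, hε2ξ, hφξ, smul_eq_mul, mul_one, mul_zero,
      add_zero] at h1
    subst h1
    simp only [zero_smul, zero_add] at H
    by_cases hc1 : c1 = 0
    · subst hc1
      simp only [zero_smul, zero_add] at H
      have hφ0 : φ ≠ 0 := lvec_ne_zero ℓ0
      exact ⟨rfl, rfl, (smul_eq_zero.mp H).resolve_right hφ0⟩
    · exfalso
      apply hne
      apply lvec_smul_inj (r := -c2 / c1)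
      rw [← hε2, ← hφ]
      funext i
      have := congrFun H i
      simp only [Pi.add_apply, Pi.smul_apply, smul_eq_mul, Pi.zero_apply] at this ⊢
      field_simp
      linear_combination this
  -- kernel
  have ker : ∀ u : Fin 3 → F, ε1 ⬝ᵥ u = 0 → ε2 ⬝ᵥ u = 0 → φ ⬝ᵥ u = 0 → u = 0 := by
    intro u h1 h2 h3
    by_contra hu
    let E : Matrix (Fin 3) (Fin 3) F := Matrix.of ![ε1, ε2, φ]
    have hdet : E.det = 0 := by
      refine Matrix.exists_mulVec_eq_zero_iff.mp ⟨u, hu, ?_⟩
      funext i
      fin_cases i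
      · simpa [E, Matrix.mulVec] using h1
      · simpa [E, Matrix.mulVec] using h2
      · simpa [E, Matrix.mulVec] using h3
    obtain ⟨v, hv, hv0⟩ := Matrix.exists_vecMul_eq_zero_iff.mpr hdet
    have hsum : v 0 • ε1 + v 1 • ε2 + v 2 • φ = 0 := by
      funext j
      have := congrFun hv0 j
      simp only [Matrix.vecMul, dotProduct, Fin.sum_univ_three, E, Pi.zero_apply] at this
      simpa using this
    obtain ⟨e0, e1, e2⟩ := indep _ _ _ hsum
    apply hv
    funext i
    fin_cases i <;> simp [e0, e1, e2]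
  -- the chart
  have hφp : ∀ p ∈ S, φ ⬝ᵥ pvec p ≠ 0 := fun p hp h0 => hskew p hp ((onH_iff p ℓ0).mpr h0)
  let χ : Pt F → F × F := fun p => (ε1 ⬝ᵥ pvec p / φ ⬝ᵥ pvec p, ε2 ⬝ᵥ pvec p / φ ⬝ᵥ pvec p)
  have χinj : Set.InjOn χ (S : Set (Pt F)) := by
    intro p hp p' hp' he
    have hp0 := hφp p hp
    have hp0' := hφp p' hp'
    have h1 : ε1 ⬝ᵥ pvec p / φ ⬝ᵥ pvec p = ε1 ⬝ᵥ pvec p' / φ ⬝ᵥ pvec p' := congrArg Prod.fst he
    have h2 : ε2 ⬝ᵥ pvec p / φ ⬝ᵥ pvec p = ε2 ⬝ᵥ pvec p' / φ ⬝ᵥ pvec p' := congrArg Prod.snd he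
    rw [div_eq_div_iff hp0 hp0'] at h1 h2
    set r := φ ⬝ᵥ pvec p' / φ ⬝ᵥ pvec p with hr
    have hu : pvec p' - r • pvec p = 0 := by
      refine ker _ ?_ ?_ ?_
      · rw [dotProduct_sub, dotProduct_smul, hr, smul_eq_mul]
        field_simp
        linear_combination -h1
      · rw [dotProduct_sub, dotProduct_smul, hr, smul_eq_mul]
        field_simp
        linear_combination -h2
      · rw [dotProduct_sub, dotProduct_smul, hr, smul_eq_mul]
        field_simp
        ring
    exact (pvec_smul_inj (sub_eq_zero.mp hu)).symm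
  set S' : Finset (F × F) := S.image χ with hS'def
  have hS' : S'.card = Fintype.card F := by
    rw [hS'def, Finset.card_image_of_injOn χinj, hS]
  let g : F → F → (Fin 3 → F) := fun m v => ε2 - m • ε1 - v • φ
  have hg_form : ∀ m v, g m v = (-m) • ε1 + (1 : F) • ε2 + (-v) • φ := by
    intro m v
    funext i
    simp only [g, Pi.sub_apply, Pi.add_apply, Pi.smul_apply, smul_eq_mul]
    ring
  have hgne : ∀ a : F × F, g a.1 a.2 ≠ 0 := by
    intro a h0
    rw [hg_form] at h0
    have := (indep _ _ _ h0).2.1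
    exact one_ne_zero this
  choose LL rr hrr hgL using fun a : F × F => exists_smul_lvec (hgne a)
  have hOnLL : ∀ (a : F × F) (y : Pt F), OnH (hh F) (LL a) y ↔ g a.1 a.2 ⬝ᵥ pvec y = 0 := by
    intro a y
    rw [onH_iff, hgL a, smul_dotProduct, smul_eq_mul]
    constructor
    · intro h; rw [h, mul_zero]
    · intro h; exact (mul_eq_zero.mp h).resolve_left (hrr a)
  have LLinj : Function.Injective LL := by
    intro a b hab
    have h1 : g a.1 a.2 = (rr a / rr b) • g b.1 b.2 := by
      rw [hgL a, hgL b, hab, smul_smul]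
      congr 1
      have := hrr b
      field_simp
    have h2 : (-a.1 + rr a / rr b * b.1) • ε1 + (1 - rr a / rr b) • ε2 +
        (-a.2 + rr a / rr b * b.2) • φ = 0 := by
      funext i
      have := congrFun h1 i
      simp only [g, Pi.sub_apply, Pi.smul_apply, smul_eq_mul, Pi.add_apply, Pi.zero_apply] at this ⊢
      linear_combination this
    obtain ⟨e0, e1, e2⟩ := indep _ _ _ h2
    have hc : rr a / rr b = 1 := by linear_combination -e1
    rw [hc] at e0 e2
    ext
    · linear_combination -e0
    · linear_combination -e2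
  have LLne : ∀ a, LL a ≠ ℓ0 := by
    intro a h0
    have h1 : g a.1 a.2 = rr a • φ := by rw [hgL a, h0]
    have h2 : (-a.1) • ε1 + (1 : F) • ε2 + (-a.2 - rr a) • φ = 0 := by
      funext i
      have := congrFun h1 i
      simp only [g, Pi.sub_apply, Pi.smul_apply, smul_eq_mul, Pi.add_apply, Pi.zero_apply] at this ⊢
      linear_combination this
    exact one_ne_zero (indep _ _ _ h2).2.1
  -- values versus skew lines
  have hval : ∀ m v, v ∈ Crest.Agent.Lib.Ryser.vals S' m ↔ ¬ (LL (m, v) ∈ skewH (hh F) S) := by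
    intro m v
    simp only [Crest.Agent.Lib.Ryser.vals, Finset.mem_image, hS'def, skewH, Finset.mem_filter,
      Finset.mem_univ, true_and, not_forall, not_not, exists_prop]
    constructor
    · rintro ⟨q', ⟨p, hp, rfl⟩, rfl⟩
      refine ⟨p, hp, ?_⟩
      rw [hOnLL]
      have hp0 := hφp p hp
      simp only [g, χ, sub_dotProduct, smul_dotProduct, smul_eq_mul]
      field_simp
      ring
    · rintro ⟨p, hp, hOn⟩
      refine ⟨χ p, ⟨p, hp, rfl⟩, ?_⟩
      rw [hOnLL] at hOn
      have hp0 := hφp p hp
      simp only [g, sub_dotProduct, smul_dotProduct, smul_eq_mul] at hOn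
      simp only [χ]
      field_simp
      linear_combination hOn
  have hcnt : ∀ m, Fintype.card F - (Crest.Agent.Lib.Ryser.vals S' m).card =
      (univ.filter fun v => LL (m, v) ∈ skewH (hh F) S).card := by
    intro m
    have : (univ.filter fun v => LL (m, v) ∈ skewH (hh F) S) =
        (Crest.Agent.Lib.Ryser.vals S' m)ᶜ := by
      ext v
      simp [hval]
    rw [this, Finset.card_compl]
  have hle : ∀ m, (Crest.Agent.Lib.Ryser.vals S' m).card ≤ Fintype.card F :=
    fun m => hS' ▸ Crest.Agent.Lib.Ryser.card_vals_le S' m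
  -- total count
  have htotal : ∑ m, (univ.filter fun v => LL (m, v) ∈ skewH (hh F) S).card + 1 ≤
      (skewH (hh F) S).card := by
    have h1 : ∑ m, (univ.filter fun v => LL (m, v) ∈ skewH (hh F) S).card =
        (univ.filter fun a : F × F => LL a ∈ skewH (hh F) S).card := by
      simp only [Finset.card_filter]
      rw [Fintype.sum_prod_type]
    rw [h1]
    have h2 : (univ.filter fun a : F × F => LL a ∈ skewH (hh F) S).image LL ⊆
        (skewH (hh F) S).erase ℓ0 := by
      intro M hM
      obtain ⟨a, ha, rfl⟩ := Finset.mem_image.mp hM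
      exact Finset.mem_erase.mpr ⟨LLne a, (Finset.mem_filter.mp ha).2⟩
    have h3 := Finset.card_le_card h2
    rw [Finset.card_image_of_injective _ LLinj, Finset.card_erase_of_mem hℓ0s] at h3
    have h4 : 0 < (skewH (hh F) S).card := Finset.card_pos.mpr ⟨ℓ0, hℓ0s⟩
    omega
  -- lines through `x`
  have hthrough : (univ.filter fun M : Ln F ⊕ Option F => OnH (hh F) M x).erase ℓ0 =
      univ.image fun v : F => LL (0, v) := by
    symm
    apply Finset.eq_of_subset_of_card_le
    · intro M hM
      obtain ⟨v, -, rfl⟩ := Finset.mem_image.mp hM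
      refine Finset.mem_erase.mpr ⟨LLne _, Finset.mem_filter.mpr ⟨Finset.mem_univ _, ?_⟩⟩
      rw [hOnLL]
      simp only [g, sub_dotProduct, smul_dotProduct, hε2ξ, hφξ, smul_eq_mul]
      ring
    · have hmem0 : ℓ0 ∈ (univ.filter fun M : Ln F ⊕ Option F => OnH (hh F) M x) :=
        Finset.mem_filter.mpr ⟨Finset.mem_univ _, hℓ0x⟩
      rw [Finset.card_erase_of_mem hmem0, card_hatThrough, Finset.card_image_of_injective]
      · simp
      · intro v v' h
        have := LLinj h
        simpa using this
  have hdcount : dSkew (hh F) S x =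
      (univ.filter fun v => LL (0, v) ∈ skewH (hh F) S).card + 1 := by
    have h1 : (skewH (hh F) S).filter (fun ℓ => OnH (hh F) ℓ x) =
        insert ℓ0 ((univ.filter fun v => LL (0, v) ∈ skewH (hh F) S).image fun v => LL (0, v)) := by
      ext M
      simp only [Finset.mem_filter, Finset.mem_insert, Finset.mem_image, Finset.mem_univ, true_and]
      constructor
      · rintro ⟨hM, hMx⟩
        by_cases hM0 : M = ℓ0
        · exact Or.inl hM0
        · right
          have : M ∈ (univ.filter fun M : Ln F ⊕ Option F => OnH (hh F) M x).erase ℓ0 :=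
            Finset.mem_erase.mpr ⟨hM0, Finset.mem_filter.mpr ⟨Finset.mem_univ _, hMx⟩⟩
          rw [hthrough] at this
          obtain ⟨v, -, rfl⟩ := Finset.mem_image.mp this
          exact ⟨v, hM, rfl⟩
      · rintro (rfl | ⟨v, hv, rfl⟩)
        · exact ⟨hℓ0s, hℓ0x⟩
        · refine ⟨hv, ?_⟩
          rw [hOnLL]
          simp only [g, sub_dotProduct, smul_dotProduct, hε2ξ, hφξ, smul_eq_mul]
          ring
    unfold dSkew
    rw [h1, Finset.card_insert_of_notMem, Finset.card_image_of_injective]
    · intro v v' h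
      have := LLinj h
      simpa using this
    · intro hmem
      obtain ⟨v, -, hv⟩ := Finset.mem_image.mp hmem
      exact LLne _ hv
  -- the gap lemma
  have hgap := Crest.Agent.Lib.Ryser.gap_int S' hS' 0
  set s0 := (univ.filter fun v => LL (0, v) ∈ skewH (hh F) S).card with hs0
  have hq0 : (Fintype.card F : ℤ) - (Crest.Agent.Lib.Ryser.vals S' 0).card = s0 := by
    have := hcnt 0
    have h2 := hle 0
    rw [← hs0] at this
    omega
  have hsum : ∑ m, ((Fintype.card F : ℤ) - (Crest.Agent.Lib.Ryser.vals S' m).card) =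
      ((∑ m, (univ.filter fun v => LL (m, v) ∈ skewH (hh F) S).card : ℕ) : ℤ) := by
    push_cast
    refine Finset.sum_congr rfl fun m _ => ?_
    have := hcnt m
    have h2 := hle m
    omega
  rw [hq0, hsum] at hgap
  rw [hdcount]
  simp only [Nat.add_sub_cancel]
  have h5 : ((∑ m, (univ.filter fun v => LL (m, v) ∈ skewH (hh F) S).card + 1 : ℕ) : ℤ) ≤
      ((skewH (hh F) S).card : ℤ) := by exact_mod_cast htotal
  push_cast at h5 hgap
  zify
  push_cast
  nlinarith [h5, hgap]

end Crest.Agent.Ryser
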