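import Crest.Agent.Lib.Ryser.Endgame

/-!
# From a `Design` to the statements S0045/S0046
-/

set_option autoImplicit false

namespace Crest.Agent.Lib.Ryser

open Finset

variable {F : Type} [Field F] [Fintype F] [DecidableEq F]

/-- Abstract hypergraph statement, on `Fin N`. -/
def HasRyser (r c : ℕ) : Prop :=
  ∃ (N : ℕ) (part : Fin N → Fin r) (E : Finset (Finset (Fin N))),
    E.Nonempty ∧
    (∀ e ∈ E, ∀ i : Fin r, (e.filter (fun v => part v = i)).card = 1) ∧
    (∀ e ∈ E, ∀ f ∈ E, (e ∩ f).Nonempty) ∧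
    (∀ i : Fin r, (Finset.univ.filter (fun v => part v = i)).card = c) ∧
    (∀ v : Fin N, ∃ e ∈ E, v ∈ e) ∧
    (∀ S : Finset (Fin N), (∀ e ∈ E, (e ∩ S).Nonempty) → c ≤ S.card)

/-- Transfer from a vertex finset of an arbitrary type to `Fin N`. -/
theorem hasRyser_of_finset {W : Type} [DecidableEq W] (Vs : Finset W) (r c : ℕ) (part : W → Fin r)
    (E : Finset (Finset W)) (hsub : ∀ e ∈ E, e ⊆ Vs)
    (huni : ∀ e ∈ E, ∀ i : Fin r, (e.filter (fun v => part v = i)).card = 1)
    (hint : ∀ e ∈ E, ∀ f ∈ E, (e ∩ f).Nonempty)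
    (hcount : ∀ i : Fin r, (Vs.filter (fun v => part v = i)).card = c)
    (hcov : ∀ v ∈ Vs, ∃ e ∈ E, v ∈ e)
    (hcover : ∀ S : Finset W, (∀ e ∈ E, (e ∩ S).Nonempty) → c ≤ S.card)
    (hc : 0 < c) : HasRyser r c := by
  classical
  -- the equivalence with `Fin N`
  let eqv : Vs ≃ Fin Vs.card := Vs.equivFin
  let toF : W → Option (Fin Vs.card) := fun w => if h : w ∈ Vs then some (eqv ⟨w, h⟩) else none
  let back : Fin Vs.card → W := fun i => (eqv.symm i).1
  have hback : ∀ i, back i ∈ Vs := fun i => (eqv.symm i).2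
  have hbackinj : Function.Injective back := fun a b h => eqv.symm.injective (Subtype.ext h)
  -- each element of `Vs` is in the image of `back`
  have hbacksurj : ∀ v ∈ Vs, ∃ i, back i = v := fun v hv => ⟨eqv ⟨v, hv⟩, by simp [back]⟩
  let pull : Finset W → Finset (Fin Vs.card) := fun e => univ.filter (fun i => back i ∈ e)
  have hmap : ∀ e, e ⊆ Vs → (pull e).image back = e := by
    intro e he
    ext w
    simp only [mem_image, pull, mem_filter, mem_univ, true_and]
    constructor
    · rintro ⟨i, hi, rfl⟩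
      exact hi
    · intro hw
      obtain ⟨i, rfl⟩ := hbacksurj w (he hw)
      exact ⟨i, hw, rfl⟩
  have hEne : E.Nonempty := by
    by_contra hne
    rw [not_nonempty_iff_eq_empty] at hne
    have := hcover ∅ (by simp [hne])
    simp at this
    omega
  refine ⟨Vs.card, part ∘ back, E.image pull, hEne.image _, ?_, ?_, ?_, ?_, ?_⟩
  · intro e' he' i
    obtain ⟨e, he, rfl⟩ := mem_image.1 he'
    rw [← huni e he i]
    conv_rhs => rw [← hmap e (hsub e he)]
    rw [filter_image, card_image_of_injective _ hbackinj]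
    rfl
  · intro e' he' f' hf'
    obtain ⟨e, he, rfl⟩ := mem_image.1 he'
    obtain ⟨f, hf, rfl⟩ := mem_image.1 hf'
    obtain ⟨w, hw⟩ := hint e he f hf
    obtain ⟨hw1, hw2⟩ := mem_inter.1 hw
    obtain ⟨i, rfl⟩ := hbacksurj w (hsub e he hw1)
    exact ⟨i, mem_inter.2 ⟨mem_filter.2 ⟨mem_univ _, hw1⟩, mem_filter.2 ⟨mem_univ _, hw2⟩⟩⟩
  · intro i
    rw [← hcount i]
    have h1 : (univ : Finset (Fin Vs.card)).image back = Vs := by
      ext w
      simp only [mem_image, mem_univ, true_and]
      constructor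
      · rintro ⟨a, rfl⟩
        exact hback a
      · intro hw
        exact hbacksurj w hw
    conv_rhs => rw [← h1]
    rw [filter_image, card_image_of_injective _ hbackinj]
    rfl
  · intro i
    obtain ⟨e, he, hv⟩ := hcov (back i) (hback i)
    exact ⟨pull e, mem_image_of_mem _ he, mem_filter.2 ⟨mem_univ _, hv⟩⟩
  · intro S hS
    have h := hcover (S.image back) ?_
    · exact h.trans card_image_le
    · intro e he
      obtain ⟨i, hi⟩ := hS (pull e) (mem_image_of_mem _ he)
      obtain ⟨hi1, hi2⟩ := mem_inter.1 hi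
      exact ⟨back i, mem_inter.2 ⟨(mem_filter.1 hi1).2, mem_image_of_mem _ hi2⟩⟩

namespace Design

variable {ι : Type} [Fintype ι] [DecidableEq ι] (D : Design F ι)

/-- Vertices per part. -/
lemma card_verts_part (i : Option F) :
    (D.verts.filter (fun v => v.part = i)).card = Fintype.card F + 1 := by
  classical
  have hf := D.card_forcedPart_add i
  have hdecomp : D.verts.filter (fun v => v.part = i) = D.forcedPart i ∪
      ((D.Act.filter (fun z => z.1 = i)) ×ˢ (univ : Finset Bool)).image (fun p => Vx.sg p.1 p.2) := by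
    ext v
    simp only [mem_filter, mem_union, mem_image, mem_product, mem_univ, and_true, D.mem_verts]
    constructor
    · rintro ⟨h | h | h, hp⟩
      · obtain ⟨x, h1, h2, rfl⟩ := h
        left
        refine mem_union.2 (Or.inl (mem_image.2 ⟨x.2, ?_, ?_⟩))
        · have hx : ((i, x.2) : Pt F) = x := by
            ext1
            · exact hp.symm
            · rfl
          simp only [ordsOn, mem_filter, mem_univ, true_and]
          rw [hx]
          exact ⟨h1, h2⟩
        · have hx : ((i, x.2) : Pt F) = x := by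
            ext1
            · exact hp.symm
            · rfl
          rw [hx]
      · obtain ⟨c, hc, rfl⟩ := h
        left
        have hci : c = i := hp
        subst hci
        refine mem_union.2 (Or.inr ?_)
        rw [if_pos hc]
        exact mem_singleton_self _
      · obtain ⟨z, e, hz, rfl⟩ := h
        right
        exact ⟨(z, e), ⟨hz, hp⟩, rfl⟩
    · rintro (h | ⟨p, ⟨h1, h2⟩, rfl⟩)
      · refine ⟨?_, D.forcedPart_part h⟩
        rcases mem_union.1 h with h | h
        · obtain ⟨y, hy, rfl⟩ := mem_image.1 h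
          have := (mem_filter.1 hy).2
          exact Or.inl ⟨_, this.1, this.2, rfl⟩
        · split_ifs at h with hsp
          · rw [mem_singleton] at h
            subst h
            exact Or.inr (Or.inl ⟨i, hsp, rfl⟩)
          · simp at h
      · exact ⟨Or.inr (Or.inr ⟨_, _, h1, rfl⟩), h2⟩
  have hdisj : Disjoint (D.forcedPart i)
      (((D.Act.filter (fun z => z.1 = i)) ×ˢ (univ : Finset Bool)).image (fun p => Vx.sg p.1 p.2)) := by
    rw [Finset.disjoint_left]
    intro v hv hv'
    obtain ⟨p, _, rfl⟩ := mem_image.1 hv'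
    exact D.forcedPart_not_sg hv
  rw [hdecomp, card_union_of_disjoint hdisj, card_image_of_injective, card_product]
  · simp only [card_univ, Fintype.card_bool]
    omega
  · intro a b h
    simp only [Vx.sg.injEq] at h
    exact Prod.ext h.1 h.2

/-- A `Design` gives the hypergraph. -/
theorem hasRyser (D : Design F ι) (e : Option F ≃ Fin (Fintype.card F + 1)) :
    HasRyser (Fintype.card F + 1) (Fintype.card F + 1) := by
  classical
  refine hasRyser_of_finset D.verts _ _ (fun v => e v.part) D.edges ?_ ?_ ?_ ?_ ?_ ?_ (Nat.succ_pos _)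
  · intro e' he'
    obtain ⟨l, _, rfl⟩ := mem_image.1 he'
    exact D.edge_sub_verts l
  · intro e' he' i
    obtain ⟨l, _, rfl⟩ := mem_image.1 he'
    have : (D.edge l).filter (fun v => e v.part = i) = (D.edge l).filter (fun v => v.part = e.symm i) := by
      ext v
      simp [Equiv.eq_symm_apply]
    rw [this]
    exact D.edge_filter_card l _
  · intro e' he' f' hf'
    obtain ⟨l, hl, rfl⟩ := mem_image.1 he'
    obtain ⟨l', hl', rfl⟩ := mem_image.1 hf'
    exact D.edge_inter (mem_filter.1 hl).2 (mem_filter.1 hl').2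
  · intro i
    have : D.verts.filter (fun v => e v.part = i) = D.verts.filter (fun v => v.part = e.symm i) := by
      ext v
      simp [Equiv.eq_symm_apply]
    rw [this]
    exact D.card_verts_part _
  · intro v hv
    obtain ⟨l, hl, hlv⟩ := D.verts_covered hv
    exact ⟨D.edge l, mem_image_of_mem _ (mem_filter.2 ⟨mem_univ _, hl⟩), hlv⟩
  · intro S hS
    apply D.cover_bound S
    intro l hl
    exact hS _ (mem_image_of_mem _ (mem_filter.2 ⟨mem_univ _, hl⟩))

end Design

/-- Main interface: all that Parts B and D have to provide. -/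
def DesignExists : Prop :=
  ∃ q₀ : ℕ, ∀ (F : Type) [Field F] [Fintype F] [DecidableEq F], q₀ ≤ Fintype.card F →
    ∃ (ι : Type) (_ : Fintype ι) (_ : DecidableEq ι), Nonempty (Design F ι)

/-- `S0045` from the design. -/
theorem s0045_of_design (h : DesignExists) :
    ∃ q₀ : ℕ, ∀ q : ℕ, q₀ ≤ q → q.Prime →
      ∃ (N : ℕ) (part : Fin N → Fin (q + 1)) (E : Finset (Finset (Fin N))),
        E.Nonempty ∧
        (∀ e ∈ E, ∀ i : Fin (q + 1), (e.filter (fun v => part v = i)).card = 1) ∧
        (∀ e ∈ E, ∀ f ∈ E, (e ∩ f).Nonempty) ∧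
        (∀ i : Fin (q + 1), (Finset.univ.filter (fun v => part v = i)).card = q + 1) ∧
        (∀ v : Fin N, ∃ e ∈ E, v ∈ e) ∧
        (∀ S : Finset (Fin N), (∀ e ∈ E, (e ∩ S).Nonempty) → q + 1 ≤ S.card) := by
  classical
  obtain ⟨q₀, hq₀⟩ := h
  refine ⟨q₀, fun q hq hp => ?_⟩
  haveI : Fact q.Prime := ⟨hp⟩
  have hcard : Fintype.card (ZMod q) = q := ZMod.card q
  obtain ⟨ι, _, _, ⟨D⟩⟩ := hq₀ (ZMod q) (by rw [hcard]; exact hq)
  have e : Option (ZMod q) ≃ Fin (Fintype.card (ZMod q) + 1) :=
    Fintype.equivFinOfCardEq (by simp)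
  have := D.hasRyser e
  rw [hcard] at this
  obtain ⟨N, part, E, h1, h2, h3, h4, h5, h6⟩ := this
  exact ⟨N, part, E, h1, h2, h3, h4, h5, h6⟩

/-- `S0046` from the design. -/
theorem s0046_of_design (h : DesignExists) :
    ∃ s₀ : ℕ, ∀ s : ℕ, s₀ ≤ s → s.Prime → s % 3 = 2 →
      ∃ n₀ : ℕ, 3 ≤ n₀ ∧ ∀ n : ℕ, n₀ ≤ n → Odd n →
        ∃ (N : ℕ) (part : Fin N → Fin (s ^ n + 1)) (E : Finset (Finset (Fin N))),
          E.Nonempty ∧
          (∀ e ∈ E, ∀ i : Fin (s ^ n + 1), (e.filter (fun v => part v = i)).card = 1) ∧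
          (∀ e ∈ E, ∀ f ∈ E, (e ∩ f).Nonempty) ∧
          (∀ S : Finset (Fin N), (∀ e ∈ E, (e ∩ S).Nonempty) → s ^ n + 1 ≤ S.card) := by
  classical
  obtain ⟨q₀, hq₀⟩ := h
  refine ⟨2, fun s hs hp _ => ⟨q₀ + 3, by omega, fun n hn _ => ?_⟩⟩
  haveI : Fact s.Prime := ⟨hp⟩
  have hn0 : n ≠ 0 := by omega
  letI : Fintype (GaloisField s n) := Fintype.ofFinite _
  have hcard : Fintype.card (GaloisField s n) = s ^ n := by
    rw [← Nat.card_eq_fintype_card, GaloisField.card s n hn0]
  have hbig : q₀ ≤ s ^ n := by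
    calc q₀ ≤ n := by omega
      _ ≤ s ^ n := (Nat.lt_pow_self hp.one_lt).le
  obtain ⟨ι, _, _, ⟨D⟩⟩ := hq₀ (GaloisField s n) (by rw [hcard]; exact hbig)
  have e : Option (GaloisField s n) ≃ Fin (Fintype.card (GaloisField s n) + 1) :=
    Fintype.equivFinOfCardEq (by simp)
  have := D.hasRyser e
  rw [hcard] at this
  obtain ⟨N, part, E, h1, h2, h3, _, _, h6⟩ := this
  exact ⟨N, part, E, h1, h2, h3, h6⟩

end Crest.Agent.Lib.Ryser
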