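import Crest.Agent.Lib.Ryser.Defs

/-!
# Module HAT: hat lines, variance lemma, near-line lemma
-/

open Finset BigOperators

namespace Crest.Agent.Ryser

variable {P V L : Type*} [Fintype P] [DecidableEq P] [Fintype V] [DecidableEq V]
  [Fintype L] [DecidableEq L]
variable {q : ℕ} {h : L → P → V}

/-! ### Counting points on lines -/

/-- A line has `q + 1` points. -/
lemma card_pts_line (hO : OA q h) (ℓ : L) : (univ.filter fun x : P × V => On h ℓ x).card = q + 1 := by
  have : (univ.filter fun x : P × V => On h ℓ x) = (univ : Finset P).image fun i => (i, h ℓ i) := by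
    ext x
    simp only [mem_filter, mem_univ, true_and, mem_image, On]
    constructor
    · intro hx
      exact ⟨x.1, Prod.ext rfl hx⟩
    · rintro ⟨i, rfl⟩
      rfl
  rw [this, card_image_of_injective _ (fun a b hab => (Prod.mk.inj hab).1), card_univ, hO.cardP]

/-- Two distinct lines have exactly one common point. -/
lemma card_pts_meet (hO : OA q h) {ℓ ℓ' : L} (hne : ℓ ≠ ℓ') :
    (univ.filter fun x : P × V => On h ℓ x ∧ On h ℓ' x).card = 1 := by
  obtain ⟨i, hi, huniq⟩ := hO.existsUnique_meet hne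
  rw [card_eq_one]
  refine ⟨(i, h ℓ i), ?_⟩
  ext x
  simp only [mem_filter, mem_univ, true_and, mem_singleton, On]
  constructor
  · rintro ⟨h1, h2⟩
    have : x.1 = i := huniq _ (h1.trans h2.symm)
    refine Prod.ext this ?_
    rw [← h1, this]
  · rintro rfl
    exact ⟨rfl, hi.symm⟩

/-- The sum over a point of the lines through it, as a filtered sum. -/
lemma sum_linesThrough (w : L → ℝ) (x : P × V) :
    ∑ ℓ ∈ linesThrough h x, w ℓ = ∑ ℓ, if On h ℓ x then w ℓ else 0 := by
  unfold linesThrough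
  rw [sum_filter]

/-- First moment of a weight. -/
lemma sum_pts_first (hO : OA q h) (w : L → ℝ) :
    ∑ x : P × V, ∑ ℓ ∈ linesThrough h x, w ℓ = (q + 1) * ∑ ℓ, w ℓ := by
  simp_rw [sum_linesThrough]
  rw [sum_comm, mul_sum]
  refine sum_congr rfl fun ℓ _ => ?_
  have : ∑ x : P × V, (if On h ℓ x then w ℓ else 0) =
      ((univ.filter fun x : P × V => On h ℓ x).card : ℝ) * w ℓ := by
    rw [← sum_filter, sum_const, nsmul_eq_mul]
  rw [this, card_pts_line hO]
  push_cast
  ring

/-- Second moment of a weight. -/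
lemma sum_pts_second (hO : OA q h) (w : L → ℝ) :
    ∑ x : P × V, (∑ ℓ ∈ linesThrough h x, w ℓ) ^ 2 = q * ∑ ℓ, w ℓ ^ 2 + (∑ ℓ, w ℓ) ^ 2 := by
  simp_rw [sum_linesThrough, pow_two, sum_mul_sum]
  rw [sum_comm]
  have h1 : ∀ ℓ : L, ∑ x : P × V, ∑ ℓ' : L, (if On h ℓ x then w ℓ else 0) * (if On h ℓ' x then w ℓ' else 0) =
      ∑ ℓ' : L, w ℓ * w ℓ' * (if ℓ = ℓ' then (q : ℝ) + 1 else 1) := by
    intro ℓ
    rw [sum_comm]
    refine sum_congr rfl fun ℓ' _ => ?_
    have h2 : ∀ x : P × V, (if On h ℓ x then w ℓ else 0) * (if On h ℓ' x then w ℓ' else 0) =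
        (if (On h ℓ x ∧ On h ℓ' x) then w ℓ * w ℓ' else 0) := by
      intro x
      by_cases h3 : On h ℓ x <;> by_cases h4 : On h ℓ' x <;> simp [h3, h4]
    simp_rw [h2]
    rw [← sum_filter, sum_const, nsmul_eq_mul]
    by_cases he : ℓ = ℓ'
    · subst he
      simp only [and_self, if_true]
      rw [card_pts_line hO]
      push_cast
      ring
    · rw [card_pts_meet hO he, if_neg he]
      simp
  rw [sum_congr rfl fun ℓ _ => h1 ℓ]
  have h3 : ∀ ℓ ℓ' : L, w ℓ * w ℓ' * (if ℓ = ℓ' then (q : ℝ) + 1 else 1) =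
      w ℓ * w ℓ' + (if ℓ = ℓ' then (q : ℝ) * (w ℓ * w ℓ') else 0) := by
    intro ℓ ℓ'
    by_cases he : ℓ = ℓ'
    · simp [he]; ring
    · simp [he]
  simp_rw [h3, sum_add_distrib, sum_ite_eq, mem_univ, if_true]
  have e1 : ∑ ℓ : L, ∑ ℓ' : L, w ℓ * w ℓ' = (∑ ℓ, w ℓ) * ∑ ℓ, w ℓ := by rw [sum_mul_sum]
  have e2 : ∑ ℓ : L, (q : ℝ) * (w ℓ * w ℓ) = q * ∑ ℓ, w ℓ ^ 2 := by
    rw [mul_sum]
    exact sum_congr rfl fun ℓ _ => by ring
  rw [e1, e2]
  ring

/-- Variance lemma: for any weights on lines, with `W = ∑ w`,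
`∑_x (∑_{ℓ ∋ x} w ℓ - W/q)^2 = q ∑ w^2 - W^2/q`. -/
theorem variance_identity (hO : OA q h) (w : L → ℝ) :
    ∑ x : P × V, ((∑ ℓ ∈ linesThrough h x, w ℓ) - (∑ ℓ, w ℓ) / q) ^ 2 =
      q * ∑ ℓ, (w ℓ) ^ 2 - (∑ ℓ, w ℓ) ^ 2 / q := by
  have hq : (q : ℝ) ≠ 0 := by
    have := hO.q_pos
    positivity
  set W := ∑ ℓ, w ℓ with hW
  have h1 : ∀ x : P × V, ((∑ ℓ ∈ linesThrough h x, w ℓ) - W / q) ^ 2 =
      (∑ ℓ ∈ linesThrough h x, w ℓ) ^ 2 - 2 * (W / q) * (∑ ℓ ∈ linesThrough h x, w ℓ) + (W / q) ^ 2 := by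
    intro x; ring
  simp_rw [h1]
  rw [sum_add_distrib, sum_sub_distrib, ← mul_sum, sum_pts_first hO, sum_pts_second hO, sum_const, card_univ,
    hO.card_pt, nsmul_eq_mul, ← hW]
  push_cast
  field_simp
  ring

/-- Consequence: few points have large weight. If `W/q ≤ τ/2` then
`#{x : τ ≤ ∑_{ℓ ∋ x} w ℓ} ≤ 4 q ∑ w^2 / τ^2`. -/
theorem card_heavy_le (hO : OA q h) (w : L → ℝ) (τ : ℝ) (hτ : 0 < τ)
    (hmean : (∑ ℓ, w ℓ) / q ≤ τ / 2) :
    ((univ.filter fun x : P × V => τ ≤ ∑ ℓ ∈ linesThrough h x, w ℓ).card : ℝ) ≤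
      4 * q * (∑ ℓ, (w ℓ) ^ 2) / τ ^ 2 := by
  have hq : (0 : ℝ) < q := by
    have := hO.q_pos
    positivity
  set X := univ.filter fun x : P × V => τ ≤ ∑ ℓ ∈ linesThrough h x, w ℓ with hX
  have h1 : (X.card : ℝ) * (τ ^ 2 / 4) ≤ ∑ x : P × V, ((∑ ℓ ∈ linesThrough h x, w ℓ) - (∑ ℓ, w ℓ) / q) ^ 2 := by
    calc (X.card : ℝ) * (τ ^ 2 / 4) = ∑ x ∈ X, (τ ^ 2 / 4) := by rw [sum_const, nsmul_eq_mul]
      _ ≤ ∑ x ∈ X, ((∑ ℓ ∈ linesThrough h x, w ℓ) - (∑ ℓ, w ℓ) / q) ^ 2 := by
        refine sum_le_sum fun x hx => ?_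
        have hx' : τ ≤ ∑ ℓ ∈ linesThrough h x, w ℓ := (mem_filter.1 hx).2
        have h2 : τ / 2 ≤ (∑ ℓ ∈ linesThrough h x, w ℓ) - (∑ ℓ, w ℓ) / q := by linarith
        have h3 : (τ / 2) ^ 2 ≤ ((∑ ℓ ∈ linesThrough h x, w ℓ) - (∑ ℓ, w ℓ) / q) ^ 2 :=
          pow_le_pow_left₀ (by positivity) h2 2
        calc τ ^ 2 / 4 = (τ / 2) ^ 2 := by ring
          _ ≤ _ := h3
      _ ≤ _ := sum_le_sum_of_subset_of_nonneg (subset_univ _) (fun _ _ _ => sq_nonneg _)
  rw [variance_identity hO] at h1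
  have h2 : (X.card : ℝ) * (τ ^ 2 / 4) ≤ q * ∑ ℓ, (w ℓ) ^ 2 := by
    have : 0 ≤ (∑ ℓ, w ℓ) ^ 2 / q := by positivity
    linarith
  rw [le_div_iff₀ (by positivity)]
  linarith

/-! ### Hat lines -/

/-- Two distinct points lie on at most one hat line. -/
lemma onH_unique (hO : OA q h) {x y : P × V} (hxy : x ≠ y) {a b : L ⊕ P} (hxa : OnH h a x) (hya : OnH h a y)
    (hxb : OnH h b x) (hyb : OnH h b y) : a = b := by
  have hsame : ∀ {ℓ : L} {u v : P × V}, On h ℓ u → On h ℓ v → u.1 = v.1 → u = v := by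
    intro ℓ u v hu hv huv
    refine Prod.ext huv ?_
    unfold On at hu hv
    rw [← hu, ← hv, huv]
  rcases a with l | i <;> rcases b with l' | j
  · by_cases hp : x.1 = y.1
    · exact absurd (hsame hxa hya hp) hxy
    · rw [hO.eq_of_two_points hxa hxb hya hyb hp]
  · have h1 : x.1 = y.1 := (show x.1 = j from hxb).trans (show y.1 = j from hyb).symm
    exact absurd (hsame hxa hya h1) hxy
  · have h1 : x.1 = y.1 := (show x.1 = i from hxa).trans (show y.1 = i from hya).symm
    exact absurd (hsame hxb hyb h1) hxy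
  · have h1 : i = j := (show x.1 = i from hxa).symm.trans (show x.1 = j from hxb)
    rw [h1]

/-- Two points lie on some hat line. -/
lemma onH_exists (hO : OA q h) (x y : P × V) : ∃ a : L ⊕ P, OnH h a x ∧ OnH h a y := by
  by_cases hp : x.1 = y.1
  · exact ⟨Sum.inr x.1, rfl, hp.symm⟩
  · obtain ⟨ℓ, ⟨h1, h2⟩, -⟩ := hO.existsUnique_line hp
    exact ⟨Sum.inl ℓ, h1, h2⟩

/-- Hat lines through a point. -/
def pthrough (h : L → P → V) (x : P × V) : Finset (L ⊕ P) := univ.filter fun a => OnH h a x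

lemma mem_pthrough {x : P × V} {a : L ⊕ P} : a ∈ pthrough h x ↔ OnH h a x := by simp [pthrough]

/-- There are `q + 1` hat lines through a point. -/
lemma card_pthrough (hO : OA q h) (x : P × V) : (pthrough h x).card = q + 1 := by
  have hh : pthrough h x = (linesThrough h x).map Function.Embedding.inl ∪ {Sum.inr x.1} := by
    ext a
    rcases a with l | i
    · simp [mem_pthrough, linesThrough, OnH]
    · simp [mem_pthrough, OnH, eq_comm]
  rw [hh, card_union_of_disjoint, card_map, hO.card_linesThrough, card_singleton]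
  simp

/-- The number of hat lines. -/
lemma card_hat (hO : OA q h) : Fintype.card (L ⊕ P) = q ^ 2 + q + 1 := by
  rw [Fintype.card_sum, hO.card_L, hO.cardP]
  ring

/-- Points of a hat line. -/
def ppts (h : L → P → V) (a : L ⊕ P) : Finset (P × V) := univ.filter fun x => OnH h a x

lemma mem_ppts {x : P × V} {a : L ⊕ P} : x ∈ ppts h a ↔ OnH h a x := by simp [ppts]

/-- Every hat line has at least `q` points. -/
lemma card_ppts_ge (hO : OA q h) (a : L ⊕ P) : q ≤ (ppts h a).card := by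
  rcases a with l | i
  · have : ppts h (Sum.inl l) = univ.filter fun x : P × V => On h l x := by
      ext x; simp [mem_ppts, OnH]
    rw [this, card_pts_line hO]
    omega
  · have hsub : (univ : Finset V).image (fun y => ((i, y) : P × V)) ⊆ ppts h (Sum.inr i) := by
      intro x hx
      obtain ⟨y, _, rfl⟩ := mem_image.1 hx
      simp [mem_ppts, OnH]
    have h2 := card_le_card hsub
    rw [card_image_of_injective _ (fun a b hab => (Prod.mk.inj hab).2), card_univ, hO.cardV] at h2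
    exact h2

variable (S : Finset (P × V))

lemma nH_eq_zero_iff {a : L ⊕ P} : nH h S a = 0 ↔ ∀ x ∈ S, ¬ OnH h a x := by
  unfold nH
  rw [card_eq_zero, filter_eq_empty_iff]

/-- First moment. -/
lemma sum_nH (hO : OA q h) : ∑ a : L ⊕ P, nH h S a = S.card * (q + 1) := by
  unfold nH
  simp_rw [card_filter]
  rw [sum_comm]
  have hx : ∀ x ∈ S, ∑ a : L ⊕ P, (if OnH h a x then 1 else 0) = q + 1 := by
    intro x _
    rw [← card_pthrough hO x, pthrough, card_filter]
  rw [sum_congr rfl hx, sum_const, smul_eq_mul]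

/-- Second moment: each ordered pair of distinct points of `S` lies on exactly one hat line. -/
lemma sum_nH_mul (hO : OA q h) : ∑ a : L ⊕ P, nH h S a * (nH h S a - 1) = S.card * (S.card - 1) := by
  have h1 : ∀ a : L ⊕ P, nH h S a * (nH h S a - 1) = ((S.filter (OnH h a)).offDiag).card := by
    intro a
    rw [offDiag_card, Nat.mul_sub_one]
    rfl
  simp_rw [h1]
  have h2 : ∀ a : L ⊕ P, ((S.filter (OnH h a)).offDiag).card =
      ∑ p ∈ S.offDiag, if (OnH h a p.1 ∧ OnH h a p.2) then 1 else 0 := by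
    intro a
    rw [← card_filter]
    congr 1
    ext p
    simp only [mem_offDiag, mem_filter]
    tauto
  simp_rw [h2]
  rw [sum_comm]
  have h3 : ∀ p ∈ S.offDiag, ∑ a : L ⊕ P, (if (OnH h a p.1 ∧ OnH h a p.2) then 1 else 0) = 1 := by
    intro p hp
    obtain ⟨a, ha1, ha2⟩ := onH_exists hO p.1 p.2
    rw [sum_eq_single a]
    · rw [if_pos ⟨ha1, ha2⟩]
    · intro b _ hb
      rw [if_neg]
      rintro ⟨hb1, hb2⟩
      exact hb (onH_unique hO (mem_offDiag.1 hp).2.2 hb1 hb2 ha1 ha2)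
    · intro hh
      exact absurd (mem_univ a) hh
  rw [sum_congr rfl h3, sum_const, smul_eq_mul, mul_one, offDiag_card, Nat.mul_sub_one]

/-- The excess of the multiplicities equals `s - 1` when `|S| = q`. -/
lemma sum_pred_nH (hO : OA q h) (hS : S.card = q) :
    ∑ a : L ⊕ P, (nH h S a - 1) + 1 = (skewH h S).card := by
  have h1 : ((∑ a : L ⊕ P, nH h S a : ℕ) : ℤ) = ((q : ℤ) * (q + 1)) := by
    rw [sum_nH S hO, hS]
    push_cast
    ring
  have h2 : ∀ a : L ⊕ P, (nH h S a : ℤ) = ((nH h S a - 1 : ℕ) : ℤ) + 1 - (if ∀ x ∈ S, ¬ OnH h a x then 1 else 0) := by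
    intro a
    by_cases hh : ∀ x ∈ S, ¬ OnH h a x
    · rw [if_pos hh, (nH_eq_zero_iff S).2 hh]
      simp
    · rw [if_neg hh]
      have : nH h S a ≠ 0 := fun h0 => hh ((nH_eq_zero_iff S).1 h0)
      omega
  have h3 : ((∑ a : L ⊕ P, nH h S a : ℕ) : ℤ) =
      ∑ a : L ⊕ P, ((nH h S a - 1 : ℕ) : ℤ) + (Fintype.card (L ⊕ P) : ℤ) - ((skewH h S).card : ℤ) := by
    push_cast
    rw [sum_congr rfl fun a _ => h2 a, sum_sub_distrib, sum_add_distrib]
    simp only [sum_const, card_univ, nsmul_eq_mul, mul_one]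
    unfold skewH
    rw [card_filter]
    push_cast
    rfl
  rw [card_hat hO] at h3
  have h4 : ((∑ a : L ⊕ P, (nH h S a - 1) : ℕ) : ℤ) + 1 = ((skewH h S).card : ℤ) := by
    push_cast at h1 h3 ⊢
    nlinarith
  exact_mod_cast h4

/-- The key product bound. -/
lemma product_bound (hO : OA q h) (a : L ⊕ P) (hS : S.card = q) :
    (q - nH h S a) * nH h S a ≤ (skewH h S).card := by
  classical
  -- the points of `a` off `S`
  set X := (ppts h a) \ S with hX
  have hXcard : q - nH h S a ≤ X.card := by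
    have h1 : nH h S a = (ppts h a ∩ S).card := by
      unfold nH
      congr 1
      ext x
      simp [mem_ppts, and_comm]
    have h2 := card_sdiff_add_card_inter (ppts h a) S
    have h3 := card_ppts_ge hO a
    rw [hX]
    omega
  -- for `x ∈ X`: the skew lines through `x` other than `a`
  let T : P × V → Finset (L ⊕ P) := fun x =>
    ((pthrough h x).erase a).filter (fun b => ∀ y ∈ S, ¬ OnH h b y)
  have hT : ∀ x ∈ X, nH h S a ≤ (T x).card := by
    intro x hx
    have hxa : OnH h a x := mem_ppts.1 (mem_sdiff.1 hx).1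
    have hxS : x ∉ S := (mem_sdiff.1 hx).2
    have hcard1 : ((pthrough h x).erase a).card = q := by
      rw [card_erase_of_mem (mem_pthrough.2 hxa), card_pthrough hO]
      simp
    have hsplit := card_filter_add_card_filter_not (s := (pthrough h x).erase a)
      (fun b => ∀ y ∈ S, ¬ OnH h b y)
    have hnon : (((pthrough h x).erase a).filter (fun b => ¬ ∀ y ∈ S, ¬ OnH h b y)).card ≤
        (S.filter (fun y => ¬ OnH h a y)).card := by
      have hch : ∀ b ∈ ((pthrough h x).erase a).filter (fun b => ¬ ∀ y ∈ S, ¬ OnH h b y),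
          ∃ y, y ∈ S ∧ OnH h b y := by
        intro b hb
        have := (mem_filter.1 hb).2
        push Not at this
        exact this
      have hnonempty : Nonempty (P × V) := ⟨x⟩
      choose! f hf using hch
      refine card_le_card_of_injOn f ?_ ?_
      · intro b hb
        have hb' := mem_coe.1 hb
        have hb2 := (mem_filter.1 hb').1
        have hbne : b ≠ a := (mem_erase.1 hb2).1
        have hxb : OnH h b x := mem_pthrough.1 (mem_erase.1 hb2).2
        obtain ⟨h1, h2⟩ := hf b hb'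
        refine mem_coe.2 (mem_filter.2 ⟨h1, fun h3 => ?_⟩)
        have hne : x ≠ f b := fun h => hxS (h ▸ h1)
        exact hbne (onH_unique hO hne hxb h2 hxa h3)
      · intro b hb b' hb' hfb
        have hb1 := mem_coe.1 hb
        have hb1' := mem_coe.1 hb'
        have hxb : OnH h b x := mem_pthrough.1 (mem_erase.1 (mem_filter.1 hb1).1).2
        have hxb' : OnH h b' x := mem_pthrough.1 (mem_erase.1 (mem_filter.1 hb1').1).2
        obtain ⟨h1, h2⟩ := hf b hb1
        obtain ⟨h1', h2'⟩ := hf b' hb1'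
        have hne : x ≠ f b := fun h => hxS (h ▸ h1)
        rw [hfb] at h2
        rw [hfb] at hne
        exact onH_unique hO hne hxb h2 hxb' h2'
    have hoff : (S.filter (fun y => ¬ OnH h a y)).card = S.card - nH h S a := by
      have h0 : (S.filter (OnH h a)).card + (S.filter (fun y => ¬ OnH h a y)).card = S.card :=
        card_filter_add_card_filter_not (OnH h a)
      have h00 : nH h S a = (S.filter (OnH h a)).card := rfl
      omega
    have hle : nH h S a ≤ S.card := card_filter_le _ _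
    show nH h S a ≤ (((pthrough h x).erase a).filter (fun b => ∀ y ∈ S, ¬ OnH h b y)).card
    omega
  -- disjointness
  have hdisj : (X : Set (P × V)).PairwiseDisjoint T := by
    intro x hx x' hx' hne
    refine disjoint_left.2 fun b hb hb' => ?_
    have hb1 := (mem_filter.1 hb).1
    have hb1' := (mem_filter.1 hb').1
    have hxb : OnH h b x := mem_pthrough.1 (mem_erase.1 hb1).2
    have hxb' : OnH h b x' := mem_pthrough.1 (mem_erase.1 hb1').2
    have hxa : OnH h a x := mem_ppts.1 (mem_sdiff.1 (mem_coe.1 hx)).1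
    have hxa' : OnH h a x' := mem_ppts.1 (mem_sdiff.1 (mem_coe.1 hx')).1
    exact (mem_erase.1 hb1).1 (onH_unique hO hne hxb hxb' hxa hxa')
  have hsum : ∑ x ∈ X, (T x).card ≤ (skewH h S).card := by
    rw [← card_biUnion hdisj]
    refine card_le_card ?_
    intro b hb
    obtain ⟨x, _, hbx⟩ := mem_biUnion.1 hb
    exact mem_filter.2 ⟨mem_univ _, (mem_filter.1 hbx).2⟩
  calc (q - nH h S a) * nH h S a ≤ X.card * nH h S a := Nat.mul_le_mul_right _ hXcard
    _ = ∑ x ∈ X, nH h S a := by rw [sum_const, smul_eq_mul]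
    _ ≤ ∑ x ∈ X, (T x).card := sum_le_sum hT
    _ ≤ _ := hsum

/-- Near-line lemma. If a `q`-set `S` has few skew hat lines, `4 s^2 < q^3`, then some hat line contains
all but at most `2 s / q` points of `S`. -/
theorem nearLine (hO : OA q h) (S : Finset (P × V)) (hS : S.card = q)
    (hs : 4 * (skewH h S).card ^ 2 < q ^ 3) :
    ∃ ℓ : L ⊕ P, q * (S.filter fun x => ¬ OnH h ℓ x).card ≤ 2 * (skewH h S).card := by
  set s := (skewH h S).card with hsdef
  have hq2 : 2 ≤ q := hO.two_le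
  have hne : (univ : Finset (L ⊕ P)).Nonempty := by
    obtain ⟨i⟩ : Nonempty P := by
      have : 0 < Fintype.card P := by rw [hO.cardP]; omega
      exact Fintype.card_pos_iff.1 this
    exact ⟨Sum.inr i, mem_univ _⟩
  obtain ⟨a, _, hmax⟩ := exists_max_image (univ : Finset (L ⊕ P)) (nH h S) hne
  have hmax' : ∀ b : L ⊕ P, nH h S b ≤ nH h S a := fun b => hmax b (mem_univ b)
  have hprod := product_bound S hO a hS
  have hoff : (S.filter (fun y => ¬ OnH h a y)).card = q - nH h S a := by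
    have h0 : (S.filter (OnH h a)).card + (S.filter (fun y => ¬ OnH h a y)).card = S.card :=
      card_filter_add_card_filter_not (OnH h a)
    have h00 : nH h S a = (S.filter (OnH h a)).card := rfl
    omega
  have hle : nH h S a ≤ q := by
    have : nH h S a ≤ S.card := card_filter_le _ _
    omega
  refine ⟨a, ?_⟩
  rw [hoff]
  by_cases hbig : q ≤ 2 * nH h S a
  · calc q * (q - nH h S a) ≤ (2 * nH h S a) * (q - nH h S a) := Nat.mul_le_mul_right _ hbig
      _ = 2 * ((q - nH h S a) * nH h S a) := by ring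
      _ ≤ 2 * s := Nat.mul_le_mul_left _ hprod
  · exfalso
    push Not at hbig
    have h1 : q * nH h S a ≤ 2 * s := by
      have h2 : q ≤ 2 * (q - nH h S a) := by omega
      calc q * nH h S a ≤ (2 * (q - nH h S a)) * nH h S a := Nat.mul_le_mul_right _ h2
        _ = 2 * ((q - nH h S a) * nH h S a) := by ring
        _ ≤ 2 * s := Nat.mul_le_mul_left _ hprod
    have h3 : q * (q - 1) ≤ nH h S a * s := by
      have h4 := sum_nH_mul S hO
      rw [hS] at h4
      have h5 := sum_pred_nH S hO hS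
      calc q * (q - 1) = ∑ b : L ⊕ P, nH h S b * (nH h S b - 1) := h4.symm
        _ ≤ ∑ b : L ⊕ P, nH h S a * (nH h S b - 1) :=
          sum_le_sum fun b _ => Nat.mul_le_mul_right _ (hmax' b)
        _ = nH h S a * ∑ b : L ⊕ P, (nH h S b - 1) := by rw [mul_sum]
        _ ≤ nH h S a * s := Nat.mul_le_mul_left _ (by omega)
    have h6 : q * (q * (q - 1)) ≤ 2 * s * s := by
      calc q * (q * (q - 1)) ≤ q * (nH h S a * s) := Nat.mul_le_mul_left _ h3
        _ = (q * nH h S a) * s := by ring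
        _ ≤ 2 * s * s := Nat.mul_le_mul_right _ h1
    have h7 : (q : ℤ) * (q * ((q : ℤ) - 1)) ≤ 2 * s * s := by
      have : ((q * (q * (q - 1)) : ℕ) : ℤ) ≤ ((2 * s * s : ℕ) : ℤ) := by exact_mod_cast h6
      rw [Nat.cast_mul, Nat.cast_mul, Nat.cast_sub (by omega)] at this
      push_cast at this ⊢
      linarith
    have h8 : (4 : ℤ) * s ^ 2 < q ^ 3 := by exact_mod_cast hs
    have hq2' : (2 : ℤ) ≤ q := by exact_mod_cast hq2
    nlinarith [mul_pos (show (0:ℤ) < q by linarith) (show (0:ℤ) < q by linarith)]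

/-- A point `u ∉ Z` of the hat line `a` off a blocking set needs `ρ - 1` points of `S` off `a`. -/
theorem mem_of_blocking (hO : OA q h) {Z S : Finset (P × V)} (hB : Blocks h S Z)
    (ρ : ℕ) (hρ : ∀ u, ρ ≤ rho h Z u) (a : L ⊕ P)
    (hsmall : (S.filter (fun x => ¬ OnH h a x)).card + 1 < ρ)
    {u : P × V} (hua : OnH h a u) (huZ : u ∉ Z) : u ∈ S := by
  classical
  by_contra huS
  have h1 := hρ u
  unfold rho at h1
  set A := (linesThrough h u).filter fun ℓ => ∀ x ∈ Z, x ≠ u → ¬ On h ℓ x with hA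
  have hch : ∀ l ∈ A, ∃ y, y ∈ S ∧ On h l y := by
    intro l hl
    refine hB l fun x hx hxl => ?_
    have hxu : x ≠ u := fun he => huZ (he ▸ hx)
    exact (mem_filter.1 hl).2 x hx hxu hxl
  have hnonempty : Nonempty (P × V) := ⟨u⟩
  choose! f hf using hch
  have hon : ∀ l ∈ A, On h l u := fun l hl => by
    have := (mem_filter.1 hl).1
    simpa [linesThrough] using this
  have hinj : Set.InjOn f (A : Set L) := by
    intro l hl l' hl' hff
    have hl1 := mem_coe.1 hl
    have hl1' := mem_coe.1 hl'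
    obtain ⟨h2, h3⟩ := hf l hl1
    obtain ⟨h2', h3'⟩ := hf l' hl1'
    have hne : u ≠ f l := fun he => huS (he ▸ h2)
    rw [← hff] at h3'
    have : (Sum.inl l : L ⊕ P) = Sum.inl l' := onH_unique hO hne (hon l hl1) h3 (hon l' hl1') h3'
    exact Sum.inl.inj this
  have hoff : ∀ l ∈ A, (Sum.inl l : L ⊕ P) ≠ a → f l ∈ S.filter (fun x => ¬ OnH h a x) := by
    intro l hl hne
    obtain ⟨h2, h3⟩ := hf l hl
    refine mem_filter.2 ⟨h2, fun h4 => ?_⟩
    have hne' : u ≠ f l := fun he => huS (he ▸ h2)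
    exact hne (onH_unique hO hne' (hon l hl) h3 hua h4)
  have hcount : A.card ≤ (S.filter (fun x => ¬ OnH h a x)).card + 1 := by
    rcases a with l0 | i0
    · have h5 : (A.erase l0).card ≤ (S.filter (fun x => ¬ OnH h (Sum.inl l0) x)).card := by
        refine card_le_card_of_injOn f ?_ ?_
        · intro l hl
          have hl' := mem_erase.1 (mem_coe.1 hl)
          exact hoff l hl'.2 fun he => hl'.1 (Sum.inl.inj he)
        · intro l hl l' hl' hff
          exact hinj (mem_coe.2 (mem_erase.1 (mem_coe.1 hl)).2) (mem_coe.2 (mem_erase.1 (mem_coe.1 hl')).2) hff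
      have h6 := pred_card_le_card_erase (s := A) (a := l0)
      omega
    · have h5 : A.card ≤ (S.filter (fun x => ¬ OnH h (Sum.inr i0) x)).card := by
        refine card_le_card_of_injOn f ?_ hinj
        intro l hl
        exact hoff l (mem_coe.1 hl) (by simp)
      omega
  omega

/-- Near-line case of the stability lemma. -/
theorem nearLine_concl (hO : OA q h) (Z S : Finset (P × V)) (hS : S.card = q) (hB : Blocks h S Z)
    (ρmin : ℕ) (hρ : ∀ u, ρmin ≤ rho h Z u) (hq : q ≤ (ρmin - 1) ^ 2)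
    (hs : 4 * (skewH h S).card ^ 2 < q ^ 3) :
    ∃ ℓ : L ⊕ P, ∀ x, OnH h ℓ x → x ∉ Z → x ∈ S := by
  obtain ⟨a, ha⟩ := nearLine hO S hS hs
  refine ⟨a, fun x hxa hxZ => ?_⟩
  have hq2 := hO.two_le
  set n := (S.filter fun x => ¬ OnH h a x).card with hn
  set s := (skewH h S).card with hsdef
  have hsmall : n + 1 < ρmin := by
    -- `(q n)² ≤ 4 s² < q³` so `n² < q ≤ (ρmin - 1)²`
    have h1 : (q * n) ^ 2 ≤ (2 * s) ^ 2 := Nat.pow_le_pow_left ha 2
    have h2 : q ^ 2 * n ^ 2 < q ^ 2 * q := by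
      calc q ^ 2 * n ^ 2 = (q * n) ^ 2 := by ring
        _ ≤ (2 * s) ^ 2 := h1
        _ = 4 * s ^ 2 := by ring
        _ < q ^ 3 := hs
        _ = q ^ 2 * q := by ring
    have h3 : n ^ 2 < q := Nat.lt_of_mul_lt_mul_left h2
    have h4 : n ^ 2 < (ρmin - 1) ^ 2 := lt_of_lt_of_le h3 hq
    have h5 : n < ρmin - 1 := lt_of_pow_lt_pow_left₀ 2 (Nat.zero_le _) h4
    omega
  exact mem_of_blocking hO hB ρmin hρ a hsmall hxa hxZ

/-- Real arithmetic behind the dichotomy. -/
lemma dichotomy_aux {Q a s : ℝ} (hQ : 0 < Q) (ha2 : 2 * a ≤ Q) (hs : 10 * s < Q ^ 2) (hs0 : 0 ≤ s)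
    (h1 : a * (Q - a) < s) : 10 * Q * a < 13 * s := by
  by_contra hcon
  push Not at hcon
  set b := 13 * s / (10 * Q) with hb
  have hbQ : b * Q = 13 / 10 * s := by
    rw [hb]
    field_simp
  have hb0 : 0 ≤ b := by positivity
  have hba : b ≤ a := by
    rw [hb, div_le_iff₀ (by positivity)]
    linarith
  have hbq : 10 * b ≤ 13 / 10 * Q := by
    have : 10 * (b * Q) ≤ 13 / 10 * Q * Q := by
      rw [hbQ]
      nlinarith
    have h2 : (10 * b) * Q ≤ (13 / 10 * Q) * Q := by linarith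
    exact le_of_mul_le_mul_right h2 hQ
  have h3 : 0 ≤ (a - b) * (Q - a - b) := by
    refine mul_nonneg (by linarith) ?_
    linarith
  have h4 : b * b ≤ 169 / 1000 * s := by
    have : b * (10 * b) ≤ b * (13 / 10 * Q) := mul_le_mul_of_nonneg_left hbq hb0
    have h5 : b * (13 / 10 * Q) = 13 / 10 * (b * Q) := by ring
    rw [h5, hbQ] at this
    nlinarith
  nlinarith

/-- Dichotomy from the gap property, `10 s < q^2`, `x ∉ S`, `d ≥ 1`, `s₀ = d - 1`:
either `10 q s₀ < 13 s` or `10 q (q - s₀) < 13 s`. -/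
theorem gap_dichotomy (hO : OA q h) (hG : GapProp h q) (S : Finset (P × V)) (hS : S.card = q)
    (x : P × V) (hx : x ∉ S) (hd : 1 ≤ dSkew h S x) (hs : 10 * (skewH h S).card < q ^ 2) :
    10 * q * (dSkew h S x - 1) < 13 * (skewH h S).card ∨
    10 * q * (q - (dSkew h S x - 1)) < 13 * (skewH h S).card := by
  have hgap := hG S x hS hx hd
  set d := dSkew h S x with hddef
  set s := (skewH h S).card with hsdef
  have hq0 : 0 < q := hO.q_pos
  have hdle : d ≤ q + 1 := by
    rw [hddef, ← card_pthrough hO x]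
    refine card_le_card ?_
    intro a ha
    exact mem_pthrough.2 (mem_filter.1 ha).2
  set s0 := d - 1 with hs0
  have hs0q : s0 ≤ q := by omega
  have hsr : (10 : ℝ) * s < (q : ℝ) ^ 2 := by exact_mod_cast hs
  have hQ : (0 : ℝ) < q := by exact_mod_cast hq0
  have hs0' : (0 : ℝ) ≤ s := by positivity
  -- the real form of the gap inequality
  have hg : (s0 : ℝ) * ((q : ℝ) - s0) < s := by
    have : ((q * s0 + 1 : ℕ) : ℝ) ≤ ((s0 ^ 2 + s : ℕ) : ℝ) := by exact_mod_cast hgap
    push_cast at this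
    nlinarith
  by_cases hcase : 2 * s0 ≤ q
  · left
    have hc : 2 * (s0 : ℝ) ≤ q := by exact_mod_cast hcase
    have := dichotomy_aux hQ hc hsr hs0' hg
    exact_mod_cast this
  · right
    push Not at hcase
    have hcast : ((q - s0 : ℕ) : ℝ) = (q : ℝ) - s0 := by
      rw [Nat.cast_sub hs0q]
    have hc : 2 * ((q - s0 : ℕ) : ℝ) ≤ q := by
      rw [hcast]
      have : (q : ℝ) < 2 * s0 := by exact_mod_cast hcase
      linarith
    have hg' : ((q - s0 : ℕ) : ℝ) * ((q : ℝ) - ((q - s0 : ℕ) : ℝ)) < s := by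
      rw [hcast]
      nlinarith
    have := dichotomy_aux hQ hc hsr hs0' hg'
    exact_mod_cast this

end Crest.Agent.Ryser
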