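import Crest.Agent.Lib.Ryser.Hat

/-!
# Module LINK: from `SLconcl` (exact `q`-sets) to the form with `|S| ≤ q` and `ℓ \ Z ⊆ S`.

Pad `S` to a `q`-set `S'`. `SLconcl` gives a hat line `ℓ` with `ℓ \ Z ⊆ S'`. So `|S' \ ℓ| ≤ R`, where `R` bounds the balls on a line or part.
If `u ∈ ℓ \ Z`, `u ∉ S`: the `≥ ρ` lines through `u` with no ball other than `u` miss `Z`, hence contain points of `S`, different from `u`, and all but at most one (namely `ℓ` itself) off `ℓ`.
Distinct lines give distinct points. So `ρ - 1 ≤ |S \ ℓ| ≤ |S' \ ℓ| ≤ R`.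
-/

open Finset BigOperators

namespace Crest.Agent.Ryser

variable {P V L : Type*} [Fintype P] [DecidableEq P] [Fintype V] [DecidableEq V]
  [Fintype L] [DecidableEq L]
variable {q : ℕ} {h : L → P → V}

theorem stability_of_SLconcl (hO : OA q h) (Z : Finset (P × V)) (hSL : SLconcl h q Z) (R ρ : ℕ)
    (hline : ∀ ℓ : L, (Z.filter (On h ℓ)).card ≤ R)
    (hpart : ∀ i : P, (Z.filter fun x => x.1 = i).card ≤ R)
    (hρ : ∀ u, ρ ≤ rho h Z u) (hR : R + 2 ≤ ρ)
    (S : Finset (P × V)) (hS : S.card ≤ q) (hB : Blocks h S Z) :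
    (∃ ℓ : L, ∀ x, On h ℓ x → x ∉ Z → x ∈ S) ∨ (∃ i : P, ∀ y, (i, y) ∉ Z → (i, y) ∈ S) := by
  classical
  -- pad S
  have hcard : q ≤ (univ : Finset (P × V)).card := by
    rw [Finset.card_univ, hO.card_pt]
    nlinarith [hO.two_le]
  obtain ⟨S', hSS', -, hS'⟩ := Finset.exists_subsuperset_card_eq (Finset.subset_univ S) hS hcard
  have hB' : Blocks h S' Z := by
    intro ℓ hℓ
    obtain ⟨x, hx, hx'⟩ := hB ℓ hℓ
    exact ⟨x, hSS' hx, hx'⟩
  obtain ⟨a, ha⟩ := hSL S' hS' hB'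
  -- Z on the hat line
  have hZa : (Z.filter (OnH h a)).card ≤ R := by
    cases a with
    | inl ℓ => exact hline ℓ
    | inr i => exact hpart i
  have hoff : (S.filter fun x => ¬ OnH h a x).card ≤ R := by
    have h1 : (S.filter fun x => ¬ OnH h a x).card ≤ (S'.filter fun x => ¬ OnH h a x).card :=
      Finset.card_le_card (fun x hx => by
        obtain ⟨h1, h2⟩ := Finset.mem_filter.1 hx
        exact Finset.mem_filter.2 ⟨hSS' h1, h2⟩)
    have h2 : (ppts h a \ Z.filter (OnH h a)) ⊆ S'.filter (OnH h a) := by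
      intro x hx
      obtain ⟨hx1, hx2⟩ := Finset.mem_sdiff.1 hx
      have hx1' : OnH h a x := mem_ppts.1 hx1
      have hxZ : x ∉ Z := fun hz => hx2 (Finset.mem_filter.2 ⟨hz, hx1'⟩)
      exact Finset.mem_filter.2 ⟨ha x hx1' hxZ, hx1'⟩
    have h3 : (ppts h a).card - (Z.filter (OnH h a)).card ≤ (S'.filter (OnH h a)).card :=
      (Finset.le_card_sdiff _ _).trans (Finset.card_le_card h2)
    have h4 := card_ppts_ge hO a
    have h5 : (S'.filter (OnH h a)).card + (S'.filter fun x => ¬ OnH h a x).card = S'.card :=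
      Finset.card_filter_add_card_filter_not _
    omega
  have hmem : ∀ u, OnH h a u → u ∉ Z → u ∈ S := fun u hu huZ =>
    mem_of_blocking hO hB ρ hρ a (by omega) hu huZ
  cases a with
  | inl ℓ => exact Or.inl ⟨ℓ, fun x hx hxZ => hmem x hx hxZ⟩
  | inr i => exact Or.inr ⟨i, fun y hy => hmem (i, y) rfl hy⟩

end Crest.Agent.Ryser
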