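import Mathlib

/-!
# Numeric lemmas for the parameters of the stability lemma (row 34)

Scale `a`: `a^1000 ≤ q ≤ 2 a^1000`, `mm ≤ 2 a^480`.  All parameters are powers of `a`, or constant fractions of `q`.
-/

open Finset BigOperators

namespace Crest.Agent.Ryser

namespace NumSLAux

lemma c_mul_pow_le {a c i j : ℕ} (ha : 1 ≤ a) (hc : c ≤ a) (hij : i < j) : c * a ^ i ≤ a ^ j := by
  calc c * a ^ i ≤ a * a ^ i := Nat.mul_le_mul_right _ hc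
    _ = a ^ (i + 1) := by ring
    _ ≤ a ^ j := Nat.pow_le_pow_right ha hij

lemma succ_pow_le (a k : ℕ) (hk : 2 * k ≤ a + 1) : (a + 1) ^ k ≤ 2 * a ^ k := by
  have ha : (0:ℝ) < (a:ℝ) + 1 := by positivity
  have h1 := one_add_mul_le_pow (a := -(1 / ((a:ℝ) + 1))) (by
    have h0 : (0:ℝ) ≤ a := by positivity
    have : 1 / ((a:ℝ) + 1) ≤ 1 := by
      rw [div_le_one ha]
      linarith
    linarith) k
  have h2 : 1 + (-(1 / ((a:ℝ) + 1))) = a / ((a:ℝ) + 1) := by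
    field_simp
    ring
  rw [h2, div_pow] at h1
  have hk' : (2 * k : ℝ) ≤ a + 1 := by exact_mod_cast hk
  have h3 : (1:ℝ) / 2 ≤ 1 + k * (-(1 / ((a:ℝ) + 1))) := by
    have : (k:ℝ) * (1 / ((a:ℝ) + 1)) ≤ 1 / 2 := by
      rw [mul_one_div, div_le_iff₀ ha]
      linarith
    linarith
  have h4 : (1:ℝ) / 2 ≤ (a:ℝ) ^ k / ((a:ℝ) + 1) ^ k := h3.trans h1
  rw [le_div_iff₀ (by positivity)] at h4
  have : ((a:ℝ) + 1) ^ k ≤ 2 * (a:ℝ) ^ k := by linarith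
  exact_mod_cast this

lemma exists_scale (A q : ℕ) (hA : 1 ≤ A) (hq : A ^ 1000 ≤ q) :
    ∃ a, A ≤ a ∧ a ^ 1000 ≤ q ∧ q < (a + 1) ^ 1000 := by
  classical
  have hex : ∃ a, q < (a + 1) ^ 1000 := ⟨q, by
    calc q < q + 1 := Nat.lt_succ_self _
      _ ≤ (q + 1) ^ 1000 := Nat.le_self_pow (by norm_num) _⟩
  refine ⟨Nat.find hex, ?_, ?_, Nat.find_spec hex⟩
  · by_contra hlt
    push Not at hlt
    have h1 := Nat.find_spec hex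
    have h2 : (Nat.find hex + 1) ^ 1000 ≤ A ^ 1000 := Nat.pow_le_pow_left hlt _
    exact absurd (lt_of_lt_of_le h1 h2) (not_lt.2 hq)
  · rcases Nat.eq_zero_or_pos (Nat.find hex) with h0 | hpos
    · rw [h0, zero_pow (by norm_num)]
      exact Nat.zero_le _
    · have h3 := Nat.find_min hex (m := Nat.find hex - 1) (by omega)
      rw [Nat.sub_add_cancel hpos] at h3
      exact not_lt.1 h3

/-- `(1 - 1/q)^B` is at least `3/10` when `B ≤ 1.02 q`. -/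
lemma rho_lower (q B : ℕ) (hq : 100 ≤ q) (hB : 100 * B ≤ 102 * q) :
    (3 / 10 : ℝ) ≤ (1 - 1 / (q:ℝ)) ^ B := by
  have hq' : (100:ℝ) ≤ q := by exact_mod_cast hq
  have hB' : (100:ℝ) * B ≤ 102 * q := by exact_mod_cast hB
  have hq1 : (0:ℝ) < (q:ℝ) - 1 := by linarith
  have hq0 : (0:ℝ) < q := by linarith
  set y : ℝ := 1 / ((q:ℝ) - 1) with hy
  have hy0 : 0 < y := by positivity
  have h1 : 1 + y ≤ Real.exp y := by linarith [Real.add_one_le_exp y]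
  have h2 : (1 - 1 / (q:ℝ)) * (1 + y) = 1 := by
    rw [hy]
    field_simp
    ring
  have h3 : Real.exp (-y) ≤ 1 - 1 / (q:ℝ) := by
    rw [Real.exp_neg, inv_le_comm₀ (Real.exp_pos y) (by
      have : 1 / (q:ℝ) ≤ 1 / 100 := by
        apply one_div_le_one_div_of_le (by norm_num) hq'
      linarith)]
    have h4 : (1 - 1 / (q:ℝ))⁻¹ = 1 + y := by
      exact inv_eq_of_mul_eq_one_right h2
    rw [h4]
    exact h1
  have h5 : Real.exp (-y) ^ B ≤ (1 - 1 / (q:ℝ)) ^ B :=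
    pow_le_pow_left₀ (Real.exp_pos _).le h3 _
  rw [← Real.exp_nat_mul] at h5
  refine le_trans ?_ h5
  -- numerics
  have h6 : (B:ℝ) * y ≤ 1.04 := by
    rw [hy, mul_one_div, div_le_iff₀ hq1]
    linarith
  have h7 : Real.exp (-1.04) ≤ Real.exp ((B:ℝ) * -y) := by
    apply Real.exp_le_exp.2
    linarith
  refine le_trans ?_ h7
  have h8 : (1:ℝ) - 0.04 ≤ Real.exp (-0.04) := by
    have := Real.add_one_le_exp (-0.04 : ℝ)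
    linarith
  have h9 : Real.exp (-1.04) = Real.exp (-1) * Real.exp (-0.04) := by
    rw [← Real.exp_add]
    norm_num
  have h10 : (1 : ℝ) / 2.7182818286 ≤ Real.exp (-1) := by
    rw [Real.exp_neg, ← one_div]
    apply one_div_le_one_div_of_le (Real.exp_pos 1)
    exact Real.exp_one_lt_d9.le
  rw [h9]
  have h11 : (0:ℝ) ≤ 1 / 2.7182818286 := by norm_num
  calc (3 / 10 : ℝ) ≤ (1 / 2.7182818286) * (1 - 0.04) := by norm_num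
    _ ≤ _ := mul_le_mul h10 h8 (by norm_num) (Real.exp_pos _).le

/-- `a^k ≤ exp (k a)`. -/
lemma pow_le_exp (a k : ℕ) : (a:ℝ) ^ k ≤ Real.exp (k * a) := by
  rw [Real.exp_nat_mul]
  apply pow_le_pow_left₀ (by positivity)
  linarith [Real.add_one_le_exp (a:ℝ)]

lemma exp_neg_le_of_le {x : ℝ} (h : 31 ≤ x) : Real.exp (-x) ≤ 1 / 32 := by
  rw [Real.exp_neg, ← one_div]
  apply one_div_le_one_div_of_le (by norm_num)
  linarith [Real.add_one_le_exp x]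

lemma base_le {x y A : ℝ} (s : ℕ) (hA : 0 < A) (hy : 0 < y) (h : x * A ^ s ≤ y) :
    x / y ≤ (A⁻¹) ^ s := by
  rw [inv_pow, div_le_iff₀ hy, ← div_eq_inv_mul, le_div_iff₀ (by positivity)]
  exact h

/-- Core of the third term of the total. -/
lemma T3_core (A : ℝ) (hA : 80 ≤ A) (E : ℕ) (X b1 b2 b3 : ℝ) (t1 t2 t3 s1 s2 s3 : ℕ) (hX0 : 0 ≤ X)
    (hX : X ≤ A ^ E) (hb10 : 0 ≤ b1) (hb20 : 0 ≤ b2) (hb30 : 0 ≤ b3)
    (hb1 : b1 ≤ (A⁻¹) ^ s1) (hb2 : b2 ≤ (A⁻¹) ^ s2) (hb3 : b3 ≤ (A⁻¹) ^ s3)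
    (h1 : E + 1 ≤ s1 * t1) (h2 : E + 1 ≤ s2 * t2) (h3 : E + 1 ≤ s3 * t3) :
    X * (2 * b1 ^ t1 + 2 * b2 ^ t2 + b3 ^ t3) ≤ 1 / 16 := by
  have hA0 : 0 < A := by linarith
  have hI0 : 0 < A⁻¹ := by positivity
  have hI1 : A⁻¹ ≤ 1 := inv_le_one_of_one_le₀ (by linarith)
  have key : ∀ (b : ℝ) (s t : ℕ), 0 ≤ b → b ≤ (A⁻¹) ^ s → E + 1 ≤ s * t → b ^ t ≤ (A⁻¹) ^ (E + 1) := by
    intro b s t hb0 hb hst
    calc b ^ t ≤ ((A⁻¹) ^ s) ^ t := pow_le_pow_left₀ hb0 hb _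
      _ = (A⁻¹) ^ (s * t) := (pow_mul _ _ _).symm
      _ ≤ _ := pow_le_pow_of_le_one hI0.le hI1 hst
  have hs : 2 * b1 ^ t1 + 2 * b2 ^ t2 + b3 ^ t3 ≤ 5 * (A⁻¹) ^ (E + 1) := by
    have := key b1 s1 t1 hb10 hb1 h1
    have := key b2 s2 t2 hb20 hb2 h2
    have := key b3 s3 t3 hb30 hb3 h3
    linarith
  have hs0 : 0 ≤ 2 * b1 ^ t1 + 2 * b2 ^ t2 + b3 ^ t3 := by positivity
  calc _ ≤ A ^ E * (5 * (A⁻¹) ^ (E + 1)) := mul_le_mul hX hs hs0 (by positivity)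
    _ = 5 * A⁻¹ := by
      rw [pow_succ (A⁻¹) E, inv_pow]
      field_simp
    _ ≤ 1 / 16 := by
      have : A⁻¹ ≤ 80⁻¹ := inv_anti₀ (by norm_num) hA
      norm_num at this ⊢
      linarith

end NumSLAux

end Crest.Agent.Ryser

namespace Crest.Agent.Ryser

namespace NumSLAux

/-- Hypotheses on the scale. -/
structure Ctx (M a q mm B : ℕ) : Prop where
  ha : 10 ^ 30 ≤ a
  ha2 : 2 ^ M ≤ a
  hM : M = 2 * 10 ^ 26
  hq1 : a ^ 1000 ≤ q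
  hq2 : q ≤ 2 * a ^ 1000
  hmm1 : 1 ≤ mm
  hmm : mm ≤ 2 * a ^ 480
  hB : 100 * B ≤ 102 * q

namespace Ctx

variable {M a q mm B : ℕ} (c : Ctx M a q mm B)
include c

lemma a_one : 1 ≤ a := le_trans (by norm_num) c.ha

lemma step {k i j : ℕ} (hk : k ≤ 10 ^ 30) (hij : i < j) : k * a ^ i ≤ a ^ j :=
  c_mul_pow_le c.a_one (hk.trans c.ha) hij

lemma q_big {k i : ℕ} (hk : k ≤ 10 ^ 30) (hi : i < 1000) : k * a ^ i ≤ q :=
  (c.step hk hi).trans c.hq1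

lemma q_lit {k : ℕ} (hk : k ≤ 10 ^ 30) : k ≤ q := by
  have := c.q_big (k := k) (i := 0) hk (by norm_num)
  simpa using this

lemma hq : 100 ≤ q := c.q_lit (by norm_num)

lemma q_pos : 0 < q := by have := c.hq; omega

lemma A_ge : ((10:ℝ) ^ 30) ≤ (a:ℝ) := by exact_mod_cast c.ha

lemma A_pos : (0:ℝ) < (a:ℝ) := by
  have := c.A_ge
  have h2 : (0:ℝ) < 10 ^ 30 := by norm_num
  linarith

lemma pow_pos' (i : ℕ) : 1 ≤ a ^ i := Nat.one_le_pow _ _ c.a_one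

lemma a_pow_ge {i : ℕ} (hi : 1 ≤ i) : 10 ^ 30 ≤ a ^ i := by
  have : a ^ 1 ≤ a ^ i := Nat.pow_le_pow_right c.a_one hi
  rw [pow_one] at this
  exact c.ha.trans this

lemma mm_le (j : ℕ) (hj : 480 ≤ j) : mm ≤ 2 * a ^ j :=
  c.hmm.trans (Nat.mul_le_mul_left _ (Nat.pow_le_pow_right c.a_one hj))

lemma e_le : Real.exp 1 ≤ 3 := by
  have := Real.exp_one_lt_d9
  linarith

/-! ### The real parameters -/

lemma Delta_le : (a:ℝ) ^ 900 + mm ≤ 3 * (a:ℝ) ^ 900 := by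
  have h1 : (mm:ℝ) ≤ 2 * (a:ℝ) ^ 900 := by exact_mod_cast c.mm_le 900 (by norm_num)
  linarith

lemma Delta_ge : 1 ≤ (a:ℝ) ^ 900 + mm := by
  have h1 : (1:ℝ) ≤ mm := by exact_mod_cast c.hmm1
  have h2 : (0:ℝ) ≤ (a:ℝ) ^ 900 := by positivity
  linarith

lemma rho_ge : (3 / 10 : ℝ) * q ≤ q * (1 - 1 / (q:ℝ)) ^ B := by
  have h := rho_lower q B c.hq c.hB
  have hq0 : (0:ℝ) ≤ q := by positivity
  nlinarith

lemma q_real_big {k : ℕ} {i : ℕ} (hk : k ≤ 10 ^ 30) (hi : i < 1000) : (k:ℝ) * (a:ℝ) ^ i ≤ q := by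
  exact_mod_cast c.q_big hk hi

lemma hρ₀ : (q:ℝ) / 4 ≤ q * (1 - 1 / (q:ℝ)) ^ B := by
  have := c.rho_ge
  have hq0 : (0:ℝ) ≤ q := by positivity
  linarith

lemma hρ₀' : q * (1 - 1 / (q:ℝ)) ^ B ≤ q := by
  have hq' : (100:ℝ) ≤ q := by exact_mod_cast c.hq
  have h0 : 0 ≤ 1 - 1 / (q:ℝ) := by
    have : 1 / (q:ℝ) ≤ 1 / 100 := one_div_le_one_div_of_le (by norm_num) hq'
    linarith
  have h1 : 1 - 1 / (q:ℝ) ≤ 1 := by
    have : 0 ≤ 1 / (q:ℝ) := by positivity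
    linarith
  have h2 : (1 - 1 / (q:ℝ)) ^ B ≤ 1 := pow_le_one₀ h0 h1
  have hq0 : (0:ℝ) ≤ q := by positivity
  nlinarith

lemma rho_sub_ge : (1 / 4 : ℝ) * q + 3 ≤ q * (1 - 1 / (q:ℝ)) ^ B - ((a:ℝ) ^ 900 + mm) := by
  have h1 := c.rho_ge
  have h2 := c.Delta_le
  -- `q / 20 ≥ 3 a^900 + 3`
  have h3 : ((200:ℕ):ℝ) * (a:ℝ) ^ 900 ≤ q := c.q_real_big (by norm_num) (by norm_num)
  push_cast at h3
  have h4 : (1:ℝ) ≤ (a:ℝ) ^ 900 := by exact_mod_cast c.pow_pos' 900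
  linarith

lemma hρmin : ((⌊q * (1 - 1 / (q:ℝ)) ^ B - ((a:ℝ) ^ 900 + mm)⌋₊ : ℕ) : ℝ) ≤
    q * (1 - 1 / (q:ℝ)) ^ B - ((a:ℝ) ^ 900 + mm) := by
  apply Nat.floor_le
  have h1 := c.rho_sub_ge
  have hq0 : (0:ℝ) ≤ q := by positivity
  linarith

lemma hρq4 : q ≤ 4 * ⌊q * (1 - 1 / (q:ℝ)) ^ B - ((a:ℝ) ^ 900 + mm)⌋₊ := by
  have h1 := c.rho_sub_ge
  have h2 := Nat.lt_floor_add_one (q * (1 - 1 / (q:ℝ)) ^ B - ((a:ℝ) ^ 900 + mm))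
  have h3 : (q:ℝ) ≤ 4 * (⌊q * (1 - 1 / (q:ℝ)) ^ B - ((a:ℝ) ^ 900 + mm)⌋₊ : ℝ) := by linarith
  exact_mod_cast h3

lemma hρq (r : ℕ) (hr : q ≤ 4 * r) : q ≤ 5 * r := by omega

lemma hρq2 (r : ℕ) (hr : q ≤ 4 * r) : q ≤ (r - 1) ^ 2 := by
  have h0 := c.hq
  obtain ⟨s, rfl⟩ : ∃ s, r = s + 1 := ⟨r - 1, by omega⟩
  simp only [Nat.add_sub_cancel]
  have hs : 5 ≤ s := by omega
  nlinarith

lemma hβ : ((q / 100000 : ℕ) : ℝ) + 8 * ((a:ℝ) ^ 900 + mm) + 1 ≤ (1 / 50000) * q := by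
  have h1 : ((q / 100000 : ℕ) : ℝ) ≤ (q:ℝ) / ((100000:ℕ):ℝ) := Nat.cast_div_le
  push_cast at h1
  have h2 := c.Delta_le
  have h3 : ((2600000:ℕ):ℝ) * (a:ℝ) ^ 900 ≤ q := c.q_real_big (by norm_num) (by norm_num)
  push_cast at h3
  have h4 : (1:ℝ) ≤ (a:ℝ) ^ 900 := by exact_mod_cast c.pow_pos' 900
  linarith

lemma hs1 : q ≤ 125000 * (q / 100000) := by
  have := c.q_lit (k := 1000000) (by norm_num)
  omega

lemma hc : 200 * ((1:ℝ) / 25000000) * q ≤ ((q / 100000 : ℕ) : ℝ) := by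
  have h : (q:ℝ) ≤ 125000 * ((q / 100000 : ℕ) : ℝ) := by exact_mod_cast c.hs1
  linarith

lemma hL₁ : 600 * ((a ^ 90 : ℕ) : ℝ) * q * ((a:ℝ) ^ 900 + mm) ≤ ((q / 100000 : ℕ) : ℝ) ^ 2 := by
  have h1 : (q:ℝ) ≤ 125000 * ((q / 100000 : ℕ) : ℝ) := by exact_mod_cast c.hs1
  have hq0 : (0:ℝ) ≤ q := by positivity
  have h2 := c.Delta_le
  have h3 : ((1800 * 125000 ^ 2 : ℕ):ℝ) * (a:ℝ) ^ 990 ≤ q := c.q_real_big (by norm_num) (by norm_num)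
  push_cast at h3 ⊢
  have h4 : (q:ℝ) ^ 2 ≤ 125000 ^ 2 * ((q / 100000 : ℕ) : ℝ) ^ 2 := by
    have := pow_le_pow_left₀ hq0 h1 2
    rw [mul_pow] at this
    exact this
  have h5 : (0:ℝ) ≤ (a:ℝ) ^ 90 := by positivity
  have h6 : 600 * (a:ℝ) ^ 90 * q * ((a:ℝ) ^ 900 + mm) ≤ 600 * (a:ℝ) ^ 90 * q * (3 * (a:ℝ) ^ 900) :=
    mul_le_mul_of_nonneg_left h2 (by positivity)
  have h7 : 600 * (a:ℝ) ^ 90 * q * (3 * (a:ℝ) ^ 900) = (1800 * (a:ℝ) ^ 990) * q := by ring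
  have h8 : (1800 * (a:ℝ) ^ 990) * q * 125000 ^ 2 ≤ (q:ℝ) * q := by
    have : (28125000000000 : ℝ) * (a:ℝ) ^ 990 * q ≤ q * q := mul_le_mul_of_nonneg_right h3 hq0
    linarith
  have h9 : (q:ℝ) * q = (q:ℝ) ^ 2 := by ring
  have h10 : (1800 * (a:ℝ) ^ 990) * q * 125000 ^ 2 ≤ 125000 ^ 2 * ((q / 100000 : ℕ) : ℝ) ^ 2 := by
    rw [h9] at h8
    exact h8.trans h4
  have h11 : (1800 * (a:ℝ) ^ 990) * q ≤ ((q / 100000 : ℕ) : ℝ) ^ 2 := by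
    have h12 : (0:ℝ) < 125000 ^ 2 := by norm_num
    nlinarith
  linarith

lemma hK₂ : 1000 * (a ^ 10) ^ 6 * a ^ 90 ≤ q / 100000 := by
  rw [Nat.le_div_iff_mul_le (by norm_num)]
  calc 1000 * (a ^ 10) ^ 6 * a ^ 90 * 100000 = 100000000 * a ^ 150 := by ring
    _ ≤ q := c.q_big (by norm_num) (by norm_num)

lemma hK₃ : 1000 * (a ^ 10) ^ 2 ≤ q / 100000 := by
  rw [Nat.le_div_iff_mul_le (by norm_num)]
  calc 1000 * (a ^ 10) ^ 2 * 100000 = 100000000 * a ^ 20 := by ring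
    _ ≤ q := c.q_big (by norm_num) (by norm_num)

lemma hD : 1 ≤ (a / 10 ^ 8) * a ^ 69 := by
  have h1 : 1 ≤ a / 10 ^ 8 := by
    apply Nat.div_pos _ (by norm_num)
    exact le_trans (by norm_num) c.ha
  have h2 := c.pow_pos' 69
  exact Nat.mul_pos h1 h2

lemma hθ : 2 * a ^ 10 * ((a / 10 ^ 8) * a ^ 69) ≤ a ^ 90 := by
  have h1 : a / 10 ^ 8 ≤ a := Nat.div_le_self _ _
  calc 2 * a ^ 10 * ((a / 10 ^ 8) * a ^ 69) ≤ 2 * a ^ 10 * (a * a ^ 69) := by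
        apply Nat.mul_le_mul_left
        exact Nat.mul_le_mul_right _ h1
    _ = 2 * a ^ 80 := by ring
    _ ≤ a ^ 90 := c.step (by norm_num) (by norm_num)

lemma hθnum : (8 : ℝ) * ((q ^ 2 + q + 1 : ℕ) : ℝ) * Real.exp (-(((a ^ 10 : ℕ) : ℝ) / 4)) ≤ 1 := by
  have h1 : 8 * (q ^ 2 + q + 1) ≤ a ^ 2002 := by
    have h2 : q ^ 2 + q + 1 ≤ 3 * q ^ 2 := by
      have := c.hq
      nlinarith
    have h3 : q ^ 2 ≤ (2 * a ^ 1000) ^ 2 := Nat.pow_le_pow_left c.hq2 2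
    have h4 : (2 * a ^ 1000) ^ 2 = 4 * a ^ 2000 := by ring
    calc 8 * (q ^ 2 + q + 1) ≤ 96 * a ^ 2000 := by omega
      _ ≤ a ^ 2002 := c.step (by norm_num) (by norm_num)
  have h5 : (8:ℝ) * ((q ^ 2 + q + 1 : ℕ) : ℝ) ≤ (a:ℝ) ^ 2002 := by exact_mod_cast h1
  have h6 := pow_le_exp a 2002
  have h7 : (2002:ℝ) * a ≤ ((a ^ 10 : ℕ) : ℝ) / 4 := by
    have h8 : 8008 * a ^ 1 ≤ a ^ 10 := c.step (by norm_num) (by norm_num)
    have h9 : ((8008 * a ^ 1 : ℕ) : ℝ) ≤ ((a ^ 10 : ℕ) : ℝ) := by exact_mod_cast h8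
    push_cast at h9 ⊢
    linarith
  calc _ ≤ Real.exp ((2002:ℕ) * a) * Real.exp (-(((a ^ 10 : ℕ) : ℝ) / 4)) :=
        mul_le_mul_of_nonneg_right (h5.trans h6) (Real.exp_pos _).le
    _ = Real.exp ((2002:ℕ) * a + (-(((a ^ 10 : ℕ) : ℝ) / 4))) := (Real.exp_add _ _).symm
    _ ≤ Real.exp 0 := by
      apply Real.exp_le_exp.2
      push_cast at h7 ⊢
      linarith
    _ = 1 := Real.exp_zero

lemma hx : a ≤ 2 * (10 ^ 8 * (a / 10 ^ 8)) := by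
  have := c.ha
  norm_num at this ⊢
  omega

lemma hm₁ : 2 * q ≤ (16 * 10 ^ 8 * a ^ 930) * ((a / 10 ^ 8) * a ^ 69) := by
  have h1 := c.hx
  have h2 : (16 * 10 ^ 8 * a ^ 930) * ((a / 10 ^ 8) * a ^ 69) = 16 * (10 ^ 8 * (a / 10 ^ 8)) * a ^ 999 := by ring
  rw [h2]
  have h3 : 8 * a * a ^ 999 ≤ 16 * (10 ^ 8 * (a / 10 ^ 8)) * a ^ 999 := by
    apply Nat.mul_le_mul_right
    omega
  have h4 : 8 * a * a ^ 999 = 8 * a ^ 1000 := by ring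
  have := c.hq2
  omega

lemma hτc : (2 * (((a / 10 ^ 8) * a ^ 69 : ℕ) : ℝ) * ((a ^ 930 : ℕ) : ℝ)) ≤ ((1:ℝ) / 25000000) * q := by
  have h1 : 10 ^ 8 * (a / 10 ^ 8) ≤ a := Nat.mul_div_le _ _
  have h2 : 25000000 * (2 * ((a / 10 ^ 8) * a ^ 69) * a ^ 930) ≤ q := by
    have h3 : 25000000 * (2 * ((a / 10 ^ 8) * a ^ 69) * a ^ 930) = (5 * 10 ^ 7 * (a / 10 ^ 8)) * a ^ 999 := by ring
    rw [h3]
    have h4 : (5 * 10 ^ 7 * (a / 10 ^ 8)) * a ^ 999 ≤ a * a ^ 999 := by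
      apply Nat.mul_le_mul_right
      norm_num at h1 ⊢
      omega
    have h5 : a * a ^ 999 = a ^ 1000 := by ring
    have := c.hq1
    omega
  have h3 : ((25000000 * (2 * ((a / 10 ^ 8) * a ^ 69) * a ^ 930) : ℕ) : ℝ) ≤ q := by exact_mod_cast h2
  push_cast at h3 ⊢
  linarith

lemma hn₀ : ((1:ℝ) / 50000) * q ≤ ((q / 50000 + 1 : ℕ) : ℝ) := by
  have h1 : q ≤ 50000 * (q / 50000 + 1) := by omega
  have h2 : (q:ℝ) ≤ ((50000 * (q / 50000 + 1) : ℕ) : ℝ) := by exact_mod_cast h1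
  push_cast at h2 ⊢
  linarith

lemma hh₀ : (3 * a ^ 499 * q + 2 * q + 2) ^ 2 ≤ q ^ 3 := by
  have h1 : 3 * a ^ 499 * q + 2 * q + 2 ≤ 4 * a ^ 499 * q := by
    have h2 : 10 ^ 30 ≤ a ^ 499 := c.a_pow_ge (by norm_num)
    have h3 := c.hq
    have h4 : 4 * q ≤ a ^ 499 * q := Nat.mul_le_mul_right _ (le_trans (by norm_num) h2)
    nlinarith
  have h5 : (4 * a ^ 499 * q) ^ 2 = (16 * a ^ 998) * q ^ 2 := by ring
  have h6 : 16 * a ^ 998 ≤ q := c.q_big (by norm_num) (by norm_num)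
  calc _ ≤ (4 * a ^ 499 * q) ^ 2 := Nat.pow_le_pow_left h1 2
    _ = (16 * a ^ 998) * q ^ 2 := h5
    _ ≤ q * q ^ 2 := Nat.mul_le_mul_right _ h6
    _ = q ^ 3 := by ring

/-! ### The functions of `n` -/

lemma n_big {n : ℕ} (hn : a ^ 499 ≤ n) : 10 ^ 30 ≤ n := (c.a_pow_ge (by norm_num)).trans hn

lemma hDf2 {n : ℕ} (hn : a ^ 499 ≤ n) (hn1 : n < q / 4000 + 1) :
    2 * q ≤ 3 * (q / (n / 1000 + 1)) * (n / 1000 + 1) := by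
  set m := n / 1000 + 1 with hm
  have hm0 : 0 < m := by omega
  have h1 := Nat.div_add_mod q m
  have h2 := Nat.mod_lt q hm0
  have h3 : 3 * m ≤ q := by
    have := c.q_lit (k := 10 ^ 10) (by norm_num)
    omega
  have h4 : 3 * (q / m) * m = 3 * (m * (q / m)) := by ring
  rw [h4]
  omega

lemma hνq {n : ℕ} (hn1 : n < q / 4000 + 1) : 6 * (2 * n + 3) ≤ q := by
  have := c.q_lit (k := 10 ^ 10) (by norm_num)
  omega

lemma hmf {n : ℕ} (hn : a ^ 499 ≤ n) : 96 ≤ n / 1000 + 1 := by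
  have := c.n_big hn
  norm_num at this
  omega

lemma hmf2 {n : ℕ} (hn : a ^ 499 ≤ n) : 111744 * (2 * n + 3) ≤ (n / 1000 + 1) ^ 2 := by
  have h0 := c.n_big hn
  norm_num at h0
  set m := n / 1000 + 1 with hm
  have h1 : 2 * n + 3 ≤ 2003 * m := by omega
  have h2 : 10 ^ 12 ≤ m := by
    norm_num
    omega
  norm_num at h2
  nlinarith

lemma τf_pos {n : ℕ} (hn : a ^ 499 ≤ n) : 1 ≤ (n / 1000 + 1) ^ 2 / (144 * (2 * n + 3)) := by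
  apply Nat.div_pos _ (by positivity)
  have := c.hmf2 hn
  omega

lemma hτf {n : ℕ} : 144 * (2 * n + 3) * ((n / 1000 + 1) ^ 2 / (144 * (2 * n + 3))) ≤ (n / 1000 + 1) ^ 2 :=
  Nat.mul_div_le _ _

/-- The floor loses at most a factor `2`. -/
lemma τf_twice {n : ℕ} (hn : a ^ 499 ≤ n) :
    (n / 1000 + 1) ^ 2 ≤ 2 * ((n / 1000 + 1) ^ 2 / (144 * (2 * n + 3))) * (144 * (2 * n + 3)) := by
  have h1 := c.τf_pos hn
  set x := 144 * (2 * n + 3) with hx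
  set y := (n / 1000 + 1) ^ 2 with hy
  have hx0 : 0 < x := by positivity
  have h2 := Nat.div_add_mod y x
  have h3 := Nat.mod_lt y hx0
  have h4 : x * (y / x) + y % x ≤ 2 * (y / x) * x := by
    have h5 : x ≤ (y / x) * x := by nlinarith
    have h6 : 2 * (y / x) * x = (y / x) * x + (y / x) * x := by ring
    have h7 : x * (y / x) = (y / x) * x := by ring
    omega
  omega

lemma hτfq {n : ℕ} (hn : a ^ 499 ≤ n) (hn1 : n < q / 4000 + 1) :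
    4 * (n / 1000 + 1) ^ 2 ≤ ((n / 1000 + 1) ^ 2 / (144 * (2 * n + 3))) * q := by
  have h1 := c.τf_twice hn
  have h2 : 1152 * (2 * n + 3) ≤ q := by
    have := c.q_lit (k := 10 ^ 10) (by norm_num)
    omega
  set t := (n / 1000 + 1) ^ 2 / (144 * (2 * n + 3)) with ht
  have h3 : t * (1152 * (2 * n + 3)) ≤ t * q := Nat.mul_le_mul_left _ h2
  have h4 : 2 * t * (144 * (2 * n + 3)) * 4 = t * (1152 * (2 * n + 3)) := by ring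
  omega

lemma hmfq {n : ℕ} (hn1 : n < q / 4000 + 1) : 64 * (n / 1000 + 1) ≤ q := by
  have := c.q_lit (k := 10 ^ 10) (by norm_num)
  omega

lemma hC₃b {n : ℕ} (hn : a ^ 499 ≤ n) :
    8 * ((3073 : ℕ).choose 2 : ℝ) * ((n / 1000 + 1 : ℕ) : ℝ) ^ 2 /
      (((n / 1000 + 1) ^ 2 / (144 * (2 * n + 3)) : ℕ) : ℝ) ^ 2 + 2060 ≤ 10 ^ 20 := by
  have h1 := c.τf_twice hn
  have h2 := c.τf_pos hn
  have h0 := c.n_big hn
  set m := n / 1000 + 1 with hm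
  set t := m ^ 2 / (144 * (2 * n + 3)) with ht
  have hm0 : 0 < m := by omega
  have h3 : 2 * n + 3 ≤ 2003 * m := by
    norm_num at h0
    omega
  -- `m ≤ 576864 t`
  have h4 : m ≤ 576864 * t := by
    have h5 : m ^ 2 ≤ (576864 * t) * m := by
      calc m ^ 2 ≤ 2 * t * (144 * (2 * n + 3)) := h1
        _ ≤ 2 * t * (144 * (2003 * m)) := by
          apply Nat.mul_le_mul_left
          exact Nat.mul_le_mul_left _ h3
        _ = (576864 * t) * m := by ring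
    have h6 : m * m ≤ (576864 * t) * m := by rw [← pow_two]; exact h5
    exact Nat.le_of_mul_le_mul_right h6 hm0
  have hch : ((3073 : ℕ).choose 2 : ℝ) = 4720128 := by
    have : (3073 : ℕ).choose 2 = 4720128 := by
      rw [Nat.choose_two_right]
    rw [this]
    norm_num
  rw [hch]
  have ht0 : (0:ℝ) < t := by exact_mod_cast h2
  have h7 : (m:ℝ) ≤ 576864 * t := by exact_mod_cast h4
  have h8 : (m:ℝ) ^ 2 ≤ (576864 * (t:ℝ)) ^ 2 := pow_le_pow_left₀ (by positivity) h7 2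
  have h9 : 8 * (4720128:ℝ) * (m:ℝ) ^ 2 / (t:ℝ) ^ 2 ≤ 8 * 4720128 * 576864 ^ 2 := by
    rw [div_le_iff₀ (by positivity)]
    nlinarith
  norm_num at h9 ⊢
  linarith

/-! ### The numerics of `C` -/

lemma hCmean : 4 * (16 * 10 ^ 8 * a ^ 930) ^ 2 ≤ (a ^ 10 - 1) * q * a ^ 930 := by
  have h1 : a ^ 9 ≤ a ^ 10 - 1 := by
    have h2 : 2 * a ^ 9 ≤ a ^ 10 := c.step (by norm_num) (by norm_num)
    have h3 := c.pow_pos' 9
    omega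
  calc 4 * (16 * 10 ^ 8 * a ^ 930) ^ 2 = (4 * (16 * 10 ^ 8) ^ 2) * a ^ 1860 := by ring
    _ ≤ a ^ 1939 := c.step (by norm_num) (by norm_num)
    _ = a ^ 9 * a ^ 1000 * a ^ 930 := by ring
    _ ≤ (a ^ 10 - 1) * q * a ^ 930 := by
      apply Nat.mul_le_mul_right
      exact Nat.mul_le_mul h1 c.hq1

lemma hCbound : 32 * (q:ℝ) * (((16 * 10 ^ 8 * a ^ 930 : ℕ)) : ℝ) ^ 2 / ((a ^ 930 : ℕ) : ℝ) ^ 2 +
    2 * (((16 * 10 ^ 8 * a ^ 930 : ℕ)) : ℝ) * q / ((a ^ 930 : ℕ) : ℝ) ≤ ((10 ^ 20 * q : ℕ) : ℝ) := by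
  have h0 : (0:ℝ) < ((a ^ 930 : ℕ) : ℝ) := by exact_mod_cast c.pow_pos' 930
  have h1 : ((16 * 10 ^ 8 * a ^ 930 : ℕ) : ℝ) = (16 * 10 ^ 8) * ((a ^ 930 : ℕ) : ℝ) := by push_cast; ring
  rw [h1]
  set t : ℝ := ((a ^ 930 : ℕ) : ℝ) with ht
  have h2 : 32 * (q:ℝ) * ((16 * 10 ^ 8) * t) ^ 2 / t ^ 2 = 32 * (16 * 10 ^ 8) ^ 2 * q := by
    field_simp
  have h3 : 2 * ((16 * 10 ^ 8) * t) * q / t = 2 * (16 * 10 ^ 8) * q := by
    field_simp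
  rw [h2, h3]
  have hq0 : (0:ℝ) ≤ q := by positivity
  push_cast
  nlinarith

lemma hb₂ : (6 * a ^ 1499 + 2 * q + 2) ^ 2 ≤ q ^ 3 := by
  have h1 : 2 * q + 2 ≤ a ^ 1499 := by
    have h2 := c.hq2
    have h3 : 10 * a ^ 1000 ≤ a ^ 1499 := c.step (by norm_num) (by norm_num)
    have h4 := c.pow_pos' 1000
    omega
  have h5 : 6 * a ^ 1499 + 2 * q + 2 ≤ 7 * a ^ 1499 := by omega
  calc _ ≤ (7 * a ^ 1499) ^ 2 := Nat.pow_le_pow_left h5 2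
    _ = 49 * a ^ 2998 := by ring
    _ ≤ a ^ 3000 := c.step (by norm_num) (by norm_num)
    _ = (a ^ 1000) ^ 3 := by ring
    _ ≤ q ^ 3 := Nat.pow_le_pow_left c.hq1 3

lemma hq22 : (22 * q + 12) ^ 2 ≤ q ^ 3 := by
  have h0 := c.q_lit (k := 1000) (by norm_num)
  have h1 : 22 * q + 12 ≤ 23 * q := by omega
  calc _ ≤ (23 * q) ^ 2 := Nat.pow_le_pow_left h1 2
    _ = 529 * q ^ 2 := by ring
    _ ≤ q * q ^ 2 := Nat.mul_le_mul_right _ (by omega)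
    _ = q ^ 3 := by ring

lemma he : Real.exp 1 * mm ≤ q := by
  have h1 : (mm:ℝ) ≤ 2 * (a:ℝ) ^ 480 := by exact_mod_cast c.hmm
  have h2 := c.e_le
  have h3 : ((6:ℕ):ℝ) * (a:ℝ) ^ 480 ≤ q := c.q_real_big (by norm_num) (by norm_num)
  push_cast at h3
  have h4 : (0:ℝ) ≤ mm := by positivity
  nlinarith [Real.exp_pos 1]

end Ctx

end NumSLAux

end Crest.Agent.Ryser

namespace Crest.Agent.Ryser

namespace NumSLAux

namespace Ctx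

variable {M a q mm B : ℕ} (c : Ctx M a q mm B)
include c

lemma A_ge_80 : (80:ℝ) ≤ (a:ℝ) := by
  have := c.A_ge
  have h2 : (80:ℝ) ≤ 10 ^ 30 := by norm_num
  linarith

lemma hqq : (q + 1) * q ≤ a ^ 2001 := by
  have h1 := c.q_pos
  have h2 : (q + 1) * q ≤ (2 * q) * q := by
    apply Nat.mul_le_mul_right
    omega
  have h3 : (2 * q) * q ≤ (2 * (2 * a ^ 1000)) * (2 * a ^ 1000) :=
    Nat.mul_le_mul (Nat.mul_le_mul_left _ c.hq2) c.hq2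
  have h4 : (2 * (2 * a ^ 1000)) * (2 * a ^ 1000) = 8 * a ^ 2000 := by ring
  have h5 : 8 * a ^ 2000 ≤ a ^ 2001 := c.step (by norm_num) (by norm_num)
  omega

lemma hqq1 : (q + 1) * q + 1 ≤ a ^ 2001 := by
  have h1 := c.q_pos
  have h2 : (q + 1) * q + 1 ≤ (2 * q) * q := by
    have h3 : (q + 1) * q + 1 = q * q + q + 1 := by ring
    have h4 : (2 * q) * q = q * q + q * q := by ring
    have h5 := c.hq
    nlinarith
  have h3 : (2 * q) * q ≤ (2 * (2 * a ^ 1000)) * (2 * a ^ 1000) :=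
    Nat.mul_le_mul (Nat.mul_le_mul_left _ c.hq2) c.hq2
  have h4 : (2 * (2 * a ^ 1000)) * (2 * a ^ 1000) = 8 * a ^ 2000 := by ring
  have h5 : 8 * a ^ 2000 ≤ a ^ 2001 := c.step (by norm_num) (by norm_num)
  omega

lemma T1 : (((q + 1) * q : ℝ) * (2 * Real.exp (-(((a:ℝ) ^ 900) ^ 2 / (8 * q))))) ≤ 1 / 16 := by
  have hq0 : (0:ℝ) < q := by exact_mod_cast c.q_pos
  have h1 : (((q:ℝ) + 1) * q) ≤ (a:ℝ) ^ 2001 := by exact_mod_cast c.hqq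
  have h2 := pow_le_exp a 2001
  have h3 : (a:ℝ) ^ 800 / 16 ≤ ((a:ℝ) ^ 900) ^ 2 / (8 * q) := by
    rw [le_div_iff₀ (by positivity)]
    have h4 : (q:ℝ) ≤ 2 * (a:ℝ) ^ 1000 := by exact_mod_cast c.hq2
    have h5 : ((a:ℝ) ^ 900) ^ 2 = (a:ℝ) ^ 800 * (a:ℝ) ^ 1000 := by ring
    rw [h5]
    have h6 : (0:ℝ) ≤ (a:ℝ) ^ 800 := pow_nonneg (Nat.cast_nonneg a) _
    have h7 := mul_le_mul_of_nonneg_left h4 h6
    linarith
  have h8 : ((2001:ℕ):ℝ) * a + 31 ≤ (a:ℝ) ^ 800 / 16 := by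
    have h9 : 32512 * a ^ 1 ≤ a ^ 800 := c.step (by norm_num) (by norm_num)
    have h10 : ((32512 * a ^ 1 : ℕ) : ℝ) ≤ ((a ^ 800 : ℕ) : ℝ) := by exact_mod_cast h9
    push_cast at h10 ⊢
    have h11 : (1:ℝ) ≤ a := by exact_mod_cast c.a_one
    linarith
  have h12 : Real.exp (((2001:ℕ):ℝ) * a) * Real.exp (-(((a:ℝ) ^ 900) ^ 2 / (8 * q))) ≤ 1 / 32 := by
    rw [← Real.exp_add]
    have h13 : ((2001:ℕ):ℝ) * a + -(((a:ℝ) ^ 900) ^ 2 / (8 * q)) ≤ -31 := by linarith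
    calc _ ≤ Real.exp (-31) := Real.exp_le_exp.2 h13
      _ ≤ _ := exp_neg_le_of_le (le_refl _)
  calc _ = (((q:ℝ) + 1) * q) * Real.exp (-(((a:ℝ) ^ 900) ^ 2 / (8 * q))) * 2 := by ring
    _ ≤ Real.exp (((2001:ℕ):ℝ) * a) * Real.exp (-(((a:ℝ) ^ 900) ^ 2 / (8 * q))) * 2 := by
      apply mul_le_mul_of_nonneg_right _ (by norm_num)
      exact mul_le_mul_of_nonneg_right (h1.trans h2) (Real.exp_pos _).le
    _ ≤ 1 / 16 := by linarith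

lemma T2 : ((((q + 1) * q : ℕ) : ℝ) ^ (a ^ 10) * (2 * Real.exp (-(((a ^ 10 : ℕ) : ℝ) ^ 2 / 300)))) ≤ 1 / 16 := by
  have h1 : (((q + 1) * q : ℕ) : ℝ) ≤ (a:ℝ) ^ 2001 := by exact_mod_cast c.hqq
  have h2 : (((q + 1) * q : ℕ) : ℝ) ^ (a ^ 10) ≤ ((a:ℝ) ^ 2001) ^ (a ^ 10) :=
    pow_le_pow_left₀ (by positivity) h1 _
  rw [← pow_mul] at h2
  have h3 := pow_le_exp a (2001 * a ^ 10)
  have h8 : ((2001 * a ^ 10 : ℕ) : ℝ) * a + 31 ≤ ((a ^ 10 : ℕ) : ℝ) ^ 2 / 300 := by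
    have h9 : 609600 * a ^ 11 ≤ a ^ 20 := c.step (by norm_num) (by norm_num)
    have h10 : ((609600 * a ^ 11 : ℕ) : ℝ) ≤ ((a ^ 20 : ℕ) : ℝ) := by exact_mod_cast h9
    push_cast at h10 ⊢
    have h11 : (1:ℝ) ≤ (a:ℝ) ^ 11 := by exact_mod_cast c.pow_pos' 11
    have h12 : ((a:ℝ) ^ 10) ^ 2 = (a:ℝ) ^ 20 := by ring
    have h13 : 2001 * (a:ℝ) ^ 10 * a = 2001 * (a:ℝ) ^ 11 := by ring
    rw [h12, h13]
    linarith
  have h12 : Real.exp (((2001 * a ^ 10 : ℕ) : ℝ) * a) * Real.exp (-(((a ^ 10 : ℕ) : ℝ) ^ 2 / 300)) ≤ 1 / 32 := by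
    rw [← Real.exp_add]
    have h13 : ((2001 * a ^ 10 : ℕ) : ℝ) * a + -(((a ^ 10 : ℕ) : ℝ) ^ 2 / 300) ≤ -31 := by linarith
    calc _ ≤ Real.exp (-31) := Real.exp_le_exp.2 h13
      _ ≤ _ := exp_neg_le_of_le (le_refl _)
  calc _ = (((q + 1) * q : ℕ) : ℝ) ^ (a ^ 10) * Real.exp (-(((a ^ 10 : ℕ) : ℝ) ^ 2 / 300)) * 2 := by ring
    _ ≤ Real.exp (((2001 * a ^ 10 : ℕ) : ℝ) * a) * Real.exp (-(((a ^ 10 : ℕ) : ℝ) ^ 2 / 300)) * 2 := by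
      apply mul_le_mul_of_nonneg_right _ (by norm_num)
      exact mul_le_mul_of_nonneg_right (h2.trans h3) (Real.exp_pos _).le
    _ ≤ 1 / 16 := by linarith

lemma T3 : ((((((q + 1) * q + 1) ^ (16 * 10 ^ 8 * a ^ 930)) * (((q + 1) * q + 1) ^ (q / 50000 + 1)) * 2 ^ (10 ^ 20 * q) : ℕ) : ℝ) *
      (2 * (Real.exp 1 * (220 * mm : ℝ) / ((q / 315 : ℕ) : ℝ)) ^ (q / 315) +
      2 * (Real.exp 1 * (20 * mm * (q:ℝ) ^ 2 / ((a ^ 1499 : ℕ) : ℝ)) / ((q / 140 : ℕ) : ℝ)) ^ (q / 140) +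
      (Real.exp 1 * mm / q) ^ (q / 4000 + 1))) ≤ 1 / 16 := by
  have hq0 : (0:ℝ) < q := by exact_mod_cast c.q_pos
  have hA := c.A_pos
  set m₁ := 16 * 10 ^ 8 * a ^ 930 with hm₁
  obtain ⟨Q, hQ⟩ : ∃ Q, Q = q / 1000000 := ⟨_, rfl⟩
  have hq6 := c.q_lit (k := 10 ^ 12) (by norm_num)
  norm_num at hq6
  have hQ1 : m₁ ≤ Q := by
    rw [hQ, Nat.le_div_iff_mul_le (by norm_num), hm₁]
    calc 16 * 10 ^ 8 * a ^ 930 * 1000000 = (16 * 10 ^ 8 * 1000000) * a ^ 930 := by ring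
      _ ≤ q := c.q_big (by norm_num) (by norm_num)
  have hC : 10 ^ 20 * q ≤ M * Q := by
    rw [c.hM]
    norm_num
    omega
  have h2C : 2 ^ (10 ^ 20 * q) ≤ a ^ Q := by
    calc 2 ^ (10 ^ 20 * q) ≤ 2 ^ (M * Q) := Nat.pow_le_pow_right (by norm_num) hC
      _ = (2 ^ M) ^ Q := pow_mul _ _ _
      _ ≤ a ^ Q := Nat.pow_le_pow_left c.ha2 _
  have hX : ((q + 1) * q + 1) ^ m₁ * ((q + 1) * q + 1) ^ (q / 50000 + 1) * 2 ^ (10 ^ 20 * q) ≤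
      a ^ (2001 * m₁ + 2001 * (q / 50000 + 1) + Q) := by
    calc _ ≤ (a ^ 2001) ^ m₁ * (a ^ 2001) ^ (q / 50000 + 1) * a ^ Q :=
          Nat.mul_le_mul (Nat.mul_le_mul (Nat.pow_le_pow_left c.hqq1 _) (Nat.pow_le_pow_left c.hqq1 _)) h2C
      _ = _ := by rw [← pow_mul, ← pow_mul, ← pow_add, ← pow_add]
  have e1 := c.e_le
  have e0 := Real.exp_pos 1
  have hmm' : (mm:ℝ) ≤ 2 * (a:ℝ) ^ 480 := by exact_mod_cast c.hmm
  have hmm0 : (0:ℝ) ≤ mm := by positivity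
  have hem : Real.exp 1 * mm ≤ 6 * (a:ℝ) ^ 480 := by
    have := mul_le_mul e1 hmm' hmm0 (by norm_num)
    linarith
  have ht1 : a ^ 999 ≤ q / 315 := by
    rw [Nat.le_div_iff_mul_le (by norm_num)]
    rw [mul_comm]
    exact c.q_big (by norm_num) (by norm_num)
  have ht2 : q ≤ 141 * (q / 140) := by omega
  have ht20 : 0 < q / 140 := by omega
  have ht10 : 0 < q / 315 := by omega
  have hb1 : Real.exp 1 * (220 * mm : ℝ) / ((q / 315 : ℕ) : ℝ) ≤ ((a:ℝ)⁻¹) ^ 500 := by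
    apply base_le 500 hA (by exact_mod_cast ht10)
    have h1 : (a:ℝ) ^ 999 ≤ ((q / 315 : ℕ) : ℝ) := by exact_mod_cast ht1
    have h2 : 1320 * a ^ 980 ≤ a ^ 999 := c.step (by norm_num) (by norm_num)
    have h3 : ((1320 * a ^ 980 : ℕ) : ℝ) ≤ ((a ^ 999 : ℕ) : ℝ) := by exact_mod_cast h2
    push_cast at h3
    have h4 : Real.exp 1 * (220 * mm : ℝ) * (a:ℝ) ^ 500 = 220 * (Real.exp 1 * mm) * (a:ℝ) ^ 500 := by ring
    rw [h4]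
    have h5 : 220 * (Real.exp 1 * mm) * (a:ℝ) ^ 500 ≤ 220 * (6 * (a:ℝ) ^ 480) * (a:ℝ) ^ 500 := by
      apply mul_le_mul_of_nonneg_right _ (by positivity)
      linarith
    have h6 : 220 * (6 * (a:ℝ) ^ 480) * (a:ℝ) ^ 500 = 1320 * (a:ℝ) ^ 980 := by ring
    linarith
  have hb2 : Real.exp 1 * (20 * mm * (q:ℝ) ^ 2 / ((a ^ 1499 : ℕ) : ℝ)) / ((q / 140 : ℕ) : ℝ) ≤ ((a:ℝ)⁻¹) ^ 18 := by
    apply base_le 18 hA (by exact_mod_cast ht20)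
    set t₂ : ℝ := ((q / 140 : ℕ) : ℝ) with ht₂
    have ht₂0 : 0 < t₂ := by rw [ht₂]; exact_mod_cast ht20
    have hb : (0:ℝ) < ((a ^ 1499 : ℕ) : ℝ) := by exact_mod_cast c.pow_pos' 1499
    have h1 : (q:ℝ) ≤ 141 * t₂ := by rw [ht₂]; exact_mod_cast ht2
    have h2 : (q:ℝ) ≤ 2 * (a:ℝ) ^ 1000 := by exact_mod_cast c.hq2
    have h3 : (q:ℝ) ^ 2 ≤ (2 * (a:ℝ) ^ 1000) * (141 * t₂) := by
      rw [pow_two]
      exact mul_le_mul h2 h1 hq0.le (by positivity)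
    have h4 : (Real.exp 1 * mm) * (q:ℝ) ^ 2 ≤ (6 * (a:ℝ) ^ 480) * ((2 * (a:ℝ) ^ 1000) * (141 * t₂)) :=
      mul_le_mul hem h3 (by positivity) (by positivity)
    have h5 : Real.exp 1 * (20 * mm * (q:ℝ) ^ 2 / ((a ^ 1499 : ℕ) : ℝ)) * (a:ℝ) ^ 18 =
        (20 * (a:ℝ) ^ 18 * ((Real.exp 1 * mm) * (q:ℝ) ^ 2)) / ((a ^ 1499 : ℕ) : ℝ) := by ring
    rw [h5, div_le_iff₀ hb]
    have h6 : 20 * (a:ℝ) ^ 18 * ((Real.exp 1 * mm) * (q:ℝ) ^ 2) ≤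
        20 * (a:ℝ) ^ 18 * ((6 * (a:ℝ) ^ 480) * ((2 * (a:ℝ) ^ 1000) * (141 * t₂))) :=
      mul_le_mul_of_nonneg_left h4 (by positivity)
    have h7 : 33840 * a ^ 1498 ≤ a ^ 1499 := c.step (by norm_num) (by norm_num)
    have h8 : ((33840 * a ^ 1498 : ℕ) : ℝ) ≤ ((a ^ 1499 : ℕ) : ℝ) := by exact_mod_cast h7
    have h9 : 20 * (a:ℝ) ^ 18 * ((6 * (a:ℝ) ^ 480) * ((2 * (a:ℝ) ^ 1000) * (141 * t₂))) =
        ((33840 * a ^ 1498 : ℕ) : ℝ) * t₂ := by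
      push_cast
      ring
    rw [h9] at h6
    have h10 := mul_le_mul_of_nonneg_right h8 ht₂0.le
    calc _ ≤ _ := h6
      _ ≤ _ := h10
      _ = _ := by ring
  have hb3 : Real.exp 1 * mm / q ≤ ((a:ℝ)⁻¹) ^ 500 := by
    apply base_le 500 hA hq0
    have h1 : ((6:ℕ):ℝ) * (a:ℝ) ^ 980 ≤ q := c.q_real_big (by norm_num) (by norm_num)
    push_cast at h1
    have h2 : Real.exp 1 * mm * (a:ℝ) ^ 500 ≤ 6 * (a:ℝ) ^ 480 * (a:ℝ) ^ 500 :=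
      mul_le_mul_of_nonneg_right hem (by positivity)
    have h3 : 6 * (a:ℝ) ^ 480 * (a:ℝ) ^ 500 = 6 * (a:ℝ) ^ 980 := by ring
    linarith
  have ht100 : (0:ℝ) < ((q / 315 : ℕ) : ℝ) := by exact_mod_cast ht10
  have ht200 : (0:ℝ) < ((q / 140 : ℕ) : ℝ) := by exact_mod_cast ht20
  have hb00 : (0:ℝ) < ((a ^ 1499 : ℕ) : ℝ) := by exact_mod_cast c.pow_pos' 1499
  refine T3_core (a:ℝ) c.A_ge_80 (2001 * m₁ + 2001 * (q / 50000 + 1) + Q) _ _ _ _ _ _ _ 500 18 500 (by positivity) ?_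
    (by positivity) (by positivity) (by positivity) hb1 hb2 hb3 ?_ ?_ ?_
  · exact_mod_cast hX
  · omega
  · omega
  · omega

lemma T4 : (∑ n ∈ Finset.Ico (a ^ 499) (q / 4000 + 1), (((q + 1) * q + 1 : ℕ) : ℝ) ^ (2 * (n / 1000 + 1)) *
        (Real.exp 1 * (mm * (10 ^ 20 : ℝ)) / ((n + 1) / 2 : ℕ)) ^ ((n + 1) / 2)) ≤ 1 / 16 := by
  have hA := c.A_pos
  have hA1 : (1:ℝ) ≤ a := by exact_mod_cast c.a_one
  have hI0 : 0 < (a:ℝ)⁻¹ := by positivity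
  have hI1 : (a:ℝ)⁻¹ ≤ 1 := inv_le_one_of_one_le₀ hA1
  have e1 := c.e_le
  have e0 := Real.exp_pos 1
  have hmm' : (mm:ℝ) ≤ 2 * (a:ℝ) ^ 480 := by exact_mod_cast c.hmm
  have hmm0 : (0:ℝ) ≤ mm := by positivity
  have hem : Real.exp 1 * mm ≤ 6 * (a:ℝ) ^ 480 := by
    have := mul_le_mul e1 hmm' hmm0 (by norm_num)
    linarith
  have hterm : ∀ n ∈ Finset.Ico (a ^ 499) (q / 4000 + 1),
      (((q + 1) * q + 1 : ℕ) : ℝ) ^ (2 * (n / 1000 + 1)) *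
        (Real.exp 1 * (mm * (10 ^ 20 : ℝ)) / ((n + 1) / 2 : ℕ)) ^ ((n + 1) / 2) ≤ ((a:ℝ)⁻¹) ^ 1002 := by
    intro n hn
    obtain ⟨hn0, hn1⟩ := Finset.mem_Ico.1 hn
    have hnbig := c.n_big hn0
    norm_num at hnbig
    set r := (n + 1) / 2 with hr
    have hr0 : 0 < r := by omega
    have hr1 : 6 * 10 ^ 20 * a ^ 498 ≤ r := by
      rw [hr, Nat.le_div_iff_mul_le (by norm_num)]
      have h1 : (6 * 10 ^ 20 * 2) * a ^ 498 ≤ a ^ 499 := c.step (by norm_num) (by norm_num)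
      have h2 : 6 * 10 ^ 20 * a ^ 498 * 2 = (6 * 10 ^ 20 * 2) * a ^ 498 := by ring
      omega
    have hbase : Real.exp 1 * (mm * (10 ^ 20 : ℝ)) / (r : ℝ) ≤ ((a:ℝ)⁻¹) ^ 18 := by
      apply base_le 18 hA (by exact_mod_cast hr0)
      have h1 : ((6 * 10 ^ 20 * a ^ 498 : ℕ) : ℝ) ≤ (r:ℝ) := by exact_mod_cast hr1
      push_cast at h1
      have h2 : Real.exp 1 * (mm * (10 ^ 20 : ℝ)) * (a:ℝ) ^ 18 = (Real.exp 1 * mm) * (10 ^ 20 * (a:ℝ) ^ 18) := by ring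
      rw [h2]
      have h3 : (Real.exp 1 * mm) * (10 ^ 20 * (a:ℝ) ^ 18) ≤ (6 * (a:ℝ) ^ 480) * (10 ^ 20 * (a:ℝ) ^ 18) :=
        mul_le_mul_of_nonneg_right hem (by positivity)
      have h4 : (6 * (a:ℝ) ^ 480) * (10 ^ 20 * (a:ℝ) ^ 18) = 6 * 10 ^ 20 * (a:ℝ) ^ 498 := by ring
      linarith
    have hr00 : (0:ℝ) < (r:ℝ) := by exact_mod_cast hr0
    have h1 : (Real.exp 1 * (mm * (10 ^ 20 : ℝ)) / (r : ℝ)) ^ r ≤ ((a:ℝ)⁻¹) ^ (18 * r) := by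
      rw [pow_mul]
      exact pow_le_pow_left₀ (by positivity) hbase _
    have hexp : 4002 * (n / 1000 + 1) + 1002 ≤ 18 * r := by omega
    have h2 : ((a:ℝ)⁻¹) ^ (18 * r) ≤ ((a:ℝ)⁻¹) ^ (4002 * (n / 1000 + 1) + 1002) :=
      pow_le_pow_of_le_one hI0.le hI1 hexp
    have h3 : (((q + 1) * q + 1 : ℕ) : ℝ) ^ (2 * (n / 1000 + 1)) ≤ (a:ℝ) ^ (4002 * (n / 1000 + 1)) := by
      have h4 : (((q + 1) * q + 1 : ℕ) : ℝ) ≤ (a:ℝ) ^ 2001 := by exact_mod_cast c.hqq1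
      calc _ ≤ ((a:ℝ) ^ 2001) ^ (2 * (n / 1000 + 1)) := pow_le_pow_left₀ (by positivity) h4 _
        _ = _ := by rw [← pow_mul]; congr 1; ring
    calc _ ≤ (a:ℝ) ^ (4002 * (n / 1000 + 1)) * ((a:ℝ)⁻¹) ^ (4002 * (n / 1000 + 1) + 1002) :=
          mul_le_mul h3 (h1.trans h2) (by positivity) (by positivity)
      _ = ((a:ℝ)⁻¹) ^ 1002 := by
        rw [pow_add, ← mul_assoc, ← mul_pow, mul_inv_cancel₀ hA.ne', one_pow, one_mul]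
  refine (Finset.sum_le_sum hterm).trans ?_
  rw [Finset.sum_const, nsmul_eq_mul]
  have hcard : (Finset.Ico (a ^ 499) (q / 4000 + 1)).card ≤ a ^ 1001 := by
    rw [Nat.card_Ico]
    have h1 : 2 * a ^ 1000 ≤ a ^ 1001 := c.step (by norm_num) (by norm_num)
    have h2 := c.hq2
    have h3 := c.q_lit (k := 10 ^ 10) (by norm_num)
    omega
  have hcard' : ((Finset.Ico (a ^ 499) (q / 4000 + 1)).card : ℝ) ≤ (a:ℝ) ^ 1001 := by exact_mod_cast hcard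
  calc _ ≤ (a:ℝ) ^ 1001 * ((a:ℝ)⁻¹) ^ 1002 := mul_le_mul_of_nonneg_right hcard' (by positivity)
    _ = (a:ℝ)⁻¹ := by
      rw [show (1002:ℕ) = 1001 + 1 by norm_num, pow_succ ((a:ℝ)⁻¹) 1001, ← mul_assoc, ← mul_pow,
        mul_inv_cancel₀ hA.ne', one_pow, one_mul]
    _ ≤ 1 / 16 := by
      have h80 := c.A_ge_80
      have : (a:ℝ)⁻¹ ≤ 80⁻¹ := inv_anti₀ (by norm_num) h80
      norm_num at this ⊢
      linarith

end Ctx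

end NumSLAux

end Crest.Agent.Ryser
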