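import Crest.Agent.Lib.Ryser.SL
import Crest.Agent.Lib.Ryser.NumSLAux

/-!
# Module NUMSL: the numeric parameters of the stability lemma exist for large `q`.

Scale `a`: `a^1000 ≤ q < (a+1)^1000`.  Parameters: `Δ' = a^900`, `Δ = Δ' + mm`, `ρ₀ = q (1-1/q)^Bcard`, `ρmin = ⌊ρ₀ - Δ⌋`,
`β = 1/50000`, `s₁ = q/100000`, `c = 1/25000000`, `L₀ = a^90`, `K = θ = a^10`, `D = (a/10^8) a^69`, `τ = a^930`, `m₁ = 16·10^8 τ`,
`n₀ = q/50000+1`, `C = 10^20 q`, `t₁ = q/315`, `t₂ = q/140`, `b₂ = a^1499`, `h₀ = a^499`, `h₁ = q/4000+1`,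
`m₀f n = n/1000+1`, `Df n = q/m₀f n`, `τf n = (m₀f n)²/(144(2n+3))`, `C₃ = 10^20`.
-/

open Finset BigOperators

namespace Crest.Agent.Ryser

namespace NumSLAux

/-- The parameters, given the scale. -/
theorem Ctx.mk_num {M a q mm B : ℕ} (c : Ctx M a q mm B) : Nonempty (SLProbNum q mm B) := by
  have hT1 := c.T1
  have hT2 := c.T2
  have hT3 := c.T3
  have hT4 := c.T4
  have hq6 := c.q_lit (k := 10 ^ 12) (by norm_num)
  norm_num at hq6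
  refine ⟨{
    ρ₀ := q * (1 - 1 / (q:ℝ)) ^ B
    Δ := (a:ℝ) ^ 900 + mm
    K := a ^ 10
    L₀ := a ^ 90
    s₁ := q / 100000
    β := 1 / 50000
    c := 1 / 25000000
    D := (a / 10 ^ 8) * a ^ 69
    θ := a ^ 10
    τ := a ^ 930
    m₁ := 16 * 10 ^ 8 * a ^ 930
    n₀ := q / 50000 + 1
    h₀ := a ^ 499
    h₁ := q / 4000 + 1
    ρmin := ⌊q * (1 - 1 / (q:ℝ)) ^ B - ((a:ℝ) ^ 900 + mm)⌋₊
    m₀f := fun n => n / 1000 + 1
    Df := fun n => q / (n / 1000 + 1)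
    τf := fun n => (n / 1000 + 1) ^ 2 / (144 * (2 * n + 3))
    hq := c.hq
    hρ₀ := c.hρ₀
    hρ₀' := c.hρ₀'
    hΔ := c.Delta_ge
    hρmin := c.hρmin
    hρq := c.hρq _ c.hρq4
    hρq2 := c.hρq2 _ c.hρq4
    hβ := c.hβ
    hc := c.hc
    hL₁ := c.hL₁
    hK := le_trans (by norm_num) (c.a_pow_ge (i := 10) (by norm_num))
    hK₂ := c.hK₂
    hK₃ := c.hK₃
    hL₀ := c.pow_pos' 90
    hD := c.hD
    hθ := c.hθ
    hθnum := c.hθnum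
    hm₁ := c.hm₁
    hτc := c.hτc
    hn₀ := c.hn₀
    hh₀ := c.hh₀
    hDf := fun n _ _ => Nat.div_mul_le_self _ _
    hDf2 := fun n h0 h1 => c.hDf2 h0 h1
    hνq := fun n _ h1 => c.hνq h1
    hτf := fun n _ _ => c.hτf
    hmf := fun n h0 _ => c.hmf h0
    hmf2 := fun n h0 _ => c.hmf2 h0
    Δ' := (a:ℝ) ^ 900
    hΔ'0 := by
      have := c.A_pos
      exact pow_pos this _
    hΔ'q := by
      have h1 : ((1:ℕ):ℝ) * (a:ℝ) ^ 900 ≤ q := c.q_real_big (by norm_num) (by norm_num)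
      simpa using h1
    hΔeq := rfl
    hρeq := rfl
    hρq4 := c.hρq4
    C := 10 ^ 20 * q
    hCθ := le_trans (by norm_num) (c.a_pow_ge (i := 10) (by norm_num))
    hCτ := c.pow_pos' 930
    hCmean := c.hCmean
    hCbound := c.hCbound
    t₁ := q / 315
    t₂ := q / 140
    b₂ := a ^ 1499
    ht₁ := by omega
    ht₁q := by omega
    ht₂ := by omega
    ht₂q := by omega
    hb₂ := c.hb₂
    hb₂0 := c.pow_pos' 1499
    hq22 := c.hq22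
    he := c.he
    hmm1 := c.hmm1
    hh₀1 := c.pow_pos' 499
    hτf1 := fun n h0 _ => c.τf_pos h0
    hτfq := fun n h0 h1 => c.hτfq h0 h1
    hmfq := fun n _ h1 => c.hmfq h1
    C₃ := 10 ^ 20
    hC₃ := by norm_num
    hC₃b := fun n h0 _ => c.hC₃b h0
    total := ?_ }⟩
  have e : (1:ℝ) / 16 + 1 / 16 + 1 / 16 + 1 / 16 = 1 / 4 := by norm_num
  rw [← e]
  exact add_le_add (add_le_add (add_le_add hT1 hT2) hT3) hT4

theorem exists_aux (M A₀ : ℕ) (hM : M = 2 * 10 ^ 26) (h1 : 10 ^ 30 ≤ A₀) (h2 : 2 ^ M ≤ A₀) (q : ℕ)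
    (hq : A₀ ^ 1000 ≤ q) (mm Bcard : ℕ) (hmm1 : 1 ≤ mm)
    (hmm : (mm : ℝ) ≤ (q : ℝ) ^ ((12 : ℝ) / 25)) (hB : 100 * Bcard ≤ 102 * q) :
    Nonempty (SLProbNum q mm Bcard) := by
  obtain ⟨a, haA, ha1, ha2⟩ := exists_scale A₀ q (le_trans (by norm_num) h1) hq
  have ha : 10 ^ 30 ≤ a := h1.trans haA
  have hbig : 2 * 1000 ≤ a + 1 := by
    norm_num at ha ⊢
    omega
  have hq2 : q ≤ 2 * a ^ 1000 := ha2.le.trans (succ_pow_le a 1000 hbig)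
  have hmm2 : mm ≤ 2 * a ^ 480 := by
    have h3 : (q:ℝ) ≤ ((a:ℝ) + 1) ^ (1000:ℕ) := by exact_mod_cast ha2.le
    have h4 : (q:ℝ) ^ ((12:ℝ) / 25) ≤ ((a:ℝ) + 1) ^ (480:ℕ) := by
      calc (q:ℝ) ^ ((12:ℝ) / 25) ≤ (((a:ℝ) + 1) ^ (1000:ℕ)) ^ ((12:ℝ) / 25) :=
            Real.rpow_le_rpow (Nat.cast_nonneg q) h3 (by norm_num)
        _ = ((a:ℝ) + 1) ^ (480:ℕ) := by
            rw [← Real.rpow_natCast, ← Real.rpow_mul (add_nonneg (Nat.cast_nonneg a) zero_le_one), ← Real.rpow_natCast]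
            norm_num
    have h5 : (mm:ℝ) ≤ ((a:ℝ) + 1) ^ (480:ℕ) := hmm.trans h4
    have h6 : mm ≤ (a + 1) ^ 480 := by exact_mod_cast h5
    exact h6.trans (succ_pow_le a 480 (by omega))
  exact Ctx.mk_num (M := M) ⟨ha, h2.trans haA, hM, ha1, hq2, hmm1, hmm2, hB⟩

end NumSLAux

/-- Existence of numeric parameters for large `q`. -/
theorem exists_SLProbNum : ∃ q₀ : ℕ, ∀ q : ℕ, q₀ ≤ q → ∀ mm Bcard : ℕ, 1 ≤ mm →
    (mm : ℝ) ≤ (q : ℝ) ^ ((12 : ℝ) / 25) → 100 * Bcard ≤ 102 * q →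
    Nonempty (SLProbNum q mm Bcard) := by
  obtain ⟨M, hM⟩ : ∃ M : ℕ, M = 2 * 10 ^ 26 := ⟨_, rfl⟩
  obtain ⟨A₀, h1, h2⟩ : ∃ A₀ : ℕ, 10 ^ 30 ≤ A₀ ∧ 2 ^ M ≤ A₀ :=
    ⟨max (10 ^ 30) (2 ^ M), le_max_left _ _, le_max_right _ _⟩
  refine ⟨A₀ ^ 1000, fun q hq mm Bcard hmm1 hmm hB => ?_⟩
  exact NumSLAux.exists_aux M A₀ hM h1 h2 q hq mm Bcard hmm1 hmm hB

end Crest.Agent.Ryser
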