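import Crest.Agent.Lib.Ryser.Prob

/-!
# The transversal design (orthogonal array of strength 2)

`h : L → P → V`: `L` = lines, `P` = parts (`q+1`), `V` = values (`q`). A point is `(i, y) : P × V`.
A line `ℓ` has exactly one point on each part: `(i, h ℓ i)`.
Any two points on different parts lie on exactly one line. Any two distinct lines meet in exactly one point.
This is PG(2,q) minus a point `P∞`; the `q+1` lines through `P∞` are the parts.
"Hat lines" are `L ⊕ P`: ordinary lines and parts; any two distinct points lie on exactly one hat line.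
-/

open Finset BigOperators

namespace Crest.Agent.Ryser

variable {P V L : Type*} [Fintype P] [DecidableEq P] [Fintype V] [DecidableEq V]
  [Fintype L] [DecidableEq L]

/-- Orthogonal array of strength 2 with `q + 1` columns, `q` symbols. -/
structure OA (q : ℕ) (h : L → P → V) : Prop where
  cardP : Fintype.card P = q + 1
  cardV : Fintype.card V = q
  two_le : 2 ≤ q
  bij : ∀ i j : P, i ≠ j → Function.Bijective fun ℓ : L => (h ℓ i, h ℓ j)

/-- The point `x` lies on line `ℓ`. -/
def On (h : L → P → V) (ℓ : L) (x : P × V) : Prop := h ℓ x.1 = x.2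

instance (h : L → P → V) (ℓ : L) (x : P × V) : Decidable (On h ℓ x) := by
  unfold On; infer_instance

/-- Incidence for hat lines (ordinary lines and parts). -/
def OnH (h : L → P → V) : L ⊕ P → P × V → Prop
  | Sum.inl ℓ, x => On h ℓ x
  | Sum.inr i, x => x.1 = i

instance (h : L → P → V) (ℓ : L ⊕ P) (x : P × V) : Decidable (OnH h ℓ x) := by
  cases ℓ <;> unfold OnH <;> infer_instance

/-- Lines through a point. -/
def linesThrough (h : L → P → V) (x : P × V) : Finset L := univ.filter fun ℓ => On h ℓ x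

namespace OA

variable {q : ℕ} {h : L → P → V} (hO : OA q h)
include hO

lemma q_pos : 0 < q := by have := hO.two_le; omega

lemma exists_other (i : P) : ∃ j : P, j ≠ i := by
  have : 1 < Fintype.card P := by rw [hO.cardP]; have := hO.two_le; omega
  exact Fintype.exists_ne_of_one_lt_card this i

lemma card_L : Fintype.card L = q ^ 2 := by
  obtain ⟨i, -⟩ : ∃ i : P, True := by
    have : 0 < Fintype.card P := by rw [hO.cardP]; omega
    obtain ⟨i⟩ := Fintype.card_pos_iff.1 this
    exact ⟨i, trivial⟩
  obtain ⟨j, hj⟩ := hO.exists_other i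
  have := Fintype.card_congr (Equiv.ofBijective _ (hO.bij i j hj.symm))
  rw [Fintype.card_prod, hO.cardV] at this
  rw [this]; ring

lemma card_pt : Fintype.card (P × V) = (q + 1) * q := by
  rw [Fintype.card_prod, hO.cardP, hO.cardV]

/-- Unique line through two points on different parts. -/
lemma existsUnique_line {x y : P × V} (hxy : x.1 ≠ y.1) : ∃! ℓ : L, On h ℓ x ∧ On h ℓ y := by
  obtain ⟨ℓ, hℓ⟩ := (hO.bij x.1 y.1 hxy).2 (x.2, y.2)
  refine ⟨ℓ, ?_, ?_⟩
  · simp only [Prod.mk.injEq] at hℓ
    exact ⟨hℓ.1, hℓ.2⟩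
  · intro ℓ' hℓ'
    apply (hO.bij x.1 y.1 hxy).1
    simp only [Prod.mk.injEq] at hℓ ⊢
    unfold On at hℓ'
    exact ⟨hℓ'.1.trans hℓ.1.symm, hℓ'.2.trans hℓ.2.symm⟩

/-- Two lines agreeing on two different parts are equal. -/
lemma eq_of_agree {ℓ ℓ' : L} {i j : P} (hij : i ≠ j) (hi : h ℓ i = h ℓ' i) (hj : h ℓ j = h ℓ' j) :
    ℓ = ℓ' := by
  apply (hO.bij i j hij).1
  simp [hi, hj]

/-- For a point `x` and a part `j ≠ x.1`, `ℓ ↦ h ℓ j` is a bijection from lines through `x` to `V`. -/
lemma persp_bij (x : P × V) {j : P} (hj : j ≠ x.1) (y : V) :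
    ∃! ℓ : L, On h ℓ x ∧ h ℓ j = y := by
  have := hO.existsUnique_line (x := x) (y := (j, y)) (Ne.symm hj)
  simpa [On] using this

lemma card_linesThrough (x : P × V) : (linesThrough h x).card = q := by
  obtain ⟨j, hj⟩ := hO.exists_other x.1
  have : (linesThrough h x).card = Fintype.card V := by
    rw [← Finset.card_univ]
    apply Finset.card_bij (fun ℓ _ => h ℓ j)
    · intro _ _; exact Finset.mem_univ _
    · intro ℓ hℓ ℓ' hℓ' he
      have h1 : On h ℓ x := by simpa [linesThrough] using hℓ
      have h2 : On h ℓ' x := by simpa [linesThrough] using hℓ'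
      exact hO.eq_of_agree (i := x.1) (j := j) hj.symm (h1.trans h2.symm) he
    · intro y _
      obtain ⟨ℓ, ⟨h1, h2⟩, -⟩ := hO.persp_bij x hj y
      exact ⟨ℓ, by simpa [linesThrough] using h1, h2⟩
  rw [this, hO.cardV]

/-- Two distinct lines share exactly one point (they agree on exactly one part). -/
lemma existsUnique_meet {ℓ ℓ' : L} (hne : ℓ ≠ ℓ') : ∃! i : P, h ℓ i = h ℓ' i := by
  classical
  -- the map (i, m) ↦ m from {(i, m) | m ≠ ℓ, m through (i, h ℓ i)} to {m ≠ ℓ} is injective,
  -- and both sides have q^2 - 1 elements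
  let T : Finset (Σ _ : P, L) := (univ : Finset P).sigma fun i => (linesThrough h (i, h ℓ i)).erase ℓ
  have hq := hO.two_le
  have hcard : T.card = q ^ 2 - 1 := by
    have h1 : ∀ i : P, ((linesThrough h (i, h ℓ i)).erase ℓ).card = q - 1 := by
      intro i
      rw [Finset.card_erase_of_mem (by simp [linesThrough, On]), hO.card_linesThrough]
    rw [Finset.card_sigma]
    simp only [h1, Finset.sum_const, Finset.card_univ, hO.cardP, smul_eq_mul]
    have : q ^ 2 - 1 = (q + 1) * (q - 1) := by
      obtain ⟨r, rfl⟩ : ∃ r, q = r + 1 := ⟨q - 1, by omega⟩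
      simp only [Nat.add_sub_cancel]
      have : (r + 1) ^ 2 = (r + 1 + 1) * r + 1 := by ring
      omega
    exact this.symm
  have hinj : Set.InjOn (fun p : (Σ _ : P, L) => p.2) (T : Set (Σ _ : P, L)) := by
    rintro ⟨i, m⟩ hp ⟨j, m'⟩ hp' (heq : m = m')
    subst heq
    simp only [T, Finset.coe_sigma, Set.mem_sigma_iff, Finset.mem_coe, Finset.mem_univ, true_and,
      Finset.mem_erase, linesThrough, Finset.mem_filter, On] at hp hp'
    by_contra hne'
    have hij : i ≠ j := fun h' => hne' (by subst h'; rfl)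
    exact hp.1 (hO.eq_of_agree hij hp.2 hp'.2)
  have himg : T.image (fun p : (Σ _ : P, L) => p.2) = univ.erase ℓ := by
    apply Finset.eq_of_subset_of_card_le
    · intro m hm
      obtain ⟨⟨i, m'⟩, hp, rfl⟩ := Finset.mem_image.1 hm
      simp only [T, Finset.mem_sigma, Finset.mem_univ, true_and, Finset.mem_erase] at hp
      simp [hp.1]
    · rw [Finset.card_image_of_injOn hinj, hcard, Finset.card_erase_of_mem (Finset.mem_univ _),
        Finset.card_univ, hO.card_L]
  have hm : ℓ' ∈ T.image (fun p : (Σ _ : P, L) => p.2) := by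
    rw [himg]; simp [hne.symm]
  obtain ⟨⟨i, m'⟩, hp, hm'⟩ := Finset.mem_image.1 hm
  simp only at hm'
  subst hm'
  simp only [T, Finset.mem_sigma, Finset.mem_univ, true_and, Finset.mem_erase, linesThrough,
    Finset.mem_filter, On] at hp
  refine ⟨i, hp.2.symm, ?_⟩
  intro j hj
  by_contra hji
  exact hne (hO.eq_of_agree hji hj hp.2.symm)

/-- Two distinct lines through a point `x` share no other point. -/
lemma eq_of_two_points {ℓ ℓ' : L} {x y : P × V} (hx : On h ℓ x) (hx' : On h ℓ' x)
    (hy : On h ℓ y) (hy' : On h ℓ' y) (hxy : x.1 ≠ y.1) : ℓ = ℓ' :=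
  hO.eq_of_agree hxy (hx.trans hx'.symm) (hy.trans hy'.symm)

/-- Sum over the points of one part of the number of lines of `A` through them is `|A|`. -/
lemma sum_part (A : Finset L) (i : P) :
    ∑ y : V, (A.filter fun ℓ => h ℓ i = y).card = A.card := by
  classical
  have := Finset.card_eq_sum_card_fiberwise (f := fun ℓ => h ℓ i) (s := A) (t := univ)
    (fun _ _ => Finset.mem_coe.2 (Finset.mem_univ _))
  exact this.symm

end OA

/-- Line through two points of different parts (junk otherwise requires the hypothesis). -/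
noncomputable def lineOf {q : ℕ} {h : L → P → V} (hO : OA q h) (x y : P × V) (hxy : x.1 ≠ y.1) : L :=
  (hO.existsUnique_line hxy).choose

lemma lineOf_spec {q : ℕ} {h : L → P → V} (hO : OA q h) (x y : P × V) (hxy : x.1 ≠ y.1) :
    On h (lineOf hO x y hxy) x ∧ On h (lineOf hO x y hxy) y :=
  (hO.existsUnique_line hxy).choose_spec.1

lemma lineOf_unique {q : ℕ} {h : L → P → V} (hO : OA q h) (x y : P × V) (hxy : x.1 ≠ y.1) (ℓ : L)
    (hx : On h ℓ x) (hy : On h ℓ y) : ℓ = lineOf hO x y hxy :=
  (hO.existsUnique_line hxy).choose_spec.2 ℓ ⟨hx, hy⟩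

end Crest.Agent.Ryser
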