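import Crest.Agent.Lib.Ryser.Defs

/-!
# Module P2: probability of event (P2).

Fix a `K`-set `S'`, `A = goodSpanned S'`, `a = |A|`, `5 a ≥ 2 K²`. A point `y ∉ S'` on a line of `A` lies on at most two lines of `A`.
Let `deg' y = #{ℓ ∈ A | y ∈ ℓ}` for `y ∉ S'`, `0` for `y ∈ S'`; so `0 ≤ deg'/2 ≤ 1`, and for a ball `b`: `E deg'(b) ≤ a/q` (each line has one point
on the part of `b`). Split the balls in two halves `I₁, I₂` of size `≤ .52 q`.
If `Z` is disjoint from `S'` and fewer than `a/20` lines of `A` miss `Z` then the balls hit `> .95 a` lines off `S'`. Then either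
`∑_{I₁} deg' ≥ .7 a` [`sum_chernoff_upper` with `lam = 1/5`: mean of `deg'/2` at most `.26 a`, threshold `.35 a`: prob `≤ exp(-.0124 a)`],
or with `A₁` = lines hit by `I₁`, `A' = A \ A₁`, `a' = |A'| ≥ .3 a`: `I₂` hits `≥ a' - a/20 ≥ (5/6) a'` lines of `A'`, so `∑_{I₂} deg'_{A'} ≥ (5/6) a'`
[`lam = 2/5`, mean of `deg'/2` at most `.26 a'`, threshold `(5/12) a'`: prob `≤ exp(-.0388 a') ≤ exp(-.0116 a)`]; `I₂` is independent of `I₁` (`Pr_pi_split_le`).
So the failure probability for one `S'` is at most `2 exp(-K²/300)`; union over at most `((q+1) q)^K` sets `S'`.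
-/

open Finset BigOperators

namespace Crest.Agent.Ryser

variable {P V L : Type*} [Fintype P] [DecidableEq P] [Fintype V] [DecidableEq V]
  [Fintype L] [DecidableEq L]
variable {q : ℕ} {h : L → P → V}
variable {B : Type*} [Fintype B] [DecidableEq B]

namespace P2aux

/-- Half of the number of lines of `A` through `y`, off `S'`. -/
noncomputable def dw (h : L → P → V) (S' : Finset (P × V)) (A : Finset L) (y : P × V) : ℝ :=
  if y ∈ S' then 0 else ((A.filter fun ℓ => On h ℓ y).card : ℝ) / 2

lemma dw_nonneg (S' : Finset (P × V)) (A : Finset L) (y : P × V) : 0 ≤ dw h S' A y := by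
  unfold dw
  split_ifs <;> positivity

/-- A point off `S'` lies on at most two good spanned lines. -/
lemma deg_goodSpanned (S' : Finset (P × V)) {y : P × V} (hy : y ∉ S') :
    ((goodSpanned h S').filter fun ℓ => On h ℓ y).card ≤ 2 := by
  by_contra hcon
  push Not at hcon
  have h1 : 3 ≤ ((spanned h S').filter fun ℓ => On h ℓ y).card := by
    have hsub : ((goodSpanned h S').filter fun ℓ => On h ℓ y) ⊆ ((spanned h S').filter fun ℓ => On h ℓ y) := by
      intro ℓ hℓ
      rw [mem_filter] at hℓ ⊢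
      exact ⟨(mem_filter.1 hℓ.1).1, hℓ.2⟩
    exact le_trans hcon (card_le_card hsub)
  have hT : y ∈ tripPts h S' := mem_filter.2 ⟨mem_univ _, hy, h1⟩
  obtain ⟨ℓ, hℓ⟩ : ((goodSpanned h S').filter fun ℓ => On h ℓ y).Nonempty := by
    rw [← card_pos]
    omega
  rw [mem_filter] at hℓ
  exact (mem_filter.1 hℓ.1).2 y hT hℓ.2

lemma dw_le_one {S' : Finset (P × V)} {A : Finset L} (hA : A ⊆ goodSpanned h S') (y : P × V) :
    dw h S' A y ≤ 1 := by
  unfold dw
  split_ifs with hy
  · norm_num
  · have h1 : (A.filter fun ℓ => On h ℓ y).card ≤ 2 :=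
      le_trans (card_le_card (filter_subset_filter _ hA)) (deg_goodSpanned S' hy)
    have h2 : ((A.filter fun ℓ => On h ℓ y).card : ℝ) ≤ 2 := by exact_mod_cast h1
    linarith

lemma Ex_dw_le (hO : OA q h) (S' : Finset (P × V)) (A : Finset L) (i : P) :
    Ex (fun v : V => dw h S' A (i, v)) ≤ (A.card : ℝ) / (2 * q) := by
  have hq : (0 : ℝ) < q := by
    have := hO.q_pos
    positivity
  unfold Ex
  rw [hO.cardV]
  have h1 : ∑ v : V, dw h S' A (i, v) ≤ (A.card : ℝ) / 2 := by
    have h2 : ∀ v : V, dw h S' A (i, v) ≤ ((A.filter fun ℓ => h ℓ i = v).card : ℝ) / 2 := by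
      intro v
      unfold dw
      split_ifs
      · positivity
      · exact le_of_eq rfl
    calc ∑ v : V, dw h S' A (i, v) ≤ ∑ v : V, ((A.filter fun ℓ => h ℓ i = v).card : ℝ) / 2 :=
          sum_le_sum fun v _ => h2 v
      _ = (A.card : ℝ) / 2 := by
          rw [← sum_div]
          have := hO.sum_part A i
          congr 1
          exact_mod_cast this
  rw [div_le_div_iff₀ hq (by positivity)]
  nlinarith

/-- Chernoff bound for the degree sum. -/
lemma chernoff_dw (hO : OA q h) {ι : Type*} [Fintype ι] [DecidableEq ι] (bq : ι → P) (hι : 100 * Fintype.card ι ≤ 52 * q)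
    {S' : Finset (P × V)} {A : Finset L} (hA : A ⊆ goodSpanned h S') (lam : ℝ) (hlam : 0 < lam) (a0 : ℝ) :
    Pr (fun π : ι → V => a0 ≤ ∑ b, dw h S' A (bq b, π b)) ≤
      Real.exp (26 / 100 * (A.card : ℝ) * (Real.exp lam - 1) - lam * a0) := by
  have : Nonempty V := by
    have : 0 < Fintype.card V := by rw [hO.cardV]; exact hO.q_pos
    exact Fintype.card_pos_iff.1 this
  refine sum_chernoff_upper (fun b x => dw h S' A (bq b, x)) (fun b x => dw_nonneg _ _ _)
    (fun b x => dw_le_one hA _) _ ?_ lam hlam a0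
  have hq : (0 : ℝ) < q := by
    have := hO.q_pos
    positivity
  calc ∑ b, Ex (fun x => dw h S' A (bq b, x)) ≤ ∑ _b : ι, (A.card : ℝ) / (2 * q) :=
        sum_le_sum fun b _ => Ex_dw_le hO S' A (bq b)
    _ = (Fintype.card ι : ℝ) * ((A.card : ℝ) / (2 * q)) := by
        rw [sum_const, card_univ, nsmul_eq_mul]
    _ ≤ 26 / 100 * (A.card : ℝ) := by
        have h1 : (100 : ℝ) * (Fintype.card ι : ℝ) ≤ 52 * q := by exact_mod_cast hι
        have h2 : (0 : ℝ) ≤ (A.card : ℝ) := by positivity
        rw [← mul_div_assoc, div_le_iff₀ (by positivity)]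
        nlinarith

/-- Numerics. -/
lemma exp_one_fifth : Real.exp (1 / 5) ≤ 1.2215 := by
  have h1 : Real.exp (1 / 5) ^ 5 = Real.exp 1 := by
    rw [← Real.exp_nat_mul]
    norm_num
  have h2 : Real.exp (1 / 5) ^ 5 < (1.2215 : ℝ) ^ 5 := by
    rw [h1]
    have := Real.exp_one_lt_d9
    norm_num at this ⊢
    linarith
  exact (lt_of_pow_lt_pow_left₀ 5 (by norm_num) h2).le

lemma exp_two_fifth : Real.exp (2 / 5) ≤ 1.4921 := by
  have h1 : Real.exp (2 / 5) = Real.exp (1 / 5) * Real.exp (1 / 5) := by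
    rw [← Real.exp_add]
    norm_num
  rw [h1]
  have h2 := exp_one_fifth
  have h3 := Real.exp_pos (1 / 5)
  nlinarith

/-- Lines hit by the balls with a coordinate in `p`. -/
def hitBy (h : L → P → V) {ι : Type*} [Fintype ι] (bq : ι → P) (A : Finset L) (π : ι → V) : Finset L :=
  A.filter fun ℓ => ∃ b, On h ℓ (bq b, π b)

/-- The degree sum bounds the number of hit lines, if all the balls are off `S'`. -/
lemma card_hitBy_le {ι : Type*} [Fintype ι] [DecidableEq ι] (bq : ι → P) (A : Finset L) (π : ι → V)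
    (S' : Finset (P × V)) (hoff : ∀ b, (bq b, π b) ∉ S') :
    ((hitBy h bq A π).card : ℝ) / 2 ≤ ∑ b, dw h S' A (bq b, π b) := by
  have h1 : ∀ b, dw h S' A (bq b, π b) = ((A.filter fun ℓ => On h ℓ (bq b, π b)).card : ℝ) / 2 := by
    intro b
    unfold dw
    rw [if_neg (hoff b)]
  simp_rw [h1]
  rw [← sum_div]
  refine div_le_div_of_nonneg_right ?_ (by norm_num)
  have h2 : (hitBy h bq A π).card ≤ ∑ b, (A.filter fun ℓ => On h ℓ (bq b, π b)).card := by
    have h3 : hitBy h bq A π ⊆ (univ : Finset ι).biUnion fun b => A.filter fun ℓ => On h ℓ (bq b, π b) := by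
      intro ℓ hℓ
      obtain ⟨hA, b, hb⟩ := mem_filter.1 hℓ
      exact mem_biUnion.2 ⟨b, mem_univ _, mem_filter.2 ⟨hA, hb⟩⟩
    exact (card_le_card h3).trans card_biUnion_le
  exact_mod_cast h2

/-- The bound for one set `S'`. -/
lemma one_set (hO : OA q h) (bp : B → P) (hB : 100 * Fintype.card B ≤ 102 * q) (hq : 100 ≤ q) (K : ℕ)
    (S' : Finset (P × V)) (ha : 2 * K ^ 2 ≤ 5 * (goodSpanned h S').card) :
    Pr (fun π : B → V => Disjoint S' (Zof bp π) ∧
      20 * ((goodSpanned h S').filter fun ℓ => misses h ℓ (Zof bp π)).card < (goodSpanned h S').card) ≤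
      2 * Real.exp (-((K : ℝ) ^ 2 / 300)) := by
  classical
  have hne : Nonempty V := by
    have : 0 < Fintype.card V := by rw [hO.cardV]; exact hO.q_pos
    exact Fintype.card_pos_iff.1 this
  set A := goodSpanned h S' with hAdef
  set a := A.card with hadef
  -- the two halves
  obtain ⟨I1, -, hI1⟩ := Finset.exists_subset_card_eq (s := (univ : Finset B)) (n := Fintype.card B / 2)
    (by rw [card_univ]; exact Nat.div_le_self _ _)
  let p : B → Prop := fun b => b ∈ I1
  have hc1 : 100 * Fintype.card {b // p b} ≤ 52 * q := by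
    have : Fintype.card {b // p b} = I1.card := Fintype.card_coe I1
    rw [this, hI1]
    omega
  have hc2 : 100 * Fintype.card {b // ¬ p b} ≤ 52 * q := by
    have h1 : Fintype.card {b // ¬ p b} = Fintype.card B - I1.card := by
      rw [Fintype.card_subtype_compl]
      rw [show Fintype.card {b // p b} = I1.card from Fintype.card_coe I1]
    rw [h1, hI1]
    omega
  -- real form of the hypothesis
  have haR : (2 : ℝ) * (K : ℝ) ^ 2 ≤ 5 * (a : ℝ) := by exact_mod_cast ha
  have hk : (0 : ℝ) ≤ (K : ℝ) ^ 2 := by positivity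
  -- first event
  let E1 : (B → V) → Prop := fun π => 35 / 100 * (a : ℝ) ≤ ∑ b : {b // p b}, dw h S' A (bp b.1, π b.1)
  -- second event
  let H1 : ({b // p b} → V) → Finset L := fun π₁ => hitBy h (fun b : {b // p b} => bp b.1) A π₁
  let E2 : (B → V) → Prop := fun π =>
    10 * (H1 (fun b => π b.1)).card < 7 * a ∧
    5 / 12 * ((A \ H1 (fun b => π b.1)).card : ℝ) ≤
      ∑ b : {b // ¬ p b}, dw h S' (A \ H1 (fun b => π b.1)) (bp b.1, π b.1)
  have hε : Real.exp (26 / 100 * (a : ℝ) * (Real.exp (1 / 5) - 1) - 1 / 5 * (35 / 100 * (a : ℝ))) ≤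
      Real.exp (-((K : ℝ) ^ 2 / 300)) := by
    refine Real.exp_le_exp.2 ?_
    have h1 := exp_one_fifth
    have h2 : (0 : ℝ) ≤ (a : ℝ) := by positivity
    have h3 : 26 / 100 * (a : ℝ) * (Real.exp (1 / 5) - 1) ≤ 26 / 100 * (a : ℝ) * (1.2215 - 1) :=
      mul_le_mul_of_nonneg_left (by linarith) (by positivity)
    norm_num at h3 ⊢
    linarith
  -- bound on `E1`: restrict to the coordinates in `p`, as the second block of `¬ p`
  have hE1 : Pr E1 ≤ Real.exp (-((K : ℝ) ^ 2 / 300)) := by
    refine le_trans ?_ hε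
    -- use the Chernoff bound on the whole space with a truncated function
    have h1 : Pr E1 ≤ Pr (fun π : B → V => 35 / 100 * (a : ℝ) ≤
        ∑ b : B, (if p b then dw h S' A (bp b, π b) else 0)) := by
      refine Pr_mono fun π hπ => ?_
      have h2 : ∑ b : B, (if p b then dw h S' A (bp b, π b) else 0) =
          ∑ b : {b // p b}, dw h S' A (bp b.1, π b.1) := by
        rw [← sum_filter]
        exact (Finset.sum_subtype (univ.filter p) (fun x => by simp [p]) (fun b => dw h S' A (bp b, π b)))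
      rw [h2]
      exact hπ
    refine h1.trans ?_
    refine sum_chernoff_upper (fun b x => if p b then dw h S' A (bp b, x) else 0)
      (fun b x => by split_ifs; exacts [dw_nonneg _ _ _, le_rfl])
      (fun b x => by split_ifs; exacts [dw_le_one subset_rfl _, by norm_num]) _ ?_ (1 / 5) (by norm_num) _
    have hqR : (0 : ℝ) < q := by
      have := hO.q_pos
      positivity
    have h2 : ∀ b : B, Ex (fun x => if p b then dw h S' A (bp b, x) else 0) ≤
        if p b then (a : ℝ) / (2 * q) else 0 := by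
      intro b
      by_cases hb : p b
      · simp only [hb, if_true]
        exact Ex_dw_le hO S' A (bp b)
      · simp only [hb, if_false]
        unfold Ex
        simp
    calc ∑ b : B, Ex (fun x => if p b then dw h S' A (bp b, x) else 0)
        ≤ ∑ b : B, (if p b then (a : ℝ) / (2 * q) else 0) := sum_le_sum fun b _ => h2 b
      _ = (Fintype.card {b // p b} : ℝ) * ((a : ℝ) / (2 * q)) := by
          rw [← sum_filter, sum_const, nsmul_eq_mul, Fintype.card_subtype]
      _ ≤ 26 / 100 * (a : ℝ) := by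
          have h3 : (100 : ℝ) * (Fintype.card {b // p b} : ℝ) ≤ 52 * q := by exact_mod_cast hc1
          have h4 : (0 : ℝ) ≤ (a : ℝ) := by positivity
          rw [← mul_div_assoc, div_le_iff₀ (by positivity)]
          nlinarith
  -- bound on `E2`
  have hE2 : Pr E2 ≤ Real.exp (-((K : ℝ) ^ 2 / 300)) := by
    refine Pr_pi_split_le p E2 _ fun π₁ => ?_
    set A' := A \ H1 π₁ with hA'
    have hA'sub : A' ⊆ goodSpanned h S' := sdiff_subset
    have hsame : ∀ π₂ : {b // ¬ p b} → V,
        (fun b : {b // p b} => (fun i => if hi : p i then π₁ ⟨i, hi⟩ else π₂ ⟨i, hi⟩) b.1) = π₁ := by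
      intro π₂
      funext b
      simp [b.2]
    by_cases hcase : 10 * (H1 π₁).card < 7 * a
    · have hcardA' : 10 * A'.card + 10 * (H1 π₁).card = 10 * a := by
        have hsub : H1 π₁ ⊆ A := filter_subset _ _
        have := card_sdiff_add_card_eq_card hsub
        rw [hA']
        omega
      have ha' : (3 : ℝ) * a ≤ 10 * (A'.card : ℝ) := by
        have : 3 * a ≤ 10 * A'.card := by omega
        exact_mod_cast this
      have hbound : Real.exp (26 / 100 * (A'.card : ℝ) * (Real.exp (2 / 5) - 1) - 2 / 5 * (5 / 12 * (A'.card : ℝ))) ≤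
          Real.exp (-((K : ℝ) ^ 2 / 300)) := by
        refine Real.exp_le_exp.2 ?_
        have h1 := exp_two_fifth
        have h2 : (0 : ℝ) ≤ (A'.card : ℝ) := by positivity
        have h3 : 26 / 100 * (A'.card : ℝ) * (Real.exp (2 / 5) - 1) ≤ 26 / 100 * (A'.card : ℝ) * (1.4921 - 1) :=
          mul_le_mul_of_nonneg_left (by linarith) (by positivity)
        norm_num at h3 ⊢
        linarith
      refine le_trans (le_trans ?_ (chernoff_dw hO (fun b : {b // ¬ p b} => bp b.1) hc2 hA'sub (2 / 5) (by norm_num)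
        (5 / 12 * (A'.card : ℝ)))) hbound
      refine Pr_mono fun π₂ hπ₂ => ?_
      have h1 := hπ₂.2
      rw [hsame π₂] at h1
      have h2 : ∀ b : {b // ¬ p b}, (if hi : p b.1 then π₁ ⟨b.1, hi⟩ else π₂ ⟨b.1, hi⟩) = π₂ b := by
        intro b
        simp [b.2]
      simp only [h2] at h1
      exact h1
    · have h0 : Pr (fun π₂ : {b // ¬ p b} → V =>
          E2 (fun i => if hi : p i then π₁ ⟨i, hi⟩ else π₂ ⟨i, hi⟩)) ≤ 0 := by
        have : (fun π₂ : {b // ¬ p b} → V => E2 (fun i => if hi : p i then π₁ ⟨i, hi⟩ else π₂ ⟨i, hi⟩)) =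
            fun _ => False := by
          funext π₂
          apply propext
          constructor
          · intro hπ₂
            have h1 := hπ₂.1
            rw [hsame π₂] at h1
            exact hcase h1
          · exact False.elim
        rw [this]
        simp [Pr]
      exact h0.trans (Real.exp_pos _).le
  -- the event is contained in the union
  have hsub : ∀ π : B → V, (Disjoint S' (Zof bp π) ∧
      20 * (A.filter fun ℓ => misses h ℓ (Zof bp π)).card < a) → E1 π ∨ E2 π := by
    rintro π ⟨hdisj, hm⟩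
    have hoff : ∀ b, (bp b, π b) ∉ S' := by
      intro b hb
      exact (disjoint_left.1 hdisj hb) (mem_image.2 ⟨b, mem_univ _, rfl⟩)
    set π₁ : {b // p b} → V := fun b => π b.1 with hπ₁
    by_cases hcase : 7 * a ≤ 10 * (H1 π₁).card
    · left
      have h1 := card_hitBy_le (h := h) (fun b : {b // p b} => bp b.1) A π₁ S' (fun b => hoff b.1)
      have h2 : (7 : ℝ) * a ≤ 10 * ((H1 π₁).card : ℝ) := by exact_mod_cast hcase
      show 35 / 100 * (a : ℝ) ≤ ∑ b : {b // p b}, dw h S' A (bp b.1, π b.1)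
      refine le_trans ?_ h1
      show 35 / 100 * (a : ℝ) ≤ ((H1 π₁).card : ℝ) / 2
      linarith
    · right
      push Not at hcase
      refine ⟨hcase, ?_⟩
      set A' := A \ H1 π₁ with hA'
      have hcardA' : 10 * A'.card + 10 * (H1 π₁).card = 10 * a := by
        have hsub : H1 π₁ ⊆ A := filter_subset _ _
        have := card_sdiff_add_card_eq_card hsub
        rw [hA']
        omega
      have h1 := card_hitBy_le (h := h) (fun b : {b // ¬ p b} => bp b.1) A' (fun b => π b.1) S' (fun b => hoff b.1)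
      refine le_trans ?_ h1
      -- lines of `A'` that do not miss `Z` are hit by the second half
      have h2 : A' \ hitBy h (fun b : {b // ¬ p b} => bp b.1) A' (fun b => π b.1) ⊆
          A.filter fun ℓ => misses h ℓ (Zof bp π) := by
        intro ℓ hℓ
        obtain ⟨hℓ1, hℓ2⟩ := mem_sdiff.1 hℓ
        obtain ⟨hℓA, hℓH⟩ := mem_sdiff.1 hℓ1
        refine mem_filter.2 ⟨hℓA, ?_⟩
        intro x hx hon
        obtain ⟨b, _, rfl⟩ := mem_image.1 hx
        by_cases hb : p b
        · exact hℓH (mem_filter.2 ⟨hℓA, ⟨b, hb⟩, hon⟩)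
        · exact hℓ2 (mem_filter.2 ⟨hℓ1, ⟨b, hb⟩, hon⟩)
      have h3 := card_le_card h2
      have hsub2 : hitBy h (fun b : {b // ¬ p b} => bp b.1) A' (fun b => π b.1) ⊆ A' := filter_subset _ _
      have h4 := card_sdiff_add_card_eq_card hsub2
      -- arithmetic
      have h5 : 5 * A'.card ≤ 6 * (hitBy h (fun b : {b // ¬ p b} => bp b.1) A' (fun b => π b.1)).card := by
        omega
      have h6 : (5 : ℝ) * (A'.card : ℝ) ≤
          6 * ((hitBy h (fun b : {b // ¬ p b} => bp b.1) A' (fun b => π b.1)).card : ℝ) := by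
        exact_mod_cast h5
      linarith
  calc Pr (fun π : B → V => Disjoint S' (Zof bp π) ∧
        20 * (A.filter fun ℓ => misses h ℓ (Zof bp π)).card < a)
      ≤ Pr (fun π => E1 π ∨ E2 π) := Pr_mono hsub
    _ ≤ Pr E1 + Pr E2 := Pr_or_le _ _
    _ ≤ _ := by linarith

end P2aux

open P2aux

/-- Probability of failure of (P2). -/
theorem P2_prob (hO : OA q h) (bp : B → P) (hB : 100 * Fintype.card B ≤ 102 * q) (hq : 100 ≤ q) (K : ℕ) :
    Pr (fun π : B → V => ¬ P2good h K (Zof bp π)) ≤
      (((q + 1) * q : ℕ) : ℝ) ^ K * (2 * Real.exp (-((K : ℝ) ^ 2 / 300))) := by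
  classical
  -- the candidates
  let C : Finset (Finset (P × V)) := (powersetCard K univ).filter fun S' => 2 * K ^ 2 ≤ 5 * (goodSpanned h S').card
  have hC : (C.card : ℝ) ≤ (((q + 1) * q : ℕ) : ℝ) ^ K := by
    have h1 : C.card ≤ (powersetCard K (univ : Finset (P × V))).card := card_le_card (filter_subset _ _)
    rw [card_powersetCard, card_univ, hO.card_pt] at h1
    have h2 : ((q + 1) * q).choose K ≤ ((q + 1) * q) ^ K := Nat.choose_le_pow _ _
    exact_mod_cast h1.trans h2
  have hsub : ∀ π : B → V, ¬ P2good h K (Zof bp π) → ∃ S' ∈ C, Disjoint S' (Zof bp π) ∧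
      20 * ((goodSpanned h S').filter fun ℓ => misses h ℓ (Zof bp π)).card < (goodSpanned h S').card := by
    intro π hπ
    unfold P2good at hπ
    push Not at hπ
    obtain ⟨S', h1, h2, h3, h4⟩ := hπ
    refine ⟨S', mem_filter.2 ⟨mem_powersetCard.2 ⟨subset_univ _, h1⟩, h3⟩, h2, h4⟩
  calc Pr (fun π : B → V => ¬ P2good h K (Zof bp π))
      ≤ Pr (fun π : B → V => ∃ S' ∈ C, Disjoint S' (Zof bp π) ∧
        20 * ((goodSpanned h S').filter fun ℓ => misses h ℓ (Zof bp π)).card < (goodSpanned h S').card) :=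
        Pr_mono hsub
    _ ≤ C.card * (2 * Real.exp (-((K : ℝ) ^ 2 / 300))) :=
        Pr_exists_le_card C _ _ fun S' hS' => one_set hO bp hB hq K S' (mem_filter.1 hS').2
    _ ≤ _ := mul_le_mul_of_nonneg_right hC (by positivity)

end Crest.Agent.Ryser
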