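import Mathlib

/-!
# Uniform probability on finite types, by counting (row 34, S0045/S0046)

`Pr E` is the proportion of `ω : Ω` with `E ω`, `Ex f` the average of `f`.
Tools: union bound, Markov, product of independent coordinates on `ι → X`, Fubini on products,
exponential-moment bounds ("rare balls": `P(#{b : π b ∈ G b} ≥ t) ≤ (e μ / t)^t`), lower tail, sequential versions.
-/

open Finset BigOperators

namespace Crest.Agent.Ryser

section Basic

variable {Ω : Type*} [Fintype Ω]

open Classical in
/-- Uniform probability of an event on a finite type. -/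
noncomputable def Pr (E : Ω → Prop) : ℝ := ((univ.filter E).card : ℝ) / Fintype.card Ω

/-- Average of a real function on a finite type. -/
noncomputable def Ex (f : Ω → ℝ) : ℝ := (∑ ω, f ω) / Fintype.card Ω

lemma Pr_eq_card (E : Ω → Prop) [DecidablePred E] :
    Pr E = ((univ.filter E).card : ℝ) / Fintype.card Ω := by
  unfold Pr
  congr 3
  ext ω
  simp

lemma Pr_eq_Ex (E : Ω → Prop) [DecidablePred E] : Pr E = Ex (fun ω => if E ω then (1:ℝ) else 0) := by
  rw [Pr_eq_card]
  unfold Ex
  congr 1
  rw [Finset.sum_ite, Finset.sum_const_zero, add_zero, Finset.sum_const, nsmul_eq_mul, mul_one]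

lemma Pr_nonneg (E : Ω → Prop) : 0 ≤ Pr E := by
  unfold Pr; positivity

lemma Ex_nonneg {f : Ω → ℝ} (hf : ∀ ω, 0 ≤ f ω) : 0 ≤ Ex f := by
  unfold Ex; exact div_nonneg (Finset.sum_nonneg fun ω _ => hf ω) (by positivity)

lemma Ex_mono {f g : Ω → ℝ} (h : ∀ ω, f ω ≤ g ω) : Ex f ≤ Ex g := by
  unfold Ex
  exact div_le_div_of_nonneg_right (Finset.sum_le_sum fun ω _ => h ω) (by positivity)

lemma Ex_add (f g : Ω → ℝ) : Ex (fun ω => f ω + g ω) = Ex f + Ex g := by
  unfold Ex; rw [Finset.sum_add_distrib, add_div]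

lemma Ex_const_mul (c : ℝ) (f : Ω → ℝ) : Ex (fun ω => c * f ω) = c * Ex f := by
  unfold Ex; rw [← Finset.mul_sum, mul_div_assoc]

lemma Ex_mul_const (c : ℝ) (f : Ω → ℝ) : Ex (fun ω => f ω * c) = Ex f * c := by
  rw [mul_comm (Ex f), ← Ex_const_mul]; congr 1; funext ω; ring

lemma Ex_sum {ι : Type*} (s : Finset ι) (f : ι → Ω → ℝ) :
    Ex (fun ω => ∑ i ∈ s, f i ω) = ∑ i ∈ s, Ex (f i) := by
  unfold Ex
  rw [Finset.sum_comm, Finset.sum_div]

lemma Ex_const [Nonempty Ω] (c : ℝ) : Ex (fun _ : Ω => c) = c := by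
  unfold Ex
  have : (Fintype.card Ω : ℝ) ≠ 0 := by exact_mod_cast Fintype.card_ne_zero
  rw [Finset.sum_const, nsmul_eq_mul, Finset.card_univ]; field_simp

lemma Pr_mono {E F : Ω → Prop} (h : ∀ ω, E ω → F ω) : Pr E ≤ Pr F := by
  classical
  rw [Pr_eq_card E, Pr_eq_card F]
  apply div_le_div_of_nonneg_right _ (by positivity)
  exact_mod_cast Finset.card_le_card (fun ω hω => by
    simp only [Finset.mem_filter, Finset.mem_univ, true_and] at hω ⊢; exact h ω hω)

lemma Pr_le_one (E : Ω → Prop) : Pr E ≤ 1 := by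
  classical
  rw [Pr_eq_card]
  apply div_le_one_of_le₀ _ (by positivity)
  exact_mod_cast (Finset.card_le_univ _)

lemma Pr_or_le (E F : Ω → Prop) : Pr (fun ω => E ω ∨ F ω) ≤ Pr E + Pr F := by
  classical
  rw [Pr_eq_card, Pr_eq_card E, Pr_eq_card F, ← add_div]
  apply div_le_div_of_nonneg_right _ (by positivity)
  have hsub : univ.filter (fun ω => E ω ∨ F ω) ⊆ univ.filter E ∪ univ.filter F := by
    intro ω hω; simpa using hω
  exact_mod_cast (Finset.card_le_card hsub).trans (Finset.card_union_le _ _)

/-- Union bound over a finset of indices. -/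
lemma Pr_exists_le {ι : Type*} (s : Finset ι) (E : ι → Ω → Prop) :
    Pr (fun ω => ∃ i ∈ s, E i ω) ≤ ∑ i ∈ s, Pr (E i) := by
  classical
  induction s using Finset.induction_on with
  | empty => simp [Pr]
  | insert a s ha ih =>
    rw [Finset.sum_insert ha]
    calc Pr (fun ω => ∃ i ∈ insert a s, E i ω)
        ≤ Pr (fun ω => E a ω ∨ ∃ i ∈ s, E i ω) := Pr_mono (by
          intro ω ⟨i, hi, h⟩
          rcases Finset.mem_insert.1 hi with rfl | hi
          · exact Or.inl h
          · exact Or.inr ⟨i, hi, h⟩)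
      _ ≤ _ := (Pr_or_le _ _).trans (by linarith)

/-- Union bound with a uniform bound. -/
lemma Pr_exists_le_card {ι : Type*} (s : Finset ι) (E : ι → Ω → Prop) (ε : ℝ)
    (h : ∀ i ∈ s, Pr (E i) ≤ ε) : Pr (fun ω => ∃ i ∈ s, E i ω) ≤ s.card * ε :=
  (Pr_exists_le s E).trans (by
    calc ∑ i ∈ s, Pr (E i) ≤ ∑ _i ∈ s, ε := Finset.sum_le_sum h
      _ = s.card * ε := by rw [Finset.sum_const, nsmul_eq_mul])

/-- If an event fails with probability `< 1`, it happens somewhere. -/
lemma exists_of_Pr_not_lt_one {E : Ω → Prop} (h : Pr (fun ω => ¬ E ω) < 1) [Nonempty Ω] : ∃ ω, E ω := by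
  classical
  by_contra hne
  push Not at hne
  have : Pr (fun ω => ¬ E ω) = 1 := by
    rw [Pr_eq_card]
    have h2 : (univ.filter (fun ω => ¬ E ω)).card = Fintype.card Ω := by
      rw [Finset.filter_true_of_mem (fun ω _ => hne ω), Finset.card_univ]
    rw [h2]
    have : (Fintype.card Ω : ℝ) ≠ 0 := by exact_mod_cast Fintype.card_ne_zero
    field_simp
  linarith

/-- Markov inequality. -/
lemma markov {f : Ω → ℝ} (hf : ∀ ω, 0 ≤ f ω) {a : ℝ} (ha : 0 < a) :
    Pr (fun ω => a ≤ f ω) ≤ Ex f / a := by
  classical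
  rw [Pr_eq_Ex, le_div_iff₀ ha]
  rw [show (Ex fun ω => if a ≤ f ω then (1:ℝ) else 0) * a = a * Ex (fun ω => if a ≤ f ω then (1:ℝ) else 0) by ring]
  rw [← Ex_const_mul]
  apply Ex_mono
  intro ω
  split_ifs with h
  · linarith
  · simpa using hf ω

end Basic

section Product

variable {Ω₁ Ω₂ : Type*} [Fintype Ω₁] [Fintype Ω₂]

/-- Fubini for averages on a product. -/
lemma Ex_prod (f : Ω₁ × Ω₂ → ℝ) :
    Ex f = Ex (fun ω₁ => Ex (fun ω₂ => f (ω₁, ω₂))) := by
  unfold Ex
  rw [Fintype.sum_prod_type, Fintype.card_prod, Nat.cast_mul]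
  rw [← Finset.sum_div, div_div, mul_comm]

/-- If each fibre has probability `≤ ε` (and `0 ≤ ε`) the event on the product has probability `≤ ε`. -/
lemma Pr_prod_le [Nonempty Ω₁] (E : Ω₁ × Ω₂ → Prop) (ε : ℝ)
    (h : ∀ ω₁, Pr (fun ω₂ => E (ω₁, ω₂)) ≤ ε) : Pr E ≤ ε := by
  classical
  rw [Pr_eq_Ex, Ex_prod]
  calc _ ≤ Ex (fun _ : Ω₁ => ε) := Ex_mono (fun ω₁ => by
        have := h ω₁
        rwa [Pr_eq_Ex] at this)
    _ = ε := Ex_const ε

/-- Fibre bound valid on a subset of the first coordinate; the bad first coordinates are paid separately. -/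
lemma Pr_prod_le_add [Nonempty Ω₁] (E : Ω₁ × Ω₂ → Prop) (A : Ω₁ → Prop) (ε : ℝ) (hε : 0 ≤ ε)
    (h : ∀ ω₁, A ω₁ → Pr (fun ω₂ => E (ω₁, ω₂)) ≤ ε) :
    Pr E ≤ Pr (fun ω₁ => ¬ A ω₁) + ε := by
  classical
  rw [Pr_eq_Ex E, Ex_prod, Pr_eq_Ex (fun ω₁ => ¬ A ω₁)]
  calc _ ≤ Ex (fun ω₁ : Ω₁ => (if ¬ A ω₁ then (1:ℝ) else 0) + ε) := Ex_mono (fun ω₁ => by
        by_cases hA : A ω₁
        · have := h ω₁ hA
          rw [Pr_eq_Ex] at this
          simpa [hA] using this
        · have := Pr_le_one (fun ω₂ => E (ω₁, ω₂))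
          rw [Pr_eq_Ex] at this
          simp only [hA, not_false_eq_true, if_true]
          linarith)
    _ = _ := by rw [Ex_add, Ex_const]

end Product

section Pi

variable {ι X : Type*} [Fintype ι] [DecidableEq ι] [Fintype X]

/-- Independence of coordinates: the average of a product of functions of single coordinates
is the product of the averages. -/
lemma Ex_pi_prod (f : ι → X → ℝ) :
    Ex (fun π : ι → X => ∏ i, f i (π i)) = ∏ i, Ex (f i) := by
  unfold Ex
  have h1 : ∑ π : ι → X, ∏ i, f i (π i) = ∏ i, ∑ x, f i x := by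
    rw [Finset.prod_univ_sum]
    simp [Fintype.piFinset_univ]
  rw [h1, Finset.prod_div_distrib]
  congr 1
  rw [Fintype.card_fun]
  simp [Finset.prod_const, Finset.card_univ]

/-- Splitting the index set by a predicate: a bound on each fibre over the coordinates in `p`
gives a bound overall. -/
lemma Pr_pi_split_le [Nonempty X] (p : ι → Prop) [DecidablePred p] (E : (ι → X) → Prop) (ε : ℝ)
    (h : ∀ π₁ : {i // p i} → X, Pr (fun π₂ : {i // ¬ p i} → X =>
        E (fun i => if hi : p i then π₁ ⟨i, hi⟩ else π₂ ⟨i, hi⟩)) ≤ ε) :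
    Pr E ≤ ε := by
  classical
  let e : (ι → X) ≃ ({i // p i} → X) × ({i // ¬ p i} → X) :=
    Equiv.piEquivPiSubtypeProd p (fun _ => X)
  have hE : Pr E = Pr (fun ω : ({i // p i} → X) × ({i // ¬ p i} → X) => E (e.symm ω)) := by
    unfold Pr
    rw [Fintype.card_congr e]
    congr 2
    apply Finset.card_bij (fun π _ => e π)
    · intro π hπ
      simp only [Finset.mem_filter, Finset.mem_univ, true_and] at hπ ⊢
      simpa using hπ
    · intro a _ b _ hab; exact e.injective hab
    · intro ω hω
      refine ⟨e.symm ω, ?_, by simp⟩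
      simpa using hω
  rw [hE]
  apply Pr_prod_le
  intro ω₁
  have h2 := h ω₁
  have hfun : ∀ ω₂, (e.symm (ω₁, ω₂)) = (fun i => if hi : p i then ω₁ ⟨i, hi⟩ else ω₂ ⟨i, hi⟩) := by
    intro ω₂
    rfl
  simp only [hfun]
  exact h2

end Pi

/-! ### Exponential moment bounds -/

section Chernoff

variable {ι X : Type*} [Fintype ι] [DecidableEq ι] [Fintype X] [DecidableEq X] [Nonempty X]

/-- Generic exponential Markov: if `g ≥ 0` then `P(a ≤ X) ≤ E[λ^X]/λ^a`-style statements can be derived
from `markov`. This one: for nonnegative `f`, `1 ≤ lam`, `P(t ≤ #{b | E b (π b)}) ≤ E[lam^#]/lam^t`. -/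
lemma rare_count_mgf (G : ι → Finset X) (lam : ℝ) (hlam : 1 ≤ lam) (t : ℕ) :
    Pr (fun π : ι → X => t ≤ (univ.filter (fun b => π b ∈ G b)).card) ≤
      (∏ b, (1 + (lam - 1) * ((G b).card / Fintype.card X))) / lam ^ t := by
  classical
  have hlam0 : 0 < lam := by linarith
  have h1 : ∀ π : ι → X,
      lam ^ (univ.filter (fun b => π b ∈ G b)).card = ∏ b, (if π b ∈ G b then lam else 1) := by
    intro π
    rw [Finset.prod_ite]
    simp [Finset.prod_const]
  have hEx : Ex (fun π : ι → X => ∏ b, (if π b ∈ G b then lam else 1))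
      = ∏ b, (1 + (lam - 1) * ((G b).card / Fintype.card X)) := by
    rw [Ex_pi_prod (fun b x => if x ∈ G b then lam else 1)]
    apply Finset.prod_congr rfl
    intro b _
    unfold Ex
    have hX : (Fintype.card X : ℝ) ≠ 0 := by exact_mod_cast Fintype.card_ne_zero
    have : ∑ x, (if x ∈ G b then lam else 1) = (G b).card * lam + (Fintype.card X - (G b).card) := by
      rw [Finset.sum_ite]
      simp only [Finset.sum_const, nsmul_eq_mul, mul_one]
      have hc : (univ.filter (fun x => x ∈ G b)).card = (G b).card := by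
        congr 1; ext x; simp
      have hc2 : (univ.filter (fun x => x ∉ G b)).card = Fintype.card X - (G b).card := by
        rw [Finset.filter_not, Finset.filter_mem_eq_inter, Finset.univ_inter, Finset.card_sdiff_of_subset (Finset.subset_univ _), Finset.card_univ]
      rw [hc, hc2, Nat.cast_sub (Finset.card_le_univ _)]
    rw [this]
    field_simp
    ring
  have hpos : ∀ π : ι → X, 0 ≤ lam ^ (univ.filter (fun b => π b ∈ G b)).card := fun π => by positivity
  calc Pr (fun π : ι → X => t ≤ (univ.filter (fun b => π b ∈ G b)).card)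
      ≤ Pr (fun π : ι → X => lam ^ t ≤ lam ^ (univ.filter (fun b => π b ∈ G b)).card) :=
        Pr_mono (fun π h => pow_le_pow_right₀ hlam h)
    _ ≤ Ex (fun π : ι → X => lam ^ (univ.filter (fun b => π b ∈ G b)).card) / lam ^ t :=
        markov hpos (by positivity)
    _ = _ := by
        rw [← hEx]
        congr 2
        funext π
        exact h1 π

/-- Rare balls: with `μ = ∑ |G b| / |X|`, `P(#{b | π b ∈ G b} ≥ t) ≤ (e μ / t)^t`, for `t ≥ 1`. -/
lemma rare_balls (G : ι → Finset X) (μ : ℝ)
    (hμ : (∑ b, ((G b).card : ℝ) / Fintype.card X) ≤ μ) (hμ0 : 0 < μ) (t : ℕ) (ht : 1 ≤ t) :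
    Pr (fun π : ι → X => t ≤ (univ.filter (fun b => π b ∈ G b)).card) ≤
      (Real.exp 1 * μ / t) ^ t := by
  classical
  have ht0 : (0:ℝ) < t := by exact_mod_cast ht
  by_cases hcase : (t:ℝ) ≤ μ
  · -- trivial range
    have h1 : 1 ≤ Real.exp 1 * μ / t := by
      rw [le_div_iff₀ ht0]
      have : (1:ℝ) ≤ Real.exp 1 := by
        have := Real.add_one_le_exp (1:ℝ); linarith
      nlinarith
    calc _ ≤ (1:ℝ) := Pr_le_one _
      _ ≤ _ := one_le_pow₀ h1
  · push Not at hcase
    set lam : ℝ := t / μ with hlamdef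
    have hlam : 1 ≤ lam := by
      rw [hlamdef, le_div_iff₀ hμ0]; linarith
    have hlam0 : 0 < lam := by linarith
    refine (rare_count_mgf G lam hlam t).trans ?_
    have hX : (0:ℝ) ≤ Fintype.card X := by positivity
    have hprod : (∏ b, (1 + (lam - 1) * (((G b).card:ℝ) / Fintype.card X))) ≤ Real.exp t := by
      have h2 : ∀ b, (1 + (lam - 1) * (((G b).card:ℝ) / Fintype.card X)) ≤
          Real.exp (lam * (((G b).card:ℝ) / Fintype.card X)) := by
        intro b
        have hnn : (0:ℝ) ≤ ((G b).card:ℝ) / Fintype.card X := by positivity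
        have := Real.add_one_le_exp (lam * (((G b).card:ℝ) / Fintype.card X))
        nlinarith
      calc _ ≤ ∏ b, Real.exp (lam * (((G b).card:ℝ) / Fintype.card X)) :=
            Finset.prod_le_prod (fun b _ => by
              have hnn : (0:ℝ) ≤ ((G b).card:ℝ) / Fintype.card X := by positivity
              have : 0 ≤ lam - 1 := by linarith
              positivity) (fun b _ => h2 b)
        _ = Real.exp (lam * ∑ b, (((G b).card:ℝ) / Fintype.card X)) := by
            rw [← Real.exp_sum, Finset.mul_sum]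
        _ ≤ Real.exp t := by
            apply Real.exp_le_exp.2
            calc _ ≤ lam * μ := by
                  apply mul_le_mul_of_nonneg_left hμ hlam0.le
              _ = t := by rw [hlamdef]; field_simp
    calc _ ≤ Real.exp t / lam ^ t := by
          apply div_le_div_of_nonneg_right hprod (by positivity)
      _ = (Real.exp 1 * μ / t) ^ t := by
          have : Real.exp (t:ℝ) = (Real.exp 1) ^ t := by
            rw [← Real.exp_nat_mul]; simp
          rw [this, hlamdef, div_pow, div_pow, mul_pow]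
          field_simp

/-- Exponential Chernoff for sums of independent `[0,1]`-valued coordinates. -/
lemma sum_chernoff_upper (f : ι → X → ℝ) (hf0 : ∀ b x, 0 ≤ f b x) (hf1 : ∀ b x, f b x ≤ 1)
    (μ : ℝ) (hμ : ∑ b, Ex (f b) ≤ μ) (lam : ℝ) (hlam : 0 < lam) (a : ℝ) :
    Pr (fun π : ι → X => a ≤ ∑ b, f b (π b)) ≤ Real.exp (μ * (Real.exp lam - 1) - lam * a) := by
  classical
  have hexp1 : 0 ≤ Real.exp lam - 1 := by
    have := Real.add_one_le_exp lam; linarith
  -- pointwise convexity bound
  have hconv : ∀ y : ℝ, 0 ≤ y → y ≤ 1 → Real.exp (lam * y) ≤ 1 + y * (Real.exp lam - 1) := by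
    intro y h0 h1
    have := convexOn_exp.2 (Set.mem_univ (0:ℝ)) (Set.mem_univ lam) (sub_nonneg.2 h1) h0 (by ring)
    simp only [smul_eq_mul, mul_zero, zero_add, Real.exp_zero, mul_one] at this
    rw [mul_comm lam y]
    linarith
  have hEx1 : ∀ b, Ex (fun x => Real.exp (lam * f b x)) ≤ Real.exp (Ex (f b) * (Real.exp lam - 1)) := by
    intro b
    calc Ex (fun x => Real.exp (lam * f b x))
        ≤ Ex (fun x => 1 + f b x * (Real.exp lam - 1)) := Ex_mono (fun x => hconv _ (hf0 b x) (hf1 b x))
      _ = 1 + Ex (f b) * (Real.exp lam - 1) := by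
          rw [Ex_add, Ex_const]
          congr 1
          rw [mul_comm, ← Ex_const_mul]
          congr 1; funext x; ring
      _ ≤ _ := by
          have := Real.add_one_le_exp (Ex (f b) * (Real.exp lam - 1)); linarith
  have hMGF : Ex (fun π : ι → X => Real.exp (lam * ∑ b, f b (π b))) ≤ Real.exp (μ * (Real.exp lam - 1)) := by
    have h1 : (fun π : ι → X => Real.exp (lam * ∑ b, f b (π b))) =
        fun π : ι → X => ∏ b, Real.exp (lam * f b (π b)) := by
      funext π
      rw [Finset.mul_sum, Real.exp_sum]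
    rw [h1, Ex_pi_prod (fun b x => Real.exp (lam * f b x))]
    calc ∏ b, Ex (fun x => Real.exp (lam * f b x))
        ≤ ∏ b, Real.exp (Ex (f b) * (Real.exp lam - 1)) :=
          Finset.prod_le_prod (fun b _ => Ex_nonneg (fun x => (Real.exp_pos _).le)) (fun b _ => hEx1 b)
      _ = Real.exp ((∑ b, Ex (f b)) * (Real.exp lam - 1)) := by
          rw [← Real.exp_sum, Finset.sum_mul]
      _ ≤ _ := Real.exp_le_exp.2 (mul_le_mul_of_nonneg_right hμ hexp1)
  calc Pr (fun π : ι → X => a ≤ ∑ b, f b (π b))
      ≤ Pr (fun π : ι → X => Real.exp (lam * a) ≤ Real.exp (lam * ∑ b, f b (π b))) :=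
        Pr_mono (fun π h => Real.exp_le_exp.2 (mul_le_mul_of_nonneg_left h hlam.le))
    _ ≤ Ex (fun π : ι → X => Real.exp (lam * ∑ b, f b (π b))) / Real.exp (lam * a) :=
        markov (fun π => (Real.exp_pos _).le) (Real.exp_pos _)
    _ ≤ Real.exp (μ * (Real.exp lam - 1)) / Real.exp (lam * a) :=
        div_le_div_of_nonneg_right hMGF (Real.exp_pos _).le
    _ = _ := by rw [← Real.exp_sub]

/-- Lower tail for independent events: if `μ ≤ ∑ |G b|/|X|` then
`P(#{b | π b ∈ G b} ≤ μ/2) ≤ exp(-μ/8)`. -/
lemma rare_balls_lower (G : ι → Finset X) (μ : ℝ) (hμ0 : 0 ≤ μ)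
    (hμ : μ ≤ ∑ b, ((G b).card : ℝ) / Fintype.card X) :
    Pr (fun π : ι → X => ((univ.filter (fun b => π b ∈ G b)).card : ℝ) ≤ μ / 2) ≤
      Real.exp (-(μ / 8)) := by
  classical
  have hX : (0:ℝ) < Fintype.card X := by exact_mod_cast Fintype.card_pos
  set e1 : ℝ := Real.exp (-1) with he1
  have he1le : e1 ≤ 3 / 8 := by
    have h1 : Real.exp 1 > 2.7182818283 := Real.exp_one_gt_d9
    have h2 : e1 = (Real.exp 1)⁻¹ := by rw [he1, Real.exp_neg]
    rw [h2]
    rw [inv_le_comm₀ (by positivity) (by norm_num)]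
    norm_num
    linarith
  have he1pos : 0 < e1 := Real.exp_pos _
  have h1 : ∀ π : ι → X, Real.exp (-((univ.filter (fun b => π b ∈ G b)).card : ℝ))
      = ∏ b, (if π b ∈ G b then e1 else 1) := by
    intro π
    rw [Finset.prod_ite]
    simp only [Finset.prod_const, one_pow, mul_one]
    rw [he1, ← Real.exp_nat_mul]
    congr 1; ring
  have hEx1 : ∀ b, Ex (fun x => if x ∈ G b then e1 else 1) ≤
      Real.exp (-(5/8) * (((G b).card : ℝ) / Fintype.card X)) := by
    intro b
    have hval : Ex (fun x => if x ∈ G b then e1 else 1)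
        = 1 + (e1 - 1) * (((G b).card : ℝ) / Fintype.card X) := by
      unfold Ex
      have : ∑ x, (if x ∈ G b then e1 else 1) = (G b).card * e1 + (Fintype.card X - (G b).card) := by
        rw [Finset.sum_ite]
        simp only [Finset.sum_const, nsmul_eq_mul, mul_one]
        have hc : (univ.filter (fun x => x ∈ G b)).card = (G b).card := by
          congr 1; ext x; simp
        have hc2 : (univ.filter (fun x => x ∉ G b)).card = Fintype.card X - (G b).card := by
          rw [Finset.filter_not, Finset.filter_mem_eq_inter, Finset.univ_inter,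
            Finset.card_sdiff_of_subset (Finset.subset_univ _), Finset.card_univ]
        rw [hc, hc2, Nat.cast_sub (Finset.card_le_univ _)]
      rw [this]
      field_simp
      ring
    rw [hval]
    have hnn : (0:ℝ) ≤ ((G b).card : ℝ) / Fintype.card X := by positivity
    have := Real.add_one_le_exp (-(5/8) * (((G b).card : ℝ) / Fintype.card X))
    nlinarith
  have hMGF : Ex (fun π : ι → X => Real.exp (-((univ.filter (fun b => π b ∈ G b)).card : ℝ)))
      ≤ Real.exp (-(5/8) * μ) := by
    have : (fun π : ι → X => Real.exp (-((univ.filter (fun b => π b ∈ G b)).card : ℝ)))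
        = fun π : ι → X => ∏ b, (if π b ∈ G b then e1 else 1) := funext h1
    rw [this, Ex_pi_prod (fun b x => if x ∈ G b then e1 else 1)]
    calc ∏ b, Ex (fun x => if x ∈ G b then e1 else 1)
        ≤ ∏ b, Real.exp (-(5/8) * (((G b).card : ℝ) / Fintype.card X)) :=
          Finset.prod_le_prod (fun b _ => Ex_nonneg (fun x => by split_ifs <;> positivity))
            (fun b _ => hEx1 b)
      _ = Real.exp (-(5/8) * ∑ b, (((G b).card : ℝ) / Fintype.card X)) := by
          rw [← Real.exp_sum, Finset.mul_sum]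
      _ ≤ _ := Real.exp_le_exp.2 (by nlinarith)
  calc Pr (fun π : ι → X => ((univ.filter (fun b => π b ∈ G b)).card : ℝ) ≤ μ / 2)
      ≤ Pr (fun π : ι → X => Real.exp (-(μ/2)) ≤
          Real.exp (-((univ.filter (fun b => π b ∈ G b)).card : ℝ))) :=
        Pr_mono (fun π h => Real.exp_le_exp.2 (by linarith))
    _ ≤ Ex (fun π : ι → X => Real.exp (-((univ.filter (fun b => π b ∈ G b)).card : ℝ))) / Real.exp (-(μ/2)) :=
        markov (fun π => (Real.exp_pos _).le) (Real.exp_pos _)
    _ ≤ Real.exp (-(5/8) * μ) / Real.exp (-(μ/2)) :=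
        div_le_div_of_nonneg_right hMGF (Real.exp_pos _).le
    _ = _ := by
        rw [← Real.exp_sub]; congr 1; ring

end Chernoff

/-! ### Sequential exposure -/

section Sequential

variable {ι X : Type*} [Fintype ι] [DecidableEq ι] [Fintype X] [Nonempty X]

/-- Resampling invariance: averaging over a resampled coordinate does not change the mean. -/
lemma Ex_update (F : (ι → X) → ℝ) (k : ι) :
    Ex F = Ex (fun ω : ι → X => (∑ x, F (Function.update ω k x)) / Fintype.card X) := by
  unfold Ex
  have hX : (Fintype.card X : ℝ) ≠ 0 := by exact_mod_cast Fintype.card_ne_zero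
  congr 1
  rw [← Finset.sum_div]
  rw [eq_div_iff hX]
  -- double counting via the bijection (ω, x) ↦ (update ω k x, ω k)
  have hb : ∑ ω : ι → X, ∑ x, F (Function.update ω k x) =
      ∑ ω : ι → X, ∑ _x : X, F ω := by
    rw [← Finset.sum_product', ← Finset.sum_product']
    refine Finset.sum_bij' (fun p _ => (Function.update p.1 k p.2, p.1 k))
      (fun p _ => (Function.update p.1 k p.2, p.1 k)) ?_ ?_ ?_ ?_ ?_
    · intro p _; simp
    · intro p _; simp
    · intro p _; simp
    · intro p _; simp
    · intro p _; simp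
  rw [hb]
  simp only [Finset.sum_const, Finset.card_univ, nsmul_eq_mul]
  rw [Finset.sum_mul]
  apply Finset.sum_congr rfl
  intro ω _
  ring

end Sequential

section SeqRare

variable {X : Type*} [Fintype X] [Nonempty X]

/-- Sequential rare events. `I t ω` depends only on coordinates `≤ t` and for every history the
proportion of values of coordinate `t` making `I t` true is at most `p`.
Then `E[lam^#{t | I t}] ≤ (1 + (lam-1) p)^n`. -/
lemma seq_mgf (n : ℕ) (I : Fin n → (Fin n → X) → Prop)
    (hdep : ∀ t ω ω', (∀ s, s ≤ t → ω s = ω' s) → (I t ω ↔ I t ω'))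
    (p : ℝ) (hp0 : 0 ≤ p)
    (hp : ∀ t ω, Pr (fun x => I t (Function.update ω t x)) ≤ p)
    (lam : ℝ) (hlam : 1 ≤ lam) :
    Ex (fun ω : Fin n → X => (open Classical in lam ^ (univ.filter (fun s => I s ω)).card)) ≤
      (1 + (lam - 1) * p) ^ n := by
  classical
  have hlam0 : 0 ≤ lam := by linarith
  have hfac : 0 ≤ 1 + (lam - 1) * p := by nlinarith
  -- partial products
  let Y : ℕ → (Fin n → X) → ℝ := fun k ω =>
    ∏ t ∈ univ.filter (fun t : Fin n => t.val < k), (if I t ω then lam else 1)
  have hYpos : ∀ k ω, 0 ≤ Y k ω := fun k ω => Finset.prod_nonneg (fun t _ => by split_ifs <;> linarith)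
  have hY0 : ∀ ω, Y 0 ω = 1 := by
    intro ω; simp [Y]
  have hstep : ∀ k, k ≤ n → Ex (Y k) ≤ (1 + (lam - 1) * p) ^ k := by
    intro k
    induction k with
    | zero =>
      intro _
      have : Y 0 = fun _ => 1 := funext hY0
      rw [this, Ex_const]; simp
    | succ k ih =>
      intro hk
      have hkn : k < n := hk
      let tk : Fin n := ⟨k, hkn⟩
      have hsplit : ∀ ω, Y (k+1) ω = Y k ω * (if I tk ω then lam else 1) := by
        intro ω
        have : univ.filter (fun t : Fin n => t.val < k + 1) =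
            insert tk (univ.filter (fun t : Fin n => t.val < k)) := by
          ext t
          simp only [Finset.mem_filter, Finset.mem_univ, true_and, Finset.mem_insert, tk, Fin.ext_iff]
          omega
        simp only [Y]
        rw [this, Finset.prod_insert (by simp [tk])]
        ring
      -- independence from the k-th coordinate
      have hYupd : ∀ ω x, Y k (Function.update ω tk x) = Y k ω := by
        intro ω x
        simp only [Y]
        apply Finset.prod_congr rfl
        intro t ht
        have htk : t.val < k := by simpa using ht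
        have : I t (Function.update ω tk x) ↔ I t ω := by
          apply hdep
          intro s hs
          have hne : s ≠ tk := by
            intro h; rw [h] at hs
            have : (tk : ℕ) ≤ t := hs
            simp [tk] at this
            omega
          simp [Function.update_of_ne hne]
        simp [this]
      have hX : (Fintype.card X : ℝ) ≠ 0 := by exact_mod_cast Fintype.card_ne_zero
      have hbound : ∀ ω, (∑ x, Y (k+1) (Function.update ω tk x)) / Fintype.card X ≤
          Y k ω * (1 + (lam - 1) * p) := by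
        intro ω
        have h1 : ∑ x, Y (k+1) (Function.update ω tk x) =
            Y k ω * ∑ x, (if I tk (Function.update ω tk x) then lam else 1) := by
          rw [Finset.mul_sum]
          apply Finset.sum_congr rfl
          intro x _
          rw [hsplit, hYupd]
        have h2 : (∑ x, (if I tk (Function.update ω tk x) then lam else 1)) / Fintype.card X
            = 1 + (lam - 1) * Pr (fun x => I tk (Function.update ω tk x)) := by
          rw [Pr_eq_card, Finset.sum_ite]
          simp only [Finset.sum_const, nsmul_eq_mul, mul_one]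
          have hc : ((univ.filter (fun x => ¬ I tk (Function.update ω tk x))).card : ℝ) =
              Fintype.card X - (univ.filter (fun x => I tk (Function.update ω tk x))).card := by
            rw [Finset.filter_not, Finset.card_sdiff_of_subset (Finset.subset_univ _), Finset.card_univ,
              Nat.cast_sub (Finset.card_le_univ _)]
          rw [hc]
          field_simp
          ring
        rw [h1, mul_div_assoc, h2]
        apply mul_le_mul_of_nonneg_left _ (hYpos k ω)
        have := hp tk ω
        nlinarith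
      calc Ex (Y (k+1)) = Ex (fun ω => (∑ x, Y (k+1) (Function.update ω tk x)) / Fintype.card X) :=
            Ex_update (Y (k+1)) tk
        _ ≤ Ex (fun ω => Y k ω * (1 + (lam - 1) * p)) := Ex_mono hbound
        _ = Ex (Y k) * (1 + (lam - 1) * p) := Ex_mul_const _ _
        _ ≤ (1 + (lam - 1) * p) ^ k * (1 + (lam - 1) * p) :=
            mul_le_mul_of_nonneg_right (ih (by omega)) hfac
        _ = _ := by ring
  have hfinal := hstep n le_rfl
  refine le_trans (le_of_eq ?_) hfinal
  congr 1
  funext ω
  simp only [Y]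
  have : univ.filter (fun t : Fin n => t.val < n) = univ := by
    ext t; simp
  rw [this, Finset.prod_ite]
  simp only [Finset.prod_const, one_pow, mul_one]

/-- Sequential rare events, tail bound. -/
lemma seq_rare (n : ℕ) (I : Fin n → (Fin n → X) → Prop)
    (hdep : ∀ t ω ω', (∀ s, s ≤ t → ω s = ω' s) → (I t ω ↔ I t ω'))
    (p : ℝ) (hp0 : 0 < p)
    (hp : ∀ t ω, Pr (fun x => I t (Function.update ω t x)) ≤ p)
    (t : ℕ) (ht : 1 ≤ t) (hn : 1 ≤ n) :
    Pr (fun ω : Fin n → X => t ≤ (open Classical in (univ.filter (fun s => I s ω)).card)) ≤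
      (Real.exp 1 * (n * p) / t) ^ t := by
  classical
  have ht0 : (0:ℝ) < t := by exact_mod_cast ht
  have hn0 : (0:ℝ) < n := by exact_mod_cast hn
  set μ : ℝ := n * p with hμdef
  have hμ0 : 0 < μ := by positivity
  by_cases hcase : (t:ℝ) ≤ μ
  · have h1 : 1 ≤ Real.exp 1 * μ / t := by
      rw [le_div_iff₀ ht0]
      have : (1:ℝ) ≤ Real.exp 1 := by
        have := Real.add_one_le_exp (1:ℝ); linarith
      nlinarith
    calc _ ≤ (1:ℝ) := Pr_le_one _
      _ ≤ _ := one_le_pow₀ h1
  · push Not at hcase
    set lam : ℝ := t / μ with hlamdef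
    have hlam : 1 ≤ lam := by
      rw [hlamdef, le_div_iff₀ hμ0]; linarith
    have hlam0 : 0 < lam := by linarith
    have hmgf := seq_mgf n I hdep p hp0.le hp lam hlam
    have hbase : (1 + (lam - 1) * p) ^ n ≤ Real.exp t := by
      have h1 : 1 + (lam - 1) * p ≤ Real.exp (lam * p) := by
        have := Real.add_one_le_exp (lam * p)
        nlinarith
      have h0 : 0 ≤ 1 + (lam - 1) * p := by nlinarith
      calc _ ≤ (Real.exp (lam * p)) ^ n := pow_le_pow_left₀ h0 h1 n
        _ = Real.exp (n * (lam * p)) := by rw [← Real.exp_nat_mul]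
        _ = Real.exp t := by
            congr 1
            have : lam * μ = t := by rw [hlamdef]; field_simp
            rw [← this, hμdef]; ring
    calc Pr (fun ω : Fin n → X => t ≤ (univ.filter (fun s => I s ω)).card)
        ≤ Pr (fun ω : Fin n → X => lam ^ t ≤ lam ^ (univ.filter (fun s => I s ω)).card) :=
          Pr_mono (fun ω h => pow_le_pow_right₀ hlam h)
      _ ≤ Ex (fun ω : Fin n → X => lam ^ (univ.filter (fun s => I s ω)).card) / lam ^ t :=
          markov (fun ω => by positivity) (by positivity)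
      _ ≤ Real.exp t / lam ^ t := div_le_div_of_nonneg_right (hmgf.trans hbase) (by positivity)
      _ = (Real.exp 1 * μ / t) ^ t := by
          have : Real.exp (t:ℝ) = (Real.exp 1) ^ t := by
            rw [← Real.exp_nat_mul]; simp
          rw [this, hlamdef, div_pow, div_pow, mul_pow]
          field_simp
          rw [hμdef]; ring

end SeqRare

end Crest.Agent.Ryser
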