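import Crest.Agent.Lib.Ryser.Defs

/-!
# Module RICH: most points of a blocking set lie on rich lines.

Let `S` be a `q`-set blocking all lines missing `Z`, with `|rho u - ρ₀| ≤ Δ`, and (P2).
Steps (see finding 635 and the notes below):
(a) A line missing `Z` contains a point of `S \ Z`. `|R| ≥ (q-1)(ρ₀-Δ)` (part `i₀` has at most one point of `Z`), each point off `Z` lies on `≤ ρ₀+Δ` lines of `R`.
    So `|S ∩ Z| ≤ 1 + 8Δ`, and the excess `E = ∑_{ℓ ∈ R} (n_ℓ - 1) ≤ 3 q Δ`.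
(b) Suppose more than `β q` points have `Wt < c q`. Take `S₁` among them off `Z`, `|S₁| = s₁`.
    Ordered pairs `(x,x')` in `S₁`, `x ≠ x'`: on a common rich hat line: `≤ s₁ c q ≤ s₁²/200`; on a common poor line of `R`: `≤ L₀ E ≤ 3 L₀ q Δ ≤ s₁²/200`;
    on a common poor part: `≤ s₁ L₀`.
(c) Sample `(x_t)_{t<K}` i.i.d. uniform in `S₁` (uniform on `Fin K → S₁`). `N = K(K-1)/2`. With positive probability:
    T1: injective (`P(fail) ≤ K²/s₁`).
    T2: fewer than `N/30` pairs `j<k` are bad (`P(fail) ≤ 30 (1/100 + L₀/s₁)`).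
    T4: no three samples on a poor line (`P(fail) ≤ K³ L₀/s₁`).
    T5: no `y` off the sample lies on a spanned poor line and on two further spanned lines (all six indices are distinct since two distinct lines through a sample point meet only there);
        given the other samples `y` is fixed and `P(x_j, x_k on a common poor line through y) ≤ L₀/s₁`; so `P(fail) ≤ K⁶ L₀/s₁`.
(d) `S' = image`. Every pair not bad spans a poor line with exactly two sample points and no triple point, all such lines distinct, so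
    `|goodSpanned S'| ≥ N - B`. By (P2) at least `|goodSpanned|/20` of them miss `Z`; but a line of `goodSpanned` missing `Z` carries a bad pair: at most `B`. Contradiction.
-/

open Finset BigOperators

namespace Crest.Agent.Ryser

variable {P V L : Type*} [Fintype P] [DecidableEq P] [Fintype V] [DecidableEq V]
  [Fintype L] [DecidableEq L]
variable {q : ℕ} {h : L → P → V}

set_option linter.unusedSectionVars false

namespace RichAux

/-! ### Incidence -/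

lemma part_ne_of_on {x y : P × V} {ℓ : L} (hx : On h ℓ x) (hy : On h ℓ y) (hxy : x ≠ y) :
    x.1 ≠ y.1 := by
  intro he
  apply hxy
  apply Prod.ext he
  unfold On at hx hy
  rw [← hx, ← hy, he]

lemma line_eq (hO : OA q h) {ℓ ℓ' : L} {x y : P × V} (hx : On h ℓ x) (hy : On h ℓ y)
    (hx' : On h ℓ' x) (hy' : On h ℓ' y) (hxy : x ≠ y) : ℓ = ℓ' :=
  hO.eq_of_two_points hx hx' hy hy' (part_ne_of_on hx hy hxy)

lemma nH_inl (S : Finset (P × V)) (ℓ : L) :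
    nH h S (Sum.inl ℓ) = (S.filter (On h ℓ)).card := by
  unfold nH
  congr 1

lemma nH_inr (S : Finset (P × V)) (i : P) :
    nH h S (Sum.inr i) = (S.filter (fun x => x.1 = i)).card := by
  unfold nH
  congr 1

/-! ### Part (a) -/

/-- Lines missing `Z`. -/
def Rset (h : L → P → V) (Z : Finset (P × V)) : Finset L := univ.filter fun ℓ => misses h ℓ Z

lemma rho_eq_of_not_mem (Z : Finset (P × V)) (u : P × V) (hu : u ∉ Z) :
    rho h Z u = ((Rset h Z).filter fun ℓ => On h ℓ u).card := by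
  unfold rho Rset linesThrough
  congr 1
  ext ℓ
  simp only [mem_filter, mem_univ, true_and, misses]
  constructor
  · rintro ⟨h1, h2⟩
    exact ⟨fun x hx => h2 x hx (fun e => hu (e ▸ hx)), h1⟩
  · rintro ⟨h1, h2⟩
    exact ⟨h2, fun x hx _ => h1 x hx⟩

lemma card_R_ge (hO : OA q h) (Z : Finset (P × V)) (ρ₀ Δ : ℝ)
    (hE : ∀ u, |(rho h Z u : ℝ) - ρ₀| ≤ Δ) (i₀ : P)
    (hi₀ : (Z.filter fun x => x.1 = i₀).card ≤ 1) :
    ((q:ℝ) - 1) * (ρ₀ - Δ) ≤ (Rset h Z).card := by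
  have hq := hO.two_le
  have hq1 : (1:ℝ) ≤ q := by exact_mod_cast (by omega : 1 ≤ q)
  by_cases hneg : ρ₀ - Δ ≤ 0
  · have h0 : (0:ℝ) ≤ (Rset h Z).card := by positivity
    nlinarith
  push Not at hneg
  let Y : Finset V := univ.filter fun y : V => (i₀, y) ∉ Z
  have hYc : q ≤ Y.card + 1 := by
    have h1 : (univ.filter fun y : V => (i₀, y) ∈ Z).card ≤ (Z.filter fun x => x.1 = i₀).card := by
      apply Finset.card_le_card_of_injOn (fun y => (i₀, y))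
      · intro y hy
        simp only [coe_filter, mem_univ, true_and, Set.mem_ofPred_eq] at hy
        simp [hy]
      · intro a _ b _ hab
        simpa using hab
    have h2 : (univ.filter fun y : V => (i₀, y) ∈ Z).card + Y.card = q := by
      have := Finset.card_filter_add_card_filter_not (s := (univ : Finset V))
        (fun y : V => (i₀, y) ∈ Z)
      rw [Finset.card_univ, hO.cardV] at this
      exact this
    omega
  have hsum := hO.sum_part (Rset h Z) i₀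
  have h3 : ∑ y ∈ Y, (ρ₀ - Δ) ≤ ∑ y ∈ Y, (((Rset h Z).filter fun ℓ => h ℓ i₀ = y).card : ℝ) := by
    apply Finset.sum_le_sum
    intro y hy
    have hy' : (i₀, y) ∉ Z := by simpa [Y] using hy
    have h4 := rho_eq_of_not_mem (h := h) Z (i₀, y) hy'
    have h5 : ((Rset h Z).filter fun ℓ => h ℓ i₀ = y) = ((Rset h Z).filter fun ℓ => On h ℓ (i₀, y)) := by
      rfl
    rw [h5, ← h4]
    have := abs_le.1 (hE (i₀, y))
    linarith [this.1]
  have h6 : ∑ y ∈ Y, (((Rset h Z).filter fun ℓ => h ℓ i₀ = y).card : ℝ) ≤ (Rset h Z).card := by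
    have h7 : ∑ y ∈ Y, ((Rset h Z).filter fun ℓ => h ℓ i₀ = y).card ≤ (Rset h Z).card := by
      rw [← hsum]
      exact Finset.sum_le_sum_of_subset (Finset.subset_univ _)
    exact_mod_cast h7
  rw [Finset.sum_const, nsmul_eq_mul] at h3
  have h8 : (q:ℝ) - 1 ≤ Y.card := by
    have : (q:ℝ) ≤ Y.card + 1 := by exact_mod_cast hYc
    linarith
  nlinarith

lemma sum_nH_eq (S Z : Finset (P × V)) :
    ∑ ℓ ∈ Rset h Z, nH h S (Sum.inl ℓ) = ∑ x ∈ S \ Z, rho h Z x := by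
  have h1 : ∑ ℓ ∈ Rset h Z, nH h S (Sum.inl ℓ) =
      ∑ x ∈ S, ((Rset h Z).filter fun ℓ => On h ℓ x).card := by
    simp only [nH_inl]
    exact Finset.sum_card_bipartiteAbove_eq_sum_card_bipartiteBelow (s := Rset h Z) (t := S)
      (fun ℓ x => On h ℓ x)
  rw [h1]
  symm
  rw [← Finset.sum_subset (Finset.sdiff_subset (s := S) (t := Z))]
  · apply Finset.sum_congr rfl
    intro x hx
    exact rho_eq_of_not_mem Z x (Finset.mem_sdiff.1 hx).2
  · intro x hxS hx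
    have hxZ : x ∈ Z := by
      by_contra hc
      exact hx (Finset.mem_sdiff.2 ⟨hxS, hc⟩)
    rw [Finset.card_eq_zero, Finset.filter_eq_empty_iff]
    intro ℓ hℓ
    simp only [Rset, mem_filter, mem_univ, true_and, misses] at hℓ
    exact hℓ x hxZ

lemma one_le_nH_of_mem {S Z : Finset (P × V)} (hB : Blocks h S Z) {ℓ : L} (hℓ : ℓ ∈ Rset h Z) :
    1 ≤ nH h S (Sum.inl ℓ) := by
  rw [nH_inl]
  obtain ⟨x, hxS, hx⟩ := hB ℓ (by simpa [Rset] using hℓ)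
  exact Finset.card_pos.2 ⟨x, by simp [hxS, hx]⟩

lemma part_a (hO : OA q h) (Z S : Finset (P × V)) (hS : S.card = q) (hB : Blocks h S Z)
    (ρ₀ Δ : ℝ) (hE : ∀ u, |(rho h Z u : ℝ) - ρ₀| ≤ Δ) (hρ₀ : (q:ℝ) / 4 ≤ ρ₀) (hρ₀' : ρ₀ ≤ q)
    (hΔ : 1 ≤ Δ) (i₀ : P) (hi₀ : (Z.filter fun x => x.1 = i₀).card ≤ 1) :
    ((S ∩ Z).card : ℝ) ≤ 8 * Δ + 1 ∧
      ∑ ℓ ∈ Rset h Z, ((nH h S (Sum.inl ℓ) : ℝ) - 1) ≤ 3 * q * Δ := by
  have hq := hO.two_le
  have hq0 : (0:ℝ) < q := by exact_mod_cast (by omega : 0 < q)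
  have hR := card_R_ge hO Z ρ₀ Δ hE i₀ hi₀
  have hsum := sum_nH_eq (h := h) S Z
  set a : ℝ := ((S ∩ Z).card : ℝ) with ha
  have hcard : ((S \ Z).card : ℝ) = q - a := by
    have := Finset.card_sdiff_add_card_inter S Z
    rw [hS] at this
    rw [ha]
    have h2 : (((S \ Z).card + (S ∩ Z).card : ℕ) : ℝ) = q := by exact_mod_cast this
    push_cast at h2
    linarith
  have hup : ((∑ ℓ ∈ Rset h Z, nH h S (Sum.inl ℓ) : ℕ) : ℝ) ≤ (q - a) * (ρ₀ + Δ) := by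
    rw [hsum, ← hcard, ← nsmul_eq_mul]
    push_cast
    rw [← Finset.sum_const]
    apply Finset.sum_le_sum
    intro x _
    have := abs_le.1 (hE x)
    linarith [this.2]
  have hexp : ∑ ℓ ∈ Rset h Z, ((nH h S (Sum.inl ℓ) : ℝ) - 1) =
      ((∑ ℓ ∈ Rset h Z, nH h S (Sum.inl ℓ) : ℕ) : ℝ) - (Rset h Z).card := by
    rw [Finset.sum_sub_distrib]
    simp
  have hnn : 0 ≤ ∑ ℓ ∈ Rset h Z, ((nH h S (Sum.inl ℓ) : ℝ) - 1) := by
    apply Finset.sum_nonneg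
    intro ℓ hℓ
    have := one_le_nH_of_mem hB hℓ
    have h3 : (1:ℝ) ≤ nH h S (Sum.inl ℓ) := by exact_mod_cast this
    linarith
  have ha0 : 0 ≤ a := by rw [ha]; positivity
  have hρ0 : 0 < ρ₀ := by linarith
  have hkey : a * (ρ₀ + Δ) ≤ 2 * q * Δ + ρ₀ - Δ := by
    have : ((q:ℝ) - 1) * (ρ₀ - Δ) ≤ (q - a) * (ρ₀ + Δ) := by
      have h4 : ((q:ℝ) - 1) * (ρ₀ - Δ) ≤ ((∑ ℓ ∈ Rset h Z, nH h S (Sum.inl ℓ) : ℕ) : ℝ) := by
        rw [hexp] at hnn
        linarith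
      linarith
    nlinarith
  constructor
  · by_contra hc
    push Not at hc
    have h5 : (8 * Δ + 1) * ρ₀ < a * ρ₀ := mul_lt_mul_of_pos_right hc hρ0
    have h6 : 2 * q * Δ ≤ 8 * Δ * ρ₀ := by nlinarith
    nlinarith
  · rw [hexp]
    have hqΔ : (q:ℝ) ≤ q * Δ := by nlinarith
    have h7 : (q - a) * (ρ₀ + Δ) ≤ q * (ρ₀ + Δ) := by nlinarith
    nlinarith

/-! ### Part (d): the deterministic contradiction -/

/-- Pairs of indices. -/
def pairs (K : ℕ) : Finset (Fin K × Fin K) := univ.filter fun p => p.1 < p.2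

lemma card_pairs (K : ℕ) : 2 * (pairs K).card = K * (K - 1) := by
  have h1 : ((univ : Finset (Fin K)).offDiag).card = K * K - K := by
    rw [Finset.offDiag_card]; simp
  have h2 : (univ : Finset (Fin K)).offDiag = pairs K ∪ (pairs K).image Prod.swap := by
    ext ⟨a, b⟩
    simp only [mem_offDiag, mem_univ, true_and, pairs, mem_union, mem_filter, mem_image,
      Prod.exists, Prod.swap_prod_mk, Prod.mk.injEq]
    constructor
    · intro hab
      rcases lt_or_gt_of_ne hab with hlt | hlt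
      · exact Or.inl hlt
      · exact Or.inr ⟨b, a, hlt, rfl, rfl⟩
    · rintro (hlt | ⟨c, d, hlt, rfl, rfl⟩)
      · exact ne_of_lt hlt
      · exact ne_of_gt hlt
  have h3 : Disjoint (pairs K) ((pairs K).image Prod.swap) := by
    rw [Finset.disjoint_left]
    intro p hp hp'
    obtain ⟨r, hr, rfl⟩ := mem_image.1 hp'
    simp only [pairs, mem_filter, mem_univ, true_and, Prod.fst_swap, Prod.snd_swap] at hp hr
    exact absurd hp (not_lt.2 hr.le)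
  have h4 : ((pairs K).image Prod.swap).card = (pairs K).card :=
    Finset.card_image_of_injective _ Prod.swap_injective
  rw [h2, Finset.card_union_of_disjoint h3, h4] at h1
  have : K * (K - 1) = K * K - K := by
    rw [Nat.mul_sub_one]
  omega

/-- A bad pair: distinct points whose connecting hat line is rich, or a part, or a line missing `Z`. -/
def BadPair (h : L → P → V) (S Z : Finset (P × V)) (L₀ : ℕ) (u v : P × V) : Prop :=
  u ≠ v ∧ ((∃ ℓ : L ⊕ P, OnH h ℓ u ∧ OnH h ℓ v ∧ L₀ ≤ nH h S ℓ) ∨ u.1 = v.1 ∨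
    (∃ ℓ : L, misses h ℓ Z ∧ On h ℓ u ∧ On h ℓ v))

open Classical in
theorem sample_contra (hO : OA q h) (Z S : Finset (P × V)) (L₀ K : ℕ) (hP2 : P2good h K Z)
    (hK : 6 ≤ K) (x : Fin K → P × V) (hinj : Function.Injective x) (hxZ : ∀ j, x j ∉ Z)
    (hT4 : ∀ j k l : Fin K, j ≠ k → j ≠ l → k ≠ l → ∀ ℓ : L, nH h S (Sum.inl ℓ) < L₀ →
      On h ℓ (x j) → On h ℓ (x k) → On h ℓ (x l) → False)
    (hT5 : ∀ a b c d e f : Fin K, a ≠ b → b ≠ c → b ≠ d → b ≠ e → b ≠ f → x c ≠ x d → x e ≠ x f →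
      ∀ (ℓ₁ ℓ₂ ℓ₃ : L) (y : P × V), nH h S (Sum.inl ℓ₁) < L₀ →
      On h ℓ₁ (x a) → On h ℓ₁ (x b) → On h ℓ₂ (x c) → On h ℓ₂ (x d) → On h ℓ₃ (x e) →
      On h ℓ₃ (x f) → On h ℓ₁ y → On h ℓ₂ y → On h ℓ₃ y → ℓ₂ ≠ ℓ₃ → y ≠ x a → False)
    (hB : 30 * ((pairs K).filter fun p => BadPair h S Z L₀ (x p.1) (x p.2)).card
      < (pairs K).card) :
    False := by
  set S' : Finset (P × V) := univ.image x with hS'
  have hS'card : S'.card = K := by
    rw [hS', Finset.card_image_of_injective _ hinj]; simp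
  have hdisj : Disjoint S' Z := by
    rw [Finset.disjoint_left]
    intro u hu
    obtain ⟨j, _, rfl⟩ := mem_image.1 hu
    exact hxZ j
  set G := goodSpanned h S' with hG
  set Bd := (pairs K).filter fun p => BadPair h S Z L₀ (x p.1) (x p.2) with hBd
  set Nb := (pairs K).filter fun p => ¬ BadPair h S Z L₀ (x p.1) (x p.2) with hNb
  have hsplit : Bd.card + Nb.card = (pairs K).card :=
    Finset.card_filter_add_card_filter_not _
  have hxS' : ∀ t, x t ∈ S' := fun t => by simp [hS']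
  have hspan : ∀ ℓ ∈ spanned h S', ∃ c d : Fin K, c ≠ d ∧ On h ℓ (x c) ∧ On h ℓ (x d) := by
    intro ℓ hℓ
    have h2 : 2 ≤ (S'.filter (On h ℓ)).card := by
      simpa only [spanned, mem_filter, mem_univ, true_and] using hℓ
    obtain ⟨u, hu, v, hv, huv⟩ := Finset.one_lt_card.1 h2
    simp only [mem_filter] at hu hv
    obtain ⟨c, _, rfl⟩ := mem_image.1 hu.1
    obtain ⟨d, _, rfl⟩ := mem_image.1 hv.1
    exact ⟨c, d, fun e => huv (by rw [e]), hu.2, hv.2⟩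
  have hgood : ∀ p ∈ Nb, ∃ ℓ ∈ G, On h ℓ (x p.1) ∧ On h ℓ (x p.2) ∧ nH h S (Sum.inl ℓ) < L₀ := by
    intro p hp
    obtain ⟨hp1, hp2⟩ := mem_filter.1 hp
    have hlt : p.1 < p.2 := by simpa [pairs] using hp1
    have hne : x p.1 ≠ x p.2 := fun e => (ne_of_lt hlt) (hinj e)
    have hpart : (x p.1).1 ≠ (x p.2).1 := fun e => hp2 ⟨hne, Or.inr (Or.inl e)⟩
    obtain ⟨ℓ, ⟨hl1, hl2⟩, -⟩ := hO.existsUnique_line hpart
    have hpoor : nH h S (Sum.inl ℓ) < L₀ := by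
      by_contra hc
      push Not at hc
      exact hp2 ⟨hne, Or.inl ⟨Sum.inl ℓ, hl1, hl2, hc⟩⟩
    refine ⟨ℓ, ?_, hl1, hl2, hpoor⟩
    have hsp : ℓ ∈ spanned h S' := by
      simp only [spanned, mem_filter, mem_univ, true_and]
      exact Finset.one_lt_card.2 ⟨x p.1, by simp [hxS', hl1], x p.2, by simp [hxS', hl2], hne⟩
    refine mem_filter.2 ⟨hsp, ?_⟩
    intro y hy hyℓ
    simp only [tripPts, mem_filter, mem_univ, true_and] at hy
    obtain ⟨hyS, hy3⟩ := hy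
    have hmem : ℓ ∈ (spanned h S').filter (fun m => On h m y) := mem_filter.2 ⟨hsp, hyℓ⟩
    have h2 : 1 < (((spanned h S').filter (fun m => On h m y)).erase ℓ).card := by
      rw [card_erase_of_mem hmem]; omega
    obtain ⟨ℓ₂, h2a, ℓ₃, h3a, hne23⟩ := Finset.one_lt_card.1 h2
    obtain ⟨h2b, h2c⟩ := mem_erase.1 h2a
    obtain ⟨h3b, h3c⟩ := mem_erase.1 h3a
    obtain ⟨h2d, h2e⟩ := mem_filter.1 h2c
    obtain ⟨h3d, h3e⟩ := mem_filter.1 h3c
    obtain ⟨c, d, hcd, hc, hd⟩ := hspan ℓ₂ h2d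
    obtain ⟨e, f, hef, he, hf⟩ := hspan ℓ₃ h3d
    have hyx : ∀ t, y ≠ x t := fun t ht => hyS (by rw [ht]; exact hxS' t)
    refine hT5 p.1 p.2 c d e f (ne_of_lt hlt) ?_ ?_ ?_ ?_ (fun a => hcd (hinj a))
      (fun a => hef (hinj a)) ℓ ℓ₂ ℓ₃ y hpoor hl1 hl2 hc hd he hf hyℓ h2e h3e hne23 (hyx _)
    · intro hb; exact h2b (line_eq hO (hb ▸ hc) h2e hl2 hyℓ (hyx _).symm)
    · intro hb; exact h2b (line_eq hO (hb ▸ hd) h2e hl2 hyℓ (hyx _).symm)
    · intro hb; exact h3b (line_eq hO (hb ▸ he) h3e hl2 hyℓ (hyx _).symm)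
    · intro hb; exact h3b (line_eq hO (hb ▸ hf) h3e hl2 hyℓ (hyx _).symm)
  have hNbG : Nb.card ≤ G.card := by
    apply Finset.card_le_card_of_forall_subsingleton
      (fun (p : Fin K × Fin K) (ℓ : L) => On h ℓ (x p.1) ∧ On h ℓ (x p.2) ∧ nH h S (Sum.inl ℓ) < L₀)
    · exact hgood
    · intro ℓ _ p hp p' hp'
      simp only [Set.mem_ofPred_eq] at hp hp'
      obtain ⟨hp1, hpa, hpb, hpoor⟩ := hp
      obtain ⟨hp1', hpa', hpb', -⟩ := hp'
      have hlt : p.1 < p.2 := by simpa [pairs, hNb] using (mem_filter.1 hp1).1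
      have hlt' : p'.1 < p'.2 := by simpa [pairs, hNb] using (mem_filter.1 hp1').1
      by_contra hne
      by_cases h1 : p.1 = p'.1
      · have h2 : p.2 ≠ p'.2 := fun e => hne (Prod.ext h1 e)
        exact hT4 p.1 p.2 p'.2 (ne_of_lt hlt) (h1 ▸ ne_of_lt hlt') h2 ℓ hpoor hpa hpb hpb'
      · by_cases h2 : p'.1 = p.2
        · have h3 : p.2 ≠ p'.2 := h2 ▸ ne_of_lt hlt'
          have h4 : p.1 ≠ p'.2 := ne_of_lt (hlt.trans (h2 ▸ hlt'))
          exact hT4 p.1 p.2 p'.2 (ne_of_lt hlt) h4 h3 ℓ hpoor hpa hpb hpb'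
        · exact hT4 p.1 p.2 p'.1 (ne_of_lt hlt) h1 (Ne.symm h2) ℓ hpoor hpa hpb hpa'
  have hGB : (G.filter fun ℓ => misses h ℓ Z).card ≤ Bd.card := by
    apply Finset.card_le_card_of_forall_subsingleton
      (fun (ℓ : L) (p : Fin K × Fin K) => On h ℓ (x p.1) ∧ On h ℓ (x p.2))
    · intro ℓ hℓ
      obtain ⟨hℓG, hℓm⟩ := mem_filter.1 hℓ
      have hsp : ℓ ∈ spanned h S' := (mem_filter.1 hℓG).1
      obtain ⟨c, d, hcd, hc, hd⟩ := hspan ℓ hsp
      rcases lt_or_gt_of_ne hcd with hlt | hlt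
      · refine ⟨(c, d), mem_filter.2 ⟨by simp [pairs, hlt], ?_⟩, hc, hd⟩
        exact ⟨fun e => hcd (hinj e), Or.inr (Or.inr ⟨ℓ, hℓm, hc, hd⟩)⟩
      · refine ⟨(d, c), mem_filter.2 ⟨by simp [pairs, hlt], ?_⟩, hd, hc⟩
        exact ⟨fun e => hcd (hinj e.symm), Or.inr (Or.inr ⟨ℓ, hℓm, hd, hc⟩)⟩
    · intro p hp ℓ hℓ ℓ' hℓ'
      simp only [Set.mem_ofPred_eq] at hℓ hℓ'
      have hlt : p.1 < p.2 := by simpa [pairs, hBd] using (mem_filter.1 hp).1
      exact line_eq hO hℓ.2.1 hℓ.2.2 hℓ'.2.1 hℓ'.2.2 (fun e => (ne_of_lt hlt) (hinj e))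
  have hcp := card_pairs K
  have hK2 : 24 * K ^ 2 ≤ 29 * (K * (K - 1)) := by
    obtain ⟨m, rfl⟩ : ∃ m, K = m + 1 := ⟨K - 1, by omega⟩
    simp only [Nat.add_sub_cancel]
    have hm : 5 ≤ m := by omega
    nlinarith
  have h2K : 2 * K ^ 2 ≤ 5 * G.card := by
    have h1 : 30 * Bd.card < (pairs K).card := hB
    have h3 : Nb.card ≤ G.card := hNbG
    omega
  have hfin := hP2 S' hS'card hdisj h2K
  have h1 : 30 * Bd.card < (pairs K).card := hB
  have h4 : G.card ≤ 20 * (G.filter fun ℓ => misses h ℓ Z).card := hfin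
  omega

/-! ### Part (b): counting bad pairs -/

lemma card_filter_prod {α β : Type*} (s : Finset α) (t : Finset β) (r : α → β → Prop)
    [DecidablePred fun p : α × β => r p.1 p.2] [∀ x, DecidablePred (r x)] :
    ((s ×ˢ t).filter fun p => r p.1 p.2).card = ∑ x ∈ s, (t.filter (r x)).card := by
  simp only [Finset.card_filter, Finset.sum_product]

open Classical in
lemma card_bad_le (Z S S₁ : Finset (P × V)) (hS₁ : S₁ ⊆ S) (hB : Blocks h S Z) (L₀ : ℕ) :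
    (((S₁ ×ˢ S₁).filter fun p => BadPair h S Z L₀ p.1 p.2).card : ℝ) ≤
      ∑ x ∈ S₁, (Wt h S L₀ x : ℝ) + S₁.card * L₀ +
        L₀ * ∑ ℓ ∈ Rset h Z, ((nH h S (Sum.inl ℓ) : ℝ) - 1) := by
  set T₁ := (S₁ ×ˢ S₁).filter
    (fun p => (fun u v : P × V => ∃ ℓ : L ⊕ P, OnH h ℓ u ∧ OnH h ℓ v ∧ L₀ ≤ nH h S ℓ) p.1 p.2) with hT₁
  set T₂ := (S₁ ×ˢ S₁).filter
    (fun p => (fun u v : P × V => u.1 = v.1 ∧ nH h S (Sum.inr u.1) < L₀) p.1 p.2) with hT₂
  set T₃ := ((Rset h Z).filter fun ℓ => nH h S (Sum.inl ℓ) < L₀).biUnion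
    (fun ℓ => (S.filter (On h ℓ)).offDiag) with hT₃
  have hsub : ((S₁ ×ˢ S₁).filter fun p => BadPair h S Z L₀ p.1 p.2) ⊆ T₁ ∪ T₂ ∪ T₃ := by
    intro p hp
    obtain ⟨hp1, hne, hp2⟩ := mem_filter.1 hp
    obtain ⟨hpa, hpb⟩ := mem_product.1 hp1
    by_cases hrich : ∃ ℓ : L ⊕ P, OnH h ℓ p.1 ∧ OnH h ℓ p.2 ∧ L₀ ≤ nH h S ℓ
    · exact mem_union_left _ (mem_union_left _ (mem_filter.2 ⟨hp1, hrich⟩))
    push Not at hrich
    rcases hp2 with hp2 | hp2 | hp2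
    · exact absurd hp2 (by push Not; exact hrich)
    · refine mem_union_left _ (mem_union_right _ (mem_filter.2 ⟨hp1, hp2, ?_⟩))
      exact hrich (Sum.inr p.1.1) rfl hp2.symm
    · obtain ⟨ℓ, hm, h1, h2⟩ := hp2
      refine mem_union_right _ (mem_biUnion.2 ⟨ℓ, ?_, ?_⟩)
      · exact mem_filter.2 ⟨by simpa [Rset] using hm, hrich (Sum.inl ℓ) h1 h2⟩
      · exact mem_offDiag.2 ⟨mem_filter.2 ⟨hS₁ hpa, h1⟩, mem_filter.2 ⟨hS₁ hpb, h2⟩, hne⟩
  have hc1 : (T₁.card : ℝ) ≤ ∑ x ∈ S₁, (Wt h S L₀ x : ℝ) := by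
    rw [hT₁, card_filter_prod S₁ S₁ (fun u v : P × V => ∃ ℓ : L ⊕ P, OnH h ℓ u ∧ OnH h ℓ v ∧ L₀ ≤ nH h S ℓ)]
    push_cast
    apply Finset.sum_le_sum
    intro x hx
    have h2 : (S₁.filter (fun v => ∃ ℓ : L ⊕ P, OnH h ℓ x ∧ OnH h ℓ v ∧ L₀ ≤ nH h S ℓ)) ⊆
        (univ.filter (fun ℓ : L ⊕ P => OnH h ℓ x ∧ L₀ ≤ nH h S ℓ)).biUnion
          (fun ℓ => S.filter (OnH h ℓ)) := by
      intro v hv
      obtain ⟨hv1, ℓ, h1, h2, h3⟩ := mem_filter.1 hv
      exact mem_biUnion.2 ⟨ℓ, by simp [h1, h3], mem_filter.2 ⟨hS₁ hv1, h2⟩⟩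
    have h3 := (Finset.card_le_card h2).trans Finset.card_biUnion_le
    have h4 : (S₁.filter (fun v => ∃ ℓ : L ⊕ P, OnH h ℓ x ∧ OnH h ℓ v ∧ L₀ ≤ nH h S ℓ)).card ≤
        Wt h S L₀ x := h3
    exact_mod_cast h4
  have hc2 : (T₂.card : ℝ) ≤ S₁.card * L₀ := by
    rw [hT₂, card_filter_prod S₁ S₁ (fun u v : P × V => u.1 = v.1 ∧ nH h S (Sum.inr u.1) < L₀)]
    have : ∑ x ∈ S₁, (S₁.filter (fun v => x.1 = v.1 ∧ nH h S (Sum.inr x.1) < L₀)).card ≤
        ∑ _x ∈ S₁, L₀ := by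
      apply Finset.sum_le_sum
      intro x _
      by_cases hpoor : nH h S (Sum.inr x.1) < L₀
      · have h2 : (S₁.filter (fun v => x.1 = v.1 ∧ nH h S (Sum.inr x.1) < L₀)) ⊆
            S.filter (OnH h (Sum.inr x.1)) := by
          intro v hv
          obtain ⟨hv1, hv2, -⟩ := mem_filter.1 hv
          exact mem_filter.2 ⟨hS₁ hv1, hv2.symm⟩
        exact (Finset.card_le_card h2).trans hpoor.le
      · rw [Finset.filter_false_of_mem (fun v _ => fun hc => hpoor hc.2)]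
        simp
    rw [Finset.sum_const, smul_eq_mul] at this
    exact_mod_cast this
  have hc3 : (T₃.card : ℝ) ≤ L₀ * ∑ ℓ ∈ Rset h Z, ((nH h S (Sum.inl ℓ) : ℝ) - 1) := by
    have h1 : (T₃.card : ℝ) ≤ ∑ ℓ ∈ (Rset h Z).filter (fun ℓ => nH h S (Sum.inl ℓ) < L₀),
        (((S.filter (On h ℓ)).offDiag).card : ℝ) := by
      exact_mod_cast Finset.card_biUnion_le
    refine h1.trans ?_
    rw [Finset.mul_sum]
    have hterm : ∀ ℓ ∈ Rset h Z, (0:ℝ) ≤ L₀ * ((nH h S (Sum.inl ℓ) : ℝ) - 1) := by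
      intro ℓ hℓ
      have := one_le_nH_of_mem hB hℓ
      have h3 : (1:ℝ) ≤ nH h S (Sum.inl ℓ) := by exact_mod_cast this
      have h4 : (0:ℝ) ≤ L₀ := by positivity
      exact mul_nonneg h4 (by linarith)
    calc _ ≤ ∑ ℓ ∈ (Rset h Z).filter (fun ℓ => nH h S (Sum.inl ℓ) < L₀),
          (L₀ * ((nH h S (Sum.inl ℓ) : ℝ) - 1)) := by
          apply Finset.sum_le_sum
          intro ℓ hℓ
          obtain ⟨hℓ1, hℓ2⟩ := mem_filter.1 hℓ
          have h5 := one_le_nH_of_mem hB hℓ1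
          rw [Finset.offDiag_card, ← nH_inl]
          have h6 : (1:ℝ) ≤ nH h S (Sum.inl ℓ) := by exact_mod_cast h5
          have h7 : (nH h S (Sum.inl ℓ) : ℝ) ≤ L₀ := by exact_mod_cast hℓ2.le
          have h8 : nH h S (Sum.inl ℓ) ≤ nH h S (Sum.inl ℓ) * nH h S (Sum.inl ℓ) :=
            Nat.le_mul_self _
          rw [Nat.cast_sub h8]
          push_cast
          nlinarith
      _ ≤ _ := Finset.sum_le_sum_of_subset_of_nonneg (Finset.filter_subset _ _)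
          (fun ℓ hℓ _ => hterm ℓ hℓ)
  have hcard := Finset.card_le_card hsub
  have hu : (T₁ ∪ T₂ ∪ T₃).card ≤ T₁.card + T₂.card + T₃.card :=
    (Finset.card_union_le _ _).trans (by
      have := Finset.card_union_le T₁ T₂
      omega)
  have hcr : (((S₁ ×ˢ S₁).filter fun p => BadPair h S Z L₀ p.1 p.2).card : ℝ) ≤
      (T₁.card : ℝ) + T₂.card + T₃.card := by
    exact_mod_cast hcard.trans hu
  linarith

/-! ### Part (c): sampling -/

section Sample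

variable {ι X : Type*} [Fintype ι] [DecidableEq ι] [Fintype X] [Nonempty X]

/-- Conditioning on all coordinates but one. -/
lemma Pr_le_of_update (E : (ι → X) → Prop) (k : ι) (m : ℝ)
    (hm : ∀ ω, Pr (fun x => E (Function.update ω k x)) ≤ m) : Pr E ≤ m := by
  classical
  rw [Pr_eq_Ex, Ex_update _ k]
  have hne : Nonempty (ι → X) := inferInstance
  calc _ ≤ Ex (fun _ : ι → X => m) := Ex_mono (fun ω => by
        have h1 := hm ω
        rw [Pr_eq_Ex] at h1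
        exact h1)
    _ = m := Ex_const m

open Classical in
lemma Pr_le_of_count (E : (ι → X) → Prop) (k : ι) (m : ℕ)
    (hm : ∀ ω, (univ.filter fun x => E (Function.update ω k x)).card ≤ m) :
    Pr E ≤ (m : ℝ) / Fintype.card X := by
  apply Pr_le_of_update E k
  intro ω
  rw [Pr_eq_card]
  apply div_le_div_of_nonneg_right _ (by positivity)
  exact_mod_cast hm ω

/-- The law of two distinct coordinates. -/
lemma Ex_pair (j k : ι) (hjk : j ≠ k) (g : X → X → ℝ) :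
    Ex (fun ω : ι → X => g (ω j) (ω k)) = (∑ x, ∑ y, g x y) / (Fintype.card X : ℝ) ^ 2 := by
  have hX : (Fintype.card X : ℝ) ≠ 0 := by exact_mod_cast Fintype.card_ne_zero
  rw [Ex_update _ j]
  have h1 : ∀ ω : ι → X, (∑ x, g (Function.update ω j x j) (Function.update ω j x k)) / Fintype.card X
      = (∑ x, g x (ω k)) / Fintype.card X := by
    intro ω
    congr 1
    apply Finset.sum_congr rfl
    intro x _
    rw [Function.update_self, Function.update_of_ne (Ne.symm hjk)]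
  simp only [h1]
  rw [Ex_update _ k]
  simp only [Function.update_self]
  rw [Ex_const]
  rw [← Finset.sum_div, div_div, sq, Finset.sum_comm]

open Classical in
/-- Markov for the number of bad pairs. -/
lemma Pr_many_bad (Bad : X → X → Prop) (K : ℕ) (n : ℝ)
    (hn : ((univ.filter fun p : X × X => Bad p.1 p.2).card : ℝ) ≤ n)
    (hK : 0 < (pairs K).card) :
    Pr (fun ω : Fin K → X =>
        (pairs K).card ≤ 30 * ((pairs K).filter fun p => Bad (ω p.1) (ω p.2)).card) ≤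
      30 * n / (Fintype.card X : ℝ) ^ 2 := by
  have hX : (0:ℝ) < Fintype.card X := by exact_mod_cast Fintype.card_pos
  have hN : (0:ℝ) < (pairs K).card := by exact_mod_cast hK
  let f : (Fin K → X) → ℝ := fun ω => (((pairs K).filter fun p => Bad (ω p.1) (ω p.2)).card : ℝ)
  have hf : ∀ ω, 0 ≤ f ω := fun ω => by positivity
  have hEx : Ex f ≤ (pairs K).card * (n / (Fintype.card X : ℝ) ^ 2) := by
    have h1 : f = fun ω => ∑ p ∈ pairs K, (if Bad (ω p.1) (ω p.2) then (1:ℝ) else 0) := by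
      funext ω
      simp [f, Finset.sum_boole]
    rw [h1, Ex_sum]
    have h2 : ∀ p ∈ pairs K, Ex (fun ω : Fin K → X => if Bad (ω p.1) (ω p.2) then (1:ℝ) else 0) ≤
        n / (Fintype.card X : ℝ) ^ 2 := by
      intro p hp
      have hlt : p.1 < p.2 := by simpa [pairs] using hp
      rw [Ex_pair p.1 p.2 (ne_of_lt hlt) (fun x y => if Bad x y then (1:ℝ) else 0)]
      apply div_le_div_of_nonneg_right _ (by positivity)
      refine le_trans (le_of_eq ?_) hn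
      rw [← Finset.univ_product_univ, Finset.card_filter]
      push_cast
      rw [Finset.sum_product]
    calc _ ≤ ∑ _p ∈ pairs K, (n / (Fintype.card X : ℝ) ^ 2) := Finset.sum_le_sum h2
      _ = _ := by rw [Finset.sum_const, nsmul_eq_mul]
  have hsub : Pr (fun ω : Fin K → X =>
        (pairs K).card ≤ 30 * ((pairs K).filter fun p => Bad (ω p.1) (ω p.2)).card) ≤
      Pr (fun ω => ((pairs K).card : ℝ) / 30 ≤ f ω) := by
    apply Pr_mono
    intro ω hω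
    have : ((pairs K).card : ℝ) ≤ 30 * f ω := by
      simp only [f]
      exact_mod_cast hω
    linarith
  refine hsub.trans ((markov hf (by positivity)).trans ?_)
  rw [div_le_iff₀ (by positivity)]
  calc Ex f ≤ _ := hEx
    _ = _ := by field_simp

end Sample

section Poor

variable {S₁ : Finset (P × V)} {ι : Type*} [Fintype ι] [DecidableEq ι]

/-- If all the possible values of coordinate `k` lie on one poor line, conditioning gives `L₀/s₁`. -/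
lemma Pr_poor_line [Nonempty {x // x ∈ S₁}] (S : Finset (P × V)) (hS₁ : S₁ ⊆ S) (L₀ : ℕ)
    (E : (ι → {x // x ∈ S₁}) → Prop) (k : ι)
    (H : ∀ ω v, E (Function.update ω k v) → ∃ ℓ : L, nH h S (Sum.inl ℓ) < L₀ ∧
      ∀ v', E (Function.update ω k v') → On h ℓ (v' : P × V)) :
    Pr E ≤ (L₀ : ℝ) / S₁.card := by
  classical
  rw [← Fintype.card_coe S₁]
  apply Pr_le_of_count E k L₀
  intro ω
  by_cases hex : ∃ v, E (Function.update ω k v)
  · obtain ⟨v, hv⟩ := hex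
    obtain ⟨ℓ, hpoor, hℓ⟩ := H ω v hv
    have h1 : (univ.filter fun x => E (Function.update ω k x)).card ≤ (S.filter (On h ℓ)).card := by
      apply Finset.card_le_card_of_injOn (Subtype.val : {x // x ∈ S₁} → P × V)
      · intro v' hv'
        have hv'' : E (Function.update ω k v') := by simpa using hv'
        exact mem_filter.2 ⟨hS₁ v'.2, hℓ v' hv''⟩
      · intro a _ b _ hab
        exact Subtype.ext hab
    rw [nH_inl] at hpoor
    omega
  · push Not at hex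
    rw [Finset.filter_false_of_mem (fun v _ => hex v)]
    simp

end Poor

section Events

variable {S₁ : Finset (P × V)} {K : ℕ}

/-- Three samples on a poor line. -/
def E4 (h : L → P → V) (S : Finset (P × V)) (L₀ : ℕ) (x : Fin K → P × V) (j k l : Fin K) : Prop :=
  x j ≠ x k ∧ ∃ ℓ : L, nH h S (Sum.inl ℓ) < L₀ ∧ On h ℓ (x j) ∧ On h ℓ (x k) ∧ On h ℓ (x l)

/-- A poor spanned line through a triple point of two other spanned lines. -/
def E5 (h : L → P → V) (S : Finset (P × V)) (L₀ : ℕ) (x : Fin K → P × V) (a b c d e f : Fin K) :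
    Prop :=
  x c ≠ x d ∧ x e ≠ x f ∧ ∃ (ℓ₁ ℓ₂ ℓ₃ : L) (y : P × V), nH h S (Sum.inl ℓ₁) < L₀ ∧
    On h ℓ₁ (x a) ∧ On h ℓ₁ (x b) ∧ On h ℓ₂ (x c) ∧ On h ℓ₂ (x d) ∧ On h ℓ₃ (x e) ∧ On h ℓ₃ (x f) ∧
    On h ℓ₁ y ∧ On h ℓ₂ y ∧ On h ℓ₃ y ∧ ℓ₂ ≠ ℓ₃ ∧ y ≠ x a

lemma Pr_E4 [Nonempty {x // x ∈ S₁}] (hO : OA q h) (S : Finset (P × V)) (hS₁ : S₁ ⊆ S) (L₀ : ℕ)
    (j k l : Fin K) (hjl : j ≠ l) (hkl : k ≠ l) :
    Pr (fun ω : Fin K → {x // x ∈ S₁} => E4 h S L₀ (fun t => (ω t : P × V)) j k l) ≤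
      (L₀ : ℝ) / S₁.card := by
  apply Pr_poor_line (h := h) S hS₁ L₀ _ l
  rintro ω v ⟨hne, ℓ, hpoor, h1, h2, h3⟩
  simp only [Function.update_of_ne hjl, Function.update_of_ne hkl, Function.update_self] at hne h1 h2 h3
  refine ⟨ℓ, hpoor, ?_⟩
  rintro v' ⟨-, ℓ', -, h1', h2', h3'⟩
  simp only [Function.update_of_ne hjl, Function.update_of_ne hkl, Function.update_self] at h1' h2' h3'
  have : ℓ' = ℓ := line_eq hO h1' h2' h1 h2 hne
  rw [← this]
  exact h3'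

lemma Pr_E5 [Nonempty {x // x ∈ S₁}] (hO : OA q h) (S : Finset (P × V)) (hS₁ : S₁ ⊆ S) (L₀ : ℕ)
    (a b c d e f : Fin K) (hab : a ≠ b) (hcb : c ≠ b) (hdb : d ≠ b) (heb : e ≠ b) (hfb : f ≠ b) :
    Pr (fun ω : Fin K → {x // x ∈ S₁} => E5 h S L₀ (fun t => (ω t : P × V)) a b c d e f) ≤
      (L₀ : ℝ) / S₁.card := by
  apply Pr_poor_line (h := h) S hS₁ L₀ _ b
  rintro ω v ⟨hcd, hef, ℓ₁, ℓ₂, ℓ₃, y, hpoor, h1, h2, h3, h4, h5, h6, h7, h8, h9, h10, h11⟩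
  simp only [Function.update_of_ne hab, Function.update_of_ne hcb, Function.update_of_ne hdb, Function.update_of_ne heb, Function.update_of_ne hfb, Function.update_self] at hcd hef h1 h2 h3 h4 h5 h6 h11
  refine ⟨ℓ₁, hpoor, ?_⟩
  rintro v' ⟨-, -, ℓ₁', ℓ₂', ℓ₃', y', -, h1', h2', h3', h4', h5', h6', h7', h8', h9', -, h11'⟩
  simp only [Function.update_of_ne hab, Function.update_of_ne hcb, Function.update_of_ne hdb, Function.update_of_ne heb, Function.update_of_ne hfb, Function.update_self] at h1' h2' h3' h4' h5' h6' h11'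
  have e2 : ℓ₂' = ℓ₂ := line_eq hO h3' h4' h3 h4 hcd
  have e3 : ℓ₃' = ℓ₃ := line_eq hO h5' h6' h5 h6 hef
  rw [e2] at h8'
  rw [e3] at h9'
  have ey : y' = y := by
    by_contra hne
    exact h10 (line_eq hO h8' h8 h9' h9 hne)
  rw [ey] at h7' h11'
  have e1 : ℓ₁' = ℓ₁ := line_eq hO h1' h7' h1 h7 h11.symm
  rw [← e1]
  exact h2'

lemma Pr_eq_coord [Nonempty {x // x ∈ S₁}] (j k : Fin K) (hjk : j ≠ k) :
    Pr (fun ω : Fin K → {x // x ∈ S₁} => ω j = ω k) ≤ (1 : ℝ) / S₁.card := by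
  classical
  rw [← Fintype.card_coe S₁]
  have := Pr_le_of_count (ι := Fin K) (X := {x // x ∈ S₁}) (fun ω => ω j = ω k) k 1 (by
    intro ω
    rw [Finset.card_le_one]
    intro a ha b hb
    simp only [mem_filter, mem_univ, true_and, Function.update_self,
      Function.update_of_ne hjk] at ha hb
    rw [← ha, ← hb])
  simpa using this

open Classical in
/-- The sampling argument: bad pairs are rare ⇒ contradiction. -/
theorem sample_false (hO : OA q h) (Z S S₁ : Finset (P × V)) (hS₁ : S₁ ⊆ S) (hZ : Disjoint S₁ Z)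
    (L₀ K s₁ : ℕ) (hs₁ : S₁.card = s₁) (hP2 : P2good h K Z) (hK : 6 ≤ K)
    (hK₂ : 1000 * K ^ 6 * L₀ ≤ s₁) (hK₃ : 1000 * K ^ 2 ≤ s₁)
    (hbad : (((S₁ ×ˢ S₁).filter fun p => BadPair h S Z L₀ p.1 p.2).card : ℝ) ≤
      (s₁ : ℝ) ^ 2 / 100 + s₁ * L₀) : False := by
  have hKpos : 0 < K := by omega
  have hs₁pos : 0 < s₁ := by
    have : 0 < K ^ 2 := by positivity
    omega
  have hs : (0:ℝ) < s₁ := by exact_mod_cast hs₁pos
  have : Nonempty {x // x ∈ S₁} := by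
    have : S₁.Nonempty := Finset.card_pos.1 (by omega)
    exact this.to_subtype
  have hcardX : (Fintype.card {x // x ∈ S₁} : ℝ) = s₁ := by
    rw [Fintype.card_coe, hs₁]
  let Ω := Fin K → {x // x ∈ S₁}
  let X : Ω → (Fin K → P × V) := fun ω t => (ω t : P × V)
  -- the four bad events
  let Tri : Finset (Fin K × Fin K × Fin K) := univ.filter fun t =>
    t.1 ≠ t.2.1 ∧ t.1 ≠ t.2.2 ∧ t.2.1 ≠ t.2.2
  let Six : Finset (Fin K × Fin K × Fin K × Fin K × Fin K × Fin K) := univ.filter fun t =>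
    t.1 ≠ t.2.1 ∧ t.2.2.1 ≠ t.2.1 ∧ t.2.2.2.1 ≠ t.2.1 ∧ t.2.2.2.2.1 ≠ t.2.1 ∧ t.2.2.2.2.2 ≠ t.2.1
  let Bad : {x // x ∈ S₁} → {x // x ∈ S₁} → Prop :=
    fun u v => BadPair h S Z L₀ (u : P × V) (v : P × V)
  have hTri : (Tri.card : ℝ) ≤ (K : ℝ) ^ 3 := by
    have : Tri.card ≤ K ^ 3 := by
      refine (Finset.card_le_univ _).trans (le_of_eq ?_)
      simp [Fintype.card_prod]
      ring
    exact_mod_cast this
  have hSix : (Six.card : ℝ) ≤ (K : ℝ) ^ 6 := by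
    have : Six.card ≤ K ^ 6 := by
      refine (Finset.card_le_univ _).trans (le_of_eq ?_)
      simp [Fintype.card_prod]
      ring
    exact_mod_cast this
  have hOff : (((univ : Finset (Fin K)).offDiag).card : ℝ) ≤ (K : ℝ) ^ 2 := by
    have : ((univ : Finset (Fin K)).offDiag).card ≤ K ^ 2 := by
      rw [Finset.offDiag_card]
      simp only [Finset.card_univ, Fintype.card_fin]
      rw [sq]
      omega
    exact_mod_cast this
  have hp1 : Pr (fun ω : Ω => ∃ p ∈ (univ : Finset (Fin K)).offDiag, ω p.1 = ω p.2) ≤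
      (K : ℝ) ^ 2 * (1 / s₁) := by
    refine (Pr_exists_le_card _ _ ((1:ℝ) / s₁) ?_).trans ?_
    · intro p hp
      have := Pr_eq_coord (S₁ := S₁) p.1 p.2 (mem_offDiag.1 hp).2.2
      rwa [hs₁] at this
    · exact mul_le_mul_of_nonneg_right hOff (by positivity)
  have hp4 : Pr (fun ω : Ω => ∃ t ∈ Tri, E4 h S L₀ (X ω) t.1 t.2.1 t.2.2) ≤
      (K : ℝ) ^ 3 * ((L₀ : ℝ) / s₁) := by
    refine (Pr_exists_le_card _ _ ((L₀ : ℝ) / s₁) ?_).trans ?_
    · intro t ht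
      have ht' : t.1 ≠ t.2.1 ∧ t.1 ≠ t.2.2 ∧ t.2.1 ≠ t.2.2 := by simpa [Tri] using ht
      have := Pr_E4 (S₁ := S₁) hO S hS₁ L₀ t.1 t.2.1 t.2.2 ht'.2.1 ht'.2.2
      rwa [hs₁] at this
    · exact mul_le_mul_of_nonneg_right hTri (by positivity)
  have hp5 : Pr (fun ω : Ω => ∃ t ∈ Six, E5 h S L₀ (X ω) t.1 t.2.1 t.2.2.1 t.2.2.2.1 t.2.2.2.2.1 t.2.2.2.2.2) ≤
      (K : ℝ) ^ 6 * ((L₀ : ℝ) / s₁) := by
    refine (Pr_exists_le_card _ _ ((L₀ : ℝ) / s₁) ?_).trans ?_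
    · intro t ht
      have ht' : t.1 ≠ t.2.1 ∧ t.2.2.1 ≠ t.2.1 ∧ t.2.2.2.1 ≠ t.2.1 ∧ t.2.2.2.2.1 ≠ t.2.1 ∧
          t.2.2.2.2.2 ≠ t.2.1 := by simpa [Six] using ht
      have := Pr_E5 (S₁ := S₁) hO S hS₁ L₀ t.1 t.2.1 t.2.2.1 t.2.2.2.1 t.2.2.2.2.1 t.2.2.2.2.2
        ht'.1 ht'.2.1 ht'.2.2.1 ht'.2.2.2.1 ht'.2.2.2.2
      rwa [hs₁] at this
    · exact mul_le_mul_of_nonneg_right hSix (by positivity)
  have hNpos : 0 < (pairs K).card := by
    have h1 := card_pairs K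
    have h2 : 0 < K * (K - 1) := Nat.mul_pos hKpos (by omega)
    omega
  have hn : ((univ.filter fun p : {x // x ∈ S₁} × {x // x ∈ S₁} => Bad p.1 p.2).card : ℝ) ≤
      (s₁ : ℝ) ^ 2 / 100 + s₁ * L₀ := by
    refine le_trans ?_ hbad
    have : (univ.filter fun p : {x // x ∈ S₁} × {x // x ∈ S₁} => Bad p.1 p.2).card ≤
        ((S₁ ×ˢ S₁).filter fun p => BadPair h S Z L₀ p.1 p.2).card := by
      apply Finset.card_le_card_of_injOn (fun p => ((p.1 : P × V), (p.2 : P × V)))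
      · intro p hp
        have hp' : Bad p.1 p.2 := by simpa using hp
        exact mem_filter.2 ⟨mem_product.2 ⟨p.1.2, p.2.2⟩, hp'⟩
      · intro a _ b _ hab
        simp only [Prod.mk.injEq] at hab
        exact Prod.ext (Subtype.ext hab.1) (Subtype.ext hab.2)
    exact_mod_cast this
  have hp2 := Pr_many_bad Bad K _ hn hNpos
  rw [hcardX] at hp2
  -- numerics
  have hK0 : (1:ℝ) ≤ K := by exact_mod_cast (by omega : 1 ≤ K)
  have hK3 : (K:ℝ) ^ 3 ≤ (K:ℝ) ^ 6 := pow_le_pow_right₀ hK0 (by norm_num)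
  have hK1 : (1:ℝ) ≤ (K:ℝ) ^ 6 := one_le_pow₀ hK0
  have hL0 : (0:ℝ) ≤ L₀ := by positivity
  have hK₂' : 1000 * (K:ℝ) ^ 6 * L₀ ≤ s₁ := by exact_mod_cast hK₂
  have hK₃' : 1000 * (K:ℝ) ^ 2 ≤ s₁ := by exact_mod_cast hK₃
  have hq2 : (K:ℝ) ^ 2 * (1 / s₁) ≤ 1 / 1000 := by
    rw [mul_one_div, div_le_div_iff₀ hs (by norm_num)]
    linarith
  have hq6 : (K:ℝ) ^ 6 * ((L₀:ℝ) / s₁) ≤ 1 / 1000 := by
    rw [← mul_div_assoc, div_le_div_iff₀ hs (by norm_num)]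
    linarith
  have hr : 0 ≤ (L₀:ℝ) / s₁ := by positivity
  have hq3 : (K:ℝ) ^ 3 * ((L₀:ℝ) / s₁) ≤ 1 / 1000 :=
    (mul_le_mul_of_nonneg_right hK3 hr).trans hq6
  have hq1 : (L₀:ℝ) / s₁ ≤ 1 / 1000 := by
    refine le_trans ?_ hq6
    nlinarith
  have hq7 : 30 * ((s₁ : ℝ) ^ 2 / 100 + s₁ * L₀) / (s₁ : ℝ) ^ 2 = 3 / 10 + 30 * ((L₀:ℝ) / s₁) := by
    field_simp
    ring
  rw [hq7] at hp2
  -- a good sample exists
  have hfail : Pr (fun ω : Ω => ¬ (¬ (∃ p ∈ (univ : Finset (Fin K)).offDiag, ω p.1 = ω p.2) ∧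
      ¬ (∃ t ∈ Tri, E4 h S L₀ (X ω) t.1 t.2.1 t.2.2) ∧
      ¬ (∃ t ∈ Six, E5 h S L₀ (X ω) t.1 t.2.1 t.2.2.1 t.2.2.2.1 t.2.2.2.2.1 t.2.2.2.2.2) ∧
      ¬ ((pairs K).card ≤ 30 * ((pairs K).filter fun p => Bad (ω p.1) (ω p.2)).card))) < 1 := by
    refine lt_of_le_of_lt (Pr_mono (F := fun ω : Ω =>
      (∃ p ∈ (univ : Finset (Fin K)).offDiag, ω p.1 = ω p.2) ∨
      ((∃ t ∈ Tri, E4 h S L₀ (X ω) t.1 t.2.1 t.2.2) ∨
      ((∃ t ∈ Six, E5 h S L₀ (X ω) t.1 t.2.1 t.2.2.1 t.2.2.2.1 t.2.2.2.2.1 t.2.2.2.2.2) ∨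
      ((pairs K).card ≤ 30 * ((pairs K).filter fun p => Bad (ω p.1) (ω p.2)).card)))) ?_) ?_
    · intro ω hω
      by_contra hc
      apply hω
      simp only [not_or] at hc
      exact hc
    · refine lt_of_le_of_lt (Pr_or_le _ _) ?_
      have h1 := Pr_or_le (fun ω : Ω => ∃ t ∈ Tri, E4 h S L₀ (X ω) t.1 t.2.1 t.2.2)
        (fun ω : Ω => (∃ t ∈ Six, E5 h S L₀ (X ω) t.1 t.2.1 t.2.2.1 t.2.2.2.1 t.2.2.2.2.1 t.2.2.2.2.2) ∨
          ((pairs K).card ≤ 30 * ((pairs K).filter fun p => Bad (ω p.1) (ω p.2)).card))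
      have h2 := Pr_or_le (fun ω : Ω => ∃ t ∈ Six, E5 h S L₀ (X ω) t.1 t.2.1 t.2.2.1 t.2.2.2.1 t.2.2.2.2.1 t.2.2.2.2.2)
        (fun ω : Ω => (pairs K).card ≤ 30 * ((pairs K).filter fun p => Bad (ω p.1) (ω p.2)).card)
      linarith
  obtain ⟨ω, h1, h4, h5, h2⟩ := exists_of_Pr_not_lt_one hfail
  have hinj : Function.Injective (X ω) := by
    intro a b hab
    by_contra hne
    apply h1
    refine ⟨(a, b), mem_offDiag.2 ⟨mem_univ _, mem_univ _, hne⟩, ?_⟩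
    exact Subtype.ext hab
  refine sample_contra hO Z S L₀ K hP2 hK (X ω) hinj ?_ ?_ ?_ ?_
  · intro j hj
    exact (Finset.disjoint_left.1 hZ) (ω j).2 hj
  · intro j k l hjk hjl hkl ℓ hpoor hj hk hl
    apply h4
    exact ⟨(j, k, l), by simp [Tri, hjk, hjl, hkl],
      fun e => hjk (hinj e), ℓ, hpoor, hj, hk, hl⟩
  · intro a b c d e f hab hbc hbd hbe hbf hcd hef ℓ₁ ℓ₂ ℓ₃ y hpoor ha hb hc hd he hf hy1 hy2 hy3 hne hya
    apply h5
    exact ⟨(a, b, c, d, e, f), by simp [Six, hab, hbc.symm, hbd.symm, hbe.symm, hbf.symm],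
      hcd, hef, ℓ₁, ℓ₂, ℓ₃, y, hpoor, ha, hb, hc, hd, he, hf, hy1, hy2, hy3, hne, hya⟩
  · exact not_le.1 h2

end Events

end RichAux

/-- Lemma RICH. -/
theorem rich_bound (hO : OA q h) (Z S : Finset (P × V)) (hS : S.card = q) (hB : Blocks h S Z)
    (ρ₀ Δ : ℝ) (hE : ∀ u, |(rho h Z u : ℝ) - ρ₀| ≤ Δ) (hρ₀ : (q:ℝ) / 4 ≤ ρ₀) (hρ₀' : ρ₀ ≤ q) (hΔ : 1 ≤ Δ)
    (K : ℕ) (hP2 : P2good h K Z) (i₀ : P) (hi₀ : (Z.filter fun x => x.1 = i₀).card ≤ 1)
    (L₀ s₁ : ℕ) (β c : ℝ) (hβ : (s₁ : ℝ) + 8 * Δ + 1 ≤ β * q)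
    (hc : 200 * c * q ≤ s₁) (hL₁ : 600 * (L₀ : ℝ) * q * Δ ≤ (s₁ : ℝ) ^ 2)
    (hK : 6 ≤ K) (hK₂ : 1000 * K ^ 6 * L₀ ≤ s₁) (hK₃ : 1000 * K ^ 2 ≤ s₁) (hL₀ : 1 ≤ L₀) :
    ((S.filter fun x => (Wt h S L₀ x : ℝ) < c * q).card : ℝ) ≤ β * q := by
  classical
  by_contra hcon
  push Not at hcon
  obtain ⟨ha, hEE⟩ := RichAux.part_a hO Z S hS hB ρ₀ Δ hE hρ₀ hρ₀' hΔ i₀ hi₀
  set W := S.filter fun x => (Wt h S L₀ x : ℝ) < c * q with hW
  have hWS : W ⊆ S := Finset.filter_subset _ _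
  have h1 : s₁ ≤ (W \ Z).card := by
    have h2 := Finset.card_sdiff_add_card_inter W Z
    have h3 : (W ∩ Z).card ≤ (S ∩ Z).card :=
      Finset.card_le_card (Finset.inter_subset_inter_right hWS)
    have h4 : (s₁ : ℝ) < ((W \ Z).card : ℝ) := by
      have h5 : ((W.card : ℕ) : ℝ) = ((W \ Z).card : ℝ) + ((W ∩ Z).card : ℝ) := by
        rw [← h2]; push_cast; ring
      have h6 : ((W ∩ Z).card : ℝ) ≤ ((S ∩ Z).card : ℝ) := by exact_mod_cast h3
      linarith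
    exact_mod_cast h4.le
  obtain ⟨S₁, hS₁W, hS₁card⟩ := Finset.exists_subset_card_eq h1
  have hS₁S : S₁ ⊆ S := fun x hx => hWS (Finset.mem_sdiff.1 (hS₁W hx)).1
  have hS₁Z : Disjoint S₁ Z := by
    rw [Finset.disjoint_left]
    intro x hx
    exact (Finset.mem_sdiff.1 (hS₁W hx)).2
  have hs : (0:ℝ) ≤ s₁ := by positivity
  refine RichAux.sample_false hO Z S S₁ hS₁S hS₁Z L₀ K s₁ hS₁card hP2 hK hK₂ hK₃ ?_
  have hbad := RichAux.card_bad_le Z S S₁ hS₁S hB L₀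
  rw [hS₁card] at hbad
  have hWt : ∑ x ∈ S₁, (Wt h S L₀ x : ℝ) ≤ s₁ * (c * q) := by
    have : ∑ x ∈ S₁, (Wt h S L₀ x : ℝ) ≤ ∑ _x ∈ S₁, (c * q) := by
      apply Finset.sum_le_sum
      intro x hx
      exact (Finset.mem_filter.1 (Finset.mem_sdiff.1 (hS₁W hx)).1).2.le
    rw [Finset.sum_const, hS₁card, nsmul_eq_mul] at this
    exact this
  have hL0 : (0:ℝ) ≤ L₀ := by positivity
  have h3 : (L₀ : ℝ) * ∑ ℓ ∈ RichAux.Rset h Z, ((nH h S (Sum.inl ℓ) : ℝ) - 1) ≤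
      (s₁ : ℝ) ^ 2 / 200 := by
    have := mul_le_mul_of_nonneg_left hEE hL0
    nlinarith
  have h4 : (s₁ : ℝ) * (c * q) ≤ (s₁ : ℝ) ^ 2 / 200 := by
    nlinarith
  linarith

end Crest.Agent.Ryser
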