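import Crest.Agent.Lib.Ryser.Hat

/-!
# The sampling lemma of module SAMPLING (random colouring; Chebyshev)

Generic second moment computations for the random colouring `c : Pt → Fin D`; then `exists_sample_cont2_col`.
-/

open Finset BigOperators

namespace Crest.Agent.Ryser

namespace SamplingCol

section Moments

variable {Pt : Type*} [Fintype Pt] [DecidableEq Pt] {D : ℕ} (z : Fin D)

/-- The indicator that all of `T` has colour `z`. -/
def indT (T : Finset Pt) (c : Pt → Fin D) : ℝ := if ∀ s ∈ T, c s = z then 1 else 0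

lemma indT_nonneg (T : Finset Pt) (c : Pt → Fin D) : 0 ≤ indT z T c := by
  unfold indT; split_ifs <;> norm_num

lemma indT_mul (T T' : Finset Pt) (c : Pt → Fin D) :
    indT z T c * indT z T' c = indT z (T ∪ T') c := by
  unfold indT
  by_cases h1 : ∀ s ∈ T, c s = z
  · by_cases h2 : ∀ s ∈ T', c s = z
    · have h3 : ∀ s ∈ T ∪ T', c s = z := by
        intro s hs
        rcases Finset.mem_union.1 hs with hs | hs
        · exact h1 s hs
        · exact h2 s hs
      rw [if_pos h1, if_pos h2, if_pos h3, one_mul]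
    · have h3 : ¬ ∀ s ∈ T ∪ T', c s = z := fun h => h2 fun s hs => h s (Finset.mem_union_right _ hs)
      rw [if_neg h2, if_neg h3, mul_zero]
  · have h3 : ¬ ∀ s ∈ T ∪ T', c s = z := fun h => h1 fun s hs => h s (Finset.mem_union_left _ hs)
    rw [if_neg h1, if_neg h3, zero_mul]

/-- colour probability -/
noncomputable def pD (D : ℕ) : ℝ := (D : ℝ)⁻¹

include z in
lemma D_pos : 0 < D := Fin.pos z

lemma pD_nonneg (D : ℕ) : 0 ≤ pD D := by unfold pD; positivity

include z in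
lemma pD_le_one : pD D ≤ 1 := by
  unfold pD
  have : (1 : ℝ) ≤ D := by exact_mod_cast D_pos z
  exact inv_le_one_of_one_le₀ this

lemma Ex_indT (T : Finset Pt) : Ex (indT z T) = pD D ^ T.card := by
  haveI : Nonempty (Fin D) := ⟨z⟩
  have h1 : indT z T = fun c : Pt → Fin D =>
      ∏ s, (fun (s : Pt) (x : Fin D) => if s ∈ T then (if x = z then (1 : ℝ) else 0) else 1) s (c s) := by
    funext c
    have : ∏ s : Pt, (if s ∈ T then (if c s = z then (1 : ℝ) else 0) else 1)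
        = ∏ s ∈ T, (if c s = z then (1 : ℝ) else 0) := by
      rw [Finset.prod_ite_mem, Finset.univ_inter]
    simp only
    rw [this, Finset.prod_ite_zero]
    simp [indT]
  rw [h1, Ex_pi_prod (fun (s : Pt) (x : Fin D) => if s ∈ T then (if x = z then (1 : ℝ) else 0) else 1)]
  have h2 : ∀ s : Pt, Ex (fun x : Fin D => if s ∈ T then (if x = z then (1 : ℝ) else 0) else 1)
      = if s ∈ T then pD D else 1 := by
    intro s
    by_cases hs : s ∈ T
    · simp only [hs, if_true]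
      unfold Ex pD
      rw [Finset.sum_ite_eq']
      simp
    · simp only [hs, if_false]
      exact Ex_const 1
  simp only [h2]
  rw [Finset.prod_ite_mem, Finset.univ_inter, Finset.prod_const]

/-- sum of the indicators of a family -/
noncomputable def famX (𝒯 : Finset (Finset Pt)) (c : Pt → Fin D) : ℝ := ∑ T ∈ 𝒯, indT z T c

lemma Ex_famX (𝒯 : Finset (Finset Pt)) : Ex (famX z 𝒯) = ∑ T ∈ 𝒯, pD D ^ T.card := by
  unfold famX
  rw [Ex_sum]
  exact Finset.sum_congr rfl fun T _ => Ex_indT z T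

lemma Ex_sq_famX (𝒯 : Finset (Finset Pt)) :
    Ex (fun c => famX z 𝒯 c ^ 2) = ∑ T ∈ 𝒯, ∑ T' ∈ 𝒯, pD D ^ (T ∪ T').card := by
  have h1 : (fun c : Pt → Fin D => famX z 𝒯 c ^ 2)
      = fun c => ∑ T ∈ 𝒯, ∑ T' ∈ 𝒯, indT z (T ∪ T') c := by
    funext c
    unfold famX
    rw [sq, Finset.sum_mul_sum]
    exact Finset.sum_congr rfl fun T _ => Finset.sum_congr rfl fun T' _ => indT_mul z T T' c
  rw [h1, Ex_sum]
  refine Finset.sum_congr rfl fun T _ => ?_
  rw [Ex_sum]
  exact Finset.sum_congr rfl fun T' _ => Ex_indT z _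

/-- **Second moment.** -/
lemma var_famX (𝒯 : Finset (Finset Pt)) (K : ℝ)
    (hK : ∀ T ∈ 𝒯, ∑ T' ∈ 𝒯.filter (fun T' => ¬ Disjoint T T'), pD D ^ (T ∪ T').card
      ≤ K * pD D ^ T.card) :
    Ex (fun c => (famX z 𝒯 c - ∑ T ∈ 𝒯, pD D ^ T.card) ^ 2) ≤ K * ∑ T ∈ 𝒯, pD D ^ T.card := by
  haveI : Nonempty (Fin D) := ⟨z⟩
  set μ := ∑ T ∈ 𝒯, pD D ^ T.card with hμ
  have hp := pD_nonneg D
  have h1 : (fun c : Pt → Fin D => (famX z 𝒯 c - μ) ^ 2)
      = fun c => famX z 𝒯 c ^ 2 + (-(2 * μ) * famX z 𝒯 c + μ ^ 2) := by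
    funext c; ring
  rw [h1, Ex_add, Ex_add, Ex_const_mul, Ex_const, Ex_sq_famX, Ex_famX, ← hμ]
  have h2 : ∑ T ∈ 𝒯, ∑ T' ∈ 𝒯, pD D ^ (T ∪ T').card + (-(2 * μ) * μ + μ ^ 2)
      = ∑ T ∈ 𝒯, ∑ T' ∈ 𝒯, (pD D ^ (T ∪ T').card - pD D ^ T.card * pD D ^ T'.card) := by
    have h3 : μ ^ 2 = ∑ T ∈ 𝒯, ∑ T' ∈ 𝒯, pD D ^ T.card * pD D ^ T'.card := by
      rw [sq, hμ, Finset.sum_mul_sum]
    have h4 : ∑ T ∈ 𝒯, ∑ T' ∈ 𝒯, (pD D ^ (T ∪ T').card - pD D ^ T.card * pD D ^ T'.card)
        = ∑ T ∈ 𝒯, ∑ T' ∈ 𝒯, pD D ^ (T ∪ T').card - μ ^ 2 := by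
      rw [h3, ← Finset.sum_sub_distrib]
      exact Finset.sum_congr rfl fun T _ => by rw [Finset.sum_sub_distrib]
    rw [h4]
    ring
  rw [h2, Finset.mul_sum]
  refine Finset.sum_le_sum fun T hT => ?_
  refine le_trans ?_ (hK T hT)
  rw [Finset.sum_filter]
  refine Finset.sum_le_sum fun T' _ => ?_
  by_cases hd : Disjoint T T'
  · simp only [hd, not_true_eq_false, if_false]
    rw [Finset.card_union_of_disjoint hd, pow_add]
    simp
  · simp only [hd, not_false_eq_true, if_true]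
    have : 0 ≤ pD D ^ T.card * pD D ^ T'.card := by positivity
    linarith

/-- **Chebyshev** for a family. -/
lemma cheb_famX (𝒯 : Finset (Finset Pt)) (K : ℝ)
    (hK : ∀ T ∈ 𝒯, ∑ T' ∈ 𝒯.filter (fun T' => ¬ Disjoint T T'), pD D ^ (T ∪ T').card
      ≤ K * pD D ^ T.card) (a : ℝ) (ha : 0 < a) :
    Pr (fun c : Pt → Fin D => a ≤ |famX z 𝒯 c - ∑ T ∈ 𝒯, pD D ^ T.card|) ≤
      K * (∑ T ∈ 𝒯, pD D ^ T.card) / a ^ 2 := by
  set μ := ∑ T ∈ 𝒯, pD D ^ T.card with hμ
  calc Pr (fun c : Pt → Fin D => a ≤ |famX z 𝒯 c - μ|)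
      ≤ Pr (fun c : Pt → Fin D => a ^ 2 ≤ (famX z 𝒯 c - μ) ^ 2) := Pr_mono fun c h => by
        rw [← sq_abs (famX z 𝒯 c - μ)]
        exact pow_le_pow_left₀ ha.le h 2
    _ ≤ Ex (fun c : Pt → Fin D => (famX z 𝒯 c - μ) ^ 2) / a ^ 2 :=
        markov (fun c => sq_nonneg _) (by positivity)
    _ ≤ _ := by
        apply div_le_div_of_nonneg_right _ (by positivity)
        exact var_famX z 𝒯 K hK

/-- number of points of colour `z` in `A` -/
def mA (A : Finset Pt) (c : Pt → Fin D) : ℕ := (A.filter fun s => c s = z).card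

lemma sum_powersetCard (A : Finset Pt) (k : ℕ) (c : Pt → Fin D) :
    famX z (powersetCard k A) c = ((mA z A c).choose k : ℝ) := by
  unfold famX mA indT
  rw [Finset.sum_ite, Finset.sum_const_zero, add_zero, Finset.sum_const, nsmul_eq_mul, mul_one]
  congr 1
  rw [← Finset.card_powersetCard]
  congr 1
  ext T
  simp only [Finset.mem_filter, Finset.mem_powersetCard]
  constructor
  · rintro ⟨⟨h1, h2⟩, h3⟩
    exact ⟨fun s hs => Finset.mem_filter.2 ⟨h1 hs, h3 s hs⟩, h2⟩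
  · rintro ⟨h1, h2⟩
    exact ⟨⟨fun s hs => (Finset.mem_filter.1 (h1 hs)).1, h2⟩, fun s hs => (Finset.mem_filter.1 (h1 hs)).2⟩

lemma mean_powersetCard (A : Finset Pt) (k : ℕ) :
    ∑ T ∈ powersetCard k A, pD D ^ T.card = (A.card.choose k : ℝ) * pD D ^ k := by
  rw [Finset.sum_congr rfl (fun T hT => by rw [(Finset.mem_powersetCard.1 hT).2]),
    Finset.sum_const, Finset.card_powersetCard, nsmul_eq_mul]

lemma Ex_choose (A : Finset Pt) (k : ℕ) :
    Ex (fun c : Pt → Fin D => ((mA z A c).choose k : ℝ)) = (A.card.choose k : ℝ) * pD D ^ k := by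
  have : (fun c : Pt → Fin D => ((mA z A c).choose k : ℝ)) = famX z (powersetCard k A) :=
    funext fun c => (sum_powersetCard z A k c).symm
  rw [this, Ex_famX, mean_powersetCard]

/-- Chebyshev for the number of points of colour `z` in `A`. -/
lemma cheb_mA (A : Finset Pt) (a : ℝ) (ha : 0 < a) :
    Pr (fun c : Pt → Fin D => a ≤ |(mA z A c : ℝ) - A.card * pD D|) ≤ A.card * pD D / a ^ 2 := by
  have hK : ∀ T ∈ powersetCard 1 A,
      ∑ T' ∈ (powersetCard 1 A).filter (fun T' => ¬ Disjoint T T'), pD D ^ (T ∪ T').card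
        ≤ 1 * pD D ^ T.card := by
    intro T hT
    have hT1 := (Finset.mem_powersetCard.1 hT).2
    obtain ⟨s, rfl⟩ := Finset.card_eq_one.1 hT1
    have hfil : (powersetCard 1 A).filter (fun T' => ¬ Disjoint {s} T') = {{s}} := by
      ext T'
      simp only [Finset.mem_filter, Finset.mem_powersetCard, Finset.mem_singleton]
      constructor
      · rintro ⟨⟨_, h2⟩, h3⟩
        obtain ⟨t, rfl⟩ := Finset.card_eq_one.1 h2
        have : s = t := by
          by_contra hne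
          exact h3 (Finset.disjoint_singleton.2 hne)
        rw [this]
      · rintro rfl
        exact ⟨(Finset.mem_powersetCard.1 hT), by simp⟩
    rw [hfil, Finset.sum_singleton]
    simp
  have h := cheb_famX z (powersetCard 1 A) 1 hK a ha
  rw [mean_powersetCard] at h
  simp only [Nat.choose_one_right, pow_one, one_mul] at h
  refine le_trans (Pr_mono fun c hc => ?_) h
  rw [sum_powersetCard]
  simpa using hc

end Moments

section Geometry

variable {P V L : Type*} [Fintype P] [DecidableEq P] [Fintype V] [DecidableEq V]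
  [Fintype L] [DecidableEq L]
variable {q : ℕ} {h : L → P → V}

/-- points of `S` on `ℓ` -/
def Aℓ (h : L → P → V) (S : Finset (P × V)) (ℓ : L) : Finset (P × V) := S.filter (On h ℓ)

lemma mem_Aℓ {S : Finset (P × V)} {ℓ : L} {y : P × V} : y ∈ Aℓ h S ℓ ↔ y ∈ S ∧ On h ℓ y :=
  Finset.mem_filter

/-- a point other than `x`, on two lines through `x`, forces equality of the lines -/
lemma line_unique (hO : OA q h) {S : Finset (P × V)} {x y : P × V} (hxS : x ∉ S) {ℓ ℓ' : L}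
    (hx : On h ℓ x) (hx' : On h ℓ' x) (hy : y ∈ Aℓ h S ℓ) (hy' : y ∈ Aℓ h S ℓ') : ℓ = ℓ' := by
  have h1 := (mem_Aℓ.1 hy).2
  have h2 := (mem_Aℓ.1 hy').2
  have hne : x.1 ≠ y.1 := by
    intro hxy
    apply hxS
    have : x = y := by
      refine Prod.ext hxy ?_
      have e1 : h ℓ x.1 = x.2 := hx
      have e2 : h ℓ y.1 = y.2 := h1
      rw [← e1, ← e2, hxy]
    rw [this]
    exact (mem_Aℓ.1 hy).1
  exact hO.eq_of_two_points hx hx' h1 h2 hne

lemma disjoint_Aℓ (hO : OA q h) {S : Finset (P × V)} {x : P × V} (hxS : x ∉ S) {ℓ ℓ' : L}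
    (hℓ : ℓ ∈ linesThrough h x) (hℓ' : ℓ' ∈ linesThrough h x) (hne : ℓ ≠ ℓ') :
    Disjoint (Aℓ h S ℓ) (Aℓ h S ℓ') := by
  rw [Finset.disjoint_left]
  intro y hy hy'
  exact hne (line_unique hO hxS (Finset.mem_filter.1 hℓ).2 (Finset.mem_filter.1 hℓ').2 hy hy')

lemma card_partition (hO : OA q h) {S : Finset (P × V)} {x : P × V} (hxS : x ∉ S) :
    S.card = (S.filter fun y => y.1 = x.1).card + ∑ ℓ ∈ linesThrough h x, (Aℓ h S ℓ).card := by
  have h1 : (linesThrough h x).biUnion (Aℓ h S) = S.filter fun y => ¬ y.1 = x.1 := by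
    ext y
    simp only [Finset.mem_biUnion, Finset.mem_filter]
    constructor
    · rintro ⟨ℓ, hℓ, hy⟩
      refine ⟨(mem_Aℓ.1 hy).1, fun hyx => hxS ?_⟩
      have hx : On h ℓ x := (Finset.mem_filter.1 hℓ).2
      have hy2 := (mem_Aℓ.1 hy).2
      have : x = y := by
        refine Prod.ext hyx.symm ?_
        have e1 : h ℓ x.1 = x.2 := hx
        have e2 : h ℓ y.1 = y.2 := hy2
        rw [← e1, ← e2, hyx]
      rw [this]
      exact (mem_Aℓ.1 hy).1
    · rintro ⟨hy, hne⟩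
      obtain ⟨ℓ, ⟨h1, h2⟩, -⟩ := hO.existsUnique_line (x := x) (y := y) (Ne.symm hne)
      exact ⟨ℓ, Finset.mem_filter.2 ⟨Finset.mem_univ _, h1⟩, mem_Aℓ.2 ⟨hy, h2⟩⟩
  have h2 : ((linesThrough h x).biUnion (Aℓ h S)).card = ∑ ℓ ∈ linesThrough h x, (Aℓ h S ℓ).card :=
    Finset.card_biUnion fun ℓ hℓ ℓ' hℓ' hne => disjoint_Aℓ hO hxS hℓ hℓ' hne
  rw [← h2, h1]
  exact (Finset.card_filter_add_card_filter_not _).symm

variable {D : ℕ} (z : Fin D)

/-- the sample of a colouring -/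
def sample (S : Finset (P × V)) (c : P × V → Fin D) : Finset (P × V) := S.filter fun s => c s = z

lemma card_sample_filter_on (S : Finset (P × V)) (c : P × V → Fin D) (ℓ : L) :
    ((sample z S c).filter (On h ℓ)).card = mA z (Aℓ h S ℓ) c := by
  unfold sample mA Aℓ
  rw [Finset.filter_comm]

lemma card_sample_filter_part (S : Finset (P × V)) (c : P × V → Fin D) (x : P × V) :
    ((sample z S c).filter fun y => y.1 = x.1).card = mA z (S.filter fun y => y.1 = x.1) c := by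
  unfold sample mA
  rw [Finset.filter_comm]

section LowTail

variable {m₀ : ℕ}

include z in
/-- Lower tail for a set of at least `q/3` points. -/
lemma low_tail {A : Finset (P × V)} (hA : q ≤ 3 * A.card) (hD : D * m₀ ≤ q) (hm : 1 ≤ m₀) :
    Pr (fun c : P × V → Fin D => (6 * mA z A c : ℝ) < m₀) ≤ 12 / m₀ := by
  have hDpos : (0 : ℝ) < D := by exact_mod_cast D_pos z
  have hm0 : (0 : ℝ) < m₀ := by exact_mod_cast hm
  set μ : ℝ := A.card * pD D with hμ
  have hp : pD D * D = 1 := by unfold pD; field_simp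
  have hpnn := pD_nonneg D
  have h1 : (m₀ : ℝ) ≤ 3 * μ := by
    have e1 : (D : ℝ) * m₀ ≤ 3 * A.card := by exact_mod_cast hD.trans hA
    have e2 : pD D * ((D : ℝ) * m₀) ≤ pD D * (3 * A.card) :=
      mul_le_mul_of_nonneg_left e1 hpnn
    have e3 : pD D * ((D : ℝ) * m₀) = m₀ := by rw [← mul_assoc, hp, one_mul]
    rw [e3] at e2
    rw [hμ]
    linarith
  have hμ0 : 0 < μ := by linarith
  have h2 := cheb_mA z A (μ / 2) (by linarith)
  have h3 : Pr (fun c : P × V → Fin D => (6 * mA z A c : ℝ) < m₀)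
      ≤ Pr (fun c : P × V → Fin D => μ / 2 ≤ |(mA z A c : ℝ) - A.card * pD D|) := by
    refine Pr_mono fun c hc => ?_
    rw [← hμ]
    have : μ / 2 ≤ μ - (mA z A c : ℝ) := by linarith
    exact this.trans ((le_abs_self _).trans (by rw [abs_sub_comm]))
  refine h3.trans (h2.trans ?_)
  rw [← hμ]
  have e : μ / (μ / 2) ^ 2 = 4 / μ := by field_simp; ring
  rw [e]
  rw [div_le_div_iff₀ hμ0 hm0]
  linarith

end LowTail

section SmallLines

variable (S : Finset (P × V)) (x : P × V) (Small : Finset L)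

/-- pairs of points of `S` on a common small line -/
def pairFam (h : L → P → V) (S : Finset (P × V)) (Small : Finset L) : Finset (Finset (P × V)) :=
  Small.biUnion fun ℓ => powersetCard 2 (Aℓ h S ℓ)

lemma pow_pD_union_le (hpos : 0 < D) {T T' : Finset (P × V)} (hT : T.card = 2) (hT' : T'.card = 2)
    (hne : T ≠ T') : pD D ^ (T ∪ T').card ≤ pD D ^ 3 := by
  have h3 : 3 ≤ (T ∪ T').card := by
    by_contra hlt
    push Not at hlt
    have h1 : T.card ≤ (T ∪ T').card := Finset.card_le_card Finset.subset_union_left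
    have h2 : T'.card ≤ (T ∪ T').card := Finset.card_le_card Finset.subset_union_right
    have e1 : T = T ∪ T' := Finset.eq_of_subset_of_card_le Finset.subset_union_left (by omega)
    have e2 : T' = T ∪ T' := Finset.eq_of_subset_of_card_le Finset.subset_union_right (by omega)
    exact hne (e1.trans e2.symm)
  have hz : Fin D := ⟨0, hpos⟩
  exact pow_le_pow_of_le_one (pD_nonneg D) (pD_le_one hz) h3

lemma card_nondisjoint_le {A T : Finset (P × V)} (hT : T ⊆ A) (hT2 : T.card = 2) :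
    (((powersetCard 2 A).filter fun T' => ¬ Disjoint T T').erase T).card ≤ 2 * A.card := by
  have h1 : ((powersetCard 2 A).filter fun T' => ¬ Disjoint T T').erase T
      ⊆ (T ×ˢ A).image fun p => ({p.1, p.2} : Finset (P × V)) := by
    intro T' hT'
    rw [Finset.mem_erase, Finset.mem_filter, Finset.mem_powersetCard] at hT'
    obtain ⟨_, ⟨hsub, hcard⟩, hnd⟩ := hT'
    rw [Finset.not_disjoint_iff] at hnd
    obtain ⟨a, ha, ha'⟩ := hnd
    obtain ⟨u, v, huv, rfl⟩ := Finset.card_eq_two.1 hcard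
    rcases Finset.mem_insert.1 ha' with rfl | hav
    · refine Finset.mem_image.2 ⟨(a, v), Finset.mem_product.2 ⟨ha, hsub (by simp)⟩, rfl⟩
    · rw [Finset.mem_singleton] at hav
      subst hav
      refine Finset.mem_image.2 ⟨(a, u), Finset.mem_product.2 ⟨ha, hsub (by simp)⟩, ?_⟩
      exact Finset.pair_comm _ _
  calc _ ≤ ((T ×ˢ A).image fun p => ({p.1, p.2} : Finset (P × V))).card := Finset.card_le_card h1
    _ ≤ (T ×ˢ A).card := Finset.card_image_le
    _ = 2 * A.card := by rw [Finset.card_product, hT2]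

/-- The variance hypothesis for the pair family. -/
lemma pairFam_K (hO : OA q h) {S : Finset (P × V)} {x : P × V} (hxS : x ∉ S) {Small : Finset L}
    (hSm : Small ⊆ linesThrough h x) (hn : ∀ ℓ ∈ Small, (Aℓ h S ℓ).card < 48 * D) (hpos : 0 < D) :
    ∀ T ∈ pairFam h S Small,
      ∑ T' ∈ (pairFam h S Small).filter (fun T' => ¬ Disjoint T T'), pD D ^ (T ∪ T').card
        ≤ 97 * pD D ^ T.card := by
  intro T hT
  obtain ⟨ℓ, hℓ, hTℓ⟩ := Finset.mem_biUnion.1 hT
  have hTs := Finset.mem_powersetCard.1 hTℓ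
  have hDpos : (0 : ℝ) < D := by exact_mod_cast hpos
  have hp : pD D * D = 1 := by unfold pD; field_simp
  have hpnn := pD_nonneg D
  -- all the non-disjoint pairs live on the same line
  have hsub : (pairFam h S Small).filter (fun T' => ¬ Disjoint T T')
      ⊆ (powersetCard 2 (Aℓ h S ℓ)).filter (fun T' => ¬ Disjoint T T') := by
    intro T' hT'
    rw [Finset.mem_filter] at hT' ⊢
    obtain ⟨hT'1, hnd⟩ := hT'
    refine ⟨?_, hnd⟩
    obtain ⟨ℓ', hℓ', hT'ℓ⟩ := Finset.mem_biUnion.1 hT'1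
    have hT's := Finset.mem_powersetCard.1 hT'ℓ
    rw [Finset.not_disjoint_iff] at hnd
    obtain ⟨a, ha, ha'⟩ := hnd
    have heq : ℓ' = ℓ := line_unique hO hxS (Finset.mem_filter.1 (hSm hℓ')).2
      (Finset.mem_filter.1 (hSm hℓ)).2 (hT's.1 ha') (hTs.1 ha)
    rw [← heq]
    exact hT'ℓ
  have hnn : ∀ T' ∈ (powersetCard 2 (Aℓ h S ℓ)).filter (fun T' => ¬ Disjoint T T'),
      0 ≤ pD D ^ (T ∪ T').card := fun T' _ => by positivity
  have hmem : T ∈ (powersetCard 2 (Aℓ h S ℓ)).filter (fun T' => ¬ Disjoint T T') := by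
    refine Finset.mem_filter.2 ⟨hTℓ, ?_⟩
    rw [Finset.not_disjoint_iff]
    have hne : T.Nonempty := by
      rw [← Finset.card_pos, hTs.2]; norm_num
    obtain ⟨a, ha⟩ := hne
    exact ⟨a, ha, ha⟩
  calc _ ≤ ∑ T' ∈ (powersetCard 2 (Aℓ h S ℓ)).filter (fun T' => ¬ Disjoint T T'),
        pD D ^ (T ∪ T').card := Finset.sum_le_sum_of_subset_of_nonneg hsub fun T' hT' _ => hnn T' hT'
    _ = pD D ^ (T ∪ T).card + ∑ T' ∈ ((powersetCard 2 (Aℓ h S ℓ)).filter
          (fun T' => ¬ Disjoint T T')).erase T, pD D ^ (T ∪ T').card :=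
        (Finset.add_sum_erase _ _ hmem).symm
    _ ≤ pD D ^ 2 + (2 * (Aℓ h S ℓ).card) * pD D ^ 3 := by
        rw [Finset.union_self, hTs.2]
        refine add_le_add le_rfl ?_
        calc _ ≤ ∑ _T' ∈ ((powersetCard 2 (Aℓ h S ℓ)).filter
              (fun T' => ¬ Disjoint T T')).erase T, pD D ^ 3 := by
              refine Finset.sum_le_sum fun T' hT' => ?_
              rw [Finset.mem_erase, Finset.mem_filter, Finset.mem_powersetCard] at hT'
              exact pow_pD_union_le hpos hTs.2 hT'.2.1.2 (Ne.symm hT'.1)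
          _ = (((powersetCard 2 (Aℓ h S ℓ)).filter
              (fun T' => ¬ Disjoint T T')).erase T).card * pD D ^ 3 := by
              rw [Finset.sum_const, nsmul_eq_mul]
          _ ≤ _ := by
              refine mul_le_mul_of_nonneg_right ?_ (by positivity)
              exact_mod_cast card_nondisjoint_le hTs.1 hTs.2
    _ ≤ 97 * pD D ^ T.card := by
        rw [hTs.2]
        have e1 : ((Aℓ h S ℓ).card : ℝ) * pD D ≤ 48 := by
          have e2 : ((Aℓ h S ℓ).card : ℝ) ≤ 48 * D := by exact_mod_cast (hn ℓ hℓ).le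
          calc _ ≤ (48 * (D : ℝ)) * pD D := mul_le_mul_of_nonneg_right e2 hpnn
            _ = 48 * (pD D * D) := by ring
            _ = 48 := by rw [hp, mul_one]
        have e3 : 0 ≤ pD D ^ 2 := by positivity
        have e4 : (2 * ((Aℓ h S ℓ).card : ℝ)) * pD D ^ 3 = 2 * (((Aℓ h S ℓ).card : ℝ) * pD D) * pD D ^ 2 := by
          ring
        rw [e4]
        nlinarith

lemma pairFam_disjoint (hO : OA q h) {S : Finset (P × V)} {x : P × V} (hxS : x ∉ S) {Small : Finset L}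
    (hSm : Small ⊆ linesThrough h x) :
    (Small : Set L).PairwiseDisjoint fun ℓ => powersetCard 2 (Aℓ h S ℓ) := by
  intro ℓ hℓ ℓ' hℓ' hne
  simp only [Function.onFun]
  rw [Finset.disjoint_left]
  intro T hT hT'
  have h1 := Finset.mem_powersetCard.1 hT
  have h2 := Finset.mem_powersetCard.1 hT'
  have hne' : T.Nonempty := by
    rw [← Finset.card_pos, h1.2]; norm_num
  obtain ⟨a, ha⟩ := hne'
  exact hne (line_unique hO hxS (Finset.mem_filter.1 (hSm hℓ)).2 (Finset.mem_filter.1 (hSm hℓ')).2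
    (h1.1 ha) (h2.1 ha))

lemma famX_pairFam (hO : OA q h) {S : Finset (P × V)} {x : P × V} (hxS : x ∉ S) {Small : Finset L}
    (hSm : Small ⊆ linesThrough h x) (c : P × V → Fin D) :
    famX z (pairFam h S Small) c = ∑ ℓ ∈ Small, ((mA z (Aℓ h S ℓ) c).choose 2 : ℝ) := by
  unfold famX pairFam
  rw [Finset.sum_biUnion (pairFam_disjoint hO hxS hSm)]
  refine Finset.sum_congr rfl fun ℓ _ => ?_
  exact sum_powersetCard z _ 2 c

lemma mean_pairFam (hO : OA q h) {S : Finset (P × V)} {x : P × V} (hxS : x ∉ S) {Small : Finset L}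
    (hSm : Small ⊆ linesThrough h x) :
    ∑ T ∈ pairFam h S Small, pD D ^ T.card
      = ∑ ℓ ∈ Small, ((Aℓ h S ℓ).card.choose 2 : ℝ) * pD D ^ 2 := by
  unfold pairFam
  rw [Finset.sum_biUnion (pairFam_disjoint hO hxS hSm)]
  exact Finset.sum_congr rfl fun ℓ _ => mean_powersetCard _ 2

/-- The overflow: large lines among the small lines. -/
noncomputable def overflow (z : Fin D) (h : L → P → V) (S : Finset (P × V)) (Small : Finset L)
    (M : ℕ) (c : P × V → Fin D) : ℝ :=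
  ∑ ℓ ∈ Small, if M < mA z (Aℓ h S ℓ) c then ((mA z (Aℓ h S ℓ) c).choose 2 : ℝ) else 0

lemma choose_two_le_choose_three {M m : ℕ} (hm : M < m) :
    ((M : ℝ) - 1) * (m.choose 2 : ℝ) ≤ 3 * (m.choose 3 : ℝ) := by
  have h1 : m.choose 3 * 3 = m.choose 2 * (m - 2) := Nat.choose_succ_right_eq m 2
  have h2 : (3 * (m.choose 3 : ℝ)) = (m.choose 2 : ℝ) * ((m - 2 : ℕ) : ℝ) := by
    have : ((m.choose 3 * 3 : ℕ) : ℝ) = ((m.choose 2 * (m - 2) : ℕ) : ℝ) := by rw [h1]
    push_cast at this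
    linarith
  rw [h2]
  have hM : (M : ℝ) - 1 ≤ ((m - 2 : ℕ) : ℝ) := by
    rcases Nat.lt_or_ge m 2 with hlt | hge
    · have hM0 : M = 0 := by omega
      subst hM0
      have : (0 : ℝ) ≤ ((m - 2 : ℕ) : ℝ) := Nat.cast_nonneg _
      push_cast
      linarith
    · rw [Nat.cast_sub hge]
      have : (M : ℝ) + 1 ≤ m := by exact_mod_cast hm
      push_cast
      linarith
  have hnn : (0 : ℝ) ≤ (m.choose 2 : ℝ) := by positivity
  nlinarith

lemma choose_three_bound (n : ℕ) : 3 * (n.choose 3 : ℝ) ≤ (n.choose 2 : ℝ) * n := by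
  have h1 : n.choose 3 * 3 = n.choose 2 * (n - 2) := Nat.choose_succ_right_eq n 2
  have h2 : ((n.choose 3 * 3 : ℕ) : ℝ) = ((n.choose 2 * (n - 2) : ℕ) : ℝ) := by rw [h1]
  push_cast at h2
  have h3 : ((n - 2 : ℕ) : ℝ) ≤ n := by exact_mod_cast Nat.sub_le n 2
  have hnn : (0 : ℝ) ≤ (n.choose 2 : ℝ) := by positivity
  nlinarith

include z in
lemma Ex_overflow {S : Finset (P × V)} {Small : Finset L}
    (hn : ∀ ℓ ∈ Small, (Aℓ h S ℓ).card < 48 * D) :
    Ex (overflow z h S Small 3073)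
      ≤ (∑ ℓ ∈ Small, ((Aℓ h S ℓ).card.choose 2 : ℝ) * pD D ^ 2) / 64 := by
  have hDpos : (0 : ℝ) < D := by exact_mod_cast D_pos z
  have hp : pD D * D = 1 := by unfold pD; field_simp
  have hpnn := pD_nonneg D
  unfold overflow
  rw [Ex_sum, Finset.sum_div]
  refine Finset.sum_le_sum fun ℓ hℓ => ?_
  set n := (Aℓ h S ℓ).card with hndef
  have h1 : ∀ c : P × V → Fin D, (if 3073 < mA z (Aℓ h S ℓ) c then
      ((mA z (Aℓ h S ℓ) c).choose 2 : ℝ) else 0) ≤ (3 / 3072) * ((mA z (Aℓ h S ℓ) c).choose 3 : ℝ) := by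
    intro c
    split_ifs with hlt
    · have := choose_two_le_choose_three hlt
      norm_num at this ⊢
      linarith
    · positivity
  calc _ ≤ Ex (fun c : P × V → Fin D => (3 / 3072) * ((mA z (Aℓ h S ℓ) c).choose 3 : ℝ)) := Ex_mono h1
    _ = (3 / 3072) * ((n.choose 3 : ℝ) * pD D ^ 3) := by
        rw [Ex_const_mul, Ex_choose]
    _ ≤ _ := by
        have e1 := choose_three_bound n
        have e2 : (n : ℝ) * pD D ≤ 48 := by
          have e3 : (n : ℝ) ≤ 48 * D := by exact_mod_cast (hn ℓ hℓ).le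
          calc _ ≤ (48 * (D : ℝ)) * pD D := mul_le_mul_of_nonneg_right e3 hpnn
            _ = 48 * (pD D * D) := by ring
            _ = 48 := by rw [hp, mul_one]
        have e4 : 0 ≤ (n.choose 2 : ℝ) * pD D ^ 2 := by positivity
        have e5 : 0 ≤ pD D ^ 3 := by positivity
        calc (3 / 3072) * ((n.choose 3 : ℝ) * pD D ^ 3)
            = (1 / 3072) * ((3 * (n.choose 3 : ℝ)) * pD D ^ 3) := by ring
          _ ≤ (1 / 3072) * (((n.choose 2 : ℝ) * n) * pD D ^ 3) := by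
              refine mul_le_mul_of_nonneg_left ?_ (by norm_num)
              exact mul_le_mul_of_nonneg_right e1 e5
          _ = (1 / 3072) * (((n.choose 2 : ℝ) * pD D ^ 2) * ((n : ℝ) * pD D)) := by ring
          _ ≤ (1 / 3072) * (((n.choose 2 : ℝ) * pD D ^ 2) * 48) := by
              refine mul_le_mul_of_nonneg_left ?_ (by norm_num)
              exact mul_le_mul_of_nonneg_left e2 e4
          _ = _ := by ring

end SmallLines

end Geometry

section Main

variable {P V L : Type*} [Fintype P] [DecidableEq P] [Fintype V] [DecidableEq V]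
  [Fintype L] [DecidableEq L]
variable {q : ℕ} {h : L → P → V}

lemma mem_Cont2 {M τ m₀ : ℕ} {P0 : Finset (P × V)} {x : P × V} :
    x ∈ Cont2 h M τ m₀ P0 ↔ τ ≤ pairCnt h M P0 x ∨ m₀ ≤ 8 * bigCnt h P0 x ∨
      m₀ ≤ 6 * (P0.filter fun y => y.1 = x.1).card := by
  simp [Cont2]

/-- Lower bound of the mean for the small lines. -/
lemma small_mean_lower (hO : OA q h) {S : Finset (P × V)} {x : P × V}
    {ν D m₀ : ℕ} (hDpos : 0 < D) {Small : Finset L} (hSm : Small ⊆ linesThrough h x)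
    (hν' : (univ.filter fun ℓ : L ⊕ P => OnH h ℓ x ∧ ∃ y ∈ S, OnH h ℓ y).card ≤ ν)
    (hD : D * m₀ ≤ q) (hν : 6 * ν ≤ q) (hN : q ≤ 3 * ∑ ℓ ∈ Small, (Aℓ h S ℓ).card) :
    1 ≤ ν ∧ (m₀ : ℝ) ^ 2 ≤ 36 * ν * ∑ ℓ ∈ Small, ((Aℓ h S ℓ).card.choose 2 : ℝ) * pD D ^ 2 := by
  have hq := hO.two_le
  have hDR : (0 : ℝ) < D := by exact_mod_cast hDpos
  have hp : pD D * D = 1 := by unfold pD; field_simp
  have hpnn := pD_nonneg D
  set Sm' := Small.filter fun ℓ => (Aℓ h S ℓ).Nonempty with hSm'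
  have hcard : Sm'.card ≤ ν := by
    refine le_trans ?_ hν'
    refine Finset.card_le_card_of_injOn (fun ℓ => (Sum.inl ℓ : L ⊕ P)) ?_ ?_
    · intro ℓ hℓ
      have hℓ' := Finset.mem_filter.1 (Finset.mem_coe.1 hℓ)
      simp only [Finset.coe_filter, Finset.mem_univ, true_and, Set.mem_ofPred_eq]
      refine ⟨(Finset.mem_filter.1 (hSm hℓ'.1)).2, ?_⟩
      obtain ⟨y, hy⟩ := hℓ'.2
      exact ⟨y, (mem_Aℓ.1 hy).1, (mem_Aℓ.1 hy).2⟩
    · intro a _ b _ hab
      exact Sum.inl.inj hab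
  set N : ℝ := ∑ ℓ ∈ Small, ((Aℓ h S ℓ).card : ℝ) with hNdef
  have hN3 : (q : ℝ) ≤ 3 * N := by
    rw [hNdef]
    exact_mod_cast hN
  have hzero : ∀ ℓ ∈ Small, ℓ ∉ Sm' → ((Aℓ h S ℓ).card : ℝ) = 0 := by
    intro ℓ hℓ hℓ'
    have : ¬ (Aℓ h S ℓ).Nonempty := fun hne => hℓ' (Finset.mem_filter.2 ⟨hℓ, hne⟩)
    rw [Finset.not_nonempty_iff_eq_empty] at this
    simp [this]
  have hsubS : Sm' ⊆ Small := Finset.filter_subset _ _
  have hsum1 : ∑ ℓ ∈ Sm', ((Aℓ h S ℓ).card : ℝ) = N :=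
    Finset.sum_subset hsubS hzero
  have hsum2 : ∑ ℓ ∈ Sm', ((Aℓ h S ℓ).card : ℝ) ^ 2 = ∑ ℓ ∈ Small, ((Aℓ h S ℓ).card : ℝ) ^ 2 :=
    Finset.sum_subset hsubS fun ℓ hℓ hℓ' => by rw [hzero ℓ hℓ hℓ']; norm_num
  have hC := sq_sum_le_card_mul_sum_sq (s := Sm') (f := fun ℓ => ((Aℓ h S ℓ).card : ℝ))
  rw [hsum1, hsum2] at hC
  set Sig2 : ℝ := ∑ ℓ ∈ Small, ((Aℓ h S ℓ).card.choose 2 : ℝ) with hSig2
  have hSig : ∑ ℓ ∈ Small, ((Aℓ h S ℓ).card : ℝ) ^ 2 = 2 * Sig2 + N := by
    rw [hSig2, hNdef, Finset.mul_sum, ← Finset.sum_add_distrib]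
    refine Finset.sum_congr rfl fun ℓ _ => ?_
    rw [Nat.cast_choose_two]
    ring
  have hSignn : 0 ≤ 2 * Sig2 + N := by
    rw [← hSig]
    exact Finset.sum_nonneg fun ℓ _ => sq_nonneg _
  have hνR : (Sm'.card : ℝ) ≤ ν := by exact_mod_cast hcard
  have hC2 : N ^ 2 ≤ ν * (2 * Sig2 + N) := by
    rw [hSig] at hC
    exact hC.trans (mul_le_mul_of_nonneg_right hνR hSignn)
  have hq0 : (0 : ℝ) < q := by
    have : (2 : ℝ) ≤ q := by exact_mod_cast hq
    linarith
  have hNpos : 0 < N := by linarith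
  have hν1 : 1 ≤ ν := by
    by_contra hlt
    have h0 : (ν : ℝ) = 0 := by
      have h00 : ν = 0 := by omega
      rw [h00]
      exact Nat.cast_zero
    rw [h0, zero_mul] at hC2
    have : 0 < N ^ 2 := pow_pos hNpos 2
    linarith
  refine ⟨hν1, ?_⟩
  have h2ν : 2 * (ν : ℝ) ≤ N := by
    have : (6 : ℝ) * ν ≤ q := by exact_mod_cast hν
    linarith
  have hνnn : (0 : ℝ) ≤ ν := Nat.cast_nonneg _
  have h4 : N ^ 2 ≤ 4 * ν * Sig2 := by
    have e1 : (ν : ℝ) * N ≤ N ^ 2 / 2 := by nlinarith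
    nlinarith
  have hsum : ∑ ℓ ∈ Small, ((Aℓ h S ℓ).card.choose 2 : ℝ) * pD D ^ 2 = Sig2 * pD D ^ 2 := by
    rw [hSig2, Finset.sum_mul]
  rw [hsum]
  have hm3 : (m₀ : ℝ) ≤ 3 * (pD D * N) := by
    have e1 : (D : ℝ) * m₀ ≤ q := by exact_mod_cast hD
    have e2 : pD D * ((D : ℝ) * m₀) ≤ pD D * (3 * N) :=
      mul_le_mul_of_nonneg_left (e1.trans hN3) hpnn
    have e3 : pD D * ((D : ℝ) * m₀) = m₀ := by rw [← mul_assoc, hp, one_mul]
    rw [e3] at e2
    linarith
  have hm0 : (0 : ℝ) ≤ m₀ := Nat.cast_nonneg _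
  calc (m₀ : ℝ) ^ 2 ≤ (3 * (pD D * N)) ^ 2 := pow_le_pow_left₀ hm0 hm3 2
    _ = 9 * pD D ^ 2 * N ^ 2 := by ring
    _ ≤ 9 * pD D ^ 2 * (4 * ν * Sig2) := mul_le_mul_of_nonneg_left h4
          (mul_nonneg (by norm_num) (pow_nonneg hpnn 2))
    _ = _ := by ring

/-- The probability of failure in the case of small lines. -/
lemma small_case (hO : OA q h) {S : Finset (P × V)} {x : P × V} (hxS : x ∉ S)
    {ν D m₀ τ : ℕ} (z : Fin D) {Small : Finset L} (hSm : Small ⊆ linesThrough h x)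
    (hn : ∀ ℓ ∈ Small, (Aℓ h S ℓ).card < 48 * D)
    (hν' : (univ.filter fun ℓ : L ⊕ P => OnH h ℓ x ∧ ∃ y ∈ S, OnH h ℓ y).card ≤ ν)
    (hD : D * m₀ ≤ q) (hν : 6 * ν ≤ q) (hτ : 144 * ν * τ ≤ m₀ ^ 2)
    (hm2 : 111744 * ν ≤ m₀ ^ 2) (hN : q ≤ 3 * ∑ ℓ ∈ Small, (Aℓ h S ℓ).card) :
    Pr (fun c : P × V → Fin D => x ∉ Cont2 h 3073 τ m₀ (sample z S c)) ≤ 1 / 4 := by
  have hDpos : 0 < D := D_pos z
  obtain ⟨hν1, hμl⟩ := small_mean_lower hO hDpos hSm hν' hD hν hN
  set μ : ℝ := ∑ ℓ ∈ Small, ((Aℓ h S ℓ).card.choose 2 : ℝ) * pD D ^ 2 with hμ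
  have hν0 : (0 : ℝ) < ν := by exact_mod_cast hν1
  have hμ1 : 3104 ≤ μ := by
    have e1 : (111744 : ℝ) * ν ≤ (m₀ : ℝ) ^ 2 := by exact_mod_cast hm2
    have e2 : (111744 : ℝ) * ν ≤ 36 * ν * μ := e1.trans hμl
    have e3 : ν * (3104 * 36 : ℝ) ≤ ν * (36 * μ) := by nlinarith
    have := le_of_mul_le_mul_left e3 hν0
    linarith
  have hμ0 : 0 < μ := by linarith
  have hτμ : 4 * (τ : ℝ) ≤ μ := by
    have e1 : (144 : ℝ) * ν * τ ≤ (m₀ : ℝ) ^ 2 := by exact_mod_cast hτ
    have e2 : (144 : ℝ) * ν * τ ≤ 36 * ν * μ := e1.trans hμl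
    have e3 : ν * (36 * (4 * τ) : ℝ) ≤ ν * (36 * μ) := by nlinarith
    have := le_of_mul_le_mul_left e3 hν0
    linarith
  have hchb := cheb_famX z (pairFam h S Small) 97 (pairFam_K hO hxS hSm hn hDpos) (μ / 2) (by linarith)
  rw [mean_pairFam hO hxS hSm, ← hμ] at hchb
  have hovnn : ∀ c : P × V → Fin D, 0 ≤ overflow z h S Small 3073 c := by
    intro c
    unfold overflow
    refine Finset.sum_nonneg fun ℓ _ => ?_
    split_ifs <;> positivity
  have hmk := markov (Ω := P × V → Fin D) (f := overflow z h S Small 3073) hovnn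
    (a := μ / 4) (by linarith)
  have hEx := Ex_overflow z (h := h) (S := S) (Small := Small) hn
  rw [← hμ] at hEx
  have hinc : ∀ c : P × V → Fin D, x ∉ Cont2 h 3073 τ m₀ (sample z S c) →
      (μ / 2 ≤ |famX z (pairFam h S Small) c - μ| ∨ μ / 4 ≤ overflow z h S Small 3073 c) := by
    intro c hc
    by_contra hcon
    push Not at hcon
    obtain ⟨hA, hB⟩ := hcon
    apply hc
    rw [mem_Cont2]
    left
    have hX : μ / 2 < famX z (pairFam h S Small) c := by
      have := (abs_lt.1 hA).1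
      linarith
    rw [famX_pairFam z hO hxS hSm] at hX
    -- the pair count
    have hpc : ∑ ℓ ∈ Small, ((mA z (Aℓ h S ℓ) c).choose 2 : ℝ) - overflow z h S Small 3073 c
        ≤ (pairCnt h 3073 (sample z S c) x : ℝ) := by
      unfold pairCnt overflow
      rw [← Finset.sum_sub_distrib]
      push_cast
      rw [Finset.sum_filter]
      have hmm : ∀ ℓ : L, ((sample z S c).filter (On h ℓ)).card = mA z (Aℓ h S ℓ) c :=
        fun ℓ => card_sample_filter_on z S c ℓ
      simp only [hmm]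
      refine le_trans (le_of_eq ?_) (Finset.sum_le_sum_of_subset_of_nonneg hSm
        (fun ℓ _ _ => by split_ifs <;> positivity))
      refine Finset.sum_congr rfl fun ℓ _ => ?_
      set m := mA z (Aℓ h S ℓ) c
      by_cases h1 : 3073 < m
      · have h2 : ¬ (2 ≤ m ∧ m ≤ 3073) := by omega
        simp [h1, h2]
      · by_cases h3 : 2 ≤ m
        · have h2 : 2 ≤ m ∧ m ≤ 3073 := ⟨h3, by omega⟩
          simp [h1, h2]
        · have h2 : ¬ (2 ≤ m ∧ m ≤ 3073) := by omega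
          have h4 : m.choose 2 = 0 := Nat.choose_eq_zero_of_lt (by omega)
          simp [h1, h2, h4]
    have hτ2 : (τ : ℝ) ≤ (pairCnt h 3073 (sample z S c) x : ℝ) := by
      have : μ / 4 ≤ (pairCnt h 3073 (sample z S c) x : ℝ) := by linarith
      linarith
    exact_mod_cast hτ2
  calc Pr (fun c : P × V → Fin D => x ∉ Cont2 h 3073 τ m₀ (sample z S c))
      ≤ Pr (fun c : P × V → Fin D => μ / 2 ≤ |famX z (pairFam h S Small) c - μ| ∨
          μ / 4 ≤ overflow z h S Small 3073 c) := Pr_mono hinc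
    _ ≤ _ := Pr_or_le _ _
    _ ≤ 97 * μ / (μ / 2) ^ 2 + Ex (overflow z h S Small 3073) / (μ / 4) := add_le_add hchb hmk
    _ ≤ 1 / 8 + 1 / 16 := by
        refine add_le_add ?_ ?_
        · have e : 97 * μ / (μ / 2) ^ 2 = 388 / μ := by field_simp; ring
          rw [e, div_le_iff₀ hμ0]
          linarith
        · rw [div_le_iff₀ (by linarith)]
          linarith
    _ ≤ 1 / 4 := by norm_num

/-- **Failure probability at a given point.** -/
theorem fail_prob (hO : OA q h) {S : Finset (P × V)} (hS : S.card = q) {x : P × V} (hxS : x ∉ S)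
    {ν D m₀ τ : ℕ} (z : Fin D)
    (hν' : (univ.filter fun ℓ : L ⊕ P => OnH h ℓ x ∧ ∃ y ∈ S, OnH h ℓ y).card ≤ ν)
    (hD : D * m₀ ≤ q) (hD2 : 2 * q ≤ 3 * D * m₀) (hν : 6 * ν ≤ q) (hτ : 144 * ν * τ ≤ m₀ ^ 2)
    (hm : 96 ≤ m₀) (hm2 : 111744 * ν ≤ m₀ ^ 2) :
    Pr (fun c : P × V → Fin D => x ∉ Cont2 h 3073 τ m₀ (sample z S c)) ≤ 1 / 4 := by
  have hDpos : 0 < D := D_pos z
  have hm0 : (0 : ℝ) < m₀ := by
    have : 0 < m₀ := by omega
    exact_mod_cast this
  have h12 : (12 : ℝ) / m₀ ≤ 1 / 4 := by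
    rw [div_le_iff₀ hm0]
    have : (96 : ℝ) ≤ m₀ := by exact_mod_cast hm
    linarith
  set Big := (linesThrough h x).filter fun ℓ => 48 * D ≤ (Aℓ h S ℓ).card with hBig
  set Small := (linesThrough h x).filter fun ℓ => ¬ 48 * D ≤ (Aℓ h S ℓ).card with hSmall
  have hsplit : ∑ ℓ ∈ linesThrough h x, (Aℓ h S ℓ).card
      = ∑ ℓ ∈ Big, (Aℓ h S ℓ).card + ∑ ℓ ∈ Small, (Aℓ h S ℓ).card :=
    (Finset.sum_filter_add_sum_filter_not _ _ _).symm
  have hpart := card_partition hO hxS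
  rw [hS] at hpart
  have hcases : q ≤ 3 * (S.filter fun y => y.1 = x.1).card ∨ q ≤ 3 * ∑ ℓ ∈ Big, (Aℓ h S ℓ).card ∨
      q ≤ 3 * ∑ ℓ ∈ Small, (Aℓ h S ℓ).card := by
    omega
  rcases hcases with hc | hc | hc
  · -- the part of `x`
    refine le_trans (Pr_mono fun c hc' => ?_) ((low_tail z hc hD (by omega)).trans h12)
    rw [mem_Cont2] at hc'
    push Not at hc'
    have := hc'.2.2
    rw [card_sample_filter_part] at this
    exact_mod_cast this
  · -- the big lines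
    have hdisj : (Big : Set L).PairwiseDisjoint (Aℓ h S) := by
      intro ℓ hℓ ℓ' hℓ' hne
      exact disjoint_Aℓ hO hxS (Finset.mem_filter.1 (Finset.mem_coe.1 hℓ)).1
        (Finset.mem_filter.1 (Finset.mem_coe.1 hℓ')).1 hne
    set A := Big.biUnion (Aℓ h S) with hA
    have hAcard : A.card = ∑ ℓ ∈ Big, (Aℓ h S ℓ).card := Finset.card_biUnion hdisj
    have hBigcard : 32 * Big.card ≤ m₀ := by
      have e1 : Big.card * (48 * D) ≤ ∑ ℓ ∈ Big, (Aℓ h S ℓ).card := by
        have := Finset.card_nsmul_le_sum Big (fun ℓ => (Aℓ h S ℓ).card) (48 * D)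
          (fun ℓ hℓ => (Finset.mem_filter.1 hℓ).2)
        simpa using this
      have e2 : ∑ ℓ ∈ Big, (Aℓ h S ℓ).card ≤ q := by omega
      have e3 : D * (96 * Big.card) ≤ D * (3 * m₀) := by
        calc D * (96 * Big.card) = 2 * (Big.card * (48 * D)) := by ring
          _ ≤ 2 * q := by omega
          _ ≤ 3 * D * m₀ := hD2
          _ = D * (3 * m₀) := by ring
      have e4 := Nat.le_of_mul_le_mul_left e3 hDpos
      omega
    have hA3 : q ≤ 3 * A.card := by rw [hAcard]; exact hc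
    refine le_trans (Pr_mono fun c hc' => ?_) ((low_tail z hA3 hD (by omega)).trans h12)
    rw [mem_Cont2] at hc'
    push Not at hc'
    have hb := hc'.2.1
    -- `mA` on `A` is the sum over big lines
    have hmA : mA z A c = ∑ ℓ ∈ Big, mA z (Aℓ h S ℓ) c := by
      unfold mA
      rw [hA, Finset.filter_biUnion]
      refine Finset.card_biUnion fun ℓ hℓ ℓ' hℓ' hne => ?_
      exact Finset.disjoint_filter_filter (hdisj (Finset.mem_coe.2 hℓ) (Finset.mem_coe.2 hℓ') hne)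
    have hle : mA z A c ≤ bigCnt h (sample z S c) x + Big.card := by
      rw [hmA]
      have e1 : ∑ ℓ ∈ Big, mA z (Aℓ h S ℓ) c
          ≤ ∑ ℓ ∈ Big, ((if 2 ≤ mA z (Aℓ h S ℓ) c then mA z (Aℓ h S ℓ) c else 0) + 1) := by
        refine Finset.sum_le_sum fun ℓ _ => ?_
        split_ifs with h2 <;> omega
      rw [Finset.sum_add_distrib] at e1
      have e2 : ∑ ℓ ∈ Big, (if 2 ≤ mA z (Aℓ h S ℓ) c then mA z (Aℓ h S ℓ) c else 0)
          ≤ bigCnt h (sample z S c) x := by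
        unfold bigCnt
        simp only [card_sample_filter_on]
        have hsub : Big ⊆ linesThrough h x := Finset.filter_subset _ _
        have e5 := Finset.sum_le_sum_of_subset_of_nonneg (f := fun ℓ =>
          if 2 ≤ mA z (Aℓ h S ℓ) c then mA z (Aℓ h S ℓ) c else 0) hsub fun _ _ _ => Nat.zero_le _
        refine e5.trans (le_of_eq ?_)
        exact (Finset.sum_filter _ _).symm
      simp only [Finset.sum_const, smul_eq_mul, mul_one] at e1
      omega
    have hfin : 6 * mA z A c < m₀ := by omega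
    exact_mod_cast hfin
  · -- the small lines
    refine small_case hO hxS z (Finset.filter_subset _ _) ?_ hν' hD hν hτ hm2 hc
    intro ℓ hℓ
    exact not_le.1 (Finset.mem_filter.1 hℓ).2

/-- **The sampling lemma.** -/
theorem exists_sample_cont2_col (hO : OA q h) (S : Finset (P × V)) (hS : S.card = q) (H : Finset (P × V))
    (ν D m₀ τ : ℕ)
    (hH : ∀ x ∈ H, x ∉ S ∧ (univ.filter fun ℓ : L ⊕ P => OnH h ℓ x ∧ ∃ y ∈ S, OnH h ℓ y).card ≤ ν)
    (hD : D * m₀ ≤ q) (hD2 : 2 * q ≤ 3 * D * m₀) (hν : 6 * ν ≤ q) (hτ : 144 * ν * τ ≤ m₀ ^ 2)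
    (hm : 96 ≤ m₀) (hm2 : 111744 * ν ≤ m₀ ^ 2) :
    ∃ P0 : Finset (P × V), P0 ⊆ S ∧ P0.card ≤ 2 * m₀ ∧
      H.card ≤ 2 * (H ∩ Cont2 h 3073 τ m₀ P0).card := by
  rcases H.eq_empty_or_nonempty with hemp | hne
  · exact ⟨∅, Finset.empty_subset _, by simp, by simp [hemp]⟩
  have hq := hO.two_le
  have hDpos : 0 < D := by
    rcases Nat.eq_zero_or_pos D with h0 | h0
    · rw [h0] at hD2
      omega
    · exact h0
  let z : Fin D := ⟨0, hDpos⟩
  haveI : Nonempty (Fin D) := ⟨z⟩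
  have hDR : (0 : ℝ) < D := by exact_mod_cast hDpos
  have hp : pD D * D = 1 := by unfold pD; field_simp
  have hpnn := pD_nonneg D
  have hm0 : (0 : ℝ) < m₀ := by
    have : 0 < m₀ := by omega
    exact_mod_cast this
  have hm96 : (96 : ℝ) ≤ m₀ := by exact_mod_cast hm
  -- bad event 1: the sample is too large
  have hbad1 : Pr (fun c : P × V → Fin D => 2 * m₀ < (sample z S c).card) ≤ 1 / 16 := by
    have hμ : (S.card : ℝ) * pD D ≤ 3 / 2 * m₀ := by
      rw [hS]
      have e1 : (2 : ℝ) * q ≤ 3 * D * m₀ := by exact_mod_cast hD2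
      have e2 : pD D * ((2 : ℝ) * q) ≤ pD D * (3 * D * m₀) := mul_le_mul_of_nonneg_left e1 hpnn
      have e3 : pD D * (3 * D * m₀) = 3 * m₀ * (pD D * D) := by ring
      rw [e3, hp] at e2
      linarith
    have h1 := cheb_mA z S (m₀ / 2) (by linarith)
    refine le_trans (Pr_mono fun c hc => ?_) (h1.trans ?_)
    · have e1 : (2 : ℝ) * m₀ < ((sample z S c).card : ℝ) := by exact_mod_cast hc
      have e2 : ((sample z S c).card : ℝ) = (mA z S c : ℝ) := rfl
      rw [e2] at e1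
      have e3 : (m₀ : ℝ) / 2 ≤ (mA z S c : ℝ) - S.card * pD D := by linarith
      exact e3.trans (le_abs_self _)
    · have e : (S.card : ℝ) * pD D / (m₀ / 2) ^ 2 ≤ 3 / 2 * m₀ / (m₀ / 2) ^ 2 :=
        div_le_div_of_nonneg_right hμ (by positivity)
      refine e.trans ?_
      have e2 : 3 / 2 * (m₀ : ℝ) / (m₀ / 2) ^ 2 = 6 / m₀ := by field_simp; ring
      rw [e2, div_le_iff₀ hm0]
      linarith
  -- bad event 2: many points of `H` fail
  set F : (P × V → Fin D) → ℝ := fun c =>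
    ∑ x ∈ H, if x ∉ Cont2 h 3073 τ m₀ (sample z S c) then (1 : ℝ) else 0 with hF
  have hFnn : ∀ c, 0 ≤ F c := fun c => Finset.sum_nonneg fun x _ => by split_ifs <;> norm_num
  have hEF : Ex F ≤ H.card / 4 := by
    rw [hF, Ex_sum]
    calc _ ≤ ∑ _x ∈ H, (1 / 4 : ℝ) := by
          refine Finset.sum_le_sum fun x hx => ?_
          have h1 := fail_prob hO hS (hH x hx).1 z (hH x hx).2 hD hD2 hν hτ hm hm2
          rwa [Pr_eq_Ex] at h1
      _ = _ := by
          rw [Finset.sum_const, nsmul_eq_mul]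
          ring
  have hHpos : (0 : ℝ) < H.card := by exact_mod_cast Finset.card_pos.2 hne
  have hbad2 : Pr (fun c : P × V → Fin D => (H.card : ℝ) / 2 ≤ F c) ≤ 1 / 2 := by
    refine (markov hFnn (by positivity)).trans ?_
    rw [div_le_iff₀ (by positivity)]
    linarith
  have hPr : Pr (fun c : P × V → Fin D =>
      ¬ (¬ (2 * m₀ < (sample z S c).card) ∧ ¬ ((H.card : ℝ) / 2 ≤ F c))) < 1 := by
    calc _ ≤ Pr (fun c : P × V → Fin D => 2 * m₀ < (sample z S c).card ∨ (H.card : ℝ) / 2 ≤ F c) :=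
          Pr_mono fun c hc => by
            by_contra hcon
            push Not at hcon
            apply hc
            exact ⟨not_lt.2 hcon.1, not_le.2 hcon.2⟩
      _ ≤ _ := Pr_or_le _ _
      _ < 1 := by linarith
  obtain ⟨c, hc1, hc2⟩ := exists_of_Pr_not_lt_one hPr
  refine ⟨sample z S c, Finset.filter_subset _ _, not_lt.1 hc1, ?_⟩
  push Not at hc2
  have hFc : F c = ((H.filter fun x => x ∉ Cont2 h 3073 τ m₀ (sample z S c)).card : ℝ) := by
    rw [hF]
    simp only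
    rw [Finset.sum_boole]
  rw [hFc] at hc2
  have hsplit : H.card = (H.filter fun x => x ∈ Cont2 h 3073 τ m₀ (sample z S c)).card +
      (H.filter fun x => x ∉ Cont2 h 3073 τ m₀ (sample z S c)).card :=
    (Finset.card_filter_add_card_filter_not _).symm
  have hinter : H ∩ Cont2 h 3073 τ m₀ (sample z S c)
      = H.filter fun x => x ∈ Cont2 h 3073 τ m₀ (sample z S c) := by
    ext x
    simp
  rw [hinter]
  have h3 : 2 * (H.filter fun x => x ∉ Cont2 h 3073 τ m₀ (sample z S c)).card < H.card := by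
    have : (2 : ℝ) * ((H.filter fun x => x ∉ Cont2 h 3073 τ m₀ (sample z S c)).card : ℝ) < H.card := by
      linarith
    exact_mod_cast this
  omega

end Main

end SamplingCol

end Crest.Agent.Ryser
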