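import Crest.Agent.Lib.Ryser.Hat
import Crest.Agent.Lib.Ryser.SamplingCol

/-!
# Module SAMPLING: event (R).

`card_Cont2_le`: weighted variance lemma:
 pair part: `w ℓ = C(m ℓ, 2) 1[2 ≤ m ℓ ≤ M]`, `∑ w ≤ C(|P0|,2) ≤ 2 m₀²`, `∑ w² ≤ C(M,2) 2 m₀²`, threshold `τ`: at most `8 q C(M,2) m₀²/τ²` points [needs `4 m₀² ≤ τ q`];
 big part: `w ℓ = m ℓ 1[m ℓ ≥ 2]`, `∑ w² ≤ 4 ∑ C(m ℓ,2) ≤ 8 m₀²`, `∑ w ≤ 4 m₀²`, threshold `m₀/8`: at most `2048 q` points [needs `64 m₀ ≤ q`];
 part: at most `12` parts have `≥ m₀/6` sample points: at most `12 q` points.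

`Rgood_prob`: `rare_balls` with `G b = Cont2 ∩ part b`, `μ ≤ mm C₂`, and union over at most `((q+1) q + 1)^(2 m₀)` samples.

`exists_sample_cont2`: random colouring `c : S → Fin D`, `P0 = c⁻¹(0)`, `E|P0| = q/D ∈ [m₀, 1.5 m₀]`.
For `x ∈ H`, the hat lines through `x` meeting `S` partition `S` into at most `ν` classes of sizes `n_j`; `n₀` = class of the part of `x`; `big` lines: `n_j ≥ 48 D`, `small`: the others. One of the three groups has at least `q/3` points of `S`.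
 - part: `|P0 ∩ part x| ≥ m₀/6` except with prob `≤ 12/m₀` (Chebyshev).
 - big: at most `m₀/32` big lines, `∑_big m_j ≥ m₀/6` except with prob `≤ 12/m₀`, so `∑_{big, m_j ≥ 2} m_j ≥ m₀/8`.
 - small: `X = ∑_small C(m_j,2)`, `mean = ∑ C(n_j,2)/D² ≥ m₀²/(36 ν)`, `Var X ≤ 97 mean` so `P(X < mean/2) ≤ 388/mean`; with `M = 3073`,
   `E[∑_{small, m_j>M} C(m_j,2)] ≤ 48 mean/(M-1)`, Markov: `≥ mean/4` with prob `≤ 1/16`. So `pairCnt ≥ mean/4 ≥ τ`.
 So `x ∈ Cont2` with prob `≥ 3/4`; `P(|H \ Cont2| > |H|/2) ≤ 1/2`; `P(|P0| > 2 m₀) ≤ 6/m₀`.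
-/

open Finset BigOperators

namespace Crest.Agent.Ryser

variable {P V L : Type*} [Fintype P] [DecidableEq P] [Fintype V] [DecidableEq V]
  [Fintype L] [DecidableEq L]
variable {q : ℕ} {h : L → P → V}
variable {B : Type*} [Fintype B] [DecidableEq B]

namespace SamplingAux

/-- Pairs on lines: each pair of points lies on at most one line. -/
lemma sum_choose_two_le (hO : OA q h) (P0 : Finset (P × V)) :
    ∑ ℓ : L, ((P0.filter (On h ℓ)).card).choose 2 ≤ P0.card.choose 2 := by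
  classical
  have hdisj : ((univ : Finset L) : Set L).PairwiseDisjoint
      (fun ℓ => (P0.filter (On h ℓ)).powersetCard 2) := by
    intro ℓ _ ℓ' _ hne
    simp only [Function.onFun]
    rw [Finset.disjoint_left]
    intro A hA hA'
    rw [Finset.mem_powersetCard] at hA hA'
    obtain ⟨a, b, hab, rfl⟩ := Finset.card_eq_two.1 hA.2
    have ha := Finset.mem_filter.1 (hA.1 (Finset.mem_insert_self a {b}))
    have hb := Finset.mem_filter.1 (hA.1 (Finset.mem_insert_of_mem (Finset.mem_singleton_self b)))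
    have ha' := Finset.mem_filter.1 (hA'.1 (Finset.mem_insert_self a {b}))
    have hb' := Finset.mem_filter.1 (hA'.1 (Finset.mem_insert_of_mem (Finset.mem_singleton_self b)))
    apply hne
    have hne1 : a.1 ≠ b.1 := by
      intro heq
      apply hab
      have h1 : a.2 = b.2 := by
        have e1 : h ℓ a.1 = a.2 := ha.2
        have e2 : h ℓ b.1 = b.2 := hb.2
        rw [← e1, ← e2, heq]
      exact Prod.ext heq h1
    exact hO.eq_of_two_points ha.2 ha'.2 hb.2 hb'.2 hne1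
  calc ∑ ℓ : L, ((P0.filter (On h ℓ)).card).choose 2
      = ∑ ℓ : L, ((P0.filter (On h ℓ)).powersetCard 2).card := by
        simp only [Finset.card_powersetCard]
    _ = (univ.biUnion fun ℓ => (P0.filter (On h ℓ)).powersetCard 2).card :=
        (Finset.card_biUnion hdisj).symm
    _ ≤ (P0.powersetCard 2).card := by
        apply Finset.card_le_card
        intro A hA
        obtain ⟨ℓ, -, hA⟩ := Finset.mem_biUnion.1 hA
        rw [Finset.mem_powersetCard] at hA ⊢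
        exact ⟨hA.1.trans (Finset.filter_subset _ _), hA.2⟩
    _ = _ := Finset.card_powersetCard _ _

/-- Real form: `∑ C(m ℓ,2) ≤ 2 m₀²` for a sample of size `≤ 2 m₀`. -/
lemma sum_choose_two_real (hO : OA q h) (P0 : Finset (P × V)) (m₀ : ℕ) (hP0 : P0.card ≤ 2 * m₀) :
    ∑ ℓ : L, (((P0.filter (On h ℓ)).card).choose 2 : ℝ) ≤ 2 * (m₀ : ℝ) ^ 2 := by
  have h1 : (∑ ℓ : L, (((P0.filter (On h ℓ)).card).choose 2 : ℝ)) ≤ (P0.card.choose 2 : ℝ) := by
    exact_mod_cast sum_choose_two_le hO P0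
  have h2 : (P0.card.choose 2 : ℝ) ≤ 2 * (m₀ : ℝ) ^ 2 := by
    rw [Nat.cast_choose_two]
    have h3 : (P0.card : ℝ) ≤ 2 * m₀ := by exact_mod_cast hP0
    have h4 : (0:ℝ) ≤ P0.card := by positivity
    nlinarith
  exact h1.trans h2

end SamplingAux

open SamplingAux in
/-- Size of the second container. -/
theorem card_Cont2_le (hO : OA q h) (M τ m₀ : ℕ) (P0 : Finset (P × V)) (hP0 : P0.card ≤ 2 * m₀)
    (hm₀ : 1 ≤ m₀) (hτ : 1 ≤ τ) (hτq : 4 * m₀ ^ 2 ≤ τ * q) (hmq : 64 * m₀ ≤ q) :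
    ((Cont2 h M τ m₀ P0).card : ℝ) ≤
      q * (8 * (M.choose 2 : ℝ) * (m₀ : ℝ) ^ 2 / (τ : ℝ) ^ 2 + 2060) := by
  classical
  have hq0 : 0 < q := hO.q_pos
  have hqR : (0:ℝ) < q := by exact_mod_cast hq0
  have hτR : (0:ℝ) < τ := by exact_mod_cast hτ
  have hm₀R : (0:ℝ) < m₀ := by exact_mod_cast hm₀
  set m : L → ℕ := fun ℓ => (P0.filter (On h ℓ)).card with hm
  have hsum : ∑ ℓ : L, ((m ℓ).choose 2 : ℝ) ≤ 2 * (m₀ : ℝ) ^ 2 := sum_choose_two_real hO P0 m₀ hP0
  have hτqR : 4 * (m₀ : ℝ) ^ 2 ≤ τ * q := by exact_mod_cast hτq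
  have hmqR : 64 * (m₀ : ℝ) ≤ q := by exact_mod_cast hmq
  -- pair part
  set w₁ : L → ℝ := fun ℓ => if 2 ≤ m ℓ ∧ m ℓ ≤ M then ((m ℓ).choose 2 : ℝ) else 0 with hw₁
  have hw₁0 : ∀ ℓ, 0 ≤ w₁ ℓ := by
    intro ℓ; simp only [hw₁]; split_ifs <;> positivity
  have hw₁le : ∀ ℓ, w₁ ℓ ≤ ((m ℓ).choose 2 : ℝ) := by
    intro ℓ; simp only [hw₁]; split_ifs
    · exact le_rfl
    · positivity
  have hw₁M : ∀ ℓ, w₁ ℓ ≤ (M.choose 2 : ℝ) := by
    intro ℓ; simp only [hw₁]; split_ifs with hc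
    · exact_mod_cast Nat.choose_le_choose 2 hc.2
    · positivity
  have hW₁ : ∑ ℓ, w₁ ℓ ≤ 2 * (m₀ : ℝ) ^ 2 := (Finset.sum_le_sum fun ℓ _ => hw₁le ℓ).trans hsum
  have hW₁2 : ∑ ℓ, (w₁ ℓ) ^ 2 ≤ (M.choose 2 : ℝ) * (2 * (m₀ : ℝ) ^ 2) := by
    calc ∑ ℓ, (w₁ ℓ) ^ 2 ≤ ∑ ℓ, (M.choose 2 : ℝ) * w₁ ℓ := by
          apply Finset.sum_le_sum
          intro ℓ _
          rw [sq]
          exact mul_le_mul_of_nonneg_right (hw₁M ℓ) (hw₁0 ℓ)
      _ = (M.choose 2 : ℝ) * ∑ ℓ, w₁ ℓ := by rw [Finset.mul_sum]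
      _ ≤ _ := mul_le_mul_of_nonneg_left hW₁ (by positivity)
  have hA₁ : ((univ.filter fun x : P × V => (τ : ℝ) ≤ ∑ ℓ ∈ linesThrough h x, w₁ ℓ).card : ℝ) ≤
      4 * q * (∑ ℓ, (w₁ ℓ) ^ 2) / (τ : ℝ) ^ 2 := by
    apply card_heavy_le hO w₁ (τ : ℝ) hτR
    rw [div_le_iff₀ hqR]
    nlinarith
  -- big part
  set w₂ : L → ℝ := fun ℓ => if 2 ≤ m ℓ then (m ℓ : ℝ) else 0 with hw₂
  have hm2 : ∀ n : ℕ, 2 ≤ n → (n : ℝ) ≤ 2 * (n.choose 2 : ℝ) ∧ (n : ℝ) ^ 2 ≤ 4 * (n.choose 2 : ℝ) := by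
    intro n hn
    rw [Nat.cast_choose_two]
    have : (2:ℝ) ≤ n := by exact_mod_cast hn
    constructor <;> nlinarith
  have hw₂le : ∀ ℓ, w₂ ℓ ≤ 2 * ((m ℓ).choose 2 : ℝ) := by
    intro ℓ; simp only [hw₂]; split_ifs with hc
    · exact (hm2 _ hc).1
    · positivity
  have hw₂sq : ∀ ℓ, (w₂ ℓ) ^ 2 ≤ 4 * ((m ℓ).choose 2 : ℝ) := by
    intro ℓ; simp only [hw₂]; split_ifs with hc
    · exact (hm2 _ hc).2
    · simp only [ne_eq, OfNat.ofNat_ne_zero, not_false_eq_true, zero_pow]; positivity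
  have hW₂ : ∑ ℓ, w₂ ℓ ≤ 4 * (m₀ : ℝ) ^ 2 := by
    calc ∑ ℓ, w₂ ℓ ≤ ∑ ℓ, 2 * ((m ℓ).choose 2 : ℝ) := Finset.sum_le_sum fun ℓ _ => hw₂le ℓ
      _ = 2 * ∑ ℓ, ((m ℓ).choose 2 : ℝ) := by rw [Finset.mul_sum]
      _ ≤ _ := by linarith
  have hW₂2 : ∑ ℓ, (w₂ ℓ) ^ 2 ≤ 8 * (m₀ : ℝ) ^ 2 := by
    calc ∑ ℓ, (w₂ ℓ) ^ 2 ≤ ∑ ℓ, 4 * ((m ℓ).choose 2 : ℝ) := Finset.sum_le_sum fun ℓ _ => hw₂sq ℓ
      _ = 4 * ∑ ℓ, ((m ℓ).choose 2 : ℝ) := by rw [Finset.mul_sum]
      _ ≤ _ := by linarith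
  have hA₂ : ((univ.filter fun x : P × V => (m₀ : ℝ) / 8 ≤ ∑ ℓ ∈ linesThrough h x, w₂ ℓ).card : ℝ) ≤
      4 * q * (∑ ℓ, (w₂ ℓ) ^ 2) / ((m₀ : ℝ) / 8) ^ 2 := by
    apply card_heavy_le hO w₂ ((m₀ : ℝ) / 8) (by positivity)
    rw [div_le_iff₀ hqR]
    nlinarith
  have hA₂' : ((univ.filter fun x : P × V => (m₀ : ℝ) / 8 ≤ ∑ ℓ ∈ linesThrough h x, w₂ ℓ).card : ℝ) ≤
      2048 * q := by
    refine hA₂.trans ?_
    rw [div_le_iff₀ (by positivity)]
    have : 4 * (q:ℝ) * (∑ ℓ, (w₂ ℓ) ^ 2) ≤ 4 * q * (8 * (m₀ : ℝ) ^ 2) :=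
      mul_le_mul_of_nonneg_left hW₂2 (by positivity)
    have e : 2048 * (q:ℝ) * ((m₀ : ℝ) / 8) ^ 2 = 4 * q * (8 * (m₀ : ℝ) ^ 2) := by ring
    rw [e]; exact this
  -- part part
  set pc : P → ℕ := fun i => (P0.filter fun y => y.1 = i).card with hpc
  have hpcsum : ∑ i, pc i = P0.card := by
    have := Finset.card_eq_sum_card_fiberwise (f := fun y : P × V => y.1) (s := P0) (t := univ)
      (fun _ _ => Finset.mem_coe.2 (Finset.mem_univ _))
    exact this.symm
  set Bp : Finset P := univ.filter fun i => m₀ ≤ 6 * pc i with hBp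
  have hBpcard : Bp.card ≤ 12 := by
    have h1 : Bp.card * m₀ ≤ 6 * ∑ i, pc i := by
      calc Bp.card * m₀ = ∑ _i ∈ Bp, m₀ := by rw [Finset.sum_const, smul_eq_mul]
        _ ≤ ∑ i ∈ Bp, 6 * pc i := Finset.sum_le_sum fun i hi => (Finset.mem_filter.1 hi).2
        _ ≤ ∑ i, 6 * pc i := Finset.sum_le_sum_of_subset (Finset.subset_univ _)
        _ = _ := by rw [Finset.mul_sum]
    rw [hpcsum] at h1
    have h2 : Bp.card * m₀ ≤ 12 * m₀ := by omega
    exact Nat.le_of_mul_le_mul_right h2 hm₀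
  have hA₃ : ((univ.filter fun x : P × V => m₀ ≤ 6 * pc x.1).card : ℝ) ≤ 12 * q := by
    have h1 : (univ.filter fun x : P × V => m₀ ≤ 6 * pc x.1) = Bp ×ˢ univ := by
      ext x; simp [hBp]
    rw [h1, Finset.card_product, Finset.card_univ, hO.cardV]
    push_cast
    have : (Bp.card : ℝ) ≤ 12 := by exact_mod_cast hBpcard
    nlinarith
  -- union
  have hsub : Cont2 h M τ m₀ P0 ⊆ (univ.filter fun x : P × V => (τ : ℝ) ≤ ∑ ℓ ∈ linesThrough h x, w₁ ℓ) ∪
      ((univ.filter fun x : P × V => (m₀ : ℝ) / 8 ≤ ∑ ℓ ∈ linesThrough h x, w₂ ℓ) ∪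
       (univ.filter fun x : P × V => m₀ ≤ 6 * pc x.1)) := by
    intro x hx
    simp only [Cont2, Finset.mem_filter, Finset.mem_univ, true_and] at hx
    simp only [Finset.mem_union, Finset.mem_filter, Finset.mem_univ, true_and]
    rcases hx with hx | hx | hx
    · left
      have e : (pairCnt h M P0 x : ℝ) = ∑ ℓ ∈ linesThrough h x, w₁ ℓ := by
        unfold pairCnt
        rw [Finset.sum_filter]
        push_cast
        apply Finset.sum_congr rfl
        intro ℓ _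
        simp only [hw₁, hm]
      rw [← e]; exact_mod_cast hx
    · right; left
      have e : (bigCnt h P0 x : ℝ) = ∑ ℓ ∈ linesThrough h x, w₂ ℓ := by
        unfold bigCnt
        rw [Finset.sum_filter]
        push_cast
        apply Finset.sum_congr rfl
        intro ℓ _
        simp only [hw₂, hm]
      rw [← e]
      have : (m₀ : ℝ) ≤ 8 * (bigCnt h P0 x : ℝ) := by exact_mod_cast hx
      linarith
    · right; right; exact hx
  have hcard := Finset.card_le_card hsub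
  have hcard1 := hcard.trans (Finset.card_union_le _ _)
  have hcard2 := Finset.card_union_le (univ.filter fun x : P × V => (m₀ : ℝ) / 8 ≤ ∑ ℓ ∈ linesThrough h x, w₂ ℓ)
      (univ.filter fun x : P × V => m₀ ≤ 6 * pc x.1)
  have hcardR : ((Cont2 h M τ m₀ P0).card : ℝ) ≤
      ((univ.filter fun x : P × V => (τ : ℝ) ≤ ∑ ℓ ∈ linesThrough h x, w₁ ℓ).card : ℝ) +
      (((univ.filter fun x : P × V => (m₀ : ℝ) / 8 ≤ ∑ ℓ ∈ linesThrough h x, w₂ ℓ).card : ℝ) +
       ((univ.filter fun x : P × V => m₀ ≤ 6 * pc x.1).card : ℝ)) := by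
    exact_mod_cast hcard1.trans (Nat.add_le_add_left hcard2 _)
  have hA₁' : ((univ.filter fun x : P × V => (τ : ℝ) ≤ ∑ ℓ ∈ linesThrough h x, w₁ ℓ).card : ℝ) ≤
      q * (8 * (M.choose 2 : ℝ) * (m₀ : ℝ) ^ 2 / (τ : ℝ) ^ 2) := by
    refine hA₁.trans ?_
    have e : q * (8 * (M.choose 2 : ℝ) * (m₀ : ℝ) ^ 2 / (τ : ℝ) ^ 2) =
        (4 * q * ((M.choose 2 : ℝ) * (2 * (m₀ : ℝ) ^ 2))) / (τ : ℝ) ^ 2 := by ring
    rw [e]
    apply div_le_div_of_nonneg_right _ (by positivity)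
    exact mul_le_mul_of_nonneg_left hW₁2 (by positivity)
  calc ((Cont2 h M τ m₀ P0).card : ℝ) ≤ _ := hcardR
    _ ≤ q * (8 * (M.choose 2 : ℝ) * (m₀ : ℝ) ^ 2 / (τ : ℝ) ^ 2) + (2048 * q + 12 * q) := by
        linarith
    _ = _ := by ring

namespace SamplingAux

/-- The number of subsets of size `≤ k` of a type with `N` elements is at most `(N+1)^k`. -/
lemma card_subsets_le {α : Type*} [Fintype α] [DecidableEq α] (k : ℕ) :
    ((univ : Finset (Finset α)).filter fun A => A.card ≤ k).card ≤ (Fintype.card α + 1) ^ k := by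
  classical
  have : ((univ : Finset (Finset α)).filter fun A => A.card ≤ k) ⊆
      (univ : Finset (Fin k → Option α)).image
        (fun f => (univ : Finset (Fin k)).biUnion fun i => (f i).toFinset) := by
    intro A hA
    have hAk : A.card ≤ k := (Finset.mem_filter.1 hA).2
    -- enumerate A by an injection into Fin k
    obtain ⟨e⟩ : Nonempty (A ≃ Fin A.card) := ⟨A.equivFin⟩
    let f : Fin k → Option α := fun i =>
      if hi : i.1 < A.card then some (e.symm ⟨i.1, hi⟩).1 else none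
    refine Finset.mem_image.2 ⟨f, Finset.mem_univ _, ?_⟩
    ext a
    simp only [Finset.mem_biUnion, Finset.mem_univ, true_and, f]
    constructor
    · rintro ⟨i, hi⟩
      by_cases hc : i.1 < A.card
      · simp only [hc, dif_pos, Option.mem_toFinset, Option.mem_def, Option.some.injEq] at hi
        rw [← hi]; exact (e.symm _).2
      · simp [hc] at hi
    · intro ha
      have hlt : (e ⟨a, ha⟩).1 < k := lt_of_lt_of_le (e ⟨a, ha⟩).2 hAk
      refine ⟨⟨(e ⟨a, ha⟩).1, hlt⟩, ?_⟩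
      have : (e ⟨a, ha⟩).1 < A.card := (e ⟨a, ha⟩).2
      simp [this]
  calc _ ≤ ((univ : Finset (Fin k → Option α)).image _).card := Finset.card_le_card this
    _ ≤ (univ : Finset (Fin k → Option α)).card := Finset.card_image_le
    _ = _ := by simp [Finset.card_univ, Fintype.card_option]

end SamplingAux

open SamplingAux in
/-- Event (R) fails rarely. -/
theorem Rgood_prob (hO : OA q h) (bp : B → P) (mm : ℕ) (hmm : ∀ i, (univ.filter fun b => bp b = i).card ≤ mm)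
    (M τ m₀ n : ℕ) (hn : 1 ≤ n) (C₂ : ℝ) (hC₂ : 0 < C₂)
    (hC : ∀ P0 : Finset (P × V), P0.card ≤ 2 * m₀ → ((Cont2 h M τ m₀ P0).card : ℝ) ≤ C₂ * q) :
    Pr (fun π : B → V => ¬ Rgood h M τ m₀ n (Zof bp π)) ≤
      (((q + 1) * q + 1 : ℕ) : ℝ) ^ (2 * m₀) * (Real.exp 1 * (mm * C₂) / ((n + 1) / 2 : ℕ)) ^ ((n + 1) / 2) := by
  classical
  have hq0 : 0 < q := hO.q_pos
  have hqR : (0:ℝ) < q := by exact_mod_cast hq0
  have hV : Fintype.card V = q := hO.cardV
  have : Nonempty V := by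
    apply Fintype.card_pos_iff.1; rw [hV]; exact hq0
  set t : ℕ := (n + 1) / 2 with ht
  have ht1 : 1 ≤ t := by rw [ht]; omega
  set Fam : Finset (Finset (P × V)) := (univ : Finset (Finset (P × V))).filter fun A => A.card ≤ 2 * m₀ with hFam
  have hFamcard : (Fam.card : ℝ) ≤ (((q + 1) * q + 1 : ℕ) : ℝ) ^ (2 * m₀) := by
    have := card_subsets_le (α := P × V) (2 * m₀)
    rw [hO.card_pt] at this
    exact_mod_cast this
  -- each fixed sample
  have hone : ∀ P0 ∈ Fam, Pr (fun π : B → V => t ≤ (Zof bp π ∩ Cont2 h M τ m₀ P0).card) ≤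
      (Real.exp 1 * (mm * C₂) / t) ^ t := by
    intro P0 hP0
    have hP0' : P0.card ≤ 2 * m₀ := (Finset.mem_filter.1 hP0).2
    set C := Cont2 h M τ m₀ P0 with hCdef
    -- sets `G b`
    set G : B → Finset V := fun b => univ.filter fun y => (bp b, y) ∈ C with hG
    have hmu : (∑ b, ((G b).card : ℝ) / Fintype.card V) ≤ mm * C₂ := by
      have h1 : ∑ b, ((G b).card : ℝ) = ∑ i : P, ((univ.filter fun b => bp b = i).card : ℝ) *
          ((univ.filter fun y : V => (i, y) ∈ C).card : ℝ) := by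
        rw [← Finset.sum_fiberwise (s := univ) (g := bp)]
        apply Finset.sum_congr rfl
        intro i _
        rw [Finset.sum_congr rfl (g := fun _ => ((univ.filter fun y : V => (i, y) ∈ C).card : ℝ))]
        · rw [Finset.sum_const, nsmul_eq_mul]
        · intro b hb
          have : bp b = i := (Finset.mem_filter.1 hb).2
          simp only [hG, this]
      have h2 : ∑ i : P, ((univ.filter fun y : V => (i, y) ∈ C).card : ℝ) = (C.card : ℝ) := by
        have := Finset.card_eq_sum_card_fiberwise (f := fun y : P × V => y.1) (s := C) (t := univ)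
          (fun _ _ => Finset.mem_coe.2 (Finset.mem_univ _))
        rw [this]
        push_cast
        apply Finset.sum_congr rfl
        intro i _
        congr 1
        apply Finset.card_bij (fun y _ => (i, y))
        · intro y hy
          simpa using hy
        · intro a _ b _ hab
          exact (Prod.ext_iff.1 hab).2
        · intro y hy
          have hy' := Finset.mem_filter.1 hy
          refine ⟨y.2, ?_, ?_⟩
          · have : (i, y.2) = y := Prod.ext hy'.2.symm rfl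
            simp only [Finset.mem_filter, Finset.mem_univ, true_and]
            rw [this]; exact hy'.1
          · exact Prod.ext hy'.2.symm rfl
      rw [← Finset.sum_div, h1, hV, div_le_iff₀ hqR]
      calc ∑ i : P, ((univ.filter fun b => bp b = i).card : ℝ) * ((univ.filter fun y : V => (i, y) ∈ C).card : ℝ)
          ≤ ∑ i : P, (mm : ℝ) * ((univ.filter fun y : V => (i, y) ∈ C).card : ℝ) := by
            apply Finset.sum_le_sum
            intro i _
            apply mul_le_mul_of_nonneg_right _ (by positivity)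
            exact_mod_cast hmm i
        _ = mm * (C.card : ℝ) := by rw [← Finset.mul_sum, h2]
        _ ≤ mm * (C₂ * q) := mul_le_mul_of_nonneg_left (hC P0 hP0') (by positivity)
        _ = _ := by ring
    by_cases hmmpos : 0 < mm
    · have hμ0 : 0 < (mm : ℝ) * C₂ := by
        have : (0:ℝ) < mm := by exact_mod_cast hmmpos
        positivity
      refine le_trans (Pr_mono ?_) (rare_balls G ((mm:ℝ) * C₂) hmu hμ0 t ht1)
      intro π hπ
      refine hπ.trans ?_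
      -- `Z ∩ C` is the image of the balls in `C`
      have hsub : Zof bp π ∩ C ⊆ (univ.filter fun b => π b ∈ G b).image (fun b => (bp b, π b)) := by
        intro x hx
        obtain ⟨hx1, hx2⟩ := Finset.mem_inter.1 hx
        obtain ⟨b, -, rfl⟩ := Finset.mem_image.1 hx1
        refine Finset.mem_image.2 ⟨b, ?_, rfl⟩
        simp [hG, hx2]
      exact (Finset.card_le_card hsub).trans Finset.card_image_le
    · -- no balls at all
      have hmm0' : mm = 0 := by omega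
      have hB : ∀ b : B, False := by
        intro b
        have := hmm (bp b)
        rw [hmm0', Nat.le_zero, Finset.card_eq_zero] at this
        have hb : b ∈ univ.filter fun b' => bp b' = bp b := by simp
        rw [this] at hb
        simp at hb
      have hE : ∀ π : B → V, ¬ t ≤ (Zof bp π ∩ C).card := by
        intro π hle
        have : Zof bp π = ∅ := by
          unfold Zof
          rw [Finset.image_eq_empty]
          ext b; exact (hB b).elim
        rw [this] at hle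
        simp at hle
        omega
      have h0 : Pr (fun π : B → V => t ≤ (Zof bp π ∩ C).card) = 0 := by
        rw [Pr_eq_card]
        rw [Finset.filter_false_of_mem (fun π _ => hE π)]
        simp
      rw [h0]
      positivity
  have hunion : Pr (fun π : B → V => ¬ Rgood h M τ m₀ n (Zof bp π)) ≤
      Pr (fun π : B → V => ∃ P0 ∈ Fam, t ≤ (Zof bp π ∩ Cont2 h M τ m₀ P0).card) := by
    apply Pr_mono
    intro π hπ
    unfold Rgood at hπ
    push Not at hπ
    obtain ⟨P0, hP0, hle⟩ := hπ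
    refine ⟨P0, Finset.mem_filter.2 ⟨Finset.mem_univ _, hP0⟩, ?_⟩
    rw [ht]; omega
  refine hunion.trans ((Pr_exists_le_card Fam _ _ hone).trans ?_)
  apply mul_le_mul_of_nonneg_right hFamcard
  positivity

/-- The sampling lemma. -/
theorem exists_sample_cont2 (hO : OA q h) (S : Finset (P × V)) (hS : S.card = q) (H : Finset (P × V))
    (ν D m₀ τ : ℕ)
    (hH : ∀ x ∈ H, x ∉ S ∧ (univ.filter fun ℓ : L ⊕ P => OnH h ℓ x ∧ ∃ y ∈ S, OnH h ℓ y).card ≤ ν)
    (hD : D * m₀ ≤ q) (hD2 : 2 * q ≤ 3 * D * m₀) (hν : 6 * ν ≤ q) (hτ : 144 * ν * τ ≤ m₀ ^ 2)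
    (hm : 96 ≤ m₀) (hm2 : 111744 * ν ≤ m₀ ^ 2) :
    ∃ P0 : Finset (P × V), P0 ⊆ S ∧ P0.card ≤ 2 * m₀ ∧
      H.card ≤ 2 * (H ∩ Cont2 h 3073 τ m₀ P0).card := by
  exact SamplingCol.exists_sample_cont2_col hO S hS H ν D m₀ τ hH hD hD2 hν hτ hm hm2

end Crest.Agent.Ryser
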