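import Crest.Agent.Lib.Ryser.Hat
import Crest.Agent.Lib.Ryser.E1
import Crest.Agent.Lib.Ryser.P2
import Crest.Agent.Lib.Ryser.Rich
import Crest.Agent.Lib.Ryser.Container
import Crest.Agent.Lib.Ryser.Block
import Crest.Agent.Lib.Ryser.Sampling

/-!
# Assembly of the stability lemma
-/

open Finset BigOperators

namespace Crest.Agent.Ryser

variable {P V L : Type*} [Fintype P] [DecidableEq P] [Fintype V] [DecidableEq V]
  [Fintype L] [DecidableEq L]
variable {q : ℕ} {h : L → P → V}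

/-- Hat lines through a point: `q` lines and the part. -/
lemma card_hat_through (hO : OA q h) (x : P × V) :
    (univ.filter fun ℓ : L ⊕ P => OnH h ℓ x).card = q + 1 := by
  classical
  have h1 : (univ.filter fun ℓ : L ⊕ P => OnH h ℓ x) =
      ((linesThrough h x).map Function.Embedding.inl) ∪ {Sum.inr x.1} := by
    ext ℓ
    cases ℓ with
    | inl ℓ => simp [OnH, linesThrough]
    | inr i => simp [OnH, linesThrough, eq_comm]
  rw [h1, Finset.card_union_of_disjoint (by simp), Finset.card_map, hO.card_linesThrough]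
  simp

/-- A point of `S` has no skew line. -/
lemma dSkew_eq_zero_of_mem {S : Finset (P × V)} {x : P × V} (hx : x ∈ S) : dSkew h S x = 0 := by
  unfold dSkew skewH
  rw [Finset.card_eq_zero, Finset.filter_eq_empty_iff]
  intro ℓ hℓ hx'
  exact (Finset.mem_filter.1 hℓ).2 x hx hx'

/-- Number of hat lines through `x` meeting `S`, plus the skew ones, is `q + 1`. -/
lemma nonskew_add_dSkew (hO : OA q h) (S : Finset (P × V)) (x : P × V) :
    (univ.filter fun ℓ : L ⊕ P => OnH h ℓ x ∧ ∃ y ∈ S, OnH h ℓ y).card + dSkew h S x = q + 1 := by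
  classical
  rw [← card_hat_through hO x]
  unfold dSkew skewH
  rw [← Finset.card_union_of_disjoint]
  · congr 1
    ext ℓ
    simp only [Finset.mem_union, Finset.mem_filter, Finset.mem_univ, true_and]
    constructor
    · rintro (h1 | h1)
      · exact h1.1
      · exact h1.2
    · intro h1
      by_cases h2 : ∃ y ∈ S, OnH h ℓ y
      · exact Or.inl ⟨h1, h2⟩
      · push Not at h2
        exact Or.inr ⟨h2, h1⟩
  · rw [Finset.disjoint_left]
    intro ℓ h1 h2
    simp only [Finset.mem_filter, Finset.mem_univ, true_and] at h1 h2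
    obtain ⟨-, y, hy, hy'⟩ := h1
    exact h2.1 y hy hy'

/-- A hat line through `x` which is not skew... lines counted in `rho` for `x ∉ Z` are not skew,
and the `rho` lines and the skew hat lines through `x` are disjoint. -/
lemma rho_add_dSkew_le (hO : OA q h) {Z S : Finset (P × V)} (hB : Blocks h S Z) {x : P × V} (hx : x ∉ Z) :
    rho h Z x + dSkew h S x ≤ q + 1 := by
  classical
  have h1 := nonskew_add_dSkew hO S x
  have h2 : rho h Z x ≤ (univ.filter fun ℓ : L ⊕ P => OnH h ℓ x ∧ ∃ y ∈ S, OnH h ℓ y).card := by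
    unfold rho
    rw [← Finset.card_map Function.Embedding.inl]
    apply Finset.card_le_card
    intro ℓ' hℓ'
    obtain ⟨ℓ, hℓ, rfl⟩ := Finset.mem_map.1 hℓ'
    obtain ⟨h3, h4⟩ := Finset.mem_filter.1 hℓ
    have h3' : On h ℓ x := (Finset.mem_filter.1 h3).2
    have hm : misses h ℓ Z := by
      intro y hy
      by_cases hyx : y = x
      · subst hyx; exact absurd hy hx
      · exact h4 y hy hyx
    obtain ⟨y, hy, hy'⟩ := hB ℓ hm
    simp only [Finset.mem_filter, Finset.mem_univ, true_and, Function.Embedding.inl_apply]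
    exact ⟨h3', y, hy, hy'⟩
  omega

/-- Heavy points are balls. -/
lemma heavy_subset (hO : OA q h) (hG : GapProp h q) {Z S : Finset (P × V)} (hS : S.card = q)
    (hB : Blocks h S Z) (ρmin : ℕ) (hρ : ∀ u, ρmin ≤ rho h Z u) (hρq : q ≤ 5 * ρmin)
    (hq : 100 ≤ q) (hs : 10 * (skewH h S).card < q ^ 2) :
    Heavy h q S ⊆ Z := by
  classical
  intro x hx
  by_contra hxZ
  have hd : q ≤ 2 * dSkew h S x := by simpa [Heavy] using hx
  have hxS : x ∉ S := by
    intro hxS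
    rw [dSkew_eq_zero_of_mem hxS] at hd
    omega
  have hd1 : 1 ≤ dSkew h S x := by omega
  have hle := rho_add_dSkew_le hO hB hxZ
  have hρx := hρ x
  have hdq : dSkew h S x ≤ q + 1 := by omega
  rcases gap_dichotomy hO hG S hS x hxS hd1 hs with h1 | h1
  · -- 10 q (d-1) < 13 s, 10 s < q^2 so 100 q (d-1) < 13 q^2
    have h2 : 100 * (q * (dSkew h S x - 1)) < 13 * q ^ 2 := by nlinarith
    have h3 : 100 * (dSkew h S x - 1) < 13 * q := by
      have hq0 : 0 < q := by omega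
      nlinarith
    omega
  · have h2 : 100 * (q * (q - (dSkew h S x - 1))) < 13 * q ^ 2 := by nlinarith
    have h3 : 100 * (q - (dSkew h S x - 1)) < 13 * q := by
      have hq0 : 0 < q := by omega
      nlinarith
    omega

/-- Numeric data of the stability lemma. -/
structure SLNum (q : ℕ) where
  ρ₀ : ℝ
  Δ : ℝ
  K : ℕ
  L₀ : ℕ
  s₁ : ℕ
  β : ℝ
  c : ℝ
  D : ℕ
  θ : ℕ
  τ : ℕ
  m₁ : ℕ
  n₀ : ℕ
  h₀ : ℕ
  h₁ : ℕ
  ρmin : ℕ
  m₀f : ℕ → ℕ
  Df : ℕ → ℕ
  τf : ℕ → ℕ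
  hq : 100 ≤ q
  hρ₀ : (q:ℝ) / 4 ≤ ρ₀
  hρ₀' : ρ₀ ≤ q
  hΔ : 1 ≤ Δ
  hρmin : (ρmin : ℝ) ≤ ρ₀ - Δ
  hρq : q ≤ 5 * ρmin
  hρq2 : q ≤ (ρmin - 1) ^ 2
  hβ : (s₁ : ℝ) + 8 * Δ + 1 ≤ β * q
  hc : 200 * c * q ≤ s₁
  hL₁ : 600 * (L₀ : ℝ) * q * Δ ≤ (s₁ : ℝ) ^ 2
  hK : 6 ≤ K
  hK₂ : 1000 * K ^ 6 * L₀ ≤ s₁
  hK₃ : 1000 * K ^ 2 ≤ s₁
  hL₀ : 1 ≤ L₀
  hD : 1 ≤ D
  hθ : 2 * θ * D ≤ L₀
  hθnum : (8 : ℝ) * ((q ^ 2 + q + 1 : ℕ) : ℝ) * Real.exp (-((θ : ℝ) / 4)) ≤ 1
  hm₁ : 2 * q ≤ m₁ * D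
  hτc : (2 * D * τ : ℝ) ≤ c * q
  hn₀ : β * q ≤ n₀
  hh₀ : (3 * h₀ * q + 2 * q + 2) ^ 2 ≤ q ^ 3
  hDf : ∀ n, h₀ ≤ n → n < h₁ → Df n * m₀f n ≤ q
  hDf2 : ∀ n, h₀ ≤ n → n < h₁ → 2 * q ≤ 3 * Df n * m₀f n
  hνq : ∀ n, h₀ ≤ n → n < h₁ → 6 * (2 * n + 3) ≤ q
  hτf : ∀ n, h₀ ≤ n → n < h₁ → 144 * (2 * n + 3) * τf n ≤ (m₀f n) ^ 2
  hmf : ∀ n, h₀ ≤ n → n < h₁ → 96 ≤ m₀f n
  hmf2 : ∀ n, h₀ ≤ n → n < h₁ → 111744 * (2 * n + 3) ≤ (m₀f n) ^ 2

/-- Deterministic assembly of the stability lemma from the events. -/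
theorem SL_det (hO : OA q h) (hG : GapProp h q) (N : SLNum q) (Z : Finset (P × V))
    (hE : ∀ u, |(rho h Z u : ℝ) - N.ρ₀| ≤ N.Δ) (hP2 : P2good h N.K Z)
    (i₀ : P) (hi₀ : (Z.filter fun x => x.1 = i₀).card ≤ 1)
    (hList : ListGood h q N.θ N.τ N.m₁ N.n₀ N.h₁ Z)
    (hR : ∀ n, N.h₀ ≤ n → n < N.h₁ → Rgood h 3073 (N.τf n) (N.m₀f n) n Z) :
    SLconcl h q Z := by
  classical
  intro S hS hB
  have hρ : ∀ u, N.ρmin ≤ rho h Z u := by
    intro u
    have h1 := abs_le.1 (hE u)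
    have h2 : (N.ρmin : ℝ) ≤ (rho h Z u : ℝ) := by
      have := N.hρmin
      linarith [h1.1]
    exact_mod_cast h2
  by_cases hs : 4 * (skewH h S).card ^ 2 < q ^ 3
  · exact nearLine_concl hO Z S hS hB N.ρmin hρ N.hρq2 hs
  exfalso
  have hs' : q ^ 3 ≤ 4 * (skewH h S).card ^ 2 := not_lt.1 hs
  -- S is in the list
  have hrich := rich_bound hO Z S hS hB N.ρ₀ N.Δ hE N.hρ₀ N.hρ₀' N.hΔ N.K hP2 i₀ hi₀ N.L₀ N.s₁ N.β N.c
    N.hβ N.hc N.hL₁ N.hK N.hK₂ N.hK₃ N.hL₀
  obtain ⟨P0, -, hP0card, hP0⟩ := exists_sample hO S hS N.L₀ N.D N.θ N.hD N.hθ N.hθnum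
  have hD0 : 0 < N.D := N.hD
  have hmem : S ∈ ListS h q N.θ N.τ N.m₁ N.n₀ := by
    simp only [ListS, Finset.mem_filter, Finset.mem_univ, true_and]
    refine ⟨hS, hs', P0, ?_, ?_⟩
    · have : P0.card * N.D ≤ N.m₁ * N.D := hP0card.trans N.hm₁
      exact Nat.le_of_mul_le_mul_right this hD0
    · have hsub : S \ Cont h N.θ N.τ P0 ⊆ S.filter fun x => (Wt h S N.L₀ x : ℝ) < N.c * q := by
        intro x hx
        obtain ⟨hxS, hxC⟩ := Finset.mem_sdiff.1 hx
        refine Finset.mem_filter.2 ⟨hxS, ?_⟩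
        have h1 : Wt h P0 N.θ x < N.τ := by
          by_contra h2
          exact hxC (by simpa [Cont] using not_lt.1 h2)
        have h2 := hP0 x
        have h3 : Wt h S N.L₀ x < 2 * N.D * N.τ :=
          lt_of_le_of_lt h2 (Nat.mul_lt_mul_of_pos_left h1 (by omega))
        have h4 : (Wt h S N.L₀ x : ℝ) < (2 * N.D * N.τ : ℝ) := by exact_mod_cast h3
        exact lt_of_lt_of_le h4 N.hτc
      have h5 : ((S \ Cont h N.θ N.τ P0).card : ℝ) ≤ N.n₀ :=
        le_trans (by exact_mod_cast Finset.card_le_card hsub) (hrich.trans N.hn₀)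
      exact_mod_cast h5
  have hbad := hList S hmem
  have hskewhit : ∀ A : Finset L, A ⊆ skew h S → HitAll h A Z := by
    intro A hA ℓ hℓ hm
    obtain ⟨x, hx, hx'⟩ := hB ℓ hm
    have := hA hℓ
    simp only [skew, Finset.mem_filter, Finset.mem_univ, true_and] at this
    exact this x hx hx'
  unfold BadS at hbad
  push Not at hbad
  obtain ⟨hb1, hb2, hb3⟩ := hbad
  by_cases hc1 : q ^ 2 ≤ 10 * (skewH h S).card
  · exact hb1 hc1 (hskewhit _ (Finset.Subset.refl _))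
  have hc1' : 10 * (skewH h S).card < q ^ 2 := not_le.1 hc1
  by_cases hc2 : (skew h S).card ≤ 3 * (LamS h q S).card
  · exact hb2 hc1' hc2 (hskewhit _ (Finset.filter_subset _ _))
  have hc2' : 3 * (LamS h q S).card < (skew h S).card := not_le.1 hc2
  have hHZ : Heavy h q S ⊆ Z := heavy_subset hO hG hS hB N.ρmin hρ N.hρq N.hq hc1'
  have hn1 : (Heavy h q S).card < N.h₁ := by
    by_contra hn
    exact hb3 hc1' hc2' (not_lt.1 hn) hHZ
  set n := (Heavy h q S).card with hn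
  -- bound the number of skew lines by the heavy points
  have hso : (skew h S).card ≤ (LamS h q S).card + n * q := by
    have h1 : skew h S ⊆ LamS h q S ∪ (Heavy h q S).biUnion (fun x => linesThrough h x) := by
      intro ℓ hℓ
      by_cases h2 : ∀ x ∈ Heavy h q S, ¬ On h ℓ x
      · exact Finset.mem_union_left _ (Finset.mem_filter.2 ⟨hℓ, h2⟩)
      · push Not at h2
        obtain ⟨x, hx, hx'⟩ := h2
        exact Finset.mem_union_right _ (Finset.mem_biUnion.2 ⟨x, hx, by simpa [linesThrough] using hx'⟩)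
    calc (skew h S).card ≤ _ := Finset.card_le_card h1
      _ ≤ (LamS h q S).card + ((Heavy h q S).biUnion (fun x => linesThrough h x)).card :=
          Finset.card_union_le _ _
      _ ≤ _ := by
          apply Nat.add_le_add_left
          calc _ ≤ ∑ x ∈ Heavy h q S, (linesThrough h x).card := Finset.card_biUnion_le
            _ = n * q := by
                rw [Finset.sum_congr rfl (fun x _ => hO.card_linesThrough x)]
                simp [hn]
  have hsH : (skewH h S).card ≤ (skew h S).card + (q + 1) := by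
    have h1 : skewH h S ⊆ ((skew h S).map Function.Embedding.inl) ∪
        (univ.map Function.Embedding.inr) := by
      intro ℓ hℓ
      cases ℓ with
      | inl ℓ =>
        apply Finset.mem_union_left
        simp only [Finset.mem_map, Function.Embedding.inl_apply, Sum.inl.injEq, exists_eq_right]
        simp only [skewH, Finset.mem_filter, Finset.mem_univ, true_and, OnH] at hℓ
        simpa [skew, misses] using hℓ
      | inr i =>
        apply Finset.mem_union_right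
        simp
    calc _ ≤ _ := Finset.card_le_card h1
      _ ≤ _ := Finset.card_union_le _ _
      _ = _ := by
          rw [Finset.card_map, Finset.card_map, Finset.card_univ, hO.cardP]
  have h2so : 2 * (skew h S).card < 3 * n * q + 1 := by nlinarith
  have h2s : 2 * (skewH h S).card ≤ 3 * n * q + 2 * q + 2 := by omega
  -- lower bound for n
  have hn0 : N.h₀ ≤ n := by
    by_contra hlt
    have hlt' : n + 1 ≤ N.h₀ := by omega
    have h3 : 2 * (skewH h S).card < 3 * N.h₀ * q + 2 * q + 2 := by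
      have hq0 : 0 < q := by have := N.hq; omega
      have : 3 * (n + 1) * q ≤ 3 * N.h₀ * q := by
        apply Nat.mul_le_mul_right; omega
      nlinarith
    have h4 := N.hh₀
    have h5 : (2 * (skewH h S).card) ^ 2 < (3 * N.h₀ * q + 2 * q + 2) ^ 2 :=
      Nat.pow_lt_pow_left h3 (by norm_num)
    nlinarith
  -- covering of S by few lines through heavy points
  have hcov : ∀ x ∈ Heavy h q S, x ∉ S ∧
      (univ.filter fun ℓ : L ⊕ P => OnH h ℓ x ∧ ∃ y ∈ S, OnH h ℓ y).card ≤ 2 * n + 3 := by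
    intro x hx
    have hd : q ≤ 2 * dSkew h S x := by simpa [Heavy] using hx
    have hq100 := N.hq
    have hxS : x ∉ S := by
      intro hxS
      rw [dSkew_eq_zero_of_mem hxS] at hd
      omega
    refine ⟨hxS, ?_⟩
    have hd1 : 1 ≤ dSkew h S x := by omega
    have hadd := nonskew_add_dSkew hO S x
    have hcount : (univ.filter fun ℓ : L ⊕ P => OnH h ℓ x ∧ ∃ y ∈ S, OnH h ℓ y).card
        = q - (dSkew h S x - 1) := by omega
    rw [hcount]
    rcases gap_dichotomy hO hG S hS x hxS hd1 hc1' with h1 | h1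
    · exfalso
      have h2 : 100 * (q * (dSkew h S x - 1)) < 13 * q ^ 2 := by nlinarith
      have h3 : 100 * (dSkew h S x - 1) < 13 * q := by
        have hq0 : 0 < q := by omega
        nlinarith
      omega
    · -- 10 q e < 13 s, 2 s ≤ 3 n q + 2 q + 2
      set e := q - (dSkew h S x - 1) with he
      have h2 : 20 * (q * e) < 13 * (3 * n * q + 2 * q + 2) := by nlinarith
      by_contra hcon
      have h3 : 2 * n + 4 ≤ e := by omega
      have h4 : (2 * n + 4) * q ≤ q * e := by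
        rw [mul_comm]; exact Nat.mul_le_mul_left _ h3
      nlinarith
  obtain ⟨P1, -, hP1card, hP1⟩ := exists_sample_cont2 hO S hS (Heavy h q S) (2 * n + 3)
    (N.Df n) (N.m₀f n) (N.τf n) hcov (N.hDf n hn0 hn1) (N.hDf2 n hn0 hn1) (N.hνq n hn0 hn1)
    (N.hτf n hn0 hn1) (N.hmf n hn0 hn1) (N.hmf2 n hn0 hn1)
  have hRn := hR n hn0 hn1 P1 hP1card
  have h6 : (Heavy h q S ∩ Cont2 h 3073 (N.τf n) (N.m₀f n) P1).card ≤
      (Z ∩ Cont2 h 3073 (N.τf n) (N.m₀f n) P1).card :=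
    Finset.card_le_card (Finset.inter_subset_inter_right hHZ)
  omega


/-! ### Probability of the list event -/

section Prob

variable {B : Type*} [Fintype B] [DecidableEq B]

omit [Fintype V] [DecidableEq V] in
/-- Skew hat lines are skew lines plus at most `q+1` parts. -/
lemma card_skewH_le [Fintype V] [DecidableEq V] (hO : OA q h) (S : Finset (P × V)) :
    (skewH h S).card ≤ (skew h S).card + (q + 1) := by
  classical
  have h1 : skewH h S ⊆ ((skew h S).map Function.Embedding.inl) ∪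
      (univ.map Function.Embedding.inr) := by
    intro ℓ hℓ
    cases ℓ with
    | inl ℓ =>
      apply Finset.mem_union_left
      simp only [Finset.mem_map, Function.Embedding.inl_apply, Sum.inl.injEq, exists_eq_right]
      simp only [skewH, Finset.mem_filter, Finset.mem_univ, true_and, OnH] at hℓ
      simpa [skew, misses] using hℓ
    | inr i =>
      apply Finset.mem_union_right
      simp
  calc _ ≤ _ := Finset.card_le_card h1
    _ ≤ _ := Finset.card_union_le _ _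
    _ = _ := by
        rw [Finset.card_map, Finset.card_map, Finset.card_univ, hO.cardP]

/-- Degrees in `LamS`. -/
lemma deg_LamS_le (hO : OA q h) (hG : GapProp h q) (S : Finset (P × V)) (hS : S.card = q) (hq : 100 ≤ q)
    (hs : 10 * (skewH h S).card < q ^ 2) (x : P × V) :
    ((LamS h q S).filter fun ℓ => On h ℓ x).card ≤ 2 + 13 * (skewH h S).card / (10 * q) := by
  classical
  by_cases hxH : x ∈ Heavy h q S
  · have : (LamS h q S).filter (fun ℓ => On h ℓ x) = ∅ := by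
      rw [Finset.filter_eq_empty_iff]
      intro ℓ hℓ
      exact (Finset.mem_filter.1 hℓ).2 x hxH
    rw [this]; simp
  have hlight : 2 * dSkew h S x < q := by
    by_contra hcon
    exact hxH (by simp only [Heavy, Finset.mem_filter, Finset.mem_univ, true_and]; omega)
  have hdeg : ((LamS h q S).filter fun ℓ => On h ℓ x).card ≤ dSkew h S x := by
    unfold dSkew
    rw [← Finset.card_map Function.Embedding.inl]
    apply Finset.card_le_card
    intro ℓ' hℓ'
    obtain ⟨ℓ, hℓ, rfl⟩ := Finset.mem_map.1 hℓ'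
    obtain ⟨h1, h2⟩ := Finset.mem_filter.1 hℓ
    have h3 : ℓ ∈ skew h S := (Finset.mem_filter.1 h1).1
    simp only [skew, misses, Finset.mem_filter, Finset.mem_univ, true_and] at h3
    simp only [Function.Embedding.inl_apply, skewH, OnH, Finset.mem_filter, Finset.mem_univ, true_and]
    exact ⟨h3, h2⟩
  by_cases hd0 : dSkew h S x = 0
  · rw [hd0] at hdeg
    exact le_trans hdeg (Nat.zero_le _)
  have hd1 : 1 ≤ dSkew h S x := by omega
  by_cases hxS : x ∈ S
  · rw [dSkew_eq_zero_of_mem hxS] at hd0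
    exact absurd rfl hd0
  rcases gap_dichotomy hO hG S hS x hxS hd1 hs with h1 | h1
  · have hq0 : 0 < 10 * q := by omega
    have h2 : dSkew h S x - 1 ≤ 13 * (skewH h S).card / (10 * q) := by
      rw [Nat.le_div_iff_mul_le hq0]
      nlinarith
    generalize 13 * (skewH h S).card / (10 * q) = Q at h2 ⊢
    omega
  · exfalso
    have h2 : 100 * (q * (q - (dSkew h S x - 1))) < 13 * q ^ 2 := by nlinarith
    have h3 : 100 * (q - (dSkew h S x - 1)) < 13 * q := by
      have hq0 : 0 < q := by omega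
      nlinarith
    omega

/-- Probability of the bad event for one candidate set. -/
theorem badS_prob (hO : OA q h) (hG : GapProp h q) (bp : B → P) (hB : 100 * Fintype.card B ≤ 102 * q)
    (hq : 100 ≤ q) (mm : ℕ) (hmm : ∀ i, (univ.filter fun b => bp b = i).card ≤ mm) (hmm1 : 1 ≤ mm)
    (S : Finset (P × V)) (hS : S.card = q) (hs : q ^ 3 ≤ 4 * (skewH h S).card ^ 2)
    (t₁ t₂ b₂ h₁ : ℕ) (ht₁ : 1 ≤ t₁) (ht₁q : 315 * t₁ ≤ q) (ht₂ : 1 ≤ t₂) (ht₂q : 140 * t₂ ≤ q)
    (hb₂ : (6 * b₂ + 2 * q + 2) ^ 2 ≤ q ^ 3) (hb₂0 : 1 ≤ b₂) (hq22 : (22 * q + 12) ^ 2 ≤ q ^ 3)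
    (he : Real.exp 1 * mm ≤ q) :
    Pr (fun π : B → V => BadS h q h₁ S (Zof bp π)) ≤
      2 * (Real.exp 1 * (220 * mm : ℝ) / t₁) ^ t₁ +
      2 * (Real.exp 1 * (20 * mm * (q:ℝ) ^ 2 / b₂) / t₂) ^ t₂ +
      (Real.exp 1 * mm / q) ^ h₁ := by
  classical
  have hexp := Real.exp_pos 1
  have hq0 : (0:ℝ) < q := by exact_mod_cast (show 0 < q by omega)
  have hT1 : (0:ℝ) ≤ (Real.exp 1 * (220 * mm : ℝ) / t₁) ^ t₁ := by positivity
  have hT2 : (0:ℝ) ≤ (Real.exp 1 * (20 * mm * (q:ℝ) ^ 2 / b₂) / t₂) ^ t₂ := by positivity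
  have hT3 : (0:ℝ) ≤ (Real.exp 1 * mm / q) ^ h₁ := by positivity
  have hq484 : 484 ≤ q := by
    by_contra hcon
    have h1 : q < 484 := by omega
    have h2 : q ^ 3 < 484 * q ^ 2 := by
      have : 0 < q ^ 2 := by positivity
      nlinarith
    nlinarith
  have hsH := card_skewH_le hO S
  set s := (skewH h S).card with hsdef
  set so := (skew h S).card with hsodef
  have h2s : 22 * q + 12 ≤ 2 * s := by
    by_contra hcon
    have h1 : 2 * s < 22 * q + 12 := by omega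
    have h2 : (2 * s) ^ 2 < (22 * q + 12) ^ 2 := Nat.pow_lt_pow_left h1 (by norm_num)
    nlinarith
  have h2s' : 6 * b₂ + 2 * q + 2 ≤ 2 * s := by
    by_contra hcon
    have h1 : 2 * s < 6 * b₂ + 2 * q + 2 := by omega
    have h2 : (2 * s) ^ 2 < (6 * b₂ + 2 * q + 2) ^ 2 := Nat.pow_lt_pow_left h1 (by norm_num)
    nlinarith
  by_cases hc1 : q ^ 2 ≤ 10 * s
  · -- first case
    have hA : q ^ 2 ≤ 11 * so := by nlinarith
    have hAne : (skew h S).Nonempty := by
      rw [← Finset.card_pos]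
      have : 0 < q ^ 2 := by positivity
      omega
    have hAreal : (q:ℝ) ^ 2 ≤ 11 * (so : ℝ) := by exact_mod_cast hA
    have hso0 : (0:ℝ) < so := by
      have : 0 < so := Finset.card_pos.2 hAne
      exact_mod_cast this
    have hdeg : ∀ x, ((skew h S).filter fun ℓ => On h ℓ x).card ≤ q := by
      intro x
      rw [← hO.card_linesThrough x]
      apply Finset.card_le_card
      intro ℓ hℓ
      exact Finset.mem_filter.2 ⟨Finset.mem_univ _, (Finset.mem_filter.1 hℓ).2⟩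
    have hbb := block_bound hO bp hB hq mm hmm (skew h S) hAne q hdeg t₁ ht₁ (by
      have : 1000 * t₁ * q * 315 ≤ 35 * so * 315 := by nlinarith
      omega)
    have hP : Pr (fun π : B → V => BadS h q h₁ S (Zof bp π)) ≤
        Pr (fun π : B → V => HitAll h (skew h S) (Zof bp π)) := by
      apply Pr_mono
      intro π hπ
      rcases hπ with hπ | hπ | hπ
      · exact hπ.2
      · omega
      · omega
    have hbase : Real.exp 1 * (20 * mm * (q:ℝ) ^ 2 / so) / t₁ ≤ Real.exp 1 * (220 * mm : ℝ) / t₁ := by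
      apply div_le_div_of_nonneg_right _ (by positivity)
      apply mul_le_mul_of_nonneg_left _ hexp.le
      rw [div_le_iff₀ hso0]
      have hmm0 : (0:ℝ) ≤ mm := by positivity
      nlinarith
    have hbase0 : 0 ≤ Real.exp 1 * (20 * mm * (q:ℝ) ^ 2 / so) / t₁ := by positivity
    have := pow_le_pow_left₀ hbase0 hbase t₁
    linarith
  have hc1' : 10 * s < q ^ 2 := not_le.1 hc1
  by_cases hc2 : so ≤ 3 * (LamS h q S).card
  · -- second case
    set lam := (LamS h q S).card with hlam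
    have hlamb : b₂ ≤ lam := by omega
    have hAne : (LamS h q S).Nonempty := by
      rw [← Finset.card_pos]; omega
    have hdeg := deg_LamS_le hO hG S hS hq hc1'
    set D := 2 + 13 * s / (10 * q) with hD
    have hDq : 10 * q * (13 * s / (10 * q)) ≤ 13 * s := Nat.mul_div_le _ _
    have hbb := block_bound hO bp hB hq mm hmm (LamS h q S) hAne D hdeg t₂ ht₂ (by
      -- 140 * (1000 t₂ D) ≤ 1000 q D = 2000 q + 1000 q (13 s/(10 q)) ≤ 2000 q + 1300 s
      have h1 : 140 * (1000 * t₂ * D) ≤ 1000 * q * D := by nlinarith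
      have h2 : 1000 * q * D ≤ 2000 * q + 1300 * s := by
        rw [hD]; nlinarith
      -- 3 lam ≥ so ≥ s - q - 1, and s ≥ 11 q + 6
      have h3 : 140 * (1000 * t₂ * D) ≤ 140 * (35 * lam) := by omega
      omega)
    have hP : Pr (fun π : B → V => BadS h q h₁ S (Zof bp π)) ≤
        Pr (fun π : B → V => HitAll h (LamS h q S) (Zof bp π)) := by
      apply Pr_mono
      intro π hπ
      rcases hπ with hπ | hπ | hπ
      · omega
      · exact hπ.2.2
      · omega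
    have hlam0 : (0:ℝ) < lam := by
      have : 0 < lam := Finset.card_pos.2 hAne
      exact_mod_cast this
    have hb0 : (0:ℝ) < b₂ := by exact_mod_cast hb₂0
    have hbase : Real.exp 1 * (20 * mm * (q:ℝ) ^ 2 / lam) / t₂ ≤
        Real.exp 1 * (20 * mm * (q:ℝ) ^ 2 / b₂) / t₂ := by
      apply div_le_div_of_nonneg_right _ (by positivity)
      apply mul_le_mul_of_nonneg_left _ hexp.le
      apply div_le_div_of_nonneg_left (by positivity) hb0
      exact_mod_cast hlamb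
    have hbase0 : 0 ≤ Real.exp 1 * (20 * mm * (q:ℝ) ^ 2 / lam) / t₂ := by positivity
    have := pow_le_pow_left₀ hbase0 hbase t₂
    linarith
  · -- third case
    have hc2' : 3 * (LamS h q S).card < so := not_le.1 hc2
    by_cases hH : h₁ ≤ (Heavy h q S).card ∧ (Heavy h q S).Nonempty
    · have hP : Pr (fun π : B → V => BadS h q h₁ S (Zof bp π)) ≤
          Pr (fun π : B → V => Heavy h q S ⊆ Zof bp π) := by
        apply Pr_mono
        intro π hπ
        rcases hπ with hπ | hπ | hπ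
        · omega
        · omega
        · exact hπ.2.2.2
      have hhb := heavy_bound hO bp mm hmm hmm1 (Heavy h q S) hH.2
      have hbase0 : 0 ≤ Real.exp 1 * mm / q := by positivity
      have hbase1 : Real.exp 1 * mm / q ≤ 1 := by
        rw [div_le_one hq0]; exact he
      have : (Real.exp 1 * mm / q) ^ (Heavy h q S).card ≤ (Real.exp 1 * mm / q) ^ h₁ :=
        pow_le_pow_of_le_one hbase0 hbase1 hH.1
      linarith
    · -- the event is impossible or needs `h₁ = 0`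
      by_cases hH2 : (Heavy h q S).Nonempty
      · have hP : Pr (fun π : B → V => BadS h q h₁ S (Zof bp π)) ≤ 0 := by
          have : ∀ π : B → V, ¬ BadS h q h₁ S (Zof bp π) := by
            intro π hπ
            rcases hπ with hπ | hπ | hπ
            · omega
            · omega
            · exact hH ⟨hπ.2.2.1, hH2⟩
          have h0 : Pr (fun π : B → V => BadS h q h₁ S (Zof bp π)) = 0 := by
            rw [Pr_eq_card]
            have : (univ.filter fun π : B → V => BadS h q h₁ S (Zof bp π)) = ∅ := by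
              rw [Finset.filter_eq_empty_iff]
              intro π _
              exact this π
            simp [this]
          exact h0.le
        linarith
      · -- no heavy points: then 2 so ≤ ... `so ≤ lam + 0` contradiction with 3 lam < so
        exfalso
        have hemp : Heavy h q S = ∅ := Finset.not_nonempty_iff_eq_empty.1 hH2
        have : LamS h q S = skew h S := by
          unfold LamS
          rw [hemp]
          simp
        rw [this] at hc2'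
        omega

/-- Probability of the failure of the list event. -/
theorem listGood_prob (hO : OA q h) (hG : GapProp h q) (bp : B → P) (hB : 100 * Fintype.card B ≤ 102 * q)
    (hq : 100 ≤ q) (mm : ℕ) (hmm : ∀ i, (univ.filter fun b => bp b = i).card ≤ mm) (hmm1 : 1 ≤ mm)
    (θ τ m₁ n₀ C : ℕ) (t₁ t₂ b₂ h₁ : ℕ) (ht₁ : 1 ≤ t₁) (ht₁q : 315 * t₁ ≤ q) (ht₂ : 1 ≤ t₂) (ht₂q : 140 * t₂ ≤ q)
    (hb₂ : (6 * b₂ + 2 * q + 2) ^ 2 ≤ q ^ 3) (hb₂0 : 1 ≤ b₂) (hq22 : (22 * q + 12) ^ 2 ≤ q ^ 3)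
    (he : Real.exp 1 * mm ≤ q)
    (hC : ∀ P0 : Finset (P × V), P0.card ≤ m₁ → (Cont h θ τ P0).card ≤ C) :
    Pr (fun π : B → V => ¬ ListGood h q θ τ m₁ n₀ h₁ (Zof bp π)) ≤
      (((((q + 1) * q + 1) ^ m₁) * (((q + 1) * q + 1) ^ n₀) * 2 ^ C : ℕ) : ℝ) *
      (2 * (Real.exp 1 * (220 * mm : ℝ) / t₁) ^ t₁ +
      2 * (Real.exp 1 * (20 * mm * (q:ℝ) ^ 2 / b₂) / t₂) ^ t₂ +
      (Real.exp 1 * mm / q) ^ h₁) := by
  classical
  set ε : ℝ := 2 * (Real.exp 1 * (220 * mm : ℝ) / t₁) ^ t₁ +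
      2 * (Real.exp 1 * (20 * mm * (q:ℝ) ^ 2 / b₂) / t₂) ^ t₂ +
      (Real.exp 1 * mm / q) ^ h₁ with hε
  have hε0 : 0 ≤ ε := by
    have h1 := Real.exp_pos 1
    rw [hε]; positivity
  have h1 : Pr (fun π : B → V => ¬ ListGood h q θ τ m₁ n₀ h₁ (Zof bp π)) ≤
      Pr (fun π : B → V => ∃ S ∈ ListS h q θ τ m₁ n₀, BadS h q h₁ S (Zof bp π)) := by
    apply Pr_mono
    intro π hπ
    unfold ListGood at hπ
    push Not at hπ
    exact hπ
  refine h1.trans ((Pr_exists_le_card _ _ ε ?_).trans ?_)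
  · intro S hS
    simp only [ListS, Finset.mem_filter, Finset.mem_univ, true_and] at hS
    exact badS_prob hO hG bp hB hq mm hmm hmm1 S hS.1 hS.2.1 t₁ t₂ b₂ h₁ ht₁ ht₁q ht₂ ht₂q hb₂ hb₂0 hq22 he
  · apply mul_le_mul_of_nonneg_right _ hε0
    exact_mod_cast card_ListS_le hO θ τ m₁ n₀ C hC

/-- All numeric parameters of the probabilistic stability lemma. -/
structure SLProbNum (q : ℕ) (mm Bcard : ℕ) extends SLNum q where
  Δ' : ℝ
  hΔ'0 : 0 < Δ'
  hΔ'q : Δ' ≤ q
  hΔeq : Δ = Δ' + mm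
  hρeq : ρ₀ = q * (1 - 1 / (q:ℝ)) ^ Bcard
  /-- needed by the final assembly (pattern lower bound): easy as `ρmin ≈ .36 q` -/
  hρq4 : q ≤ 4 * ρmin
  C : ℕ
  hCθ : 2 ≤ θ
  hCτ : 1 ≤ τ
  hCmean : 4 * m₁ ^ 2 ≤ (θ - 1) * q * τ
  hCbound : 32 * (q:ℝ) * (m₁ : ℝ) ^ 2 / (τ : ℝ) ^ 2 + 2 * (m₁ : ℝ) * q / τ ≤ C
  t₁ : ℕ
  t₂ : ℕ
  b₂ : ℕ
  ht₁ : 1 ≤ t₁
  ht₁q : 315 * t₁ ≤ q
  ht₂ : 1 ≤ t₂
  ht₂q : 140 * t₂ ≤ q
  hb₂ : (6 * b₂ + 2 * q + 2) ^ 2 ≤ q ^ 3
  hb₂0 : 1 ≤ b₂
  hq22 : (22 * q + 12) ^ 2 ≤ q ^ 3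
  he : Real.exp 1 * mm ≤ q
  hmm1 : 1 ≤ mm
  hh₀1 : 1 ≤ h₀
  hτf1 : ∀ n, h₀ ≤ n → n < h₁ → 1 ≤ τf n
  hτfq : ∀ n, h₀ ≤ n → n < h₁ → 4 * (m₀f n) ^ 2 ≤ τf n * q
  hmfq : ∀ n, h₀ ≤ n → n < h₁ → 64 * m₀f n ≤ q
  C₃ : ℝ
  hC₃ : 0 < C₃
  hC₃b : ∀ n, h₀ ≤ n → n < h₁ →
    8 * ((3073 : ℕ).choose 2 : ℝ) * (m₀f n : ℝ) ^ 2 / (τf n : ℝ) ^ 2 + 2060 ≤ C₃
  /-- the sum of all failure probabilities -/
  total : (((q + 1) * q : ℝ) * (2 * Real.exp (-(Δ' ^ 2 / (8 * q))))) +
      ((((q + 1) * q : ℕ) : ℝ) ^ K * (2 * Real.exp (-((K : ℝ) ^ 2 / 300)))) +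
      ((((((q + 1) * q + 1) ^ m₁) * (((q + 1) * q + 1) ^ n₀) * 2 ^ C : ℕ) : ℝ) *
      (2 * (Real.exp 1 * (220 * mm : ℝ) / t₁) ^ t₁ +
      2 * (Real.exp 1 * (20 * mm * (q:ℝ) ^ 2 / b₂) / t₂) ^ t₂ +
      (Real.exp 1 * mm / q) ^ h₁)) +
      (∑ n ∈ Finset.Ico h₀ h₁, (((q + 1) * q + 1 : ℕ) : ℝ) ^ (2 * m₀f n) *
        (Real.exp 1 * (mm * C₃) / ((n + 1) / 2 : ℕ)) ^ ((n + 1) / 2)) ≤ 1 / 4

/-- The probabilistic stability lemma: outside probability `1/4`, the stability conclusion and the concentration of `rho` hold. -/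
theorem SL_prob (hO : OA q h) (hG : GapProp h q) (bp : B → P) (hB : 100 * Fintype.card B ≤ 102 * q)
    (mm : ℕ) (hmm : ∀ i, (univ.filter fun b => bp b = i).card ≤ mm)
    (i₀ : P) (hi₀ : (univ.filter fun b => bp b = i₀).card ≤ 1)
    (N : SLProbNum q mm (Fintype.card B)) :
    Pr (fun π : B → V => ¬ (SLconcl h q (Zof bp π) ∧
      ∀ u, |(rho h (Zof bp π) u : ℝ) - N.ρ₀| ≤ N.Δ)) ≤ 1 / 4 := by
  classical
  -- the four bad events
  have hE1 := E1_prob (B := B) hO bp (by omega) mm hmm N.Δ' N.hΔ'0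
  have hP2 := P2_prob hO bp hB N.hq N.K
  have hCont : ∀ P0 : Finset (P × V), P0.card ≤ N.m₁ → (Cont h N.θ N.τ P0).card ≤ N.C := by
    intro P0 hP0
    have hθ2 : (1:ℝ) ≤ N.τ := by exact_mod_cast N.hCτ
    have h1 := card_Cont_le hO P0 N.θ N.τ N.hCθ N.hCτ (by
      calc 4 * P0.card ^ 2 ≤ 4 * N.m₁ ^ 2 := by
            apply Nat.mul_le_mul_left; exact Nat.pow_le_pow_left hP0 2
        _ ≤ _ := N.hCmean)
    have h2 : 32 * (q:ℝ) * (P0.card : ℝ) ^ 2 / (N.τ : ℝ) ^ 2 + 2 * (P0.card : ℝ) * q / N.τ ≤ N.C := by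
      refine le_trans ?_ N.hCbound
      have hc : (P0.card : ℝ) ≤ N.m₁ := by exact_mod_cast hP0
      have hc0 : (0:ℝ) ≤ P0.card := by positivity
      have hqn : (0:ℝ) ≤ q := by positivity
      apply add_le_add
      · apply div_le_div_of_nonneg_right _ (by positivity)
        apply mul_le_mul_of_nonneg_left _ (by positivity)
        exact pow_le_pow_left₀ hc0 hc 2
      · apply div_le_div_of_nonneg_right _ (by positivity)
        apply mul_le_mul_of_nonneg_right _ hqn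
        linarith
    have h3 : ((Cont h N.θ N.τ P0).card : ℝ) ≤ N.C := h1.trans h2
    exact_mod_cast h3
  have hList := listGood_prob hO hG bp hB N.hq mm hmm N.hmm1 N.θ N.τ N.m₁ N.n₀ N.C N.t₁ N.t₂ N.b₂ N.h₁ N.ht₁ N.ht₁q
    N.ht₂ N.ht₂q N.hb₂ N.hb₂0 N.hq22 N.he hCont
  have hR : ∀ n ∈ Finset.Ico N.h₀ N.h₁,
      Pr (fun π : B → V => ¬ Rgood h 3073 (N.τf n) (N.m₀f n) n (Zof bp π)) ≤
      (((q + 1) * q + 1 : ℕ) : ℝ) ^ (2 * N.m₀f n) *
        (Real.exp 1 * (mm * N.C₃) / ((n + 1) / 2 : ℕ)) ^ ((n + 1) / 2) := by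
    intro n hn
    obtain ⟨hn0, hn1⟩ := Finset.mem_Ico.1 hn
    have hnpos : 1 ≤ n := le_trans N.hh₀1 hn0
    apply Rgood_prob hO bp mm hmm 3073 (N.τf n) (N.m₀f n) n hnpos N.C₃ N.hC₃
    intro P0 hP0
    have hm1 : 1 ≤ N.m₀f n := by have := N.hmf n hn0 hn1; omega
    have h1 := card_Cont2_le hO 3073 (N.τf n) (N.m₀f n) P0 hP0 hm1 (N.hτf1 n hn0 hn1) (N.hτfq n hn0 hn1)
      (N.hmfq n hn0 hn1)
    refine h1.trans ?_
    rw [mul_comm]
    exact mul_le_mul_of_nonneg_right (N.hC₃b n hn0 hn1) (by positivity)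
  have hRsum : Pr (fun π : B → V => ∃ n ∈ Finset.Ico N.h₀ N.h₁,
      ¬ Rgood h 3073 (N.τf n) (N.m₀f n) n (Zof bp π)) ≤ _ :=
    (Pr_exists_le _ _).trans (Finset.sum_le_sum hR)
  -- combine
  have hbad : Pr (fun π : B → V => ¬ (SLconcl h q (Zof bp π) ∧
      ∀ u, |(rho h (Zof bp π) u : ℝ) - N.ρ₀| ≤ N.Δ)) ≤
      Pr (fun π : B → V => ((∃ u : P × V,
      N.Δ' + mm < |(rho h (Zof bp π) u : ℝ) - q * (1 - 1 / (q:ℝ)) ^ Fintype.card B|) ∨
        ¬ P2good h N.K (Zof bp π)) ∨ ¬ ListGood h q N.θ N.τ N.m₁ N.n₀ N.h₁ (Zof bp π) ∨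
        ∃ n ∈ Finset.Ico N.h₀ N.h₁, ¬ Rgood h 3073 (N.τf n) (N.m₀f n) n (Zof bp π)) := by
    apply Pr_mono
    intro π hπ
    by_contra hcon
    push Not at hcon
    obtain ⟨⟨hc1, hc2⟩, hc3, hc4⟩ := hcon
    apply hπ
    have hE : ∀ u, |(rho h (Zof bp π) u : ℝ) - N.ρ₀| ≤ N.Δ := by
      intro u
      rw [N.hΔeq, N.hρeq]
      exact hc1 u
    refine ⟨?_, hE⟩
    -- a part with at most one ball
    have hi : ((Zof bp π).filter fun x => x.1 = i₀).card ≤ 1 := by
      refine le_trans ?_ hi₀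
      have : (Zof bp π).filter (fun x => x.1 = i₀) ⊆
          (univ.filter fun b => bp b = i₀).image (fun b => (bp b, π b)) := by
        intro x hx
        obtain ⟨hx1, hx2⟩ := Finset.mem_filter.1 hx
        obtain ⟨b, -, rfl⟩ := Finset.mem_image.1 hx1
        exact Finset.mem_image.2 ⟨b, by simpa using hx2, rfl⟩
      exact (Finset.card_le_card this).trans Finset.card_image_le
    exact SL_det hO hG N.toSLNum (Zof bp π) hE hc2 i₀ hi hc3 (fun n hn0 hn1 => hc4 n (Finset.mem_Ico.2 ⟨hn0, hn1⟩))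
  refine hbad.trans (le_trans ?_ N.total)
  refine (Pr_or_le _ _).trans ?_
  have h1 := Pr_or_le (fun π : B → V => ∃ u : P × V,
      N.Δ' + mm < |(rho h (Zof bp π) u : ℝ) - q * (1 - 1 / (q:ℝ)) ^ Fintype.card B|)
      (fun π : B → V => ¬ P2good h N.K (Zof bp π))
  have h2 := Pr_or_le (fun π : B → V => ¬ ListGood h q N.θ N.τ N.m₁ N.n₀ N.h₁ (Zof bp π))
      (fun π : B → V => ∃ n ∈ Finset.Ico N.h₀ N.h₁, ¬ Rgood h 3073 (N.τf n) (N.m₀f n) n (Zof bp π))
  linarith

end Prob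

end Crest.Agent.Ryser
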