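import Crest.Agent.Lib.Ryser.SelectDefs

/-!
# Module SELLOW: lower bound for the pattern probability.

Sketch.  Bins: `Lz = linesThrough h z`, `|Lz| = q`; for each class `j`, `ℓ ↦ h ℓ (cl j)` is a bijection `Lz → V`
(`OA.persp_bij`, needs `z.1 ≠ cl j`), so a configuration `γ` is the same as `β : Fin 4 × Fin T → Lz`.
Batches: with `6 * t ≤ T`, for a slot `(j, s) : Fin 4 × Fin 3` and `x y : Fin t` let
`u = (j, 2 s t + x)`, `v = (j + 1, (2 s + 1) t + y)`.  All batches are disjoint.
A *choice* is `σ : Fin 4 × Fin 3 → Fin t × Fin t` (`t ^ 24` choices); it names the 12 first balls `u_σ(j,s)` and the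
12 second balls `v_σ(j,s)`.  `W` = all balls except the second balls, `|W| = 4 T - 12`.
For each injective `f : W → Lz` with `f (u_σ(j,s)) ∈ cleanLines` define `β = f` on `W`, `β (v_σ(j,s)) = f (u_σ(j,s))`.
Greedy count: number of injective `f : W → Y` with `f i ∈ A i` is `≥ ∏_i (|A i| - |W|)`.  This gives
`≥ (|clean| - 4T)^12 (q - 4T)^(4T - 24)` maps `f`.
`(σ, f) ↦ γ` is injective (the non-singleton fibres of `β` are exactly the pairs `{u_σ(j,s), v_σ(j,s)}`, each pair lying in
its own slot's batches) and its image lies in `{γ | Pat h Z cl γ z}` (fibres of `β`: singletons and the 12 pairs).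
Hence `Pr ≥ t^24 (q/5)^12 (q-4T)^(4T-24) / q^(4T) = (t²/(5q))^12 (1-4T/q)^(4T-24) ≥ (t²/(5q))^12 / 2` (Bernoulli, `32 T² ≤ q`).
-/

open Finset BigOperators

namespace Crest.Agent.Ryser

variable {P V L : Type*} [Fintype P] [DecidableEq P] [Fintype V] [DecidableEq V]
  [Fintype L] [DecidableEq L]
variable {q : ℕ} {h : L → P → V}

namespace SelLow

set_option linter.unusedSectionVars false

open Classical in
/-- Greedy count, classical instances. -/
theorem card_inj_ge_aux {Y : Type*} [Fintype Y] {W : Type*} [Fintype W] (A : W → Finset Y) :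
    (∏ i, ((A i).card - Fintype.card W)) ≤
      (univ.filter fun f : W → Y => Function.Injective f ∧ ∀ i, f i ∈ A i).card := by
  revert A
  refine Fintype.induction_empty_option (P := fun W _ => ∀ A : W → Finset Y,
    (∏ i, ((A i).card - Fintype.card W)) ≤
      (univ.filter fun f : W → Y => Function.Injective f ∧ ∀ i, f i ∈ A i).card) ?_ ?_ ?_ W
  · -- transfer along an equivalence
    intro α β _ e ih A
    let _ : Fintype α := Fintype.ofEquiv β e.symm
    have h1 := ih (fun i => A (e i))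
    have h2 : (∏ i : β, ((A i).card - Fintype.card β)) =
        ∏ i : α, ((A (e i)).card - Fintype.card α) := by
      rw [Fintype.card_congr e]
      exact (Equiv.prod_comp e (fun i => (A i).card - Fintype.card β)).symm
    rw [h2]
    refine h1.trans ?_
    refine Finset.card_le_card_of_injOn (fun f => f ∘ e.symm) ?_ ?_
    · intro f hf
      simp only [coe_filter, mem_univ, true_and, Set.mem_ofPred_eq] at hf ⊢
      refine ⟨hf.1.comp e.symm.injective, fun i => ?_⟩
      have := hf.2 (e.symm i)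
      simpa using this
    · intro f _ g _ hfg
      funext i
      have := congrFun hfg (e i)
      simpa using this
  · -- empty
    intro A
    simp only [univ_eq_empty, prod_empty]
    apply Nat.one_le_iff_ne_zero.2
    rw [Finset.card_ne_zero]
    refine ⟨fun i => i.elim, ?_⟩
    simp only [mem_filter, mem_univ, true_and]
    exact ⟨fun i => i.elim, fun i => i.elim⟩
  · -- option
    intro α _ ih A
    have h1 := ih (fun i => A (some i))
    set n := Fintype.card α with hn
    have hcardOpt : Fintype.card (Option α) = n + 1 := Fintype.card_option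
    rw [hcardOpt, Fintype.prod_option]
    set S' := (univ.filter fun f : α → Y => Function.Injective f ∧ ∀ i, f i ∈ A (some i)) with hS'
    have h2 : (∏ i : α, ((A (some i)).card - (n + 1))) ≤ S'.card := by
      refine le_trans ?_ h1
      exact Finset.prod_le_prod' fun i _ => by omega
    set B : (α → Y) → Finset Y := fun f => A none \ (univ.image f) with hB
    have hBcard : ∀ f : α → Y, (A none).card - (n + 1) ≤ (B f).card := by
      intro f
      have h3 := Finset.le_card_sdiff (univ.image f) (A none)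
      have h4 : (univ.image f).card ≤ n := by
        rw [hn, ← Finset.card_univ]
        exact Finset.card_image_le
      simp only [hB]
      omega
    have h5 : ((A none).card - (n + 1)) * S'.card ≤ (S'.sigma B).card := by
      rw [Finset.card_sigma, mul_comm, ← smul_eq_mul, ← Finset.sum_const]
      exact Finset.sum_le_sum fun f _ => hBcard f
    refine (Nat.mul_le_mul_left _ h2).trans (h5.trans ?_)
    refine Finset.card_le_card_of_injOn
      (fun p => fun i => match i with
        | none => p.2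
        | some j => p.1 j) ?_ ?_
    · rintro ⟨f, y⟩ hp
      simp only [coe_sigma, Set.mem_sigma_iff, mem_coe, hS', mem_filter, mem_univ, true_and, hB,
        mem_sdiff, mem_image, not_exists] at hp
      simp only [coe_filter, mem_univ, true_and, Set.mem_ofPred_eq]
      refine ⟨?_, ?_⟩
      · intro i j hij
        cases i with
        | none =>
          cases j with
          | none => rfl
          | some j =>
            exact absurd hij.symm (by simpa using hp.2.2 j)
        | some i =>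
          cases j with
          | none => exact absurd hij (by simpa using hp.2.2 i)
          | some j => exact congrArg some (hp.1.1 hij)
      · intro i
        cases i with
        | none => exact hp.2.1
        | some i => exact hp.1.2 i
    · rintro ⟨f, y⟩ _ ⟨g, y'⟩ _ hfg
      have h7 : f = g := by
        funext i
        exact congrFun hfg (some i)
      subst h7
      have h8 : y = y' := congrFun hfg none
      subst h8
      rfl

/-- Slots: `(j, s)`. -/
abbrev Slot := Fin 4 × Fin 3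

lemma u_lt {s t x T : ℕ} (hs : s < 3) (hx : x < t) (ht : 6 * t ≤ T) : 2 * s * t + x < T := by
  interval_cases s <;> omega

lemma v_lt {s t y T : ℕ} (hs : s < 3) (hy : y < t) (ht : 6 * t ≤ T) :
    (2 * s + 1) * t + y < T := by
  interval_cases s <;> omega

lemma arith_uv {s s' t x y : ℕ} (hs : s < 3) (hs' : s' < 3) (hx : x < t) (hy : y < t) :
    2 * s * t + x ≠ (2 * s' + 1) * t + y := by
  interval_cases s <;> interval_cases s' <;> omega

lemma arith_uu {s s' t x x' : ℕ} (hs : s < 3) (hs' : s' < 3) (hx : x < t) (hx' : x' < t)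
    (he : 2 * s * t + x = 2 * s' * t + x') : s = s' ∧ x = x' := by
  interval_cases s <;> interval_cases s' <;> omega

lemma arith_vv {s s' t x x' : ℕ} (hs : s < 3) (hs' : s' < 3) (hx : x < t) (hx' : x' < t)
    (he : (2 * s + 1) * t + x = (2 * s' + 1) * t + x') : s = s' ∧ x = x' := by
  interval_cases s <;> interval_cases s' <;> omega

variable {T t : ℕ}

/-- First ball of a batch. -/
def uB (ht : 6 * t ≤ T) (a : Slot) (x : Fin t) : Fin 4 × Fin T :=
  (a.1, ⟨2 * a.2.val * t + x.val, u_lt a.2.isLt x.isLt ht⟩)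

/-- Second ball of a batch. -/
def vB (ht : 6 * t ≤ T) (a : Slot) (y : Fin t) : Fin 4 × Fin T :=
  (a.1 + 1, ⟨(2 * a.2.val + 1) * t + y.val, v_lt a.2.isLt y.isLt ht⟩)

lemma u_ne_v (ht : 6 * t ≤ T) (a a' : Slot) (x y : Fin t) : uB ht a x ≠ vB ht a' y := by
  intro he
  have h2 : 2 * a.2.val * t + x.val = (2 * a'.2.val + 1) * t + y.val :=
    congrArg (fun b : Fin 4 × Fin T => b.2.val) he
  exact arith_uv a.2.isLt a'.2.isLt x.isLt y.isLt h2

lemma u_inj (ht : 6 * t ≤ T) {a a' : Slot} {x x' : Fin t} (he : uB ht a x = uB ht a' x') :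
    a = a' ∧ x = x' := by
  have h1 : a.1 = a'.1 := congrArg (fun b : Fin 4 × Fin T => b.1) he
  have h2 : 2 * a.2.val * t + x.val = 2 * a'.2.val * t + x'.val :=
    congrArg (fun b : Fin 4 × Fin T => b.2.val) he
  obtain ⟨h3, h4⟩ := arith_uu a.2.isLt a'.2.isLt x.isLt x'.isLt h2
  exact ⟨Prod.ext h1 (Fin.ext h3), Fin.ext h4⟩

lemma v_inj (ht : 6 * t ≤ T) {a a' : Slot} {y y' : Fin t} (he : vB ht a y = vB ht a' y') :
    a = a' ∧ y = y' := by
  have h1 : a.1 + 1 = a'.1 + 1 := congrArg (fun b : Fin 4 × Fin T => b.1) he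
  have h2 : (2 * a.2.val + 1) * t + y.val = (2 * a'.2.val + 1) * t + y'.val :=
    congrArg (fun b : Fin 4 × Fin T => b.2.val) he
  obtain ⟨h3, h4⟩ := arith_vv a.2.isLt a'.2.isLt y.isLt y'.isLt h2
  exact ⟨Prod.ext (add_right_cancel h1) (Fin.ext h3), Fin.ext h4⟩

/-- The first ball named by the choice `σ`. -/
def uS (ht : 6 * t ≤ T) (σ : Slot → Fin t × Fin t) (a : Slot) : Fin 4 × Fin T := uB ht a (σ a).1
/-- The second ball named by the choice `σ`. -/
def vS (ht : 6 * t ≤ T) (σ : Slot → Fin t × Fin t) (a : Slot) : Fin 4 × Fin T := vB ht a (σ a).2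

lemma uS_fst (ht : 6 * t ≤ T) (σ : Slot → Fin t × Fin t) (a : Slot) : (uS ht σ a).1 = a.1 := rfl
lemma vS_fst (ht : 6 * t ≤ T) (σ : Slot → Fin t × Fin t) (a : Slot) :
    (vS ht σ a).1 = a.1 + 1 := rfl

lemma uS_inj (ht : 6 * t ≤ T) (σ : Slot → Fin t × Fin t) : Function.Injective (uS ht σ) :=
  fun _ _ he => (u_inj ht he).1

lemma vS_inj (ht : 6 * t ≤ T) (σ : Slot → Fin t × Fin t) : Function.Injective (vS ht σ) :=
  fun _ _ he => (v_inj ht he).1

lemma uS_ne_vS (ht : 6 * t ≤ T) (σ σ' : Slot → Fin t × Fin t) (a a' : Slot) :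
    uS ht σ a ≠ vS ht σ' a' := u_ne_v ht a a' _ _

/-- The maps `β` produced by the choice `σ`. -/
structure Good (ht : 6 * t ≤ T) (Lz C : Finset L) (σ : Slot → Fin t × Fin t)
    (β : Fin 4 × Fin T → L) : Prop where
  mem : ∀ b, β b ∈ Lz
  pair : ∀ a, β (vS ht σ a) = β (uS ht σ a)
  cln : ∀ a, β (uS ht σ a) ∈ C
  inj : ∀ b b', (∀ a, b ≠ vS ht σ a) → (∀ a, b' ≠ vS ht σ a) → β b = β b' → b = b'

/-- The choice is determined by `β`. -/
lemma Good.sig_unique {ht : 6 * t ≤ T} {Lz C : Finset L} {σ σ' : Slot → Fin t × Fin t}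
    {β : Fin 4 × Fin T → L} (hG : Good ht Lz C σ β) (hG' : Good ht Lz C σ' β) : σ = σ' := by
  funext a
  have hu : ∀ (τ τ' : Slot → Fin t × Fin t) (c : Slot), ∀ a', uS ht τ c ≠ vS ht τ' a' :=
    fun τ τ' c a' => uS_ne_vS ht τ τ' c a'
  by_cases hv : ∀ a', vS ht σ a ≠ vS ht σ' a'
  · exact absurd (hG'.inj _ _ (hu σ σ' a) hv (hG.pair a).symm) (uS_ne_vS ht σ σ a a)
  · push Not at hv
    obtain ⟨a', ha'⟩ := hv
    obtain ⟨h1, h2⟩ := v_inj ht ha'
    subst h1
    have h3 : β (uS ht σ' a) = β (uS ht σ a) := by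
      rw [← hG'.pair a, ← ha', hG.pair a]
    have h4 := hG'.inj _ _ (hu σ' σ' a) (hu σ σ' a) h3
    obtain ⟨-, h5⟩ := u_inj ht h4
    exact Prod.ext h5.symm h2

/-- `Good` fibres: a ball on the line of a first ball is that first ball or its second ball. -/
lemma Good.fibre {ht : 6 * t ≤ T} {Lz C : Finset L} {σ : Slot → Fin t × Fin t}
    {β : Fin 4 × Fin T → L} (hG : Good ht Lz C σ β) {a : Slot} {b : Fin 4 × Fin T}
    (hb : β b = β (uS ht σ a)) : b = uS ht σ a ∨ b = vS ht σ a := by
  by_cases hv : ∀ a', b ≠ vS ht σ a'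
  · exact Or.inl (hG.inj _ _ hv (fun a' => uS_ne_vS ht σ σ a a') hb)
  · push Not at hv
    obtain ⟨a', rfl⟩ := hv
    rw [hG.pair a'] at hb
    have := hG.inj _ _ (fun a'' => uS_ne_vS ht σ σ a' a'') (fun a'' => uS_ne_vS ht σ σ a a'') hb
    have h2 := uS_inj ht σ this
    subst h2
    exact Or.inr rfl

section Pattern

variable (hO : OA q h) {Z : Finset (P × V)} {cl : Fin 4 → P} {z : P × V}
include hO

lemma line_eq (hz : ∀ j, z.1 ≠ cl j) {ℓ ℓ' : L} (hℓ : On h ℓ z) (hℓ' : On h ℓ' z) {j : Fin 4}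
    (he : h ℓ (cl j) = h ℓ' (cl j)) : ℓ = ℓ' :=
  hO.eq_of_agree (hz j) (hℓ.trans hℓ'.symm) he

lemma mem_hitCl_iff (hz : ∀ j, z.1 ≠ cl j) {β : Fin 4 × Fin T → L}
    (hβ : ∀ b, On h (β b) z) {ℓ : L} (hℓ : On h ℓ z) (j : Fin 4) :
    j ∈ hitCl h cl (fun b : Fin 4 × Fin T => h (β b) (cl b.1)) ℓ ↔ ∃ k, β (j, k) = ℓ := by
  simp only [hitCl, mem_filter, mem_univ, true_and]
  constructor
  · rintro ⟨k, hk⟩
    exact ⟨k, line_eq hO hz (hβ _) hℓ hk⟩
  · rintro ⟨k, rfl⟩
    exact ⟨k, rfl⟩

lemma hitCl_first (hz : ∀ j, z.1 ≠ cl j) {ht : 6 * t ≤ T} {C : Finset L}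
    {σ : Slot → Fin t × Fin t} {β : Fin 4 × Fin T → L}
    (hG : Good ht (linesThrough h z) C σ β) (a : Slot) :
    hitCl h cl (fun b : Fin 4 × Fin T => h (β b) (cl b.1)) (β (uS ht σ a)) = {a.1, a.1 + 1} := by
  have hβ : ∀ b, On h (β b) z := fun b => by
    have := hG.mem b
    simpa [linesThrough] using this
  ext j
  rw [mem_hitCl_iff hO hz hβ (hβ _)]
  simp only [mem_insert, mem_singleton]
  constructor
  · rintro ⟨k, hk⟩
    rcases hG.fibre hk with h1 | h1
    · left; exact congrArg Prod.fst h1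
    · right; exact congrArg Prod.fst h1
  · rintro (rfl | rfl)
    · exact ⟨(uS ht σ a).2, rfl⟩
    · exact ⟨(vS ht σ a).2, hG.pair a⟩

lemma hitCl_other (hz : ∀ j, z.1 ≠ cl j) {ht : 6 * t ≤ T} {C : Finset L}
    {σ : Slot → Fin t × Fin t} {β : Fin 4 × Fin T → L}
    (hG : Good ht (linesThrough h z) C σ β) {ℓ : L} (hℓ : On h ℓ z)
    (hne : ∀ a, ℓ ≠ β (uS ht σ a)) :
    (hitCl h cl (fun b : Fin 4 × Fin T => h (β b) (cl b.1)) ℓ).card ≤ 1 := by
  have hβ : ∀ b, On h (β b) z := fun b => by
    have := hG.mem b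
    simpa [linesThrough] using this
  rw [Finset.card_le_one]
  intro j hj j' hj'
  rw [mem_hitCl_iff hO hz hβ hℓ] at hj hj'
  obtain ⟨k, hk⟩ := hj
  obtain ⟨k', hk'⟩ := hj'
  have hnv : ∀ {b : Fin 4 × Fin T}, β b = ℓ → ∀ a, b ≠ vS ht σ a := by
    rintro b hb a rfl
    exact hne a (by rw [← hb, hG.pair a])
  have := hG.inj _ _ (hnv hk) (hnv hk') (hk.trans hk'.symm)
  exact congrArg Prod.fst this

omit hO in
lemma pair_eq_pair : ∀ j j' : Fin 4, ({j', j' + 1} : Finset (Fin 4)) = {j, j + 1} → j' = j := by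
  decide

omit hO in
lemma card_pair : ∀ j : Fin 4, ({j, j + 1} : Finset (Fin 4)).card = 2 := by
  decide

lemma gadL_eq (hz : ∀ j, z.1 ≠ cl j) {ht : 6 * t ≤ T} {C : Finset L}
    {σ : Slot → Fin t × Fin t} {β : Fin 4 × Fin T → L}
    (hG : Good ht (linesThrough h z) C σ β) (j : Fin 4) :
    gadL h cl (fun b : Fin 4 × Fin T => h (β b) (cl b.1)) z j =
      (univ : Finset (Fin 3)).image fun s => β (uS ht σ (j, s)) := by
  have hβ : ∀ b, On h (β b) z := fun b => by
    have := hG.mem b
    simpa [linesThrough] using this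
  ext ℓ
  simp only [gadL, linesThrough, mem_filter, mem_univ, true_and, mem_image]
  constructor
  · rintro ⟨hℓ, hhit⟩
    by_cases hne : ∀ a, ℓ ≠ β (uS ht σ a)
    · have h1 := hitCl_other hO hz hG hℓ hne (cl := cl)
      rw [hhit, card_pair] at h1
      omega
    · push Not at hne
      obtain ⟨a, rfl⟩ := hne
      rw [hitCl_first hO hz hG a] at hhit
      have h2 := pair_eq_pair _ _ hhit
      refine ⟨a.2, ?_⟩
      rw [← h2]
  · rintro ⟨s, rfl⟩
    exact ⟨hβ _, hitCl_first hO hz hG (j, s)⟩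

/-- Every good `β` gives a configuration with the pattern. -/
theorem pat_of_good (hz : ∀ j, z.1 ≠ cl j) {ht : 6 * t ≤ T}
    {σ : Slot → Fin t × Fin t} {β : Fin 4 × Fin T → L}
    (hG : Good ht (linesThrough h z) (cleanLines h Z z) σ β) :
    Pat h Z cl (fun b : Fin 4 × Fin T => h (β b) (cl b.1)) z := by
  have hβ : ∀ b, On h (β b) z := fun b => by
    have := hG.mem b
    simpa [linesThrough] using this
  refine ⟨hz, ?_, ?_, ?_⟩
  · intro ℓ hℓ
    by_cases hne : ∀ a, ℓ ≠ β (uS ht σ a)
    · exact Or.inl (hitCl_other hO hz hG hℓ hne)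
    · push Not at hne
      obtain ⟨a, rfl⟩ := hne
      exact Or.inr ⟨a.1, hitCl_first hO hz hG a⟩
  · intro j
    rw [gadL_eq hO hz hG j, Finset.card_image_of_injective]
    · simp
    · intro s s' hss
      have h1 := hG.inj _ _ (fun a' => uS_ne_vS ht σ σ _ a') (fun a' => uS_ne_vS ht σ σ _ a') hss
      have h2 := uS_inj ht σ h1
      exact (Prod.ext_iff.1 h2).2
  · intro j ℓ hℓ x hx hon
    rw [gadL_eq hO hz hG j] at hℓ
    obtain ⟨s, -, rfl⟩ := Finset.mem_image.1 hℓ
    have := hG.cln (j, s)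
    simp only [cleanLines, mem_filter] at this
    exact this.2 x hx hon

end Pattern

open Classical in
/-- Counting good `β` for a fixed choice: greedy count over `W`. -/
theorem card_good_ge (ht : 6 * t ≤ T) (ht1 : 1 ≤ t) (Lz C : Finset L) (hC : C ⊆ Lz)
    (σ : Slot → Fin t × Fin t) :
    (C.card - (4 * T - 12)) ^ 12 * (Lz.card - (4 * T - 12)) ^ (4 * T - 24) ≤
      (univ.filter fun β : Fin 4 × Fin T → L => Good ht Lz C σ β).card := by
  have hT6 : 6 ≤ T := by omega
  -- `W`: the balls that are not second balls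
  let W := {b : Fin 4 × Fin T // ∀ a, b ≠ vS ht σ a}
  have hW : Fintype.card W = 4 * T - 12 := by
    have h1 : Fintype.card W = (univ \ (univ : Finset Slot).image (vS ht σ)).card := by
      refine Fintype.card_of_subtype _ (fun b => ?_)
      simp only [mem_univ, true_and, mem_sdiff, mem_image, not_exists]
      constructor
      · intro hb a hab
        exact hb a hab.symm
      · intro hb a hab
        exact hb a hab.symm
    rw [h1, Finset.card_sdiff_of_subset (subset_univ _),
      Finset.card_image_of_injective _ (vS_inj ht σ)]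
    simp [Finset.card_univ, Fintype.card_prod]
  let firstW : Slot → W := fun a => ⟨uS ht σ a, fun a' => uS_ne_vS ht σ σ a a'⟩
  have hfirst_inj : Function.Injective firstW := by
    intro a a' he
    exact uS_inj ht σ (congrArg Subtype.val he)
  -- partner map
  have hpar : ∀ b : Fin 4 × Fin T, ∃ i : W, (b = i.1 ∧ (∀ a, b ≠ vS ht σ a)) ∨
      ∃ a, b = vS ht σ a ∧ i = firstW a := by
    intro b
    by_cases hb : ∀ a, b ≠ vS ht σ a
    · exact ⟨⟨b, hb⟩, Or.inl ⟨rfl, hb⟩⟩
    · push Not at hb
      obtain ⟨a, ha⟩ := hb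
      exact ⟨firstW a, Or.inr ⟨a, ha, rfl⟩⟩
  choose par hpar' using hpar
  have par_W : ∀ i : W, par i.1 = i := by
    intro i
    rcases hpar' i.1 with ⟨h1, -⟩ | ⟨a, h1, -⟩
    · exact Subtype.ext h1.symm
    · exact absurd h1 (i.2 a)
  have par_v : ∀ a, par (vS ht σ a) = firstW a := by
    intro a
    rcases hpar' (vS ht σ a) with ⟨-, h2⟩ | ⟨a', h1, h2⟩
    · exact absurd rfl (h2 a)
    · have h3 := vS_inj ht σ h1
      subst h3
      exact h2
  -- constraints
  let A : W → Finset L := fun i => if ∃ a, i = firstW a then C else Lz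
  have hAsub : ∀ i, A i ⊆ Lz := by
    intro i
    simp only [A]
    split_ifs
    · exact hC
    · exact Subset.refl _
  have hcount := card_inj_ge_aux A
  rw [hW] at hcount
  -- product evaluation
  have hprod : (∏ i, ((A i).card - (4 * T - 12))) =
      (C.card - (4 * T - 12)) ^ 12 * (Lz.card - (4 * T - 12)) ^ (4 * T - 24) := by
    have h1 : ∀ i, ((A i).card - (4 * T - 12)) = if ∃ a, i = firstW a then
        (C.card - (4 * T - 12)) else (Lz.card - (4 * T - 12)) := by
      intro i
      simp only [A]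
      split_ifs <;> rfl
    simp only [h1]
    rw [Finset.prod_ite, Finset.prod_const, Finset.prod_const]
    have h2 : (univ.filter fun i : W => ∃ a, i = firstW a).card = 12 := by
      have : (univ.filter fun i : W => ∃ a, i = firstW a) = (univ : Finset Slot).image firstW := by
        ext i
        simp only [mem_filter, mem_univ, true_and, mem_image]
        constructor
        · rintro ⟨a, rfl⟩; exact ⟨a, rfl⟩
        · rintro ⟨a, rfl⟩; exact ⟨a, rfl⟩
      rw [this, Finset.card_image_of_injective _ hfirst_inj]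
      simp [Finset.card_univ, Fintype.card_prod]
    have h3 : (univ.filter fun i : W => ¬ ∃ a, i = firstW a).card = 4 * T - 24 := by
      have h4 := Finset.card_filter_add_card_filter_not (s := (univ : Finset W))
        (fun i : W => ∃ a, i = firstW a)
      rw [h2, Finset.card_univ, hW] at h4
      omega
    rw [h2, h3]
  rw [hprod] at hcount
  refine hcount.trans ?_
  -- the injection `f ↦ β`
  refine Finset.card_le_card_of_injOn (fun f b => f (par b)) ?_ ?_
  · intro f hf
    simp only [coe_filter, mem_univ, true_and, Set.mem_ofPred_eq] at hf ⊢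
    obtain ⟨hf1, hf2⟩ := hf
    refine ⟨fun b => hAsub _ (hf2 _), fun a => ?_, fun a => ?_, ?_⟩
    · show f (par (vS ht σ a)) = f (par (uS ht σ a))
      rw [par_v, show par (uS ht σ a) = firstW a from par_W (firstW a)]
    · show f (par (uS ht σ a)) ∈ C
      rw [show par (uS ht σ a) = firstW a from par_W (firstW a)]
      have := hf2 (firstW a)
      simp only [A] at this
      rwa [if_pos ⟨a, rfl⟩] at this
    · intro b b' hb hb' he
      have h1 := hf1 he
      have h2 := par_W ⟨b, hb⟩
      have h3 := par_W ⟨b', hb'⟩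
      simp only at h2 h3
      rw [h2, h3] at h1
      exact congrArg Subtype.val h1
  · intro f _ g _ hfg
    funext i
    have := congrFun hfg i.1
    simp only at this
    rwa [par_W i] at this

end SelLow

open SelLow in
/-- Greedy count of injective maps with constraints. -/
theorem card_inj_ge {W Y : Type*} [Fintype W] [DecidableEq W] [Fintype Y] [DecidableEq Y] (A : W → Finset Y) :
    (∏ i, ((A i).card - Fintype.card W)) ≤
      (univ.filter fun f : W → Y => Function.Injective f ∧ ∀ i, f i ∈ A i).card := by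
  have := card_inj_ge_aux A
  refine this.trans (le_of_eq ?_)
  simp only [Finset.card_filter]
  refine Finset.sum_congr ?_ ?_
  · ext f; simp
  · intro f _
    congr

open SelLow in
/-- Lower bound for the pattern probability. -/
theorem pat_lower (hO : OA q h) (Z : Finset (P × V)) (cl : Fin 4 → P) (hcl : Function.Injective cl)
    (z : P × V) (hz : ∀ j, z.1 ≠ cl j) (T t : ℕ) (ht : 6 * t ≤ T) (hT : 32 * T ^ 2 ≤ q) (hT' : 80 * T ≤ q)
    (hclean : q ≤ 4 * (cleanLines h Z z).card) :
    (1 / 2 : ℝ) * ((t : ℝ) ^ 2 / (5 * q)) ^ 12 ≤ Pr (fun γ : GConf T V => Pat h Z cl γ z) := by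
  classical
  rcases Nat.eq_zero_or_pos t with rfl | ht1
  · have h0 : (((0 : ℕ) : ℝ) ^ 2 / (5 * (q : ℝ))) = 0 := by simp
    rw [h0]
    have := Pr_nonneg (fun γ : GConf T V => Pat h Z cl γ z)
    simpa using this
  have hT6 : 6 ≤ T := by omega
  have hq2 := hO.two_le
  set Lz := linesThrough h z with hLz
  set C := cleanLines h Z z with hCdef
  have hLzcard : Lz.card = q := hO.card_linesThrough z
  have hCsub : C ⊆ Lz := filter_subset _ _
  set w := 4 * T - 12 with hw
  set n := 4 * T - 24 with hn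
  set N := (C.card - w) ^ 12 * (q - w) ^ n with hN
  let GS : (Slot → Fin t × Fin t) → Finset (Fin 4 × Fin T → L) :=
    fun σ => univ.filter fun β => Good ht Lz C σ β
  have hGS : ∀ σ, N ≤ (GS σ).card := by
    intro σ
    have := card_good_ge ht ht1 Lz C hCsub σ
    rw [hLzcard] at this
    exact this
  have hdisj : (↑(univ : Finset (Slot → Fin t × Fin t)) : Set (Slot → Fin t × Fin t)).PairwiseDisjoint GS := by
    intro σ _ σ' _ hne
    rw [Function.onFun, Finset.disjoint_left]
    intro β hβ hβ'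
    simp only [GS, mem_filter, mem_univ, true_and] at hβ hβ'
    exact hne (hβ.sig_unique hβ')
  have hunion : t ^ 24 * N ≤ ((univ : Finset (Slot → Fin t × Fin t)).biUnion GS).card := by
    rw [Finset.card_biUnion hdisj]
    calc t ^ 24 * N = ∑ _σ : Slot → Fin t × Fin t, N := by
          rw [Finset.sum_const, Finset.card_univ, smul_eq_mul]
          congr 1
          simp [Fintype.card_pi, Fintype.card_prod]
          ring
      _ ≤ _ := Finset.sum_le_sum fun σ _ => hGS σ
  let Φ : (Fin 4 × Fin T → L) → GConf T V := fun β b => h (β b) (cl b.1)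
  have hPat : ((univ : Finset (Slot → Fin t × Fin t)).biUnion GS).card ≤
      (univ.filter fun γ : GConf T V => Pat h Z cl γ z).card := by
    refine Finset.card_le_card_of_injOn Φ ?_ ?_
    · intro β hβ
      simp only [coe_biUnion, Set.mem_iUnion, coe_univ, Set.mem_univ, exists_prop, true_and, GS,
        coe_filter, Set.mem_ofPred_eq, mem_univ] at hβ
      obtain ⟨σ, hσ⟩ := hβ
      simp only [coe_filter, mem_univ, true_and, Set.mem_ofPred_eq]
      exact pat_of_good hO hz hσ
    · intro β hβ β' hβ' he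
      simp only [coe_biUnion, Set.mem_iUnion, coe_univ, Set.mem_univ, exists_prop, true_and, GS,
        coe_filter, Set.mem_ofPred_eq, mem_univ] at hβ hβ'
      obtain ⟨σ, hσ⟩ := hβ
      obtain ⟨σ', hσ'⟩ := hβ'
      funext b
      have h1 : h (β b) (cl b.1) = h (β' b) (cl b.1) := congrFun he b
      have h2 : On h (β b) z := by simpa [Lz, linesThrough] using hσ.mem b
      have h3 : On h (β' b) z := by simpa [Lz, linesThrough] using hσ'.mem b
      exact line_eq hO hz h2 h3 h1
  have hfinal : t ^ 24 * N ≤ (univ.filter fun γ : GConf T V => Pat h Z cl γ z).card :=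
    hunion.trans hPat
  -- numerics
  have hΩ : (Fintype.card (GConf T V) : ℝ) = (q : ℝ) ^ (4 * T) := by
    simp [GConf, Fintype.card_pi, Fintype.card_prod, hO.cardV]
  have hq0 : (0 : ℝ) < q := by exact_mod_cast (by omega : 0 < q)
  have hqR : (80 : ℝ) * T ≤ q := by exact_mod_cast hT'
  have hqR2 : (32 : ℝ) * T ^ 2 ≤ q := by exact_mod_cast hT
  have hcR : (q : ℝ) ≤ 4 * C.card := by exact_mod_cast hclean
  have hT0 : (0 : ℝ) ≤ T := by positivity
  have hwle : w ≤ 4 * T := by omega
  have hwR : (w : ℝ) ≤ 4 * T := by exact_mod_cast hwle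
  have hwc : w ≤ C.card := by omega
  have hwq : w ≤ q := by omega
  have hc1 : (q : ℝ) / 5 ≤ ((C.card - w : ℕ) : ℝ) := by
    rw [Nat.cast_sub hwc]
    linarith
  have hc2 : (q : ℝ) - 4 * T ≤ ((q - w : ℕ) : ℝ) := by
    rw [Nat.cast_sub hwq]
    linarith
  have hq4T : (0 : ℝ) ≤ (q : ℝ) - 4 * T := by linarith
  have hBern : (q : ℝ) ^ n / 2 ≤ ((q : ℝ) - 4 * T) ^ n := by
    have ha : (-2 : ℝ) ≤ -(4 * T / q) := by
      have : 4 * (T : ℝ) / q ≤ 1 := by
        rw [div_le_one hq0]; linarith
      linarith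
    have h1 := one_add_mul_le_pow ha n
    have h2 : (n : ℝ) ≤ 4 * T := by
      have : n ≤ 4 * T := by omega
      exact_mod_cast this
    have h3 : (1 / 2 : ℝ) ≤ 1 + (n : ℝ) * (-(4 * T / q)) := by
      have h4 : (n : ℝ) * (4 * T / q) ≤ 1 / 2 := by
        have h5 : (n : ℝ) * (4 * T / q) ≤ (4 * T) * (4 * T / q) :=
          mul_le_mul_of_nonneg_right h2 (by positivity)
        have h6 : (4 * (T : ℝ)) * (4 * T / q) ≤ 1 / 2 := by
          rw [← mul_div_assoc, div_le_iff₀ hq0]
          nlinarith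
        linarith
      linarith
    have h4 : (1 + -(4 * (T : ℝ) / q)) = ((q : ℝ) - 4 * T) / q := by
      field_simp
      ring
    rw [h4, div_pow] at h1
    have h5 : (1 / 2 : ℝ) ≤ ((q : ℝ) - 4 * T) ^ n / (q : ℝ) ^ n := h3.trans h1
    rw [le_div_iff₀ (by positivity)] at h5
    linarith
  have hN1 : ((q : ℝ) / 5) ^ 12 * ((q : ℝ) ^ n / 2) ≤ (N : ℝ) := by
    rw [hN]
    push_cast
    have e1 : ((q : ℝ) / 5) ^ 12 ≤ (((C.card - w : ℕ) : ℝ)) ^ 12 :=
      pow_le_pow_left₀ (by positivity) hc1 12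
    have e2 : ((q : ℝ) ^ n / 2) ≤ (((q - w : ℕ) : ℝ)) ^ n :=
      hBern.trans (pow_le_pow_left₀ hq4T hc2 n)
    exact mul_le_mul e1 e2 (by positivity) (by positivity)
  have hfinalR : (t : ℝ) ^ 24 * N ≤ ((univ.filter fun γ : GConf T V => Pat h Z cl γ z).card : ℝ) := by
    exact_mod_cast hfinal
  rw [Pr_eq_card, hΩ, le_div_iff₀ (by positivity)]
  refine le_trans ?_ hfinalR
  have hsplit : (q : ℝ) ^ (4 * T) = (q : ℝ) ^ n * (q : ℝ) ^ 24 := by
    rw [← pow_add]
    congr 1
    omega
  have ht0 : (0 : ℝ) ≤ t := by positivity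
  calc (1 / 2 : ℝ) * ((t : ℝ) ^ 2 / (5 * q)) ^ 12 * (q : ℝ) ^ (4 * T)
      = (t : ℝ) ^ 24 * (((q : ℝ) / 5) ^ 12 * ((q : ℝ) ^ n / 2)) := by
        rw [hsplit]
        field_simp
    _ ≤ _ := mul_le_mul_of_nonneg_left hN1 (by positivity)

end Crest.Agent.Ryser
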