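import Crest.Agent.Lib.Ryser.SelectSafe
import Crest.Agent.Lib.Ryser.SelectLow

/-!
# Module SELCHOICE: Chernoff over the groups (finding 635, Part D).

`Z` is fixed. `Γ : Fin G → GConf T V` uniform: the groups are independent coordinates (`X = GConf T V`).
All bounds are abstract in terms of `μ = T²/q`.  See `SelectNum` for the numbers.

For `z ∈ Z`, let `Opt = {g | Pat z (Γ g)}`. By `pat_lower` and `rare_balls_lower`, `|Opt| > Lo/2` except with probability `exp (-Lo/8)`,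
where `Lo ≤ ∑_g P(Pat z)` is a hypothesis (at most one group has `z` on its parts, so take `Lo = (G-1) * pat_lower` in the caller).
If `g ∈ Opt` is not safe then `g` is counted in one of five counts, each `< t₀` except with small probability:
* `c2`: `Pat z ∧ ∃ y ∈ Z, y ≠ z, y.1 = z.1, Pat y`: `pat_up2`, at most `2T` `y`'s. `rare_balls`.
* `c3`: `Pat z ∧ ∃ y y'`: `pat_up3`, at most `q R²` pairs. `rare_balls`.
* `c4`: `pat_ball_up2`, at most `|Z|` `y`'s (`ℓ` is determined by `z, y`). `rare_balls`.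
* `c1<`, `c1>`: some gadget line of `g` contains a ball (not at `z`) of an earlier (later) group.  `seq_rare` over `Fin G` (and its reversal):
  given the earlier groups the set `B` of lines through `z` with an earlier ball not at `z` has `|B| ≤ 4 T G`, and `pat_gad_up` for each line of `B`.
`5 t₀ ≤ Lo/2` gives a safe group.
-/

open Finset BigOperators

namespace Crest.Agent.Ryser

variable {P V L : Type*} [Fintype P] [DecidableEq P] [Fintype V] [DecidableEq V]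
  [Fintype L] [DecidableEq L] [Nonempty V]
variable {q : ℕ} {h : L → P → V} {G T : ℕ}

/-- The numeric bound for a failure at one `z`. -/
noncomputable def safeFail (q G T R ZZ t₀ : ℕ) (μ Lo : ℝ) : ℝ :=
  Real.exp (-(Lo / 8)) +
  2 * (Real.exp 1 * ((G : ℝ) * (16 * (T * G / q) * (Real.exp 6 * μ ^ 12))) / t₀) ^ t₀ +
  (Real.exp 1 * ((G : ℝ) * (2 * T * (Real.exp 10 * μ ^ 24))) / t₀) ^ t₀ +
  (Real.exp 1 * ((G : ℝ) * (q * R ^ 2 * (Real.exp 14 * μ ^ 36))) / t₀) ^ t₀ +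
  (Real.exp 1 * ((G : ℝ) * (ZZ * ((4 * T / q) * (Real.exp 10 * μ ^ 24)))) / t₀) ^ t₀

/-- Failure probability of `∃ g, Safe z g`. -/
theorem safe_prob (hO : OA q h) (cl : Fin G → Fin 4 → P)
    (hcl : ∀ g g' j j', cl g j = cl g' j' → g = g' ∧ j = j') (hT : 1 ≤ T)
    (Z : Finset (P × V)) (R : ℕ) (hZline : ∀ ℓ : L, (Z.filter (On h ℓ)).card ≤ R)
    (hZpart : ∀ i : P, (Z.filter fun x => x.1 = i).card ≤ 2 * T)
    (μ : ℝ) (hμ : μ = (T : ℝ) ^ 2 / q) (hμ0 : 0 < μ) (hμ1 : μ ≤ 1) (hnum : 1296 * (T : ℝ) ≤ q * μ ^ 3)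
    (z : P × V) (hz : z ∈ Z) (Lo : ℝ) (hLo0 : 0 ≤ Lo)
    (hLo : Lo ≤ ∑ g, Pr (fun γ : GConf T V => Pat h Z (cl g) γ z))
    (t₀ : ℕ) (ht₀ : 1 ≤ t₀) (ht₀' : 10 * (t₀ : ℝ) ≤ Lo) :
    Pr (fun Γ : Fin G → GConf T V => ¬ ∃ g, Safe h Z cl Γ z g) ≤
      safeFail q G T R Z.card t₀ μ Lo :=
  safe_prob_core hO cl hcl hT Z R hZline hZpart μ hμ hμ0 hμ1 hnum z hz Lo hLo0 hLo t₀ ht₀ ht₀'

section ChoiceAux

/-- `rare_balls` allowing `μ = 0`. -/
lemma rare_balls0 {ι X : Type*} [Fintype ι] [DecidableEq ι] [Fintype X] [DecidableEq X] [Nonempty X]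
    (A : ι → Finset X) (μ : ℝ) (hμ : (∑ b, ((A b).card : ℝ) / Fintype.card X) ≤ μ) (hμ0 : 0 ≤ μ)
    (t : ℕ) (ht : 1 ≤ t) :
    Pr (fun π : ι → X => t ≤ (univ.filter (fun b => π b ∈ A b)).card) ≤
      (Real.exp 1 * μ / t) ^ t := by
  classical
  rcases hμ0.lt_or_eq with hpos | hzero
  · exact rare_balls A μ hμ hpos t ht
  · subst hzero
    have hX : (0:ℝ) < Fintype.card X := by exact_mod_cast Fintype.card_pos
    have hterm : ∀ b, (A b).card = 0 := by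
      intro b
      have h1 : ∀ b ∈ (univ : Finset ι), (0:ℝ) ≤ ((A b).card : ℝ) / Fintype.card X :=
        fun b _ => by positivity
      have h2 : ((A b).card : ℝ) / Fintype.card X ≤ 0 :=
        (Finset.single_le_sum h1 (Finset.mem_univ b)).trans hμ
      have h3 : ((A b).card : ℝ) ≤ 0 := by
        rwa [div_le_iff₀ hX, zero_mul] at h2
      exact_mod_cast le_antisymm h3 (by positivity)
    have hev : Pr (fun π : ι → X => t ≤ (univ.filter (fun b => π b ∈ A b)).card) = 0 := by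
      rw [Pr_eq_card]
      have : (univ.filter fun π : ι → X => t ≤ (univ.filter (fun b => π b ∈ A b)).card) = ∅ := by
        rw [Finset.filter_eq_empty_iff]
        intro π _ hle
        have h0 : (univ.filter (fun b => π b ∈ A b)) = ∅ := by
          rw [Finset.filter_eq_empty_iff]
          intro b _ hb
          have := Finset.card_eq_zero.1 (hterm b)
          rw [this] at hb
          simp at hb
        rw [h0] at hle
        simp at hle
        omega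
      rw [this]
      simp
    rw [hev]
    positivity

open Classical in
/-- Tail of the number of coordinates with a rare event. -/
lemma tail_of_coord {ι X : Type*} [Fintype ι] [DecidableEq ι] [Fintype X] [DecidableEq X] [Nonempty X]
    (E : ι → X → Prop) (p : ℝ) (hp0 : 0 ≤ p) (hp : ∀ b, Pr (E b) ≤ p) (t : ℕ) (ht : 1 ≤ t) :
    Pr (fun π : ι → X => t ≤ (univ.filter (fun b => E b (π b))).card) ≤
      (Real.exp 1 * ((Fintype.card ι : ℝ) * p) / t) ^ t := by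
  have h1 := rare_balls0 (fun b => univ.filter (E b)) ((Fintype.card ι : ℝ) * p) (by
    calc (∑ b, (((univ.filter (E b)).card : ℝ) / Fintype.card X)) = ∑ b, Pr (E b) := by
          apply Finset.sum_congr rfl
          intro b _
          rw [Pr_eq_card]
      _ ≤ ∑ _b : ι, p := Finset.sum_le_sum (fun b _ => hp b)
      _ = _ := by
          rw [Finset.sum_const, Finset.card_univ, nsmul_eq_mul]) (by positivity) t ht
  refine le_trans (le_of_eq ?_) h1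
  apply congrArg Pr
  funext π
  simp only [mem_filter, mem_univ, true_and]

end ChoiceAux

/-- One-line bound of the small counts (`d4`): `5 ≤ #{g | Y4 ℓ}` has small probability. -/
theorem d4_prob (hO : OA q h) (cl : Fin G → Fin 4 → P)
    (hcl : ∀ g g' j j', cl g j = cl g' j' → g = g' ∧ j = j') (hT : 1 ≤ T)
    (Z : Finset (P × V)) (R : ℕ) (hZline : ∀ ℓ : L, (Z.filter (On h ℓ)).card ≤ R)
    (μ : ℝ) (hμ : μ = (T : ℝ) ^ 2 / q) (hμ0 : 0 < μ) (hμ1 : μ ≤ 1) (hnum : 1296 * (T : ℝ) ≤ q * μ ^ 3) (ℓ : L) :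
    Pr (fun Γ : Fin G → GConf T V => open Classical in
      5 ≤ (univ.filter fun g => Y4 h Z (cl g) (Γ g) ℓ).card) ≤
      (Real.exp 1 * ((G : ℝ) * (R * ((4 * T / q) * (Real.exp 6 * μ ^ 12)))) / 5) ^ 5 := by
  classical
  have hq0 : (0:ℝ) < q := by
    have := hO.two_le
    exact_mod_cast (by omega : 0 < q)
  have hB0 : 0 ≤ (4 * (T:ℝ) / q) * (Real.exp 6 * μ ^ 12) := by positivity
  have hone : ∀ g, Pr (fun γ : GConf T V => Y4 h Z (cl g) γ ℓ) ≤
      (R : ℝ) * ((4 * T / q) * (Real.exp 6 * μ ^ 12)) := by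
    intro g
    have hinj : Function.Injective (cl g) := fun j j' e => (hcl g g j j' e).2
    have h1 : Pr (fun γ : GConf T V => Y4 h Z (cl g) γ ℓ) ≤
        Pr (fun γ : GConf T V => ∃ y ∈ Z.filter (On h ℓ),
          Pat h Z (cl g) γ y ∧ (∀ j, ℓ ∉ gadL h (cl g) γ y j) ∧ ∃ b, BallOn h (cl g) γ b ℓ) := by
      apply Pr_mono
      rintro γ ⟨y, hy, hyl, hrest⟩
      exact ⟨y, mem_filter.2 ⟨hy, hyl⟩, hrest⟩
    refine h1.trans ((Pr_exists_le_card _ _ ((4 * T / q) * (Real.exp 6 * μ ^ 12)) ?_).trans ?_)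
    · intro y hy
      exact pat_ball_up hO Z (cl g) hinj T hT μ hμ hμ0 hμ1 hnum y ℓ (mem_filter.1 hy).2
    · have h2 : (((Z.filter (On h ℓ)).card : ℕ) : ℝ) ≤ R := by exact_mod_cast hZline ℓ
      exact mul_le_mul_of_nonneg_right h2 hB0
  have h3 := tail_of_coord (ι := Fin G) (X := GConf T V) (fun g γ => Y4 h Z (cl g) γ ℓ)
    ((R : ℝ) * ((4 * T / q) * (Real.exp 6 * μ ^ 12))) (by positivity) hone 5 (by norm_num)
  simpa using h3

/-- `d5` and `d5'`: `t ≤ #{g | Y5 A p}` for `A ⊆ Z` with `p` outside of `A`. -/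
theorem d5_prob (hO : OA q h) (cl : Fin G → Fin 4 → P)
    (hcl : ∀ g g' j j', cl g j = cl g' j' → g = g' ∧ j = j') (hT : 1 ≤ T)
    (Z A : Finset (P × V)) (p : P × V) (hp : p ∉ A)
    (μ : ℝ) (hμ : μ = (T : ℝ) ^ 2 / q) (hμ0 : 0 < μ) (hμ1 : μ ≤ 1) (hnum : 1296 * (T : ℝ) ≤ q * μ ^ 3)
    (t : ℕ) (ht : 1 ≤ t) :
    Pr (fun Γ : Fin G → GConf T V => open Classical in
      t ≤ (univ.filter fun g => Y5 h Z A (cl g) (Γ g) p).card) ≤
      (Real.exp 1 * ((G : ℝ) * (A.card * (4 * ((T : ℝ) ^ 2 / (q : ℝ) ^ 2) * (Real.exp 6 * μ ^ 11)))) / t) ^ t := by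
  classical
  have hq0 : (0:ℝ) < q := by
    have := hO.two_le
    exact_mod_cast (by omega : 0 < q)
  have hB0 : 0 ≤ 4 * ((T : ℝ) ^ 2 / (q : ℝ) ^ 2) * (Real.exp 6 * μ ^ 11) := by positivity
  have hone : ∀ g, Pr (fun γ : GConf T V => Y5 h Z A (cl g) γ p) ≤
      (A.card : ℝ) * (4 * ((T : ℝ) ^ 2 / (q : ℝ) ^ 2) * (Real.exp 6 * μ ^ 11)) := by
    intro g
    have hinj : Function.Injective (cl g) := fun j j' e => (hcl g g j j' e).2
    refine Pr_exists_le_card A _ _ ?_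
    intro z hz
    have hzp : z ≠ p := fun e => hp (e ▸ hz)
    by_cases hpart : z.1 = p.1
    · have hempty : ∀ γ : GConf T V, ¬ (Pat h Z (cl g) γ z ∧ ∃ j, ∃ ℓ ∈ gadL h (cl g) γ z j, On h ℓ p) := by
        rintro γ ⟨-, j, ℓ, hℓ, hpl⟩
        have hzl : On h ℓ z := by
          have := (mem_filter.1 hℓ).1
          simpa [linesThrough] using this
        apply hzp
        apply Prod.ext hpart
        unfold On at hzl hpl
        rw [← hzl, ← hpl, hpart]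
      have : Pr (fun γ : GConf T V => Pat h Z (cl g) γ z ∧ ∃ j, ∃ ℓ ∈ gadL h (cl g) γ z j, On h ℓ p) ≤
          Pr (fun _ : GConf T V => False) := Pr_mono (fun γ hγ => hempty γ hγ)
      refine this.trans ?_
      simpa [Pr] using hB0
    · obtain ⟨ℓ₀, ⟨hz0, hp0⟩, huniq⟩ := hO.existsUnique_line hpart
      have h1 : Pr (fun γ : GConf T V => Pat h Z (cl g) γ z ∧ ∃ j, ∃ ℓ ∈ gadL h (cl g) γ z j, On h ℓ p) ≤
          Pr (fun γ : GConf T V => Pat h Z (cl g) γ z ∧ ∃ j, ℓ₀ ∈ gadL h (cl g) γ z j) := by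
        apply Pr_mono
        rintro γ ⟨hpat, j, ℓ, hℓ, hpl⟩
        have hzl : On h ℓ z := by
          have := (mem_filter.1 hℓ).1
          simpa [linesThrough] using this
        have : ℓ = ℓ₀ := huniq ℓ ⟨hzl, hpl⟩
        exact ⟨hpat, j, this ▸ hℓ⟩
      exact h1.trans (pat_gad_up hO Z (cl g) hinj T hT μ hμ hμ0 hμ1 hnum z ℓ₀ hz0)
  have h3 := tail_of_coord (ι := Fin G) (X := GConf T V) (fun g γ => Y5 h Z A (cl g) γ p)
    ((A.card : ℝ) * (4 * ((T : ℝ) ^ 2 / (q : ℝ) ^ 2) * (Real.exp 6 * μ ^ 11))) (by positivity) hone t ht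
  simpa using h3

/-- Union of all failure events. -/
theorem selGood_fail (hO : OA q h) (cl : Fin G → Fin 4 → P)
    (hcl : ∀ g g' j j', cl g j = cl g' j' → g = g' ∧ j = j') (hT : 1 ≤ T)
    (Z : Finset (P × V)) (R : ℕ) (hZline : ∀ ℓ : L, (Z.filter (On h ℓ)).card ≤ R)
    (hZpart : ∀ i : P, (Z.filter fun x => x.1 = i).card ≤ 2 * T)
    (μ : ℝ) (hμ : μ = (T : ℝ) ^ 2 / q) (hμ0 : 0 < μ) (hμ1 : μ ≤ 1) (hnum : 1296 * (T : ℝ) ≤ q * μ ^ 3)
    (Lo : ℝ) (hLo0 : 0 ≤ Lo)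
    (hLo : ∀ z ∈ Z, Lo ≤ ∑ g, Pr (fun γ : GConf T V => Pat h Z (cl g) γ z))
    (t₀ : ℕ) (ht₀ : 1 ≤ t₀) (ht₀' : 10 * (t₀ : ℝ) ≤ Lo) :
    Pr (fun Γ : Fin G → GConf T V => ¬ SelGood h Z cl Γ) ≤
      Z.card * safeFail q G T R Z.card t₀ μ Lo +
      (q : ℝ) ^ 2 * (Real.exp 1 * ((G : ℝ) * (R * ((4 * T / q) * (Real.exp 6 * μ ^ 12)))) / 5) ^ 5 +
      ((q + 1 : ℝ) * q * (q : ℝ) ^ 2) *
        (Real.exp 1 * ((G : ℝ) * (R * (4 * ((T : ℝ) ^ 2 / (q : ℝ) ^ 2) * (Real.exp 6 * μ ^ 11)))) / 5) ^ 5 +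
      ((q + 1 : ℝ) * q * (q + 1)) *
        (Real.exp 1 * ((G : ℝ) * ((2 * T) * (4 * ((T : ℝ) ^ 2 / (q : ℝ) ^ 2) * (Real.exp 6 * μ ^ 11)))) / 7) ^ 7 := by
  classical
  have hq0 : (0:ℝ) < q := by
    have := hO.two_le
    exact_mod_cast (by omega : 0 < q)
  set B4 : ℝ := (Real.exp 1 * ((G : ℝ) * (R * ((4 * T / q) * (Real.exp 6 * μ ^ 12)))) / 5) ^ 5 with hB4
  set B5 : ℝ := (Real.exp 1 * ((G : ℝ) * (R * (4 * ((T : ℝ) ^ 2 / (q : ℝ) ^ 2) * (Real.exp 6 * μ ^ 11)))) / 5) ^ 5 with hB5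
  set B6 : ℝ := (Real.exp 1 * ((G : ℝ) * ((2 * T) * (4 * ((T : ℝ) ^ 2 / (q : ℝ) ^ 2) * (Real.exp 6 * μ ^ 11)))) / 7) ^ 7 with hB6
  have hB40 : 0 ≤ B4 := by rw [hB4]; positivity
  have hB50 : 0 ≤ B5 := by rw [hB5]; positivity
  have hB60 : 0 ≤ B6 := by rw [hB6]; positivity
  let S3 : Finset ((P × V) × L) := univ.filter fun t => ¬ On h t.2 t.1
  let S4 : Finset ((P × V) × P) := univ.filter fun t => t.1.1 ≠ t.2
  let F1 : (Fin G → GConf T V) → Prop := fun Γ => ∃ z ∈ Z, ¬ ∃ g, Safe h Z cl Γ z g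
  let F2 : (Fin G → GConf T V) → Prop := fun Γ => ∃ ℓ ∈ (univ : Finset L),
    5 ≤ (univ.filter fun g => Y4 h Z (cl g) (Γ g) ℓ).card
  let F3 : (Fin G → GConf T V) → Prop := fun Γ => ∃ t ∈ S3,
    5 ≤ (univ.filter fun g => Y5 h Z (Z.filter (On h t.2)) (cl g) (Γ g) t.1).card
  let F4 : (Fin G → GConf T V) → Prop := fun Γ => ∃ t ∈ S4,
    7 ≤ (univ.filter fun g => Y5 h Z (Z.filter fun x => x.1 = t.2) (cl g) (Γ g) t.1).card
  have hcov : ∀ Γ : Fin G → GConf T V, ¬ SelGood h Z cl Γ → F1 Γ ∨ F2 Γ ∨ F3 Γ ∨ F4 Γ := by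
    intro Γ hΓ
    by_contra hc
    simp only [not_or] at hc
    obtain ⟨h1, h2, h3, h4⟩ := hc
    apply hΓ
    refine ⟨?_, ?_, ?_, ?_⟩
    · intro z hz
      by_contra hne
      exact h1 ⟨z, hz, hne⟩
    · intro ℓ
      by_contra hne
      exact h2 ⟨ℓ, mem_univ _, by omega⟩
    · intro p ℓ hnp
      by_contra hne
      exact h3 ⟨(p, ℓ), by simp [S3, hnp], by convert Nat.lt_of_not_le hne; exact Iff.rfl⟩
    · intro p i hne'
      by_contra hne
      exact h4 ⟨(p, i), by simp [S4, hne'], by convert Nat.lt_of_not_le hne; exact Iff.rfl⟩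
  have hF1 : Pr F1 ≤ Z.card * safeFail q G T R Z.card t₀ μ Lo :=
    Pr_exists_le_card Z _ _ (fun z hz =>
      safe_prob hO cl hcl hT Z R hZline hZpart μ hμ hμ0 hμ1 hnum z hz Lo hLo0 (hLo z hz) t₀ ht₀ ht₀')
  have hF2 : Pr F2 ≤ (q : ℝ) ^ 2 * B4 := by
    have := Pr_exists_le_card (univ : Finset L) _ B4 (fun ℓ _ =>
      d4_prob hO cl hcl hT Z R hZline μ hμ hμ0 hμ1 hnum ℓ)
    rw [Finset.card_univ, hO.card_L] at this
    push_cast at this
    exact this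
  have hF3 : Pr F3 ≤ ((q + 1 : ℝ) * q * (q : ℝ) ^ 2) * B5 := by
    have h1 : Pr F3 ≤ S3.card * B5 := by
      refine Pr_exists_le_card S3 _ B5 ?_
      intro t ht
      have hnp : ¬ On h t.2 t.1 := by simpa [S3] using ht
      refine (d5_prob hO cl hcl hT Z (Z.filter (On h t.2)) t.1 (fun hm => hnp (mem_filter.1 hm).2)
        μ hμ hμ0 hμ1 hnum 5 (by norm_num)).trans ?_
      rw [hB5]
      have hc : (((Z.filter (On h t.2)).card : ℕ) : ℝ) ≤ R := by exact_mod_cast hZline t.2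
      gcongr
      norm_num
    have h2 : (S3.card : ℝ) ≤ (q + 1 : ℝ) * q * (q : ℝ) ^ 2 := by
      have h3 : S3.card ≤ Fintype.card ((P × V) × L) := Finset.card_le_univ _
      rw [Fintype.card_prod, hO.card_pt, hO.card_L] at h3
      have h4 : ((S3.card : ℕ) : ℝ) ≤ (((q + 1) * q * q ^ 2 : ℕ) : ℝ) := by exact_mod_cast h3
      push_cast at h4
      exact h4
    exact h1.trans (mul_le_mul_of_nonneg_right h2 hB50)
  have hF4 : Pr F4 ≤ ((q + 1 : ℝ) * q * (q + 1)) * B6 := by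
    have h1 : Pr F4 ≤ S4.card * B6 := by
      refine Pr_exists_le_card S4 _ B6 ?_
      intro t ht
      have hnp : t.1.1 ≠ t.2 := by simpa [S4] using ht
      refine (d5_prob hO cl hcl hT Z (Z.filter fun x => x.1 = t.2) t.1 (fun hm => hnp (mem_filter.1 hm).2)
        μ hμ hμ0 hμ1 hnum 7 (by norm_num)).trans ?_
      rw [hB6]
      have hc : (((Z.filter fun x => x.1 = t.2).card : ℕ) : ℝ) ≤ 2 * T := by exact_mod_cast hZpart t.2
      gcongr
      norm_num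
    have h2 : (S4.card : ℝ) ≤ (q + 1 : ℝ) * q * (q + 1) := by
      have h3 : S4.card ≤ Fintype.card ((P × V) × P) := Finset.card_le_univ _
      rw [Fintype.card_prod, hO.card_pt, hO.cardP] at h3
      have h4 : ((S4.card : ℕ) : ℝ) ≤ (((q + 1) * q * (q + 1) : ℕ) : ℝ) := by exact_mod_cast h3
      push_cast at h4
      exact h4
    exact h1.trans (mul_le_mul_of_nonneg_right h2 hB60)
  have hall : Pr (fun Γ : Fin G → GConf T V => ¬ SelGood h Z cl Γ) ≤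
      Pr (fun Γ => F1 Γ ∨ F2 Γ ∨ F3 Γ ∨ F4 Γ) := Pr_mono hcov
  have hu1 := Pr_or_le F1 (fun Γ => F2 Γ ∨ F3 Γ ∨ F4 Γ)
  have hu2 := Pr_or_le F2 (fun Γ => F3 Γ ∨ F4 Γ)
  have hu3 := Pr_or_le F3 F4
  linarith

end Crest.Agent.Ryser
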