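import Crest.Agent.Lib.Ryser.SelectDefs

/-!
# Module SELCOL: joint upper tail for the collinearity counts `colN` at up to three centers.

Setting: `O` balls of odd classes, `E` balls of even classes, `A` a set of `m ≤ 3` centers off all four parts.
Let `μ = T²/q`.  For a center `u`, an even part `j` and `γ_O`: `P u j γ_O` = heights on part `cl j` of the lines through `u` and a ball of `O`;
`|P u j| ≤ |O| ≤ 2T` (unique line, `OA.existsUnique_line`).

Step 1 (overlap, event `W`): for `u ≠ v` in `A` and `j` even, `|P u j ∩ P v j| ≤ 72`.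
Enumerate `O` as `Fin n` and let `I a` := the perspectivities `f_u, f_v` (bijections `V → V` from part of `a` to part `j`)
satisfy: `f_u (γ a) ∈ {f_v (γ b) | b < a}` or `f_v (γ a) ∈ {f_u (γ b) | b < a}` or `f_u (γ a) = f_v (γ a)`.
The last has at most one solution `γ a` (the ball lies on the line `uv`; none if `u, v` are on one part), so conditional probability `≤ (2 n + 1)/q ≤ 5T/q`.
`|P u j ∩ P v j| ≤ 2 #{a | I a}` and `seq_rare` gives `P(#I ≥ 36) ≤ (e 2T (5T/q)/36)^36 ≤ μ^36`.  Union over ≤ 6 ordered pairs, 2 parts.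
Step 2: given `γ_O` in `W`, `X e x = #{u ∈ A | x ∈ P u (part of e)}`, `λ = 1/μ`,
`λ^X ≤ 1 + λ ∑_u 1[x ∈ P u] + λ^3 ∑_{u ≠ v} 1[x ∈ P u ∩ P v]`, so `E λ^(X e) ≤ 1 + (2 T m λ + 9·72 λ^3)/q ≤ exp(...)`.
By independence (`Ex_pi_prod`) `E λ^(∑ X e) ≤ exp(4 m + 1296 T λ^3 / q) ≤ exp(4 m + 1)`; Markov with `∑_e X e (γ e) = ∑_u colN ≥ m s`.
Use `Pr_pi_split_le`-style fibre argument (with paying `¬W` separately, as `Pr_prod_le_add`).
-/

open Finset BigOperators

namespace Crest.Agent.Ryser

variable {P V L : Type*} [Fintype P] [DecidableEq P] [Fintype V] [DecidableEq V]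
  [Fintype L] [DecidableEq L]
variable {q : ℕ} {h : L → P → V}

section Abstract

variable {ι X Y C : Type*}

/-- The probability does not depend on the `Fintype` instance. -/
lemma Pr_inst_le {Ω : Type*} {i1 i2 : Fintype Ω} {E : Ω → Prop} {c : ℝ} (h : @Pr Ω i1 E ≤ c) : @Pr Ω i2 E ≤ c := by
  cases Subsingleton.elim i1 i2
  exact h

/-- Reindexing the coordinates does not change the probability. -/
lemma Pr_reindex {κ : Type*} [Fintype ι] [DecidableEq ι] [Fintype κ] [DecidableEq κ] [Fintype X]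
    (e : ι ≃ κ) (E : (κ → X) → Prop) :
    Pr E = Pr (fun ω : ι → X => E (ω ∘ e.symm)) := by
  classical
  unfold Pr
  have hc : Fintype.card (κ → X) = Fintype.card (ι → X) := by
    simp [Fintype.card_fun, Fintype.card_congr e]
  rw [hc]
  congr 2
  apply Finset.card_bij (fun π _ => π ∘ e)
  · intro π hπ
    simp only [Finset.mem_filter, Finset.mem_univ, true_and] at hπ ⊢
    have : (π ∘ e) ∘ e.symm = π := by funext x; simp
    rwa [this]
  · intro a _ b _ hab
    funext x
    have := congrFun hab (e.symm x)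
    simpa using this
  · intro ω hω
    refine ⟨ω ∘ e.symm, ?_, by funext x; simp⟩
    simpa using hω

/-- Fibre bound over a subset of the coordinates, with the bad first coordinates paid separately. -/
lemma Pr_pi_split_add [Fintype ι] [DecidableEq ι] [Fintype X] [Nonempty X] (p : ι → Prop) [DecidablePred p]
    (E : (ι → X) → Prop) (A : ({i // p i} → X) → Prop) (ε : ℝ) (hε : 0 ≤ ε)
    (h : ∀ π₁ : {i // p i} → X, A π₁ → Pr (fun π₂ : {i // ¬ p i} → X =>
        E (fun i => if hi : p i then π₁ ⟨i, hi⟩ else π₂ ⟨i, hi⟩)) ≤ ε) :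
    Pr E ≤ Pr (fun π₁ => ¬ A π₁) + ε := by
  classical
  let e : (ι → X) ≃ ({i // p i} → X) × ({i // ¬ p i} → X) :=
    Equiv.piEquivPiSubtypeProd p (fun _ => X)
  have hE : Pr E = Pr (fun ω : ({i // p i} → X) × ({i // ¬ p i} → X) => E (e.symm ω)) := by
    unfold Pr
    rw [Fintype.card_congr e]
    congr 2
    apply Finset.card_bij (fun π _ => e π)
    · intro π hπ
      simp only [Finset.mem_filter, Finset.mem_univ, true_and] at hπ ⊢
      simpa using hπ
    · intro a _ b _ hab; exact e.injective hab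
    · intro ω hω
      refine ⟨e.symm ω, ?_, by simp⟩
      simpa using hω
  rw [hE]
  apply Pr_prod_le_add _ A ε hε
  intro ω₁ hω₁
  have h2 := h ω₁ hω₁
  have hfun : ∀ ω₂, (e.symm (ω₁, ω₂)) = (fun i => if hi : p i then ω₁ ⟨i, hi⟩ else ω₂ ⟨i, hi⟩) := by
    intro ω₂
    rfl
  simp only [hfun]
  exact h2

/-- Overlap of two injective families: the images share few points. -/
theorem overlap_tail [Fintype ι] [DecidableEq ι] [Fintype X] [DecidableEq X] [Nonempty X] [DecidableEq Y]
    (f g : ι → X → Y) (hf : ∀ t, Function.Injective (f t)) (hg : ∀ t, Function.Injective (g t))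
    (hfg : ∀ t, ∀ x x', f t x = g t x → f t x' = g t x' → x = x') (r : ℕ) (hr : 1 ≤ r) :
    Pr (fun π : ι → X =>
      2 * r + 1 ≤ ((univ.image fun t => f t (π t)) ∩ (univ.image fun t => g t (π t))).card) ≤
    (Real.exp 1 * ((Fintype.card ι : ℝ) * ((2 * (Fintype.card ι : ℝ) + 1) / Fintype.card X)) / r) ^ r := by
  classical
  have hnn : (0:ℝ) ≤ (Real.exp 1 * ((Fintype.card ι : ℝ) * ((2 * (Fintype.card ι : ℝ) + 1) / Fintype.card X)) / r) ^ r := by
    positivity
  by_cases hne : IsEmpty ι
  · have : ∀ π : ι → X, ¬ (2 * r + 1 ≤ ((univ.image fun t => f t (π t)) ∩ (univ.image fun t => g t (π t))).card) := by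
      intro π hc
      have h0 : (univ : Finset ι) = ∅ := Finset.eq_empty_of_isEmpty _
      simp [h0] at hc
    calc _ ≤ Pr (fun _ : ι → X => False) := Pr_mono (fun π hπ => this π hπ)
      _ = 0 := by simp [Pr]
      _ ≤ _ := hnn
  rw [not_isEmpty_iff] at hne
  set n := Fintype.card ι with hn
  have hn1 : 1 ≤ n := Fintype.card_pos
  let e : Fin n ≃ ι := (Fintype.equivFin ι).symm
  let f' : Fin n → X → Y := fun t => f (e t)
  let g' : Fin n → X → Y := fun t => g (e t)
  let A' : Fin n → (Fin n → X) → Finset Y := fun t ω => (univ.filter fun s => s < t).image fun s => g' s (ω s)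
  let B' : Fin n → (Fin n → X) → Finset Y := fun t ω => (univ.filter fun s => s < t).image fun s => f' s (ω s)
  let I : Fin n → (Fin n → X) → Prop := fun t ω =>
    f' t (ω t) ∈ A' t ω ∨ g' t (ω t) ∈ B' t ω ∨ f' t (ω t) = g' t (ω t)
  have hdep : ∀ t ω ω', (∀ s, s ≤ t → ω s = ω' s) → (I t ω ↔ I t ω') := by
    intro t ω ω' hs
    have h1 : A' t ω = A' t ω' := by
      apply Finset.image_congr
      intro s hs'
      simp only [Finset.coe_filter, Finset.mem_univ, true_and, Set.mem_setOf_eq] at hs'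
      simp only [hs s hs'.le]
    have h2 : B' t ω = B' t ω' := by
      apply Finset.image_congr
      intro s hs'
      simp only [Finset.coe_filter, Finset.mem_univ, true_and, Set.mem_setOf_eq] at hs'
      simp only [hs s hs'.le]
    simp only [I, h1, h2, hs t le_rfl]
  have hX : (0:ℝ) < Fintype.card X := by exact_mod_cast Fintype.card_pos
  have hp : ∀ t ω, Pr (fun x => I t (Function.update ω t x)) ≤ (2 * (n:ℝ) + 1) / Fintype.card X := by
    intro t ω
    rw [Pr_eq_card]
    apply div_le_div_of_nonneg_right _ hX.le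
    have hA : ∀ x, A' t (Function.update ω t x) = A' t ω := by
      intro x
      apply Finset.image_congr
      intro s hs'
      simp only [Finset.coe_filter, Finset.mem_univ, true_and, Set.mem_setOf_eq] at hs'
      simp only [Function.update_of_ne hs'.ne]
    have hB : ∀ x, B' t (Function.update ω t x) = B' t ω := by
      intro x
      apply Finset.image_congr
      intro s hs'
      simp only [Finset.coe_filter, Finset.mem_univ, true_and, Set.mem_setOf_eq] at hs'
      simp only [Function.update_of_ne hs'.ne]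
    have hsub : (univ.filter fun x => I t (Function.update ω t x)) ⊆
        (univ.filter fun x => f' t x ∈ A' t ω) ∪ (univ.filter fun x => g' t x ∈ B' t ω) ∪
          (univ.filter fun x => f' t x = g' t x) := by
      intro x hx
      simp only [Finset.mem_filter, Finset.mem_univ, true_and, I, hA, hB, Function.update_self] at hx
      simp only [Finset.mem_union, Finset.mem_filter, Finset.mem_univ, true_and]
      tauto
    have hc1 : (univ.filter fun x => f' t x ∈ A' t ω).card ≤ n := by
      have h1 : (univ.filter fun x => f' t x ∈ A' t ω).card ≤ (A' t ω).card :=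
        Finset.card_le_card_of_injOn (f' t) (fun x hx => by simpa using hx) (fun a _ b _ hab => hf _ hab)
      have h2 : (A' t ω).card ≤ n := by
        refine Finset.card_image_le.trans ((Finset.card_le_univ _).trans ?_)
        simp
      omega
    have hc2 : (univ.filter fun x => g' t x ∈ B' t ω).card ≤ n := by
      have h1 : (univ.filter fun x => g' t x ∈ B' t ω).card ≤ (B' t ω).card :=
        Finset.card_le_card_of_injOn (g' t) (fun x hx => by simpa using hx) (fun a _ b _ hab => hg _ hab)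
      have h2 : (B' t ω).card ≤ n := by
        refine Finset.card_image_le.trans ((Finset.card_le_univ _).trans ?_)
        simp
      omega
    have hc3 : (univ.filter fun x => f' t x = g' t x).card ≤ 1 := by
      apply Finset.card_le_one.2
      intro a ha b hb
      simp only [Finset.mem_filter, Finset.mem_univ, true_and] at ha hb
      exact hfg _ a b ha hb
    have := (Finset.card_le_card hsub).trans ((Finset.card_union_le _ _).trans
      (Nat.add_le_add_right (Finset.card_union_le _ _) _))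
    have h4 : (univ.filter fun x => I t (Function.update ω t x)).card ≤ 2 * n + 1 := by omega
    exact_mod_cast h4
  have hp0 : (0:ℝ) < (2 * (n:ℝ) + 1) / Fintype.card X := by positivity
  have hseq := seq_rare n I hdep _ hp0 hp r hr hn1
  rw [Pr_reindex e]
  refine le_trans (Pr_mono ?_) hseq
  intro ω hω
  -- `|F ∩ G| ≤ 2 #I`
  set Is := univ.filter (fun s => I s ω) with hIs
  have hsub : ((univ.image fun t => f t ((ω ∘ e.symm) t)) ∩ (univ.image fun t => g t ((ω ∘ e.symm) t))) ⊆
      Is.biUnion (fun t => {f' t (ω t), g' t (ω t)}) := by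
    intro y hy
    obtain ⟨hy1, hy2⟩ := Finset.mem_inter.1 hy
    obtain ⟨a, -, ha⟩ := Finset.mem_image.1 hy1
    obtain ⟨b, -, hb⟩ := Finset.mem_image.1 hy2
    have ha' : f' (e.symm a) (ω (e.symm a)) = y := by simpa [f'] using ha
    have hb' : g' (e.symm b) (ω (e.symm b)) = y := by simpa [g'] using hb
    set s := e.symm a
    set s' := e.symm b
    rw [Finset.mem_biUnion]
    rcases lt_trichotomy s s' with hlt | heq | hgt
    · refine ⟨s', ?_, by simp [hb']⟩
      rw [hIs, Finset.mem_filter]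
      refine ⟨Finset.mem_univ _, Or.inr (Or.inl ?_)⟩
      rw [hb']
      exact Finset.mem_image.2 ⟨s, by simpa using hlt, ha'⟩
    · refine ⟨s, ?_, by simp [ha']⟩
      rw [hIs, Finset.mem_filter]
      refine ⟨Finset.mem_univ _, Or.inr (Or.inr ?_)⟩
      rw [ha', heq, hb']
    · refine ⟨s, ?_, by simp [ha']⟩
      rw [hIs, Finset.mem_filter]
      refine ⟨Finset.mem_univ _, Or.inl ?_⟩
      rw [ha']
      exact Finset.mem_image.2 ⟨s', by simpa using hgt, hb'⟩
  have hcard : ((univ.image fun t => f t ((ω ∘ e.symm) t)) ∩ (univ.image fun t => g t ((ω ∘ e.symm) t))).card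
      ≤ 2 * Is.card := by
    refine (Finset.card_le_card hsub).trans (Finset.card_biUnion_le.trans ?_)
    have : ∀ t ∈ Is, ({f' t (ω t), g' t (ω t)} : Finset Y).card ≤ 2 := fun t _ => Finset.card_le_two
    calc _ ≤ ∑ _t ∈ Is, 2 := Finset.sum_le_sum this
      _ = 2 * Is.card := by simp [mul_comm]
  have hω' : 2 * r + 1 ≤ ((univ.image fun t => f t ((ω ∘ e.symm) t)) ∩ (univ.image fun t => g t ((ω ∘ e.symm) t))).card := hω
  have : r ≤ Is.card := by omega
  convert this

/-- Joint tail for several counts of independent balls, using exponential moments. -/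
theorem multi_tail [Fintype ι] [DecidableEq ι] [Fintype X] [DecidableEq X] [Nonempty X] [DecidableEq C]
    (A : Finset C) (hA : A.card ≤ 3) (G : ι → C → Finset X) (lam : ℝ) (hlam : 1 ≤ lam) (s : ℕ)
    (b : ι → ℝ)
    (hb : ∀ i, lam * ∑ u ∈ A, ((G i u).card : ℝ) +
      lam ^ 3 * ∑ u ∈ A, ∑ v ∈ A.erase u, ((G i u ∩ G i v).card : ℝ) ≤ b i * Fintype.card X) :
    Pr (fun π : ι → X => ∀ u ∈ A, s ≤ (univ.filter fun i => π i ∈ G i u).card) ≤
      Real.exp (∑ i, b i) / lam ^ (A.card * s) := by
  classical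
  have hlam0 : 0 < lam := by linarith
  have hX : (0:ℝ) < Fintype.card X := by exact_mod_cast Fintype.card_pos
  let Xc : ι → X → ℕ := fun i x => (A.filter fun u => x ∈ G i u).card
  have hsum : ∀ π : ι → X, ∑ u ∈ A, (univ.filter fun i => π i ∈ G i u).card = ∑ i, Xc i (π i) := by
    intro π
    simp only [Xc, Finset.card_filter]
    rw [Finset.sum_comm]
  have hprod : ∀ π : ι → X, lam ^ (∑ i, Xc i (π i)) = ∏ i, lam ^ (Xc i (π i)) := by
    intro π
    rw [Finset.prod_pow_eq_pow_sum]
  have hstep : ∀ i, Ex (fun x => lam ^ (Xc i x)) ≤ Real.exp (b i) := by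
    intro i
    have hpt : ∀ x, lam ^ (Xc i x) ≤ 1 + lam * ∑ u ∈ A, (if x ∈ G i u then (1:ℝ) else 0) +
        lam ^ 3 * ∑ u ∈ A, ∑ v ∈ A.erase u, (if x ∈ G i u ∩ G i v then (1:ℝ) else 0) := by
      intro x
      have hXc : ∑ u ∈ A, (if x ∈ G i u then (1:ℝ) else 0) = (Xc i x : ℝ) := by
        simp only [Xc, Finset.card_filter]
        push_cast
        rfl
      rw [hXc]
      have hnn : (0:ℝ) ≤ ∑ u ∈ A, ∑ v ∈ A.erase u, (if x ∈ G i u ∩ G i v then (1:ℝ) else 0) :=
        Finset.sum_nonneg fun _ _ => Finset.sum_nonneg fun _ _ => by split_ifs <;> norm_num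
      have hl3 : 0 < lam ^ 3 := by positivity
      by_cases h2 : Xc i x ≤ 1
      · interval_cases hc : Xc i x
        · simp only [pow_zero, Nat.cast_zero, mul_zero, add_zero]
          nlinarith [mul_nonneg hl3.le hnn]
        · simp only [pow_one, Nat.cast_one, mul_one]
          nlinarith [mul_nonneg hl3.le hnn]
      · -- two different `u, v`
        push Not at h2
        have hXc3 : Xc i x ≤ 3 := (Finset.card_filter_le _ _).trans hA
        obtain ⟨u, hu, v, hv, huv⟩ := Finset.one_lt_card.1 h2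
        simp only [Finset.mem_filter] at hu hv
        have h1 : (1:ℝ) ≤ ∑ u ∈ A, ∑ v ∈ A.erase u, (if x ∈ G i u ∩ G i v then (1:ℝ) else 0) := by
          have h11 : (1:ℝ) ≤ ∑ v' ∈ A.erase u, (if x ∈ G i u ∩ G i v' then (1:ℝ) else 0) := by
            have := Finset.single_le_sum (f := fun v' => (if x ∈ G i u ∩ G i v' then (1:ℝ) else 0))
              (s := A.erase u) (fun _ _ => by split_ifs <;> norm_num)
              (Finset.mem_erase.2 ⟨huv.symm, hv.1⟩)
            simpa [Finset.mem_inter, hu.2, hv.2] using this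
          refine h11.trans ?_
          exact Finset.single_le_sum (f := fun u' => ∑ v' ∈ A.erase u', (if x ∈ G i u' ∩ G i v' then (1:ℝ) else 0))
            (fun _ _ => Finset.sum_nonneg fun _ _ => by split_ifs <;> norm_num) hu.1
        have hpow : lam ^ (Xc i x) ≤ lam ^ 3 := pow_le_pow_right₀ hlam hXc3
        have hXn : (0:ℝ) ≤ (Xc i x : ℝ) := by positivity
        nlinarith [mul_nonneg hlam0.le hXn]
    have hsumx : ∑ x : X, (1 + lam * ∑ u ∈ A, (if x ∈ G i u then (1:ℝ) else 0) +
        lam ^ 3 * ∑ u ∈ A, ∑ v ∈ A.erase u, (if x ∈ G i u ∩ G i v then (1:ℝ) else 0)) =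
        Fintype.card X + (lam * ∑ u ∈ A, ((G i u).card : ℝ) +
          lam ^ 3 * ∑ u ∈ A, ∑ v ∈ A.erase u, ((G i u ∩ G i v).card : ℝ)) := by
      rw [Finset.sum_add_distrib, Finset.sum_add_distrib]
      simp only [Finset.sum_const, Finset.card_univ, nsmul_eq_mul, mul_one, ← Finset.mul_sum]
      have h1 : ∑ x : X, ∑ u ∈ A, (if x ∈ G i u then (1:ℝ) else 0) = ∑ u ∈ A, ((G i u).card : ℝ) := by
        rw [Finset.sum_comm]
        apply Finset.sum_congr rfl
        intro u _
        simp
      have h2 : ∑ x : X, ∑ u ∈ A, ∑ v ∈ A.erase u, (if x ∈ G i u ∩ G i v then (1:ℝ) else 0) =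
          ∑ u ∈ A, ∑ v ∈ A.erase u, ((G i u ∩ G i v).card : ℝ) := by
        rw [Finset.sum_comm]
        apply Finset.sum_congr rfl
        intro u _
        rw [Finset.sum_comm]
        apply Finset.sum_congr rfl
        intro v _
        simp
        congr 1
        ext y
        simp
      rw [h1, h2]
      ring
    have h3 : Ex (fun x => lam ^ (Xc i x)) ≤ 1 + b i := by
      unfold Ex
      rw [div_le_iff₀ hX]
      calc ∑ x, lam ^ (Xc i x) ≤ _ := Finset.sum_le_sum (fun x _ => hpt x)
        _ = _ := hsumx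
        _ ≤ (1 + b i) * Fintype.card X := by nlinarith [hb i]
    have h4 := Real.add_one_le_exp (b i)
    linarith
  have hmgf : Ex (fun π : ι → X => lam ^ (∑ i, Xc i (π i))) ≤ Real.exp (∑ i, b i) := by
    simp only [hprod]
    rw [Ex_pi_prod (fun i x => lam ^ (Xc i x)), Real.exp_sum]
    apply Finset.prod_le_prod
    · intro i _; exact Ex_nonneg (fun x => by positivity)
    · intro i _; exact hstep i
  have hmono : ∀ π : ι → X, (∀ u ∈ A, s ≤ (univ.filter fun i => π i ∈ G i u).card) →
      lam ^ (A.card * s) ≤ lam ^ (∑ i, Xc i (π i)) := by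
    intro π hπ
    apply pow_le_pow_right₀ hlam
    rw [← hsum]
    calc A.card * s = ∑ _u ∈ A, s := by simp
      _ ≤ _ := Finset.sum_le_sum hπ
  calc _ ≤ Pr (fun π : ι → X => lam ^ (A.card * s) ≤ lam ^ (∑ i, Xc i (π i))) := Pr_mono hmono
    _ ≤ Ex (fun π : ι → X => lam ^ (∑ i, Xc i (π i))) / lam ^ (A.card * s) :=
        markov (fun π => by positivity) (by positivity)
    _ ≤ _ := div_le_div_of_nonneg_right hmgf (by positivity)

end Abstract

section Persp

variable (hO : OA q h)

/-- Perspectivity from part `i` to part `j` with center `u`. -/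
noncomputable def persp (u : P × V) (i j : P) (hi : u.1 ≠ i) (x : V) : V :=
  h (lineOf hO u (i, x) hi) j

include hO in
lemma line_spec (u : P × V) (i : P) (hi : u.1 ≠ i) (x : V) :
    On h (lineOf hO u (i, x) hi) u ∧ h (lineOf hO u (i, x) hi) i = x :=
  lineOf_spec hO u (i, x) hi

lemma persp_eq {u : P × V} {i j : P} (hi : u.1 ≠ i) {x : V} {ℓ : L} (hℓ : On h ℓ u) (hx : h ℓ i = x) :
    persp hO u i j hi x = h ℓ j := by
  have : ℓ = lineOf hO u (i, x) hi := lineOf_unique hO u (i, x) hi ℓ hℓ hx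
  simp [persp, ← this]

lemma persp_inj {u : P × V} {i j : P} (hi : u.1 ≠ i) (hj : u.1 ≠ j) :
    Function.Injective (persp hO u i j hi) := by
  intro x x' hxx
  obtain ⟨h1, h2⟩ := line_spec hO u i hi x
  obtain ⟨h3, h4⟩ := line_spec hO u i hi x'
  have : lineOf hO u (i, x) hi = lineOf hO u (i, x') hi :=
    hO.eq_of_agree hj (h1.trans h3.symm) hxx
  rw [← h2, ← h4, this]

lemma persp_coin {u v : P × V} {i j : P} (huv : u ≠ v) (hi : u.1 ≠ i) (hi' : v.1 ≠ i) (hij : i ≠ j) {x x' : V}
    (hx : persp hO u i j hi x = persp hO v i j hi' x) (hx' : persp hO u i j hi x' = persp hO v i j hi' x') :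
    x = x' := by
  obtain ⟨h1, h2⟩ := line_spec hO u i hi x
  obtain ⟨h3, h4⟩ := line_spec hO v i hi' x
  obtain ⟨h1', h2'⟩ := line_spec hO u i hi x'
  obtain ⟨h3', h4'⟩ := line_spec hO v i hi' x'
  have e1 : lineOf hO u (i, x) hi = lineOf hO v (i, x) hi' :=
    hO.eq_of_agree hij (h2.trans h4.symm) hx
  have e2 : lineOf hO u (i, x') hi = lineOf hO v (i, x') hi' :=
    hO.eq_of_agree hij (h2'.trans h4'.symm) hx'
  set ℓ := lineOf hO u (i, x) hi
  set ℓ' := lineOf hO u (i, x') hi
  have hv : On h ℓ v := by rw [e1]; exact h3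
  have hv' : On h ℓ' v := by rw [e2]; exact h3'
  have hpart : u.1 ≠ v.1 := by
    intro hp
    apply huv
    have h5 : u.2 = v.2 := by
      have a1 : h ℓ u.1 = u.2 := h1
      have a2 : h ℓ v.1 = v.2 := hv
      rw [← a1, ← a2, hp]
    exact Prod.ext hp h5
  have : ℓ = ℓ' := hO.eq_of_two_points h1 h1' hv hv' hpart
  rw [← h2, ← h2', this]

end Persp

/-- Heights on part `j` of the lines through `u` and a ball of `O` (positions `π₁` on `O`). -/
noncomputable def Pset (h : L → P → V) {T : ℕ} (cl : Fin 4 → P) (O : Finset (Fin 4 × Fin T)) (u : P × V) (j : P)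
    (π₁ : {b // b ∈ O} → V) : Finset V :=
  open Classical in univ.filter fun y => ∃ a : {b // b ∈ O}, ∃ ℓ, On h ℓ u ∧ h ℓ (cl a.1.1) = π₁ a ∧ h ℓ j = y

lemma Pset_eq_image (hO : OA q h) {T : ℕ} (cl : Fin 4 → P) (O : Finset (Fin 4 × Fin T)) (u : P × V)
    (hu : ∀ j, u.1 ≠ cl j) (j : P) (π₁ : {b // b ∈ O} → V) :
    Pset h cl O u j π₁ = univ.image fun a : {b // b ∈ O} => persp hO u (cl a.1.1) j (hu _) (π₁ a) := by
  classical
  ext y
  simp only [Pset, Finset.mem_filter, Finset.mem_univ, true_and, Finset.mem_image]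
  constructor
  · rintro ⟨a, ℓ, h1, h2, rfl⟩
    exact ⟨a, persp_eq hO (hu _) h1 h2⟩
  · rintro ⟨a, rfl⟩
    obtain ⟨h1, h2⟩ := line_spec hO u (cl a.1.1) (hu _) (π₁ a)
    exact ⟨a, _, h1, h2, rfl⟩

/-- Overlap bound for two centers. -/
theorem Pset_overlap (hO : OA q h) {T : ℕ} (cl : Fin 4 → P) (hcl : Function.Injective cl)
    (O : Finset (Fin 4 × Fin T)) (hOodd : ∀ a ∈ O, a.1 = 0 ∨ a.1 = 2) (hOcard : O.card ≤ 2 * T)
    (u v : P × V) (huv : u ≠ v) (hu : ∀ j, u.1 ≠ cl j) (hv : ∀ j, v.1 ≠ cl j)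
    (j₀ : Fin 4) (hj₀ : j₀ = 1 ∨ j₀ = 3) (hT : 1 ≤ T) (μ : ℝ) (hμ : μ = (T : ℝ) ^ 2 / q) :
    Pr (fun π₁ : {b // b ∈ O} → V => 73 ≤ (Pset h cl O u (cl j₀) π₁ ∩ Pset h cl O v (cl j₀) π₁).card) ≤ μ ^ 36 := by
  classical
  have hq0 : 0 < q := hO.q_pos
  haveI : Nonempty V := by
    have : 0 < Fintype.card V := by rw [hO.cardV]; exact hq0
    exact Fintype.card_pos_iff.1 this
  have hodd : ∀ a : {b // b ∈ O}, cl a.1.1 ≠ cl j₀ := by
    intro a hc
    have := hcl hc
    rcases hOodd a.1 a.2 with h1 | h1 <;> rcases hj₀ with h2 | h2 <;> rw [h1, h2] at this <;> revert this <;> decide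
  have hT0 : (0:ℝ) < T := by exact_mod_cast hT
  have hqR : (0:ℝ) < q := by exact_mod_cast hq0
  have hμ0 : 0 < μ := by rw [hμ]; positivity
  have key := overlap_tail (ι := {b // b ∈ O}) (X := V) (Y := V)
    (fun a => persp hO u (cl a.1.1) (cl j₀) (hu _)) (fun a => persp hO v (cl a.1.1) (cl j₀) (hv _))
    (fun a => persp_inj hO (hu _) (hu _)) (fun a => persp_inj hO (hv _) (hv _))
    (fun a x x' h1 h2 => persp_coin hO huv (hu _) (hv _) (hodd a) h1 h2) 36 (by norm_num)
  refine le_trans (Pr_mono ?_) (key.trans ?_)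
  · intro π₁ hπ
    rw [Pset_eq_image hO cl O u hu, Pset_eq_image hO cl O v hv] at hπ
    exact hπ
  · apply pow_le_pow_left₀ (by positivity)
    rw [Fintype.card_coe, hO.cardV]
    have hn : (O.card : ℝ) ≤ 2 * T := by exact_mod_cast hOcard
    have hn0 : (0:ℝ) ≤ O.card := by positivity
    have hT1 : (1:ℝ) ≤ T := by exact_mod_cast hT
    have hprod : (O.card : ℝ) * (2 * (O.card : ℝ) + 1) ≤ 10 * (T:ℝ) ^ 2 := by nlinarith
    have he : Real.exp 1 ≤ 2.7182818286 := Real.exp_one_lt_d9.le
    have he0 : 0 < Real.exp 1 := Real.exp_pos _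
    rw [hμ]
    have : Real.exp 1 * ((O.card : ℝ) * ((2 * (O.card : ℝ) + 1) / q)) / ((36:ℕ):ℝ)
        = (Real.exp 1 / 36) * (((O.card : ℝ) * (2 * (O.card : ℝ) + 1)) / q) := by
      push_cast; ring
    rw [this]
    have h2 : ((O.card : ℝ) * (2 * (O.card : ℝ) + 1)) / q ≤ 10 * ((T:ℝ) ^ 2 / q) := by
      rw [← mul_div_assoc]
      exact div_le_div_of_nonneg_right hprod hqR.le
    have h3 : 0 ≤ (T:ℝ) ^ 2 / q := by positivity
    calc _ ≤ (Real.exp 1 / 36) * (10 * ((T:ℝ) ^ 2 / q)) := mul_le_mul_of_nonneg_left h2 (by positivity)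
      _ ≤ (T:ℝ) ^ 2 / q := by nlinarith


lemma card_odd_le {T : ℕ} {O : Finset (Fin 4 × Fin T)} (h : ∀ a ∈ O, a.1 = 0 ∨ a.1 = 2) : O.card ≤ 2 * T := by
  classical
  have hsub : O ⊆ ({0, 2} : Finset (Fin 4)) ×ˢ (univ : Finset (Fin T)) := by
    intro a ha
    rw [Finset.mem_product]
    refine ⟨?_, Finset.mem_univ _⟩
    simpa using h a ha
  have := Finset.card_le_card hsub
  rw [Finset.card_product] at this
  simpa using this

lemma card_even_le {T : ℕ} {O : Finset (Fin 4 × Fin T)} (h : ∀ a ∈ O, a.1 = 1 ∨ a.1 = 3) : O.card ≤ 2 * T := by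
  classical
  have hsub : O ⊆ ({1, 3} : Finset (Fin 4)) ×ˢ (univ : Finset (Fin T)) := by
    intro a ha
    rw [Finset.mem_product]
    refine ⟨?_, Finset.mem_univ _⟩
    simpa using h a ha
  have := Finset.card_le_card hsub
  rw [Finset.card_product] at this
  simpa using this

/-- Joint tail of the collinearity counts. -/
theorem col_tail (hO : OA q h) (cl : Fin 4 → P) (hcl : Function.Injective cl) (T : ℕ) (hT : 1 ≤ T)
    (O E : Finset (Fin 4 × Fin T)) (hOodd : ∀ a ∈ O, a.1 = 0 ∨ a.1 = 2) (hEeven : ∀ e ∈ E, e.1 = 1 ∨ e.1 = 3)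
    (A : Finset (P × V)) (hA : A.card ≤ 3) (hoff : ∀ u ∈ A, ∀ j, u.1 ≠ cl j) (s : ℕ)
    (μ : ℝ) (hμ : μ = (T : ℝ) ^ 2 / q) (hμ1 : μ ≤ 1) (hnum : 1296 * (T : ℝ) ≤ q * μ ^ 3) :
    Pr (fun γ : GConf T V => ∀ u ∈ A, s ≤ colN h cl O E γ u) ≤
      Real.exp (4 * A.card + 1) * μ ^ (A.card * s) + 12 * μ ^ 36 := by
  classical
  have hq0 : 0 < q := hO.q_pos
  haveI : Nonempty V := by
    have : 0 < Fintype.card V := by rw [hO.cardV]; exact hq0
    exact Fintype.card_pos_iff.1 this
  have hT0 : (0:ℝ) < T := by exact_mod_cast hT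
  have hqR : (0:ℝ) < q := by exact_mod_cast hq0
  have hμ0 : 0 < μ := by rw [hμ]; positivity
  have hOcard : O.card ≤ 2 * T := card_odd_le hOodd
  have hEcard : E.card ≤ 2 * T := card_even_le hEeven
  have hdisj : ∀ e ∈ E, e ∉ O := by
    intro e he heO
    rcases hEeven e he with h1 | h1 <;> rcases hOodd e heO with h2 | h2 <;> rw [h1] at h2 <;> revert h2 <;> decide
  -- overlap event
  let W : ({b // b ∈ O} → V) → Prop := fun π₁ => ∀ t ∈ A.offDiag ×ˢ ({1, 3} : Finset (Fin 4)),
    ¬ (73 ≤ (Pset h cl O t.1.1 (cl t.2) π₁ ∩ Pset h cl O t.1.2 (cl t.2) π₁).card)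
  have hW : Pr (fun π₁ => ¬ W π₁) ≤ 12 * μ ^ 36 := by
    have hcardt : ((A.offDiag ×ˢ ({1, 3} : Finset (Fin 4))).card : ℝ) ≤ 12 := by
      rw [Finset.card_product, Finset.offDiag_card]
      have h2 : ({1, 3} : Finset (Fin 4)).card = 2 := by decide
      rw [h2]
      have h3 : A.card * A.card - A.card ≤ 6 := by
        have : A.card ≤ 3 := hA
        interval_cases A.card <;> norm_num
      have : (A.card * A.card - A.card) * 2 ≤ 12 := by omega
      exact_mod_cast this
    have hun := Pr_exists_le_card (Ω := {b // b ∈ O} → V) (A.offDiag ×ˢ ({1, 3} : Finset (Fin 4)))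
      (fun t π₁ => 73 ≤ (Pset h cl O t.1.1 (cl t.2) π₁ ∩ Pset h cl O t.1.2 (cl t.2) π₁).card) (μ ^ 36) (by
        intro t ht
        obtain ⟨h1, h2⟩ := Finset.mem_product.1 ht
        obtain ⟨h3, h4, h5⟩ := Finset.mem_offDiag.1 h1
        apply Pset_overlap hO cl hcl O hOodd hOcard t.1.1 t.1.2 h5 (hoff _ h3) (hoff _ h4) t.2 _ hT μ hμ
        simpa using h2)
    refine le_trans (Pr_mono ?_) (hun.trans ?_)
    · intro π₁ hπ
      simp only [W] at hπ
      push Not at hπ
      exact hπ
    · exact mul_le_mul_of_nonneg_right hcardt (by positivity)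
  -- the main bound on a fibre
  have hmain := Pr_pi_split_add (ι := Fin 4 × Fin T) (X := V) (fun b => b ∈ O)
    (fun γ : GConf T V => ∀ u ∈ A, s ≤ colN h cl O E γ u) W
    (Real.exp (4 * A.card + 1) * μ ^ (A.card * s)) (by positivity) ?_
  · refine hmain.trans ?_
    rw [add_comm]
    apply add_le_add_right
    exact Pr_inst_le hW
  intro π₁ hπ₁
  -- independent even balls
  let lam : ℝ := 1 / μ
  have hlam : 1 ≤ lam := by
    simp only [lam]
    rw [le_div_iff₀ hμ0]; linarith
  have hlam0 : 0 < lam := by linarith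
  let GG : {b // b ∉ O} → (P × V) → Finset V := fun i u =>
    if i.1 ∈ E then Pset h cl O u (cl i.1.1) π₁ else ∅
  -- the count identity
  have hcount : ∀ (π₂ : {b // b ∉ O} → V) (u : P × V), u ∈ A →
      colN h cl O E (fun i => if hi : i ∈ O then π₁ ⟨i, hi⟩ else π₂ ⟨i, hi⟩) u =
        (univ.filter fun i => π₂ i ∈ GG i u).card := by
    intro π₂ u _
    unfold colN
    rw [← Finset.card_map (Function.Embedding.subtype (fun b => b ∉ O))]
    congr 1
    ext e
    simp only [Finset.mem_filter, Finset.mem_map, Finset.mem_univ, true_and, Function.Embedding.coe_subtype]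
    constructor
    · rintro ⟨he, a, ha, ℓ, h1, h2, h3⟩
      have heO := hdisj e he
      refine ⟨⟨e, heO⟩, ?_, rfl⟩
      simp only [GG, he, if_true, Pset, Finset.mem_filter, Finset.mem_univ, true_and]
      refine ⟨⟨a, ha⟩, ℓ, h1, ?_, ?_⟩
      · simpa [BallOn, ha] using h2.symm
      · simpa [BallOn, heO] using h3.symm
    · rintro ⟨⟨e', heO⟩, h1, rfl⟩
      simp only [GG] at h1
      by_cases he : e' ∈ E
      · simp only [he, if_true, Pset, Finset.mem_filter, Finset.mem_univ, true_and] at h1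
        obtain ⟨a, ℓ, h2, h3, h4⟩ := h1
        refine ⟨he, a.1, a.2, ℓ, h2, ?_, ?_⟩
        · simpa [BallOn, a.2] using h3.symm
        · simpa [BallOn, heO] using h4.symm
      · simp [he] at h1
  -- the weights
  let bb : {b // b ∉ O} → ℝ := fun i =>
    if i.1 ∈ E then (lam * (A.card * (2 * T)) + lam ^ 3 * (6 * 72)) / q else 0
  have hcardV : (Fintype.card V : ℝ) = q := by rw [hO.cardV]
  have hb : ∀ i, lam * ∑ u ∈ A, ((GG i u).card : ℝ) +
      lam ^ 3 * ∑ u ∈ A, ∑ v ∈ A.erase u, ((GG i u ∩ GG i v).card : ℝ) ≤ bb i * Fintype.card V := by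
    intro i
    rw [hcardV]
    by_cases hi : i.1 ∈ E
    · simp only [GG, bb, hi, if_true]
      rw [div_mul_cancel₀ _ hqR.ne']
      apply add_le_add
      · apply mul_le_mul_of_nonneg_left _ hlam0.le
        calc ∑ u ∈ A, ((Pset h cl O u (cl i.1.1) π₁).card : ℝ) ≤ ∑ _u ∈ A, (2 * (T:ℝ)) := by
              apply Finset.sum_le_sum
              intro u hu
              rw [Pset_eq_image hO cl O u (hoff u hu)]
              have h1 := Finset.card_image_le (s := (univ : Finset {b // b ∈ O}))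
                (f := fun a : {b // b ∈ O} => persp hO u (cl a.1.1) (cl i.1.1) (hoff u hu _) (π₁ a))
              have h2 : (univ : Finset {b // b ∈ O}).card = O.card := by simp
              have h3 : (((univ : Finset {b // b ∈ O}).image
                  fun a : {b // b ∈ O} => persp hO u (cl a.1.1) (cl i.1.1) (hoff u hu _) (π₁ a)).card) ≤ 2 * T := by
                omega
              exact_mod_cast h3
          _ = _ := by simp
      · apply mul_le_mul_of_nonneg_left _ (by positivity)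
        have hij : i.1.1 = 1 ∨ i.1.1 = 3 := hEeven _ hi
        calc ∑ u ∈ A, ∑ v ∈ A.erase u, ((Pset h cl O u (cl i.1.1) π₁ ∩ Pset h cl O v (cl i.1.1) π₁).card : ℝ)
            ≤ ∑ u ∈ A, ∑ _v ∈ A.erase u, (72:ℝ) := by
              apply Finset.sum_le_sum; intro u hu
              apply Finset.sum_le_sum; intro v hv
              have hv' := Finset.mem_erase.1 hv
              have := hπ₁ ((u, v), i.1.1) (by
                simp only [Finset.mem_product, Finset.mem_offDiag]
                refine ⟨⟨hu, hv'.2, hv'.1.symm⟩, ?_⟩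
                simpa using hij)
              simp only at this
              have h72 : (Pset h cl O u (cl i.1.1) π₁ ∩ Pset h cl O v (cl i.1.1) π₁).card ≤ 72 := by omega
              exact_mod_cast h72
          _ ≤ 6 * 72 := by
              simp only [Finset.sum_const, nsmul_eq_mul, Finset.card_erase_of_mem, ← Finset.sum_mul]
              have : ∑ x ∈ A, (((A.erase x).card : ℕ) : ℝ) ≤ 6 := by
                have h1 : ∑ x ∈ A, ((A.erase x).card) ≤ 6 := by
                  calc ∑ x ∈ A, ((A.erase x).card) ≤ ∑ _x ∈ A, (A.card - 1) := by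
                        apply Finset.sum_le_sum; intro x hx
                        rw [Finset.card_erase_of_mem hx]
                    _ = A.card * (A.card - 1) := by simp
                    _ ≤ 6 := by
                        have : A.card ≤ 3 := hA
                        interval_cases A.card <;> norm_num
                exact_mod_cast h1
              nlinarith
    · simp [GG, bb, hi]
  have hsumb : ∑ i, bb i ≤ 4 * A.card + 1 := by
    have h1 : ∑ i, bb i = ((univ.filter fun i : {b // b ∉ O} => i.1 ∈ E).card : ℝ) *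
        ((lam * (A.card * (2 * T)) + lam ^ 3 * (6 * 72)) / q) := by
      simp only [bb]
      rw [Finset.sum_ite, Finset.sum_const_zero, add_zero, Finset.sum_const, nsmul_eq_mul]
    have h2 : (univ.filter fun i : {b // b ∉ O} => i.1 ∈ E).card ≤ 2 * T := by
      refine le_trans ?_ hEcard
      apply Finset.card_le_card_of_injOn (fun i => i.1)
      · intro i hi; simpa using hi
      · intro a _ b _ hab; exact Subtype.ext hab
    have h3 : ((univ.filter fun i : {b // b ∉ O} => i.1 ∈ E).card : ℝ) ≤ 2 * T := by exact_mod_cast h2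
    have h4 : 0 ≤ (lam * (A.card * (2 * T)) + lam ^ 3 * (6 * 72)) / q := by positivity
    rw [h1]
    refine (mul_le_mul_of_nonneg_right h3 h4).trans ?_
    have h5 : (T:ℝ) ^ 2 = μ * q := by rw [hμ]; field_simp
    have h6 : lam * μ = 1 := by simp only [lam]; field_simp
    have h7 : 2 * (T:ℝ) * ((lam * (A.card * (2 * T)) + lam ^ 3 * (6 * 72)) / q) =
        4 * A.card * (lam * ((T:ℝ) ^ 2 / q)) + (864 * T * lam ^ 3) / q := by
      field_simp
      ring
    rw [h7]
    have h8 : (T:ℝ) ^ 2 / q = μ := hμ.symm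
    rw [h8, h6]
    have h9 : (864 * T * lam ^ 3) / q ≤ 1 := by
      rw [div_le_one hqR]
      have : lam ^ 3 * μ ^ 3 = 1 := by rw [← mul_pow, h6]; norm_num
      have hμ3 : 0 < μ ^ 3 := by positivity
      have hl3 : 0 < lam ^ 3 := by positivity
      have h10 : 864 * (T:ℝ) ≤ q * μ ^ 3 := by nlinarith
      calc 864 * (T:ℝ) * lam ^ 3 ≤ (q * μ ^ 3) * lam ^ 3 := mul_le_mul_of_nonneg_right h10 hl3.le
        _ = q * (lam ^ 3 * μ ^ 3) := by ring
        _ = q := by rw [this]; ring
    linarith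
  have hmt := multi_tail (ι := {b // b ∉ O}) (X := V) A hA GG lam hlam s bb hb
  have hevent : ∀ π₂ : {b // b ∉ O} → V,
      (∀ u ∈ A, s ≤ colN h cl O E (fun i => if hi : i ∈ O then π₁ ⟨i, hi⟩ else π₂ ⟨i, hi⟩) u) →
      ∀ u ∈ A, s ≤ (univ.filter fun i => π₂ i ∈ GG i u).card := by
    intro π₂ hπ₂ u hu
    rw [← hcount π₂ u hu]
    exact hπ₂ u hu
  refine le_trans (Pr_mono hevent) (hmt.trans ?_)
  have h1 : Real.exp (∑ i, bb i) ≤ Real.exp (4 * A.card + 1) := Real.exp_le_exp.2 hsumb
  have h2 : 1 / lam ^ (A.card * s) = μ ^ (A.card * s) := by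
    simp only [lam]
    rw [one_div_pow]
    simp
  rw [div_eq_mul_one_div, h2]
  exact mul_le_mul_of_nonneg_right h1 (by positivity)

end Crest.Agent.Ryser
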