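import Crest.Agent.Lib.Ryser.OA

/-!
# Part D of the Ryser construction: definitions (row 34, finding 635, Part D)

Fix the active points `Z : Finset (P × V)` (exposed first).  A *group* has four special parts
`cl : Fin 4 → P` and `T` class balls on each; `γ : GConf T V` is the vector of ball positions.
Groups are independent.  All events are events on `γ` (or on `Γ : Fin G → GConf T V`).

`Pat h Z cl γ z` is the event `V(z,g)` of finding 635: seen from `z` the group has exactly `12` double lines,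
`3` for each adjacent pair of classes, all `Z`-clean, all other lines through `z` hit at most one class.
-/

open Finset BigOperators

namespace Crest.Agent.Ryser

variable {P V L : Type*} [Fintype P] [DecidableEq P] [Fintype V] [DecidableEq V]
  [Fintype L] [DecidableEq L]

/-- Positions of the balls of one group: class `j : Fin 4`, ball `k : Fin T`. -/
abbrev GConf (T : ℕ) (V : Type*) := Fin 4 × Fin T → V

section Defs

variable (h : L → P → V) {T : ℕ}

/-- The classes of the group hit by a line. -/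
def hitCl (cl : Fin 4 → P) (γ : GConf T V) (ℓ : L) : Finset (Fin 4) :=
  univ.filter fun j => ∃ k, γ (j, k) = h ℓ (cl j)

/-- Gadget lines of type `j` at `z`: lines through `z` hitting exactly the classes `j` and `j + 1`. -/
def gadL (cl : Fin 4 → P) (γ : GConf T V) (z : P × V) (j : Fin 4) : Finset L :=
  (linesThrough h z).filter fun ℓ => hitCl h cl γ ℓ = {j, j + 1}

/-- The pattern event `V(z,g)`. -/
structure Pat (Z : Finset (P × V)) (cl : Fin 4 → P) (γ : GConf T V) (z : P × V) : Prop where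
  off : ∀ j, z.1 ≠ cl j
  shape : ∀ ℓ, On h ℓ z → (hitCl h cl γ ℓ).card ≤ 1 ∨ ∃ j, hitCl h cl γ ℓ = {j, j + 1}
  three : ∀ j, (gadL h cl γ z j).card = 3
  clean : ∀ j, ∀ ℓ ∈ gadL h cl γ z j, ∀ x ∈ Z, On h ℓ x → x = z

/-- `Z`-clean lines through `z`. -/
def cleanLines (Z : Finset (P × V)) (z : P × V) : Finset L :=
  (linesThrough h z).filter fun ℓ => ∀ x ∈ Z, On h ℓ x → x = z

/-- Ball `b` of the group lies on `ℓ`. -/
def BallOn (cl : Fin 4 → P) (γ : GConf T V) (b : Fin 4 × Fin T) (ℓ : L) : Prop :=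
  γ b = h ℓ (cl b.1)

/-- The ball set `O` (odd classes `0,2`), `E` (even classes `1,3`). -/
def oddB (T : ℕ) : Finset (Fin 4 × Fin T) := univ.filter fun b => b.1 = 0 ∨ b.1 = 2
def evenB (T : ℕ) : Finset (Fin 4 × Fin T) := univ.filter fun b => b.1 = 1 ∨ b.1 = 3

/-- Number of balls `e ∈ E` collinear with `u` and some ball `a ∈ O`. -/
noncomputable def colN (cl : Fin 4 → P) (O E : Finset (Fin 4 × Fin T)) (γ : GConf T V) (u : P × V) : ℕ :=
  open Classical in (E.filter fun e => ∃ a ∈ O, ∃ ℓ, On h ℓ u ∧ BallOn h cl γ a ℓ ∧ BallOn h cl γ e ℓ).card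

/-! ### Global selection event -/

variable {G : ℕ}

/-- The option `(z, g)` is safe: `Pat`, and none of the unsafe reasons `c1`--`c4` of finding 635, Part D. -/
structure Safe (Z : Finset (P × V)) (cl : Fin G → Fin 4 → P) (Γ : Fin G → GConf T V)
    (z : P × V) (g : Fin G) : Prop where
  pat : Pat h Z (cl g) (Γ g) z
  /-- c1: no ball of another group on a gadget line (except at `z` itself) -/
  c1 : ∀ g', g' ≠ g → ∀ j, ∀ ℓ ∈ gadL h (cl g) (Γ g) z j, ∀ b, BallOn h (cl g') (Γ g') b ℓ →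
    (cl g' b.1, Γ g' b) = z
  /-- c2: no other active of the part of `z` has the pattern for `g` -/
  c2 : ∀ y ∈ Z, y ≠ z → y.1 = z.1 → ¬ Pat h Z (cl g) (Γ g) y
  /-- c3: no two other actives on a line through `z` have the pattern for `g` -/
  c3 : ∀ y ∈ Z, ∀ y' ∈ Z, y ≠ z → y' ≠ z → y ≠ y' → ∀ ℓ, On h ℓ z → On h ℓ y → On h ℓ y' →
    ¬ (Pat h Z (cl g) (Γ g) y ∧ Pat h Z (cl g) (Γ g) y')
  /-- c4: on a line through `z` with a ball of `g` no other active has the pattern for `g` -/
  c4 : ∀ ℓ, On h ℓ z → (∃ b, BallOn h (cl g) (Γ g) b ℓ) → ∀ y ∈ Z, y ≠ z → On h ℓ y →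
    ¬ Pat h Z (cl g) (Γ g) y

/-- `Y(ℓ)` event for one group: an active `y` on `ℓ` has the pattern, `ℓ` is not a gadget line at `y`,
and a ball of the group lies on `ℓ`. -/
def Y4 (Z : Finset (P × V)) (cl : Fin 4 → P) (γ : GConf T V) (ℓ : L) : Prop :=
  ∃ y ∈ Z, On h ℓ y ∧ Pat h Z cl γ y ∧ (∀ j, ℓ ∉ gadL h cl γ y j) ∧ ∃ b, BallOn h cl γ b ℓ

/-- `Y(p, A)` event for one group: an active `z ∈ A` has the pattern and a gadget line at `z` through `p`. -/
def Y5 (Z A : Finset (P × V)) (cl : Fin 4 → P) (γ : GConf T V) (p : P × V) : Prop :=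
  ∃ z ∈ A, Pat h Z cl γ z ∧ ∃ j, ∃ ℓ ∈ gadL h cl γ z j, On h ℓ p

open Classical in
/-- The selection event on the class balls of all groups. -/
structure SelGood (Z : Finset (P × V)) (cl : Fin G → Fin 4 → P) (Γ : Fin G → GConf T V) : Prop where
  safe : ∀ z ∈ Z, ∃ g, Safe h Z cl Γ z g
  d4 : ∀ ℓ : L, (univ.filter fun g => Y4 h Z (cl g) (Γ g) ℓ).card ≤ 4
  d5 : ∀ (p : P × V) (ℓ : L), ¬ On h ℓ p →
    (univ.filter fun g => Y5 h Z (Z.filter (On h ℓ)) (cl g) (Γ g) p).card ≤ 4
  d5' : ∀ (p : P × V) (i : P), p.1 ≠ i →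
    (univ.filter fun g => Y5 h Z (Z.filter fun x => x.1 = i) (cl g) (Γ g) p).card ≤ 6

end Defs

end Crest.Agent.Ryser
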