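import Crest.Agent.Lib.Ryser.SelectChoice
import Crest.Agent.Lib.Ryser.NumSLAux

/-!
# Numbers of the selection step, direct proof (helper53).

Scale `x = n ≥ 10^40`, `x^1000 ≤ q ≤ 2 x^1000`, `T = x^479`, `G = x^510`, `R = x`, `μ = T²/q ≤ x^(-42)`,
`Lo = x^5`, `t₀ = n^4`.  Every base in `selGood_fail` is at most `1/x`.
-/

open Finset BigOperators

namespace Crest.Agent.Ryser

namespace NumB

/-- The numeric context. -/
structure NCtx (x q μ e E6 E10 E14 : ℝ) : Prop where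
  hx : (10:ℝ) ^ 40 ≤ x
  hq1 : x ^ 1000 ≤ q
  hq2 : q ≤ 2 * x ^ 1000
  hμ0 : 0 ≤ μ
  hμ : μ ≤ 1 / x ^ 42
  he0 : 0 ≤ e
  he : e ≤ 3
  hE60 : 0 ≤ E6
  hE6 : E6 ≤ 1000
  hE100 : 0 ≤ E10
  hE10 : E10 ≤ 100000
  hE140 : 0 ≤ E14
  hE14 : E14 ≤ 10000000

variable {x q μ e E6 E10 E14 : ℝ}

lemma NCtx.x_pos (c : NCtx x q μ e E6 E10 E14) : 0 < x :=
  lt_of_lt_of_le (by norm_num) c.hx

lemma NCtx.q_pos (c : NCtx x q μ e E6 E10 E14) : 0 < q :=
  lt_of_lt_of_le (pow_pos c.x_pos _) c.hq1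

/-- `C / x^k ≤ 1 / x^j` for `j < k`, `C ≤ 10^40`. -/
lemma NCtx.small (c : NCtx x q μ e E6 E10 E14) (C : ℝ) (hC : C ≤ 10 ^ 40) (j k : ℕ) (hjk : j < k) :
    C / x ^ k ≤ 1 / x ^ j := by
  have hx0 := c.x_pos
  rw [div_le_div_iff₀ (pow_pos hx0 _) (pow_pos hx0 _)]
  obtain ⟨d, rfl⟩ : ∃ d, k = j + (d + 1) := ⟨k - j - 1, by omega⟩
  have h1 : x ≤ x ^ (d + 1) := by
    have h1x : 1 ≤ x := le_trans (by norm_num) c.hx
    exact le_self_pow₀ h1x (by omega)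
  have h2 : C ≤ x ^ (d + 1) := hC.trans (c.hx.trans h1)
  have h3 : 0 < x ^ j := pow_pos hx0 _
  calc C * x ^ j ≤ x ^ (d + 1) * x ^ j := mul_le_mul_of_nonneg_right h2 h3.le
    _ = 1 * x ^ (j + (d + 1)) := by ring

/-- From a base at most `1/x^j` to a power. -/
lemma NCtx.pow_base (c : NCtx x q μ e E6 E10 E14) {b : ℝ} (hb0 : 0 ≤ b) {j : ℕ} (hb : b ≤ 1 / x ^ j) (k : ℕ) :
    b ^ k ≤ 1 / x ^ (j * k) := by
  have := pow_le_pow_left₀ hb0 hb k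
  rwa [div_pow, one_pow, ← pow_mul] at this

lemma NCtx.base1 (c : NCtx x q μ e E6 E10 E14) :
    e * (x ^ 510 * (16 * (x ^ 479 * x ^ 510 / q) * (E6 * μ ^ 12))) / x ^ 4 ≤ 1 / x ^ 1 := by
  have hx0 := c.x_pos
  have hq0 := c.q_pos
  have hμ0 := c.hμ0
  have he := c.he
  have he0 := c.he0
  have hE6 := c.hE6
  have hE60 := c.hE60
  have hμ := c.hμ
  have hq1 := c.hq1
  calc _ ≤ 3 * (x ^ 510 * (16 * (x ^ 479 * x ^ 510 / x ^ 1000) * (1000 * (1 / x ^ 42) ^ 12))) / x ^ 4 := by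
        gcongr
    _ = 48000 / x ^ 9 := by
        field_simp
        ring
    _ ≤ 1 / x ^ 1 := c.small _ (by norm_num) _ _ (by norm_num)

lemma NCtx.base2 (c : NCtx x q μ e E6 E10 E14) :
    e * (x ^ 510 * (2 * x ^ 479 * (E10 * μ ^ 24))) / x ^ 4 ≤ 1 / x ^ 1 := by
  have hx0 := c.x_pos
  have hμ0 := c.hμ0
  have he := c.he
  have he0 := c.he0
  have hE10 := c.hE10
  have hE100 := c.hE100
  have hμ := c.hμ
  calc _ ≤ 3 * (x ^ 510 * (2 * x ^ 479 * (100000 * (1 / x ^ 42) ^ 24))) / x ^ 4 := by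
        gcongr
    _ = 600000 / x ^ 23 := by
        field_simp
        ring
    _ ≤ 1 / x ^ 1 := c.small _ (by norm_num) _ _ (by norm_num)

lemma NCtx.base3 (c : NCtx x q μ e E6 E10 E14) :
    e * (x ^ 510 * (q * x ^ 2 * (E14 * μ ^ 36))) / x ^ 4 ≤ 1 / x ^ 1 := by
  have hx0 := c.x_pos
  have hq0 := c.q_pos
  have hμ0 := c.hμ0
  have he := c.he
  have he0 := c.he0
  have hE14 := c.hE14
  have hE140 := c.hE140
  have hμ := c.hμ
  have hq2 := c.hq2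
  calc _ ≤ 3 * (x ^ 510 * (2 * x ^ 1000 * x ^ 2 * (10000000 * (1 / x ^ 42) ^ 36))) / x ^ 4 := by
        gcongr
    _ = 60000000 / x ^ 4 := by
        field_simp
        ring
    _ ≤ 1 / x ^ 1 := c.small _ (by norm_num) _ _ (by norm_num)

lemma NCtx.base4 (c : NCtx x q μ e E6 E10 E14) {ZZ : ℝ} (hZZ0 : 0 ≤ ZZ) (hZZ : ZZ ≤ 2 * q) :
    e * (x ^ 510 * (ZZ * ((4 * x ^ 479 / q) * (E10 * μ ^ 24)))) / x ^ 4 ≤ 1 / x ^ 1 := by
  have hx0 := c.x_pos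
  have hq0 := c.q_pos
  have hμ0 := c.hμ0
  have he := c.he
  have he0 := c.he0
  have hE10 := c.hE10
  have hE100 := c.hE100
  have hμ := c.hμ
  have hZq : ZZ / q ≤ 2 := by
    rw [div_le_iff₀ hq0]
    exact hZZ
  have hZq0 : 0 ≤ ZZ / q := div_nonneg hZZ0 hq0.le
  have hre : ZZ * ((4 * x ^ 479 / q) * (E10 * μ ^ 24)) = (ZZ / q) * (4 * x ^ 479 * (E10 * μ ^ 24)) := by
    field_simp
  rw [hre]
  calc _ ≤ 3 * (x ^ 510 * (2 * (4 * x ^ 479 * (100000 * (1 / x ^ 42) ^ 24)))) / x ^ 4 := by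
        gcongr
    _ = 2400000 / x ^ 23 := by
        field_simp
        ring
    _ ≤ 1 / x ^ 1 := c.small _ (by norm_num) _ _ (by norm_num)

lemma NCtx.base5 (c : NCtx x q μ e E6 E10 E14) :
    e * (x ^ 510 * (x * ((4 * x ^ 479 / q) * (E6 * μ ^ 12)))) / 5 ≤ 1 / x ^ 500 := by
  have hx0 := c.x_pos
  have hq0 := c.q_pos
  have hμ0 := c.hμ0
  have he := c.he
  have he0 := c.he0
  have hE6 := c.hE6
  have hE60 := c.hE60
  have hμ := c.hμ
  have hq1 := c.hq1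
  calc _ ≤ 3 * (x ^ 510 * (x * ((4 * x ^ 479 / x ^ 1000) * (1000 * (1 / x ^ 42) ^ 12)))) / 5 := by
        gcongr
    _ = 2400 / x ^ 514 := by
        field_simp
        ring
    _ ≤ 1 / x ^ 500 := c.small _ (by norm_num) _ _ (by norm_num)

lemma NCtx.base6 (c : NCtx x q μ e E6 E10 E14) :
    e * (x ^ 510 * (x * (4 * ((x ^ 479) ^ 2 / q ^ 2) * (E6 * μ ^ 11)))) / 5 ≤ 1 / x ^ 900 := by
  have hx0 := c.x_pos
  have hq0 := c.q_pos
  have hμ0 := c.hμ0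
  have he := c.he
  have he0 := c.he0
  have hE6 := c.hE6
  have hE60 := c.hE60
  have hμ := c.hμ
  have hq1 := c.hq1
  calc _ ≤ 3 * (x ^ 510 * (x * (4 * ((x ^ 479) ^ 2 / (x ^ 1000) ^ 2) * (1000 * (1 / x ^ 42) ^ 11)))) / 5 := by
        gcongr
    _ = 2400 / x ^ 993 := by
        field_simp
        ring
    _ ≤ 1 / x ^ 900 := c.small _ (by norm_num) _ _ (by norm_num)

lemma NCtx.base7 (c : NCtx x q μ e E6 E10 E14) :
    e * (x ^ 510 * ((2 * x ^ 479) * (4 * ((x ^ 479) ^ 2 / q ^ 2) * (E6 * μ ^ 11)))) / 7 ≤ 1 / x ^ 500 := by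
  have hx0 := c.x_pos
  have hq0 := c.q_pos
  have hμ0 := c.hμ0
  have he := c.he
  have he0 := c.he0
  have hE6 := c.hE6
  have hE60 := c.hE60
  have hμ := c.hμ
  have hq1 := c.hq1
  calc _ ≤ 3 * (x ^ 510 * ((2 * x ^ 479) * (4 * ((x ^ 479) ^ 2 / (x ^ 1000) ^ 2) * (1000 * (1 / x ^ 42) ^ 11)))) / 7 := by
        gcongr
    _ = (24000 / 7) / x ^ 515 := by
        field_simp
        ring
    _ ≤ 1 / x ^ 500 := c.small _ (by norm_num) _ _ (by norm_num)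

lemma NCtx.exp_bound (c : NCtx x q μ e E6 E10 E14) : Real.exp (-(x ^ 5 / 8)) ≤ 1 / x ^ 1100 := by
  have hx0 := c.x_pos
  rw [Real.exp_neg, ← one_div]
  apply one_div_le_one_div_of_le (pow_pos hx0 _)
  have hw : x ≤ x ^ 5 / 8800 := by
    rw [le_div_iff₀ (by norm_num)]
    have h1 : 8800 ≤ x ^ 4 := by
      have h1x : 1 ≤ x := le_trans (by norm_num) c.hx
      have : x ≤ x ^ 4 := le_self_pow₀ h1x (by omega)
      have h2 : (8800:ℝ) ≤ 10 ^ 40 := by norm_num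
      linarith [c.hx]
    calc x * 8800 ≤ x * x ^ 4 := mul_le_mul_of_nonneg_left h1 hx0.le
      _ = x ^ 5 := by ring
  calc x ^ 1100 ≤ (Real.exp (x ^ 5 / 8800)) ^ 1100 :=
        pow_le_pow_left₀ hx0.le (hw.trans (by linarith [Real.add_one_le_exp (x ^ 5 / 8800)])) _
    _ = Real.exp (x ^ 5 / 8) := by
        rw [← Real.exp_nat_mul]
        congr 1
        push_cast
        ring

/-- The total. -/
theorem NCtx.total (c : NCtx x q μ e E6 E10 E14) (ZZ : ℝ) (hZZ0 : 0 ≤ ZZ) (hZZ : ZZ ≤ 2 * q) (k : ℕ) (hk : 1100 ≤ k) :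
    ZZ * (Real.exp (-(x ^ 5 / 8)) +
      2 * (e * (x ^ 510 * (16 * (x ^ 479 * x ^ 510 / q) * (E6 * μ ^ 12))) / x ^ 4) ^ k +
      (e * (x ^ 510 * (2 * x ^ 479 * (E10 * μ ^ 24))) / x ^ 4) ^ k +
      (e * (x ^ 510 * (q * x ^ 2 * (E14 * μ ^ 36))) / x ^ 4) ^ k +
      (e * (x ^ 510 * (ZZ * ((4 * x ^ 479 / q) * (E10 * μ ^ 24)))) / x ^ 4) ^ k) +
    q ^ 2 * (e * (x ^ 510 * (x * ((4 * x ^ 479 / q) * (E6 * μ ^ 12)))) / 5) ^ 5 +
    ((q + 1) * q * q ^ 2) * (e * (x ^ 510 * (x * (4 * ((x ^ 479) ^ 2 / q ^ 2) * (E6 * μ ^ 11)))) / 5) ^ 5 +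
    ((q + 1) * q * (q + 1)) * (e * (x ^ 510 * ((2 * x ^ 479) * (4 * ((x ^ 479) ^ 2 / q ^ 2) * (E6 * μ ^ 11)))) / 7) ^ 7
      ≤ 1 / 8 := by
  have hx0 := c.x_pos
  have hq0 := c.q_pos
  have hμ0 := c.hμ0
  have he0 := c.he0
  have hE60 := c.hE60
  have hE100 := c.hE100
  have hE140 := c.hE140
  have h1x : 1 ≤ x := le_trans (by norm_num) c.hx
  -- powers `≤ 1 / x^1100`
  have pk : ∀ b : ℝ, 0 ≤ b → b ≤ 1 / x ^ 1 → b ^ k ≤ 1 / x ^ 1100 := by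
    intro b hb0 hb
    refine (c.pow_base hb0 hb k).trans ?_
    apply one_div_le_one_div_of_le (pow_pos hx0 _)
    exact pow_le_pow_right₀ h1x (by omega)
  have h1 := pk _ (by positivity) c.base1
  have h2 := pk _ (by positivity) c.base2
  have h3 := pk _ (by positivity) c.base3
  have h4 := pk _ (by positivity) (c.base4 hZZ0 hZZ)
  have h5 := c.exp_bound
  have hsf : Real.exp (-(x ^ 5 / 8)) +
      2 * (e * (x ^ 510 * (16 * (x ^ 479 * x ^ 510 / q) * (E6 * μ ^ 12))) / x ^ 4) ^ k +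
      (e * (x ^ 510 * (2 * x ^ 479 * (E10 * μ ^ 24))) / x ^ 4) ^ k +
      (e * (x ^ 510 * (q * x ^ 2 * (E14 * μ ^ 36))) / x ^ 4) ^ k +
      (e * (x ^ 510 * (ZZ * ((4 * x ^ 479 / q) * (E10 * μ ^ 24)))) / x ^ 4) ^ k ≤ 6 * (1 / x ^ 1100) := by
    linarith
  have hZZ' : ZZ ≤ 4 * x ^ 1000 := by linarith [c.hq2]
  have hA : ZZ * (Real.exp (-(x ^ 5 / 8)) +
      2 * (e * (x ^ 510 * (16 * (x ^ 479 * x ^ 510 / q) * (E6 * μ ^ 12))) / x ^ 4) ^ k +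
      (e * (x ^ 510 * (2 * x ^ 479 * (E10 * μ ^ 24))) / x ^ 4) ^ k +
      (e * (x ^ 510 * (q * x ^ 2 * (E14 * μ ^ 36))) / x ^ 4) ^ k +
      (e * (x ^ 510 * (ZZ * ((4 * x ^ 479 / q) * (E10 * μ ^ 24)))) / x ^ 4) ^ k) ≤ 1 / 32 := by
    calc _ ≤ (4 * x ^ 1000) * (6 * (1 / x ^ 1100)) :=
          mul_le_mul hZZ' hsf (by positivity) (by positivity)
      _ = 24 / x ^ 100 := by
          field_simp
          ring
      _ ≤ 1 / 32 := by
          rw [div_le_div_iff₀ (pow_pos hx0 _) (by norm_num)]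
          have : (1:ℝ) ≤ x ^ 99 := one_le_pow₀ h1x
          have h100 : x ≤ x ^ 100 := le_self_pow₀ h1x (by omega)
          have h3 : (10:ℝ) ^ 40 ≤ x ^ 100 := c.hx.trans h100
          norm_num at h3 ⊢
          linarith
  -- the three others
  have hq2sq : q ^ 2 ≤ (2 * x ^ 1000) ^ 2 := pow_le_pow_left₀ hq0.le c.hq2 2
  have hq1' : q + 1 ≤ 2 * q := by
    have h2 : 1 ≤ q := h1x.trans (by
      have : x ≤ x ^ 1000 := le_self_pow₀ h1x (by omega)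
      exact this.trans c.hq1)
    linarith
  have hB : q ^ 2 * (e * (x ^ 510 * (x * ((4 * x ^ 479 / q) * (E6 * μ ^ 12)))) / 5) ^ 5 ≤ 1 / 32 := by
    have hb : (e * (x ^ 510 * (x * ((4 * x ^ 479 / q) * (E6 * μ ^ 12)))) / 5) ^ 5 ≤ 1 / x ^ (500 * 5) :=
      c.pow_base (by positivity) c.base5 5
    calc _ ≤ (2 * x ^ 1000) ^ 2 * (1 / x ^ (500 * 5)) := mul_le_mul hq2sq hb (by positivity) (by positivity)
      _ = 4 / x ^ 500 := by
          field_simp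
          ring
      _ ≤ 1 / 32 := by
          rw [div_le_div_iff₀ (pow_pos hx0 _) (by norm_num)]
          have h100 : x ≤ x ^ 500 := le_self_pow₀ h1x (by omega)
          have h3 : (10:ℝ) ^ 40 ≤ x ^ 500 := c.hx.trans h100
          norm_num at h3 ⊢
          linarith
  have hq4 : (q + 1) * q * q ^ 2 ≤ 2 * (2 * x ^ 1000) ^ 4 := by
    have h1 : q ^ 4 ≤ (2 * x ^ 1000) ^ 4 := pow_le_pow_left₀ hq0.le c.hq2 4
    calc (q + 1) * q * q ^ 2 ≤ (2 * q) * q * q ^ 2 := by gcongr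
      _ = 2 * q ^ 4 := by ring
      _ ≤ _ := by linarith
  have hC : ((q + 1) * q * q ^ 2) * (e * (x ^ 510 * (x * (4 * ((x ^ 479) ^ 2 / q ^ 2) * (E6 * μ ^ 11)))) / 5) ^ 5 ≤ 1 / 32 := by
    have hb : (e * (x ^ 510 * (x * (4 * ((x ^ 479) ^ 2 / q ^ 2) * (E6 * μ ^ 11)))) / 5) ^ 5 ≤ 1 / x ^ (900 * 5) :=
      c.pow_base (by positivity) c.base6 5
    calc _ ≤ (2 * (2 * x ^ 1000) ^ 4) * (1 / x ^ (900 * 5)) := mul_le_mul hq4 hb (by positivity) (by positivity)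
      _ = 32 / x ^ 500 := by
          field_simp
          ring
      _ ≤ 1 / 32 := by
          rw [div_le_div_iff₀ (pow_pos hx0 _) (by norm_num)]
          have h100 : x ≤ x ^ 500 := le_self_pow₀ h1x (by omega)
          have h3 : (10:ℝ) ^ 40 ≤ x ^ 500 := c.hx.trans h100
          norm_num at h3 ⊢
          linarith
  have hq3 : (q + 1) * q * (q + 1) ≤ 4 * (2 * x ^ 1000) ^ 3 := by
    have h1 : q ^ 3 ≤ (2 * x ^ 1000) ^ 3 := pow_le_pow_left₀ hq0.le c.hq2 3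
    calc (q + 1) * q * (q + 1) ≤ (2 * q) * q * (2 * q) := by gcongr
      _ = 4 * q ^ 3 := by ring
      _ ≤ _ := by linarith
  have hD : ((q + 1) * q * (q + 1)) * (e * (x ^ 510 * ((2 * x ^ 479) * (4 * ((x ^ 479) ^ 2 / q ^ 2) * (E6 * μ ^ 11)))) / 7) ^ 7 ≤ 1 / 32 := by
    have hb : (e * (x ^ 510 * ((2 * x ^ 479) * (4 * ((x ^ 479) ^ 2 / q ^ 2) * (E6 * μ ^ 11)))) / 7) ^ 7 ≤ 1 / x ^ (500 * 7) :=
      c.pow_base (by positivity) c.base7 7
    calc _ ≤ (4 * (2 * x ^ 1000) ^ 3) * (1 / x ^ (500 * 7)) := mul_le_mul hq3 hb (by positivity) (by positivity)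
      _ = 32 / x ^ 500 := by
          field_simp
          ring
      _ ≤ 1 / 32 := by
          rw [div_le_div_iff₀ (pow_pos hx0 _) (by norm_num)]
          have h100 : x ≤ x ^ 500 := le_self_pow₀ h1x (by omega)
          have h3 : (10:ℝ) ^ 40 ≤ x ^ 500 := c.hx.trans h100
          norm_num at h3 ⊢
          linarith
  linarith

/-- The lower bound for the pattern probabilities, in numbers. -/
lemma lo_bound {x q tr : ℝ} (hx : (10:ℝ) ^ 40 ≤ x) (hq0 : 0 < q) (hq2 : q ≤ 2 * x ^ 1000) (ht : x ^ 479 / 7 ≤ tr) :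
    x ^ 5 ≤ (x ^ 510 - 1) * ((1 / 2 : ℝ) * (tr ^ 2 / (5 * q)) ^ 12) := by
  have hx0 : 0 < x := lt_of_lt_of_le (by norm_num) hx
  have h1x : 1 ≤ x := le_trans (by norm_num) hx
  have h0 : 0 ≤ x ^ 479 / 7 := by positivity
  have h1 : 1 / (490 * x ^ 42) ≤ tr ^ 2 / (5 * q) := by
    calc 1 / (490 * x ^ 42) = (x ^ 479 / 7) ^ 2 / (5 * (2 * x ^ 1000)) := by
          field_simp
          ring
      _ ≤ tr ^ 2 / (5 * q) := by gcongr
  have h2 : (1 / (490 * x ^ 42)) ^ 12 ≤ (tr ^ 2 / (5 * q)) ^ 12 :=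
    pow_le_pow_left₀ (by positivity) h1 12
  have h3 : x ^ 510 / 2 ≤ x ^ 510 - 1 := by
    have : x ≤ x ^ 510 := le_self_pow₀ h1x (by omega)
    have h4 : (2:ℝ) ≤ 10 ^ 40 := by norm_num
    linarith
  calc x ^ 5 ≤ (x ^ 510 / 2) * ((1 / 2 : ℝ) * (1 / (490 * x ^ 42)) ^ 12) := by
        have heq : (x ^ 510 / 2) * ((1 / 2 : ℝ) * (1 / (490 * x ^ 42)) ^ 12) = x ^ 6 / (4 * 490 ^ 12) := by
          field_simp
          ring
        rw [heq, le_div_iff₀ (by norm_num)]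
        have h5 : (4 * 490 ^ 12 : ℝ) ≤ x := le_trans (by norm_num) hx
        calc x ^ 5 * (4 * 490 ^ 12) ≤ x ^ 5 * x := mul_le_mul_of_nonneg_left h5 (by positivity)
          _ = x ^ 6 := by ring
    _ ≤ (x ^ 510 - 1) * ((1 / 2 : ℝ) * (tr ^ 2 / (5 * q)) ^ 12) := by
        apply mul_le_mul h3 (by linarith) (by positivity) (by linarith [show 0 < x ^ 510 / 2 by positivity])

lemma mu_bounds {x q : ℝ} (hx : (10:ℝ) ^ 40 ≤ x) (hq1 : x ^ 1000 ≤ q) (hq2 : q ≤ 2 * x ^ 1000) :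
    0 < (x ^ 479) ^ 2 / q ∧ (x ^ 479) ^ 2 / q ≤ 1 / x ^ 42 ∧ (x ^ 479) ^ 2 / q ≤ 1 ∧
      1296 * x ^ 479 ≤ q * ((x ^ 479) ^ 2 / q) ^ 3 := by
  have hx0 : 0 < x := lt_of_lt_of_le (by norm_num) hx
  have h1x : 1 ≤ x := le_trans (by norm_num) hx
  have hX : 0 < x ^ 1000 := pow_pos hx0 _
  have hq0 : 0 < q := lt_of_lt_of_le hX hq1
  have h1 : (x ^ 479) ^ 2 / q ≤ 1 / x ^ 42 := by
    calc (x ^ 479) ^ 2 / q ≤ (x ^ 479) ^ 2 / x ^ 1000 := by gcongr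
      _ = 1 / x ^ 42 := by
          field_simp
  refine ⟨by positivity, h1, h1.trans ?_, ?_⟩
  · rw [div_le_one (pow_pos hx0 _)]
    exact one_le_pow₀ h1x
  · have h2 : q * ((x ^ 479) ^ 2 / q) ^ 3 = ((x ^ 479) ^ 2) ^ 3 / q ^ 2 := by
      field_simp
    rw [h2]
    have h3 : q ^ 2 ≤ (2 * x ^ 1000) ^ 2 := pow_le_pow_left₀ hq0.le hq2 2
    calc 1296 * x ^ 479 ≤ x ^ 874 / 4 := by
          rw [le_div_iff₀ (by norm_num)]
          have h4 : (5184:ℝ) ≤ x ^ 395 := by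
            have : x ≤ x ^ 395 := le_self_pow₀ h1x (by omega)
            have h5 : (5184:ℝ) ≤ 10 ^ 40 := by norm_num
            linarith
          calc 1296 * x ^ 479 * 4 = 5184 * x ^ 479 := by ring
            _ ≤ x ^ 395 * x ^ 479 := mul_le_mul_of_nonneg_right h4 (by positivity)
            _ = x ^ 874 := by ring
      _ = ((x ^ 479) ^ 2) ^ 3 / (2 * x ^ 1000) ^ 2 := by
          field_simp
          norm_num
      _ ≤ ((x ^ 479) ^ 2) ^ 3 / q ^ 2 := by gcongr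

lemma exp_le_three_pow (k : ℕ) : Real.exp (k:ℝ) ≤ 3 ^ k := by
  have h : Real.exp (k:ℝ) = Real.exp 1 ^ k := by rw [← Real.exp_nat_mul, mul_one]
  rw [h]
  exact pow_le_pow_left₀ (Real.exp_pos 1).le (by linarith [Real.exp_one_lt_d9]) k

end NumB

section Wrap

variable {P V L : Type*} [Fintype P] [DecidableEq P] [Fintype V] [DecidableEq V]
  [Fintype L] [DecidableEq L] [Nonempty V]

/-- The group sum lower bound. -/
lemma sum_pat_lower {q G T t : ℕ} {h : L → P → V} (hO : OA q h) (cl : Fin G → Fin 4 → P)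
    (hcl : ∀ g g' j j', cl g j = cl g' j' → g = g' ∧ j = j')
    (Z : Finset (P × V)) (z : P × V) (ht : 6 * t ≤ T) (hT : 32 * T ^ 2 ≤ q) (hT' : 80 * T ≤ q)
    (hclean : q ≤ 4 * (cleanLines h Z z).card) :
    ((G:ℝ) - 1) * ((1 / 2 : ℝ) * ((t : ℝ) ^ 2 / (5 * q)) ^ 12) ≤
      ∑ g, Pr (fun γ : GConf T V => Pat h Z (cl g) γ z) := by
  classical
  obtain ⟨lower, hlower⟩ : ∃ lower : ℝ, lower = (1 / 2 : ℝ) * ((t : ℝ) ^ 2 / (5 * q)) ^ 12 := ⟨_, rfl⟩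
  rw [← hlower]
  have hlow0 : 0 ≤ lower := by rw [hlower]; positivity
  let S := univ.filter (fun g : Fin G => ∀ j, z.1 ≠ cl g j)
  have hScomp : (univ.filter (fun g : Fin G => ¬ ∀ j, z.1 ≠ cl g j)).card ≤ 1 := by
    rw [Finset.card_le_one]
    intro a ha b hb
    simp only [mem_filter, mem_univ, true_and, not_forall, not_not] at ha hb
    obtain ⟨j, hj⟩ := ha
    obtain ⟨j', hj'⟩ := hb
    exact (hcl a b j j' (hj.symm.trans hj')).1
  have hS : (G:ℝ) - 1 ≤ S.card := by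
    have h1 := Finset.card_filter_add_card_filter_not (s := (univ : Finset (Fin G))) (fun g : Fin G => ∀ j, z.1 ≠ cl g j)
    simp only [Finset.card_univ, Fintype.card_fin] at h1
    have h2 : G ≤ S.card + 1 := by
      have : S.card = (univ.filter (fun g : Fin G => ∀ j, z.1 ≠ cl g j)).card := rfl
      omega
    have h3 : (G:ℝ) ≤ S.card + 1 := by exact_mod_cast h2
    linarith
  have hinj : ∀ g, Function.Injective (cl g) := fun g j j' hj => (hcl g g j j' hj).2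
  calc ((G:ℝ) - 1) * lower ≤ S.card * lower := mul_le_mul_of_nonneg_right hS hlow0
    _ = ∑ g ∈ S, lower := by simp
    _ ≤ ∑ g ∈ S, Pr (fun γ : GConf T V => Pat h Z (cl g) γ z) := by
        refine Finset.sum_le_sum (fun g hg => ?_)
        rw [hlower]
        exact pat_lower hO Z (cl g) (hinj g) z ((mem_filter.1 hg).2) T t ht hT hT' hclean
    _ ≤ ∑ g, Pr (fun γ : GConf T V => Pat h Z (cl g) γ z) :=
        Finset.sum_le_sum_of_subset_of_nonneg (subset_univ _) (fun _ _ _ => Pr_nonneg _)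

/-- Selection succeeds with probability at least `7/8`, at scale `n ≥ 10^40`. -/
theorem selGood_prob_big {q n : ℕ} {h : L → P → V} (hn : 10 ^ 40 ≤ n) (hq1 : n ^ 1000 ≤ q) (hq2 : q < (n + 1) ^ 1000)
    (hO : OA q h) (cl : Fin (n ^ 510) → Fin 4 → P)
    (hcl : ∀ g g' j j', cl g j = cl g' j' → g = g' ∧ j = j')
    (Z : Finset (P × V)) (hZline : ∀ ℓ : L, (Z.filter (On h ℓ)).card ≤ n)
    (hZpart : ∀ i : P, (Z.filter fun x => x.1 = i).card ≤ 2 * n ^ 479) (hZcard : Z.card ≤ 2 * q)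
    (hZclean : ∀ z ∈ Z, q ≤ 4 * (cleanLines h Z z).card) :
    Pr (fun Γ : Fin (n ^ 510) → GConf (n ^ 479) V => ¬ SelGood h Z cl Γ) ≤ 1 / 8 := by
  classical
  have hn1 : 1 ≤ n := le_trans (by norm_num) hn
  have hT : 1 ≤ n ^ 479 := Nat.one_le_pow _ _ hn1
  -- integer facts
  have hsc : ∀ c k, c ≤ 10 ^ 40 → k < 1000 → c * n ^ k ≤ q := by
    intro c k hc hk
    calc c * n ^ k ≤ n * n ^ k := Nat.mul_le_mul_right _ (hc.trans hn)
      _ = n ^ (k + 1) := by rw [pow_succ, mul_comm]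
      _ ≤ n ^ 1000 := Nat.pow_le_pow_right hn1 (by omega)
      _ ≤ q := hq1
  have hT2 : 32 * (n ^ 479) ^ 2 ≤ q := by
    rw [← pow_mul]
    exact hsc _ _ (by norm_num) (by norm_num)
  have hT80 : 80 * n ^ 479 ≤ q := hsc _ _ (by norm_num) (by norm_num)
  -- the size of `t`
  obtain ⟨t, ht⟩ : ∃ t, t = n ^ 479 / 6 := ⟨_, rfl⟩
  have ht6 : 6 * t ≤ n ^ 479 := by rw [ht]; exact Nat.mul_div_le _ _
  have hnT : 1000 ≤ n ^ 479 := by
    calc 1000 ≤ n := le_trans (by norm_num) hn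
      _ ≤ n ^ 479 := Nat.le_self_pow (by norm_num) n
  have ht7 : n ^ 479 ≤ 7 * t := by omega
  -- real quantities
  obtain ⟨x, hx⟩ : ∃ x : ℝ, x = n := ⟨_, rfl⟩
  have hxbig : (10:ℝ) ^ 40 ≤ x := by rw [hx]; exact_mod_cast hn
  have hqr1 : x ^ 1000 ≤ (q:ℝ) := by rw [hx]; exact_mod_cast hq1
  have hq22 : q ≤ 2 * n ^ 1000 := by
    refine hq2.le.trans (NumSLAux.succ_pow_le n 1000 ?_)
    have : 10 ^ 40 ≤ n := hn
    omega
  have hqr2 : (q:ℝ) ≤ 2 * x ^ 1000 := by rw [hx]; exact_mod_cast hq22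
  have hq0 : (0:ℝ) < q := lt_of_lt_of_le (pow_pos (lt_of_lt_of_le (by norm_num) hxbig) _) hqr1
  have htr : x ^ 479 / 7 ≤ (t:ℝ) := by
    rw [div_le_iff₀ (by norm_num), hx]
    have : ((n ^ 479 : ℕ) : ℝ) ≤ ((t * 7 : ℕ) : ℝ) := by
      exact_mod_cast (by omega : n ^ 479 ≤ t * 7)
    simpa using this
  have hTc : ((n ^ 479 : ℕ) : ℝ) = x ^ 479 := by rw [hx]; push_cast; rfl
  have hGc : ((n ^ 510 : ℕ) : ℝ) = x ^ 510 := by rw [hx]; push_cast; rfl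
  have ht₀c : ((n ^ 4 : ℕ) : ℝ) = x ^ 4 := by rw [hx]; push_cast; rfl
  obtain ⟨hμ0, hμ1, hμ2, hnum⟩ := NumB.mu_bounds hxbig hqr1 hqr2
  -- the sum bound
  have hLo : ∀ z ∈ Z, x ^ 5 ≤ ∑ g, Pr (fun γ : GConf (n ^ 479) V => Pat h Z (cl g) γ z) := by
    intro z hz
    refine le_trans ?_ (sum_pat_lower (t := t) hO cl hcl Z z ht6 hT2 hT80 (hZclean z hz))
    rw [hGc]
    exact NumB.lo_bound hxbig hq0 hqr2 htr
  have hLo0 : 0 ≤ x ^ 5 := pow_nonneg (le_trans (by norm_num) hxbig) _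
  have ht₀1 : 1 ≤ n ^ 4 := Nat.one_le_pow _ _ hn1
  have ht₀' : 10 * ((n ^ 4 : ℕ) : ℝ) ≤ x ^ 5 := by
    rw [ht₀c]
    have hx0 : 0 < x := lt_of_lt_of_le (by norm_num) hxbig
    have h10 : (10:ℝ) ≤ x := le_trans (by norm_num) hxbig
    calc 10 * x ^ 4 ≤ x * x ^ 4 := mul_le_mul_of_nonneg_right h10 (by positivity)
      _ = x ^ 5 := by ring
  refine (selGood_fail hO cl hcl hT Z n hZline hZpart ((x ^ 479) ^ 2 / q) (by rw [hTc]) hμ0 hμ2
    (by rw [hTc]; exact hnum) (x ^ 5) hLo0 hLo (n ^ 4) ht₀1 ht₀').trans ?_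
  have he6 := NumB.exp_le_three_pow 6
  have he10 := NumB.exp_le_three_pow 10
  have he14 := NumB.exp_le_three_pow 14
  norm_num at he6 he10 he14
  have c : NumB.NCtx x q ((x ^ 479) ^ 2 / q) (Real.exp 1) (Real.exp 6) (Real.exp 10) (Real.exp 14) :=
    { hx := hxbig, hq1 := hqr1, hq2 := hqr2, hμ0 := hμ0.le, hμ := hμ1
      he0 := (Real.exp_pos _).le, he := by linarith [Real.exp_one_lt_d9]
      hE60 := (Real.exp_pos _).le, hE6 := by linarith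
      hE100 := (Real.exp_pos _).le, hE10 := by linarith
      hE140 := (Real.exp_pos _).le, hE14 := by linarith }
  have hZZ : ((Z.card : ℕ) : ℝ) ≤ 2 * q := by exact_mod_cast hZcard
  have hk : 1100 ≤ n ^ 4 := by
    calc 1100 ≤ n := le_trans (by norm_num) hn
      _ ≤ n ^ 4 := Nat.le_self_pow (by norm_num) n
  have := c.total (Z.card : ℝ) (Nat.cast_nonneg _) hZZ (n ^ 4) hk
  unfold safeFail
  rw [hGc, hTc, ht₀c, ← hx]
  exact this

end Wrap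

end Crest.Agent.Ryser
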