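import Crest.Agent.Lib.Ryser.SelectUp

/-!
# Module SELCH1: the Chernoff argument over the groups behind `safe_prob` (row 34, Part D).

Generic tools: `rare_events`, `lower_events` (independent coordinates), `seq_rare_back` (sequential rare events,
reversed order).  Main result: `safe_prob_core`.
-/

open Finset BigOperators

namespace Crest.Agent.Ryser

section Generic

variable {X : Type*} [Fintype X] [Nonempty X] {G : ℕ}

/-- Rare independent coordinate events. -/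
lemma rare_events (E : Fin G → X → Prop) (p : ℝ) (hp : 0 < p) (hG : 1 ≤ G)
    (hE : ∀ g, Pr (E g) ≤ p) (t : ℕ) (ht : 1 ≤ t) :
    Pr (fun Γ : Fin G → X => t ≤ (open Classical in (univ.filter fun g => E g (Γ g)).card)) ≤
      (Real.exp 1 * ((G : ℝ) * p) / t) ^ t := by
  classical
  have hG0 : (0:ℝ) < G := by exact_mod_cast hG
  have hsum : (∑ b : Fin G, (((univ.filter (E b)).card : ℝ) / Fintype.card X)) ≤ (G:ℝ) * p := by
    calc ∑ b : Fin G, (((univ.filter (E b)).card : ℝ) / Fintype.card X)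
        = ∑ b : Fin G, Pr (E b) := by
            apply sum_congr rfl; intro b _; rw [Pr_eq_card]
      _ ≤ ∑ _b : Fin G, p := sum_le_sum (fun b _ => hE b)
      _ = G * p := by simp
  have key := rare_balls (ι := Fin G) (X := X) (fun g => univ.filter (E g)) ((G:ℝ) * p) hsum
    (by positivity) t ht
  refine le_trans (Pr_mono ?_) key
  intro Γ hΓ
  have h2 : (univ.filter fun g => E g (Γ g)) = (univ.filter fun b => Γ b ∈ univ.filter (E b)) := by
    ext g; simp
  rw [← h2]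
  convert hΓ

/-- Lower tail for independent coordinate events. -/
lemma lower_events (E : Fin G → X → Prop) (Lo : ℝ) (hLo0 : 0 ≤ Lo) (hLo : Lo ≤ ∑ g, Pr (E g)) :
    Pr (fun Γ : Fin G → X => ((open Classical in (univ.filter fun g => E g (Γ g)).card : ℕ) : ℝ) ≤ Lo / 2) ≤
      Real.exp (-(Lo / 8)) := by
  classical
  have hsum : Lo ≤ (∑ b : Fin G, (((univ.filter (E b)).card : ℝ) / Fintype.card X)) := by
    refine hLo.trans (le_of_eq ?_)
    apply sum_congr rfl; intro b _; rw [Pr_eq_card]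
  have key := rare_balls_lower (ι := Fin G) (X := X) (fun g => univ.filter (E g)) Lo hLo0 hsum
  refine le_trans (Pr_mono ?_) key
  intro Γ hΓ
  have h2 : (univ.filter fun g => E g (Γ g)) = (univ.filter fun b => Γ b ∈ univ.filter (E b)) := by
    ext g; simp
  rw [← h2]
  convert hΓ

/-- Invariance of `Pr` under an equivalence. -/
lemma Pr_equiv {Ω Ω' : Type*} [Fintype Ω] [Fintype Ω'] (e : Ω ≃ Ω') (E : Ω' → Prop) :
    Pr (fun ω => E (e ω)) = Pr E := by
  classical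
  rw [Pr_eq_card, Pr_eq_card E, Fintype.card_congr e]
  congr 2
  apply Finset.card_bij (fun ω _ => e ω)
  · intro ω hω; simpa using hω
  · intro a _ b _ hab; exact e.injective hab
  · intro ω hω
    exact ⟨e.symm ω, by simpa using hω, by simp⟩

/-- Sequential rare events in reversed order. -/
lemma seq_rare_back (n : ℕ) (I : Fin n → (Fin n → X) → Prop)
    (hdep : ∀ t ω ω', (∀ s, t ≤ s → ω s = ω' s) → (I t ω ↔ I t ω'))
    (p : ℝ) (hp0 : 0 < p)
    (hp : ∀ t ω, Pr (fun x => I t (Function.update ω t x)) ≤ p)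
    (t : ℕ) (ht : 1 ≤ t) (hn : 1 ≤ n) :
    Pr (fun ω : Fin n → X => t ≤ (open Classical in (univ.filter (fun s => I s ω)).card)) ≤
      (Real.exp 1 * (n * p) / t) ^ t := by
  classical
  let e : (Fin n → X) ≃ (Fin n → X) := Equiv.arrowCongr Fin.revPerm (Equiv.refl X)
  have he : ∀ ω s, e ω s = ω (Fin.rev s) := by
    intro ω s; simp [e, Equiv.arrowCongr, Fin.revPerm]
  let I' : Fin n → (Fin n → X) → Prop := fun s ω => I (Fin.rev s) (e ω)
  have hdep' : ∀ t ω ω', (∀ s, s ≤ t → ω s = ω' s) → (I' t ω ↔ I' t ω') := by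
    intro t ω ω' hs
    apply hdep
    intro s hs'
    rw [he, he]
    apply hs
    rw [Fin.le_def] at hs' ⊢
    simp only [Fin.val_rev] at hs' ⊢
    omega
  have hp' : ∀ t ω, Pr (fun x => I' t (Function.update ω t x)) ≤ p := by
    intro t ω
    have hup : ∀ x, e (Function.update ω t x) = Function.update (e ω) (Fin.rev t) x := by
      intro x
      funext s
      rw [he]
      by_cases hs : s = Fin.rev t
      · subst hs; simp
      · have hs2 : Fin.rev s ≠ t := by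
          intro h; apply hs; rw [← h]; simp
        rw [Function.update_of_ne hs2, Function.update_of_ne hs, he]
    have : (fun x => I' t (Function.update ω t x)) = fun x => I (Fin.rev t) (Function.update (e ω) (Fin.rev t) x) := by
      funext x
      simp only [I', hup]
    rw [this]
    exact hp _ _
  have h1 := seq_rare n I' hdep' p hp0 hp' t ht hn
  have h2 : Pr (fun ω : Fin n → X => t ≤ (univ.filter (fun s => I s ω)).card) =
      Pr (fun ω : Fin n → X => t ≤ (univ.filter (fun s => I' s ω)).card) := by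
    rw [← Pr_equiv e]
    congr 1
    funext ω
    have : (univ.filter (fun s => I s (e ω))).card = (univ.filter (fun s => I' s ω)).card := by
      apply Finset.card_bij (fun s _ => Fin.rev s)
      · intro s hs
        simp only [Finset.mem_filter, Finset.mem_univ, true_and, I'] at hs ⊢
        simpa using hs
      · intro a _ b _ hab
        simpa using hab
      · intro s hs
        refine ⟨Fin.rev s, ?_, by simp⟩
        simpa [I'] using hs
    simp only [this]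
  refine le_trans (le_of_eq ?_) h1
  convert h2

/-- An impossible event has probability zero. -/
lemma Pr_eq_zero_of_not {Ω : Type*} [Fintype Ω] (E : Ω → Prop) (h : ∀ ω, ¬ E ω) : Pr E = 0 := by
  classical
  rw [Pr_eq_card, Finset.filter_false_of_mem (fun ω _ => h ω)]
  simp

end Generic

section Main

variable {P V L : Type*} [Fintype P] [DecidableEq P] [Fintype V] [DecidableEq V]
  [Fintype L] [DecidableEq L] [Nonempty V]
variable {q : ℕ} {h : L → P → V} {G T : ℕ}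

/-- c2 for one group. -/
def E2 (h : L → P → V) (Z : Finset (P × V)) (cl : Fin 4 → P) (z : P × V) (γ : GConf T V) : Prop :=
  Pat h Z cl γ z ∧ ∃ y ∈ Z, y ≠ z ∧ y.1 = z.1 ∧ Pat h Z cl γ y

/-- c3 for one group. -/
def E3 (h : L → P → V) (Z : Finset (P × V)) (cl : Fin 4 → P) (z : P × V) (γ : GConf T V) : Prop :=
  Pat h Z cl γ z ∧ ∃ y ∈ Z, ∃ y' ∈ Z, y ≠ z ∧ y' ≠ z ∧ y ≠ y' ∧ (∃ ℓ, On h ℓ z ∧ On h ℓ y ∧ On h ℓ y') ∧
    Pat h Z cl γ y ∧ Pat h Z cl γ y'

/-- c4 for one group. -/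
def E4 (h : L → P → V) (Z : Finset (P × V)) (cl : Fin 4 → P) (z : P × V) (γ : GConf T V) : Prop :=
  Pat h Z cl γ z ∧ ∃ ℓ, On h ℓ z ∧ (∃ b, BallOn h cl γ b ℓ) ∧ ∃ y ∈ Z, y ≠ z ∧ On h ℓ y ∧ Pat h Z cl γ y

/-- c1 relative to a set `S` of other groups. -/
def E1 (h : L → P → V) (Z : Finset (P × V)) (cl : Fin G → Fin 4 → P) (z : P × V) (t : Fin G)
    (S : Finset (Fin G)) (ω : Fin G → GConf T V) (x : GConf T V) : Prop :=
  Pat h Z (cl t) x z ∧ ∃ g' ∈ S, ∃ j, ∃ ℓ ∈ gadL h (cl t) x z j, ∃ b, BallOn h (cl g') (ω g') b ℓ ∧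
    (cl g' b.1, ω g' b) ≠ z

section Single

variable (hO : OA q h) (Z : Finset (P × V)) (cl : Fin 4 → P) (hcl : Function.Injective cl) (hT : 1 ≤ T)
  (μ : ℝ) (hμ : μ = (T : ℝ) ^ 2 / q) (hμ0 : 0 < μ) (hμ1 : μ ≤ 1) (hnum : 1296 * (T : ℝ) ≤ q * μ ^ 3)
include hO hcl hT hμ hμ0 hμ1 hnum

lemma safeE2_prob (hZpart : ∀ i : P, (Z.filter fun x => x.1 = i).card ≤ 2 * T) (z : P × V) :
    Pr (E2 (T := T) h Z cl z) ≤ 2 * T * (Real.exp 10 * μ ^ 24) := by
  have hε : (0:ℝ) ≤ Real.exp 10 * μ ^ 24 := by positivity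
  have h1 : Pr (E2 (T := T) h Z cl z) ≤
      Pr (fun γ : GConf T V => ∃ y ∈ (Z.filter fun x => x.1 = z.1).erase z, Pat h Z cl γ z ∧ Pat h Z cl γ y) := by
    apply Pr_mono
    rintro γ ⟨hz, y, hy, hne, h1, hp⟩
    exact ⟨y, by simp [hy, hne, h1], hz, hp⟩
  refine h1.trans ((Pr_exists_le_card _ _ (Real.exp 10 * μ ^ 24) ?_).trans ?_)
  · intro y hy
    have hne : z ≠ y := by
      have := (Finset.mem_erase.1 hy).1
      exact this.symm
    exact pat_up2 hO Z cl hcl T hT μ hμ hμ0 hμ1 hnum z y hne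
  · apply mul_le_mul_of_nonneg_right _ hε
    have h2 : ((Z.filter fun x => x.1 = z.1).erase z).card ≤ 2 * T :=
      (Finset.card_le_card (Finset.erase_subset _ _)).trans (hZpart z.1)
    exact_mod_cast h2

lemma safeE3_prob (R : ℕ) (hZline : ∀ ℓ : L, (Z.filter (On h ℓ)).card ≤ R) (z : P × V) :
    Pr (E3 (T := T) h Z cl z) ≤ q * R ^ 2 * (Real.exp 14 * μ ^ 36) := by
  classical
  have hε : (0:ℝ) ≤ Real.exp 14 * μ ^ 36 := by positivity
  set s : Finset ((P × V) × (P × V)) :=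
    ((linesThrough h z).biUnion fun ℓ => (Z.filter (On h ℓ)) ×ˢ (Z.filter (On h ℓ))).filter
      (fun p => p.1 ≠ z ∧ p.2 ≠ z ∧ p.1 ≠ p.2) with hs
  have h1 : Pr (E3 (T := T) h Z cl z) ≤
      Pr (fun γ : GConf T V => ∃ p ∈ s, Pat h Z cl γ z ∧ Pat h Z cl γ p.1 ∧ Pat h Z cl γ p.2) := by
    apply Pr_mono
    rintro γ ⟨hz, y, hy, y', hy', h1, h2, h3, ⟨ℓ, hℓ, hℓy, hℓy'⟩, hp, hp'⟩
    refine ⟨(y, y'), ?_, hz, hp, hp'⟩
    simp only [hs, Finset.mem_filter, Finset.mem_biUnion, Finset.mem_product]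
    exact ⟨⟨ℓ, by simp [linesThrough, hℓ], ⟨hy, hℓy⟩, ⟨hy', hℓy'⟩⟩, h1, h2, h3⟩
  refine h1.trans ((Pr_exists_le_card _ _ (Real.exp 14 * μ ^ 36) ?_).trans ?_)
  · intro p hp
    have hp' := (Finset.mem_filter.1 hp).2
    exact pat_up3 hO Z cl hcl T hT μ hμ hμ0 hμ1 hnum z p.1 p.2 hp'.1.symm hp'.2.1.symm hp'.2.2
  · apply mul_le_mul_of_nonneg_right _ hε
    have h2 : s.card ≤ q * R ^ 2 := by
      calc s.card ≤ _ := Finset.card_filter_le _ _
        _ ≤ ∑ ℓ ∈ linesThrough h z, ((Z.filter (On h ℓ)) ×ˢ (Z.filter (On h ℓ))).card :=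
            Finset.card_biUnion_le
        _ ≤ ∑ _ℓ ∈ linesThrough h z, R ^ 2 := by
            apply Finset.sum_le_sum
            intro ℓ _
            rw [Finset.card_product, pow_two]
            exact Nat.mul_le_mul (hZline ℓ) (hZline ℓ)
        _ = q * R ^ 2 := by
            rw [Finset.sum_const, hO.card_linesThrough, smul_eq_mul]
    exact_mod_cast h2

lemma safeE4_prob (z : P × V) (hz : z ∈ Z) :
    Pr (E4 (T := T) h Z cl z) ≤ Z.card * ((4 * T / q) * (Real.exp 10 * μ ^ 24)) := by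
  classical
  have hq : (0:ℝ) < q := by exact_mod_cast hO.q_pos
  have hε : (0:ℝ) ≤ (4 * T / q) * (Real.exp 10 * μ ^ 24) := by positivity
  have h1 : Pr (E4 (T := T) h Z cl z) ≤
      Pr (fun γ : GConf T V => ∃ y ∈ Z.erase z, Pat h Z cl γ z ∧ Pat h Z cl γ y ∧
        ∃ ℓ, On h ℓ z ∧ On h ℓ y ∧ ∃ b, BallOn h cl γ b ℓ) := by
    apply Pr_mono
    rintro γ ⟨hzp, ℓ, hℓ, hb, y, hy, hne, hℓy, hp⟩
    exact ⟨y, Finset.mem_erase.2 ⟨hne, hy⟩, hzp, hp, ℓ, hℓ, hℓy, hb⟩
  refine h1.trans ((Pr_exists_le_card _ _ ((4 * T / q) * (Real.exp 10 * μ ^ 24)) ?_).trans ?_)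
  · intro y hy
    have hne : y ≠ z := (Finset.mem_erase.1 hy).1
    have hyZ : y ∈ Z := (Finset.mem_erase.1 hy).2
    by_cases hpart : z.1 = y.1
    · -- no line through both
      refine le_trans (le_of_eq (Pr_eq_zero_of_not _ ?_)) hε
      have hnone : ∀ γ : GConf T V, ¬ (Pat h Z cl γ z ∧ Pat h Z cl γ y ∧
          ∃ ℓ, On h ℓ z ∧ On h ℓ y ∧ ∃ b, BallOn h cl γ b ℓ) := by
        rintro γ ⟨-, -, ℓ, h1, h2, -⟩
        apply hne
        unfold On at h1 h2
        apply Prod.ext hpart.symm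
        rw [← h2, ← h1, hpart]
      exact hnone
    · obtain ⟨ℓ₀, ⟨h1, h2⟩, huniq⟩ := hO.existsUnique_line (x := z) (y := y) hpart
      refine le_trans (Pr_mono ?_) (pat_ball_up2 hO Z cl hcl T hT μ hμ hμ0 hμ1 hnum z y hne.symm hz hyZ ℓ₀ h1 h2)
      rintro γ ⟨hz', hy', ℓ, h3, h4, hb⟩
      have := huniq ℓ ⟨h3, h4⟩
      subst this
      exact ⟨hz', hy', hb⟩
  · apply mul_le_mul_of_nonneg_right _ hε
    have h2 : (Z.erase z).card ≤ Z.card := Finset.card_le_card (Finset.erase_subset _ _)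
    exact_mod_cast h2

end Single

/-- The conditional bound for `c1`. -/
lemma safeE1_prob (hO : OA q h) (Z : Finset (P × V)) (cl : Fin G → Fin 4 → P)
    (hcl : ∀ g g' j j', cl g j = cl g' j' → g = g' ∧ j = j') (hT : 1 ≤ T)
    (μ : ℝ) (hμ : μ = (T : ℝ) ^ 2 / q) (hμ0 : 0 < μ) (hμ1 : μ ≤ 1) (hnum : 1296 * (T : ℝ) ≤ q * μ ^ 3)
    (z : P × V) (t : Fin G) (S : Finset (Fin G)) (ω : Fin G → GConf T V) :
    Pr (E1 h Z cl z t S ω) ≤ 16 * (T * G / q) * (Real.exp 6 * μ ^ 12) := by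
  classical
  have hq : (0:ℝ) < q := by exact_mod_cast hO.q_pos
  have hclt : Function.Injective (cl t) := fun j j' hj => (hcl t t j j' hj).2
  -- the lines through `z` with a ball of another group, not at `z`
  set B : Finset L := (linesThrough h z).filter
    (fun ℓ => ∃ a : Fin G × (Fin 4 × Fin T), BallOn h (cl a.1) (ω a.1) a.2 ℓ ∧ (cl a.1 a.2.1, ω a.1 a.2) ≠ z) with hB
  have hBcard : B.card ≤ G * (4 * T) := by
    have hsub : B ⊆ univ.biUnion (fun a : Fin G × (Fin 4 × Fin T) =>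
        (linesThrough h z).filter (fun ℓ => BallOn h (cl a.1) (ω a.1) a.2 ℓ ∧ (cl a.1 a.2.1, ω a.1 a.2) ≠ z)) := by
      intro ℓ hℓ
      obtain ⟨h1, a, ha⟩ := Finset.mem_filter.1 hℓ
      exact Finset.mem_biUnion.2 ⟨a, Finset.mem_univ _, Finset.mem_filter.2 ⟨h1, ha⟩⟩
    calc B.card ≤ _ := Finset.card_le_card hsub
      _ ≤ ∑ a : Fin G × (Fin 4 × Fin T), ((linesThrough h z).filter
            (fun ℓ => BallOn h (cl a.1) (ω a.1) a.2 ℓ ∧ (cl a.1 a.2.1, ω a.1 a.2) ≠ z)).card :=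
          Finset.card_biUnion_le
      _ ≤ ∑ _a : Fin G × (Fin 4 × Fin T), 1 := by
          apply Finset.sum_le_sum
          intro a _
          rw [Finset.card_le_one]
          intro ℓ hℓ ℓ' hℓ'
          obtain ⟨h1, h2, h3⟩ := Finset.mem_filter.1 hℓ
          obtain ⟨h1', h2', -⟩ := Finset.mem_filter.1 hℓ'
          have hzℓ : On h ℓ z := by simpa [linesThrough] using h1
          have hzℓ' : On h ℓ' z := by simpa [linesThrough] using h1'
          set pt : P × V := (cl a.1 a.2.1, ω a.1 a.2) with hpt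
          have hptℓ : On h ℓ pt := h2.symm
          have hptℓ' : On h ℓ' pt := h2'.symm
          have hpart : z.1 ≠ pt.1 := by
            intro he
            apply h3
            unfold On at hzℓ hptℓ
            apply Prod.ext he.symm
            rw [← hptℓ, ← hzℓ, he]
          exact (hO.existsUnique_line hpart).unique ⟨hzℓ, hptℓ⟩ ⟨hzℓ', hptℓ'⟩
      _ = G * (4 * T) := by simp
  have hε : (0:ℝ) ≤ 4 * ((T : ℝ) ^ 2 / (q : ℝ) ^ 2) * (Real.exp 6 * μ ^ 11) := by positivity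
  have h1 : Pr (E1 h Z cl z t S ω) ≤
      Pr (fun x : GConf T V => ∃ ℓ ∈ B, Pat h Z (cl t) x z ∧ ∃ j, ℓ ∈ gadL h (cl t) x z j) := by
    apply Pr_mono
    rintro x ⟨hx, g', -, j, ℓ, hℓ, b, hb, hne⟩
    have hℓz : ℓ ∈ linesThrough h z := (Finset.mem_filter.1 hℓ).1
    refine ⟨ℓ, Finset.mem_filter.2 ⟨hℓz, (g', b), hb, hne⟩, hx, j, hℓ⟩
  refine h1.trans ((Pr_exists_le_card _ _ (4 * ((T : ℝ) ^ 2 / (q : ℝ) ^ 2) * (Real.exp 6 * μ ^ 11)) ?_).trans ?_)
  · intro ℓ hℓ
    have hℓz : ℓ ∈ linesThrough h z := (Finset.mem_filter.1 hℓ).1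
    have hz : On h ℓ z := by simpa [linesThrough] using hℓz
    exact pat_gad_up hO Z (cl t) hclt T hT μ hμ hμ0 hμ1 hnum z ℓ hz
  · have h2 : (B.card : ℝ) ≤ G * (4 * T) := by exact_mod_cast hBcard
    calc (B.card : ℝ) * (4 * ((T : ℝ) ^ 2 / (q : ℝ) ^ 2) * (Real.exp 6 * μ ^ 11))
        ≤ (G * (4 * T)) * (4 * ((T : ℝ) ^ 2 / (q : ℝ) ^ 2) * (Real.exp 6 * μ ^ 11)) :=
          mul_le_mul_of_nonneg_right h2 hε
      _ = 16 * (T * G / q) * (Real.exp 6 * μ ^ 12) := by
          rw [pow_succ μ 11, hμ]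
          field_simp
          ring

/-- The numeric bound for a failure at one `z` (see `SelectChoice.safeFail`). -/
noncomputable def safeFail' (q G T R ZZ t₀ : ℕ) (μ Lo : ℝ) : ℝ :=
  Real.exp (-(Lo / 8)) +
  2 * (Real.exp 1 * ((G : ℝ) * (16 * (T * G / q) * (Real.exp 6 * μ ^ 12))) / t₀) ^ t₀ +
  (Real.exp 1 * ((G : ℝ) * (2 * T * (Real.exp 10 * μ ^ 24))) / t₀) ^ t₀ +
  (Real.exp 1 * ((G : ℝ) * (q * R ^ 2 * (Real.exp 14 * μ ^ 36))) / t₀) ^ t₀ +
  (Real.exp 1 * ((G : ℝ) * (ZZ * ((4 * T / q) * (Real.exp 10 * μ ^ 24)))) / t₀) ^ t₀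

/-- Failure probability of `∃ g, Safe z g`. -/
theorem safe_prob_core (hO : OA q h) (cl : Fin G → Fin 4 → P)
    (hcl : ∀ g g' j j', cl g j = cl g' j' → g = g' ∧ j = j') (hT : 1 ≤ T)
    (Z : Finset (P × V)) (R : ℕ) (hZline : ∀ ℓ : L, (Z.filter (On h ℓ)).card ≤ R)
    (hZpart : ∀ i : P, (Z.filter fun x => x.1 = i).card ≤ 2 * T)
    (μ : ℝ) (hμ : μ = (T : ℝ) ^ 2 / q) (hμ0 : 0 < μ) (hμ1 : μ ≤ 1) (hnum : 1296 * (T : ℝ) ≤ q * μ ^ 3)
    (z : P × V) (hz : z ∈ Z) (Lo : ℝ) (hLo0 : 0 ≤ Lo)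
    (hLo : Lo ≤ ∑ g, Pr (fun γ : GConf T V => Pat h Z (cl g) γ z))
    (t₀ : ℕ) (ht₀ : 1 ≤ t₀) (ht₀' : 10 * (t₀ : ℝ) ≤ Lo) :
    Pr (fun Γ : Fin G → GConf T V => ¬ ∃ g, Safe h Z cl Γ z g) ≤
      safeFail' q G T R Z.card t₀ μ Lo := by
  classical
  have hq : (0:ℝ) < q := by exact_mod_cast hO.q_pos
  have hT0 : (0:ℝ) < T := by exact_mod_cast hT
  have ht₀0 : (1:ℝ) ≤ t₀ := by exact_mod_cast ht₀
  have hclg : ∀ g, Function.Injective (cl g) := fun g j j' hj => (hcl g g j j' hj).2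
  have hG : 1 ≤ G := by
    rcases Nat.eq_zero_or_pos G with h0 | h0
    · subst h0
      simp only [Finset.univ_eq_empty, Finset.sum_empty] at hLo
      linarith
    · exact h0
  have hG0 : (0:ℝ) < G := by exact_mod_cast hG
  have hZ0 : (0:ℝ) < Z.card := by
    have : 0 < Z.card := Finset.card_pos.2 ⟨z, hz⟩
    exact_mod_cast this
  have hR : 1 ≤ R := by
    have hne : (linesThrough h z).Nonempty := by
      rw [← Finset.card_pos, hO.card_linesThrough]; exact hO.q_pos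
    obtain ⟨ℓ, hℓ⟩ := hne
    have h1 : On h ℓ z := by simpa [linesThrough] using hℓ
    have h2 : 0 < (Z.filter (On h ℓ)).card := Finset.card_pos.2 ⟨z, Finset.mem_filter.2 ⟨hz, h1⟩⟩
    exact h2.trans_le (hZline ℓ)
  have hR0 : (0:ℝ) < R := by exact_mod_cast hR
  -- the events
  let I1 : Fin G → (Fin G → GConf T V) → Prop := fun t ω =>
    E1 h Z cl z t (univ.filter fun g' => g' < t) ω (ω t)
  let I2 : Fin G → (Fin G → GConf T V) → Prop := fun t ω =>
    E1 h Z cl z t (univ.filter fun g' => t < g') ω (ω t)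
  -- probabilities
  have hp1 : 0 < 16 * ((T:ℝ) * G / q) * (Real.exp 6 * μ ^ 12) := by positivity
  have hA1 : Pr (fun ω : Fin G → GConf T V => t₀ ≤ (univ.filter (fun s => I1 s ω)).card) ≤
      (Real.exp 1 * ((G:ℝ) * (16 * ((T:ℝ) * G / q) * (Real.exp 6 * μ ^ 12))) / t₀) ^ t₀ := by
    refine le_trans (le_of_eq ?_) (seq_rare G I1 ?_ _ hp1 ?_ t₀ ht₀ hG)
    · congr
    · intro t ω ω' hs
      simp only [I1, E1]
      rw [hs t le_rfl]
      constructor
      · rintro ⟨h1, g', hg', j, ℓ, hℓ, b, hb, hne⟩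
        have : g' < t := by simpa using hg'
        rw [hs g' this.le] at hb hne
        exact ⟨h1, g', hg', j, ℓ, hℓ, b, hb, hne⟩
      · rintro ⟨h1, g', hg', j, ℓ, hℓ, b, hb, hne⟩
        have : g' < t := by simpa using hg'
        rw [← hs g' this.le] at hb hne
        exact ⟨h1, g', hg', j, ℓ, hℓ, b, hb, hne⟩
    · intro t ω
      refine le_trans (Pr_mono ?_) (safeE1_prob hO Z cl hcl hT μ hμ hμ0 hμ1 hnum z t (univ.filter fun g' => g' < t) ω)
      intro x hx
      simp only [I1, E1, Function.update_self] at hx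
      obtain ⟨h1, g', hg', j, ℓ, hℓ, b, hb, hne⟩ := hx
      have hlt : g' < t := by simpa using hg'
      rw [Function.update_of_ne hlt.ne] at hb hne
      exact ⟨h1, g', hg', j, ℓ, hℓ, b, hb, hne⟩
  have hA2 : Pr (fun ω : Fin G → GConf T V => t₀ ≤ (univ.filter (fun s => I2 s ω)).card) ≤
      (Real.exp 1 * ((G:ℝ) * (16 * ((T:ℝ) * G / q) * (Real.exp 6 * μ ^ 12))) / t₀) ^ t₀ := by
    refine le_trans (le_of_eq ?_) (seq_rare_back G I2 ?_ _ hp1 ?_ t₀ ht₀ hG)
    · congr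
    · intro t ω ω' hs
      simp only [I2, E1]
      rw [hs t le_rfl]
      constructor
      · rintro ⟨h1, g', hg', j, ℓ, hℓ, b, hb, hne⟩
        have : t < g' := by simpa using hg'
        rw [hs g' this.le] at hb hne
        exact ⟨h1, g', hg', j, ℓ, hℓ, b, hb, hne⟩
      · rintro ⟨h1, g', hg', j, ℓ, hℓ, b, hb, hne⟩
        have : t < g' := by simpa using hg'
        rw [← hs g' this.le] at hb hne
        exact ⟨h1, g', hg', j, ℓ, hℓ, b, hb, hne⟩
    · intro t ω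
      refine le_trans (Pr_mono ?_) (safeE1_prob hO Z cl hcl hT μ hμ hμ0 hμ1 hnum z t (univ.filter fun g' => t < g') ω)
      intro x hx
      simp only [I2, E1, Function.update_self] at hx
      obtain ⟨h1, g', hg', j, ℓ, hℓ, b, hb, hne⟩ := hx
      have hlt : t < g' := by simpa using hg'
      rw [Function.update_of_ne hlt.ne'] at hb hne
      exact ⟨h1, g', hg', j, ℓ, hℓ, b, hb, hne⟩
  have hA3 := rare_events (X := GConf T V) (G := G) (fun g => E2 h Z (cl g) z) (2 * T * (Real.exp 10 * μ ^ 24))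
    (by positivity) hG (fun g => safeE2_prob hO Z (cl g) (hclg g) hT μ hμ hμ0 hμ1 hnum hZpart z) t₀ ht₀
  have hA4 := rare_events (X := GConf T V) (G := G) (fun g => E3 h Z (cl g) z) (q * R ^ 2 * (Real.exp 14 * μ ^ 36))
    (by positivity) hG (fun g => safeE3_prob hO Z (cl g) (hclg g) hT μ hμ hμ0 hμ1 hnum R hZline z) t₀ ht₀
  have hA5 := rare_events (X := GConf T V) (G := G) (fun g => E4 h Z (cl g) z) (Z.card * ((4 * T / q) * (Real.exp 10 * μ ^ 24)))
    (by positivity) hG (fun g => safeE4_prob hO Z (cl g) (hclg g) hT μ hμ hμ0 hμ1 hnum z hz) t₀ ht₀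
  have hA0 := lower_events (X := GConf T V) (G := G) (fun g γ => Pat h Z (cl g) γ z) Lo hLo0 hLo
  -- the deterministic inclusion
  have hdet : ∀ Γ : Fin G → GConf T V, (¬ ∃ g, Safe h Z cl Γ z g) →
      (((univ.filter fun g => Pat h Z (cl g) (Γ g) z).card : ℝ) ≤ Lo / 2) ∨
      t₀ ≤ (univ.filter (fun s => I1 s Γ)).card ∨
      t₀ ≤ (univ.filter (fun s => I2 s Γ)).card ∨
      t₀ ≤ (univ.filter fun g => E2 h Z (cl g) z (Γ g)).card ∨
      t₀ ≤ (univ.filter fun g => E3 h Z (cl g) z (Γ g)).card ∨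
      t₀ ≤ (univ.filter fun g => E4 h Z (cl g) z (Γ g)).card := by
    intro Γ hns
    by_contra hcon
    push Not at hcon
    obtain ⟨h0, h1, h2, h3, h4, h5⟩ := hcon
    have hsub : (univ.filter fun g => Pat h Z (cl g) (Γ g) z) ⊆
        (univ.filter (fun s => I1 s Γ)) ∪ ((univ.filter (fun s => I2 s Γ)) ∪
        ((univ.filter fun g => E2 h Z (cl g) z (Γ g)) ∪ ((univ.filter fun g => E3 h Z (cl g) z (Γ g)) ∪
        (univ.filter fun g => E4 h Z (cl g) z (Γ g))))) := by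
      intro g hg
      have hpat : Pat h Z (cl g) (Γ g) z := by simpa using hg
      by_contra hgn
      simp only [Finset.mem_union, Finset.mem_filter, Finset.mem_univ, true_and, not_or] at hgn
      obtain ⟨n1, n2, n3, n4, n5⟩ := hgn
      apply hns
      refine ⟨g, hpat, ?_, ?_, ?_, ?_⟩
      · intro g' hne j ℓ hℓ b hb
        by_contra hz'
        rcases lt_or_gt_of_ne hne with hlt | hlt
        · exact n1 ⟨hpat, g', by simpa using hlt, j, ℓ, hℓ, b, hb, hz'⟩
        · exact n2 ⟨hpat, g', by simpa using hlt, j, ℓ, hℓ, b, hb, hz'⟩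
      · intro y hy hne h1 hp
        exact n3 ⟨hpat, y, hy, hne, h1, hp⟩
      · intro y hy y' hy' hne hne' hneq ℓ hℓ hℓy hℓy' hp
        exact n4 ⟨hpat, y, hy, y', hy', hne, hne', hneq, ⟨ℓ, hℓ, hℓy, hℓy'⟩, hp.1, hp.2⟩
      · intro ℓ hℓ hb y hy hne hℓy hp
        exact n5 ⟨hpat, ℓ, hℓ, hb, y, hy, hne, hℓy, hp⟩
    have hcard := Finset.card_le_card hsub
    have hu : ((univ.filter fun g => Pat h Z (cl g) (Γ g) z)).card ≤
        (t₀ - 1) + ((t₀ - 1) + ((t₀ - 1) + ((t₀ - 1) + (t₀ - 1)))) := by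
      refine hcard.trans ((Finset.card_union_le _ _).trans ?_)
      refine Nat.add_le_add (by omega) ((Finset.card_union_le _ _).trans ?_)
      refine Nat.add_le_add (by omega) ((Finset.card_union_le _ _).trans ?_)
      refine Nat.add_le_add (by omega) ((Finset.card_union_le _ _).trans ?_)
      exact Nat.add_le_add (by omega) (by omega)
    have hu2 : ((univ.filter fun g => Pat h Z (cl g) (Γ g) z)).card ≤ 5 * t₀ := by omega
    have hu3 : (((univ.filter fun g => Pat h Z (cl g) (Γ g) z)).card : ℝ) ≤ 5 * t₀ := by exact_mod_cast hu2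
    linarith
  -- union bound
  calc Pr (fun Γ : Fin G → GConf T V => ¬ ∃ g, Safe h Z cl Γ z g)
      ≤ Pr (fun Γ : Fin G → GConf T V =>
        (((univ.filter fun g => Pat h Z (cl g) (Γ g) z).card : ℝ) ≤ Lo / 2) ∨
        t₀ ≤ (univ.filter (fun s => I1 s Γ)).card ∨
        t₀ ≤ (univ.filter (fun s => I2 s Γ)).card ∨
        t₀ ≤ (univ.filter fun g => E2 h Z (cl g) z (Γ g)).card ∨
        t₀ ≤ (univ.filter fun g => E3 h Z (cl g) z (Γ g)).card ∨
        t₀ ≤ (univ.filter fun g => E4 h Z (cl g) z (Γ g)).card) := Pr_mono hdet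
    _ ≤ _ := by
      refine (Pr_or_le _ _).trans ?_
      have u1 := Pr_or_le (fun Γ : Fin G → GConf T V => t₀ ≤ (univ.filter (fun s => I1 s Γ)).card)
        (fun Γ => t₀ ≤ (univ.filter (fun s => I2 s Γ)).card ∨
        t₀ ≤ (univ.filter fun g => E2 h Z (cl g) z (Γ g)).card ∨
        t₀ ≤ (univ.filter fun g => E3 h Z (cl g) z (Γ g)).card ∨
        t₀ ≤ (univ.filter fun g => E4 h Z (cl g) z (Γ g)).card)
      have u2 := Pr_or_le (fun Γ : Fin G → GConf T V => t₀ ≤ (univ.filter (fun s => I2 s Γ)).card)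
        (fun Γ => t₀ ≤ (univ.filter fun g => E2 h Z (cl g) z (Γ g)).card ∨
        t₀ ≤ (univ.filter fun g => E3 h Z (cl g) z (Γ g)).card ∨
        t₀ ≤ (univ.filter fun g => E4 h Z (cl g) z (Γ g)).card)
      have u3 := Pr_or_le (fun Γ : Fin G → GConf T V => t₀ ≤ (univ.filter fun g => E2 h Z (cl g) z (Γ g)).card)
        (fun Γ => t₀ ≤ (univ.filter fun g => E3 h Z (cl g) z (Γ g)).card ∨
        t₀ ≤ (univ.filter fun g => E4 h Z (cl g) z (Γ g)).card)
      have u4 := Pr_or_le (fun Γ : Fin G → GConf T V => t₀ ≤ (univ.filter fun g => E3 h Z (cl g) z (Γ g)).card)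
        (fun Γ => t₀ ≤ (univ.filter fun g => E4 h Z (cl g) z (Γ g)).card)
      have hA0' : Pr (fun Γ : Fin G → GConf T V => ((univ.filter fun g => Pat h Z (cl g) (Γ g) z).card : ℝ) ≤ Lo / 2) ≤
          Real.exp (-(Lo / 8)) := by
        refine le_trans (le_of_eq ?_) hA0
        congr
      have hA3' : Pr (fun Γ : Fin G → GConf T V => t₀ ≤ (univ.filter fun g => E2 h Z (cl g) z (Γ g)).card) ≤
          (Real.exp 1 * ((G : ℝ) * (2 * T * (Real.exp 10 * μ ^ 24))) / t₀) ^ t₀ := by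
        refine le_trans (le_of_eq ?_) hA3
        congr
      have hA4' : Pr (fun Γ : Fin G → GConf T V => t₀ ≤ (univ.filter fun g => E3 h Z (cl g) z (Γ g)).card) ≤
          (Real.exp 1 * ((G : ℝ) * (q * R ^ 2 * (Real.exp 14 * μ ^ 36))) / t₀) ^ t₀ := by
        refine le_trans (le_of_eq ?_) hA4
        congr
      have hA5' : Pr (fun Γ : Fin G → GConf T V => t₀ ≤ (univ.filter fun g => E4 h Z (cl g) z (Γ g)).card) ≤
          (Real.exp 1 * ((G : ℝ) * (Z.card * ((4 * T / q) * (Real.exp 10 * μ ^ 24)))) / t₀) ^ t₀ := by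
        refine le_trans (le_of_eq ?_) hA5
        congr
      unfold safeFail'
      linarith

end Main

end Crest.Agent.Ryser
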