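import Crest.Agent.Lib.Ryser.SelectCol

/-!
# Module SELUP: upper bounds for the group-level events, from `col_tail`.

Facts on `Pat` (deterministic, module SELUP1):
every gadget line of type `j` at `z` contains a ball of class `j` and a ball of class `j + 1`, one of them odd, one even;
different lines through `z` contain different balls (`z` off the parts); there are 12 gadget lines. Hence:
* `pat_colN`: `Pat → 12 ≤ colN oddB evenB`.
* `pat_colN_erase`: if `a` (any ball) is on a line `ℓ₀ ∋ z` not a gadget line at `z`, then `12 ≤ colN (oddB \ a) (evenB \ a)`.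
* `pat_colN_erase2`: if `ℓ₀ ∋ z` is a gadget line at `z`, with odd ball `a` and even ball `b` on it,
  then `11 ≤ colN (oddB \ a) (evenB \ b)`.
Independence: an event on coordinate `a` and an event on the other coordinates: product of probabilities;
`P(ball a on ℓ₀) = 1/q`, `P(a, b on ℓ₀) = 1/q²`.  `colN O E` with `a ∉ O ∪ E` does not depend on `γ a`.
-/

open Finset BigOperators

namespace Crest.Agent.Ryser

variable {P V L : Type*} [Fintype P] [DecidableEq P] [Fintype V] [DecidableEq V]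
  [Fintype L] [DecidableEq L]
variable {q : ℕ} {h : L → P → V}


section Indep

variable {ι X : Type*} [Fintype ι] [DecidableEq ι] [Fintype X] [DecidableEq X]

/-- Independence of one coordinate from an event not depending on it. -/
lemma Pr_coord_and (a : ι) (v : X) (E : (ι → X) → Prop)
    (hE : ∀ ω x, E (Function.update ω a x) ↔ E ω) :
    Pr (fun ω : ι → X => ω a = v ∧ E ω) = Pr E / Fintype.card X := by
  classical
  haveI : Nonempty X := ⟨v⟩
  rw [Pr_eq_Ex, Pr_eq_Ex E, Ex_update _ a]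
  have h1 : (fun ω : ι → X => (∑ x, (if (Function.update ω a x) a = v ∧ E (Function.update ω a x)
      then (1 : ℝ) else 0)) / Fintype.card X) =
      fun ω => (if E ω then (1 : ℝ) else 0) * (Fintype.card X : ℝ)⁻¹ := by
    funext ω
    rw [div_eq_mul_inv]
    congr 1
    simp only [Function.update_self, hE]
    by_cases hω : E ω
    · simp [hω]
    · simp [hω]
  simp only [h1]
  rw [Ex_mul_const, div_eq_mul_inv]

end Indep

section Det
variable {T : ℕ} {Z : Finset (P × V)} {cl : Fin 4 → P} {γ : GConf T V} {z : P × V}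

/-- A gadget line contains an odd and an even ball. -/
theorem gad_balls (hz : ∀ j, z.1 ≠ cl j) {ℓ : L} {j : Fin 4} (hl : ℓ ∈ gadL h cl γ z j) :
    ∃ a ∈ oddB T, ∃ b ∈ evenB T, BallOn h cl γ a ℓ ∧ BallOn h cl γ b ℓ := by
  have hhit : hitCl h cl γ ℓ = {j, j + 1} := (Finset.mem_filter.1 hl).2
  have h1 : j ∈ hitCl h cl γ ℓ := by rw [hhit]; simp
  have h2 : j + 1 ∈ hitCl h cl γ ℓ := by rw [hhit]; simp
  obtain ⟨k1, hk1⟩ := (Finset.mem_filter.1 h1).2
  obtain ⟨k2, hk2⟩ := (Finset.mem_filter.1 h2).2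
  have hcase : ∀ j : Fin 4, ((j = 0 ∨ j = 2) ∧ (j + 1 = 1 ∨ j + 1 = 3)) ∨
      ((j + 1 = 0 ∨ j + 1 = 2) ∧ (j = 1 ∨ j = 3)) := by decide
  rcases hcase j with ⟨h3, h4⟩ | ⟨h3, h4⟩
  · exact ⟨(j, k1), Finset.mem_filter.2 ⟨Finset.mem_univ _, h3⟩,
      (j + 1, k2), Finset.mem_filter.2 ⟨Finset.mem_univ _, h4⟩, hk1, hk2⟩
  · exact ⟨(j + 1, k2), Finset.mem_filter.2 ⟨Finset.mem_univ _, h3⟩,
      (j, k1), Finset.mem_filter.2 ⟨Finset.mem_univ _, h4⟩, hk2, hk1⟩

/-- Counting lower bound for `colN`: distinct lines through `z` carry distinct even balls. -/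
theorem card_le_colN (hO : OA q h) {O E : Finset (Fin 4 × Fin T)} (hoff : ∀ j, z.1 ≠ cl j)
    (S : Finset L) (hS : ∀ ℓ ∈ S, On h ℓ z ∧ ∃ a ∈ O, ∃ e ∈ E, BallOn h cl γ a ℓ ∧ BallOn h cl γ e ℓ) :
    S.card ≤ colN h cl O E γ z := by
  classical
  unfold colN
  set F := E.filter fun e => ∃ a ∈ O, ∃ ℓ, On h ℓ z ∧ BallOn h cl γ a ℓ ∧ BallOn h cl γ e ℓ with hF
  have hne : ∀ e : Fin 4 × Fin T, z.1 ≠ ((cl e.1, γ e) : P × V).1 := fun e => hoff e.1
  have hsub : S ⊆ F.image fun e => lineOf hO z (cl e.1, γ e) (hne e) := by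
    intro ℓ hℓ
    obtain ⟨hz, a, ha, e, he, hae, hee⟩ := hS ℓ hℓ
    refine Finset.mem_image.2 ⟨e, ?_, ?_⟩
    · exact Finset.mem_filter.2 ⟨he, a, ha, ℓ, hz, hae, hee⟩
    · exact (lineOf_unique hO z (cl e.1, γ e) (hne e) ℓ hz hee.symm).symm
  calc S.card ≤ (F.image fun e => lineOf hO z (cl e.1, γ e) (hne e)).card := Finset.card_le_card hsub
    _ ≤ F.card := Finset.card_image_le

/-- All gadget lines at `z`. -/
def allGad (h : L → P → V) (cl : Fin 4 → P) (γ : GConf T V) (z : P × V) : Finset L :=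
  univ.biUnion fun j => gadL h cl γ z j

theorem mem_allGad {ℓ : L} : ℓ ∈ allGad h cl γ z ↔ ∃ j, ℓ ∈ gadL h cl γ z j := by
  simp [allGad]

theorem card_allGad (hp : Pat h Z cl γ z) : (allGad h cl γ z).card = 12 := by
  unfold allGad
  rw [Finset.card_biUnion]
  · simp [hp.three]
  · intro j _ j' _ hjj'
    rw [Function.onFun, Finset.disjoint_left]
    intro ℓ h1 h2
    have e1 : hitCl h cl γ ℓ = {j, j + 1} := (Finset.mem_filter.1 h1).2
    have e2 : hitCl h cl γ ℓ = {j', j' + 1} := (Finset.mem_filter.1 h2).2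
    have key : ∀ a b : Fin 4, ({a, a + 1} : Finset (Fin 4)) = {b, b + 1} → a = b := by decide
    exact hjj' (key j j' (e1.symm.trans e2))

theorem allGad_on {ℓ : L} (hl : ℓ ∈ allGad h cl γ z) : On h ℓ z := by
  obtain ⟨j, hj⟩ := mem_allGad.1 hl
  exact (Finset.mem_filter.1 (Finset.mem_filter.1 hj).1).2

theorem allGad_balls (hz : ∀ j, z.1 ≠ cl j) {ℓ : L} (hl : ℓ ∈ allGad h cl γ z) :
    ∃ a ∈ oddB T, ∃ b ∈ evenB T, BallOn h cl γ a ℓ ∧ BallOn h cl γ b ℓ := by
  obtain ⟨j, hj⟩ := mem_allGad.1 hl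
  exact gad_balls hz hj

/-- Two lines through `z` (off the parts) with a common ball are equal. -/
theorem eq_of_ball (hO : OA q h) (hoff : ∀ j, z.1 ≠ cl j) {ℓ ℓ' : L} {a : Fin 4 × Fin T}
    (h1 : On h ℓ z) (h2 : On h ℓ' z) (h3 : BallOn h cl γ a ℓ) (h4 : BallOn h cl γ a ℓ') : ℓ = ℓ' :=
  hO.eq_of_agree (hoff a.1) (h1.trans h2.symm) (h3.symm.trans h4)

theorem pat_colN (hO : OA q h) (hcl : Function.Injective cl) (hp : Pat h Z cl γ z) :
    12 ≤ colN h cl (oddB T) (evenB T) γ z := by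
  rw [← card_allGad hp]
  refine card_le_colN hO hp.off _ fun ℓ hℓ => ⟨allGad_on hℓ, ?_⟩
  obtain ⟨a, ha, b, hb, hab, hbb⟩ := allGad_balls hp.off hℓ
  exact ⟨a, ha, b, hb, hab, hbb⟩

theorem pat_colN_erase (hO : OA q h) (hcl : Function.Injective cl) (hp : Pat h Z cl γ z)
    (ℓ₀ : L) (hz : On h ℓ₀ z) (hng : ∀ j, ℓ₀ ∉ gadL h cl γ z j) (a : Fin 4 × Fin T)
    (ha : BallOn h cl γ a ℓ₀) :
    12 ≤ colN h cl ((oddB T).erase a) ((evenB T).erase a) γ z := by
  rw [← card_allGad hp]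
  refine card_le_colN hO hp.off _ fun ℓ hℓ => ⟨allGad_on hℓ, ?_⟩
  obtain ⟨x, hx, y, hy, hxb, hyb⟩ := allGad_balls hp.off hℓ
  have hne : ℓ ≠ ℓ₀ := by
    rintro rfl
    obtain ⟨j, hj⟩ := mem_allGad.1 hℓ
    exact hng j hj
  refine ⟨x, Finset.mem_erase.2 ⟨?_, hx⟩, y, Finset.mem_erase.2 ⟨?_, hy⟩, hxb, hyb⟩
  · rintro rfl
    exact hne (eq_of_ball hO hp.off (allGad_on hℓ) hz hxb ha)
  · rintro rfl
    exact hne (eq_of_ball hO hp.off (allGad_on hℓ) hz hyb ha)

theorem pat_colN_erase2 (hO : OA q h) (hcl : Function.Injective cl) (hp : Pat h Z cl γ z)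
    (ℓ₀ : L) (hz : On h ℓ₀ z) (a b : Fin 4 × Fin T) (ha : a ∈ oddB T) (hb : b ∈ evenB T)
    (ha' : BallOn h cl γ a ℓ₀) (hb' : BallOn h cl γ b ℓ₀) :
    11 ≤ colN h cl ((oddB T).erase a) ((evenB T).erase b) γ z := by
  have hcard : 11 ≤ ((allGad h cl γ z).erase ℓ₀).card := by
    have h1 := Finset.pred_card_le_card_erase (s := allGad h cl γ z) (a := ℓ₀)
    rw [card_allGad hp] at h1
    omega
  refine hcard.trans (card_le_colN hO hp.off _ fun ℓ hℓ => ?_)
  obtain ⟨hne, hℓ'⟩ := Finset.mem_erase.1 hℓ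
  refine ⟨allGad_on hℓ', ?_⟩
  obtain ⟨x, hx, y, hy, hxb, hyb⟩ := allGad_balls hp.off hℓ'
  refine ⟨x, Finset.mem_erase.2 ⟨?_, hx⟩, y, Finset.mem_erase.2 ⟨?_, hy⟩, hxb, hyb⟩
  · rintro rfl
    exact hne (eq_of_ball hO hp.off (allGad_on hℓ') hz hxb ha')
  · rintro rfl
    exact hne (eq_of_ball hO hp.off (allGad_on hℓ') hz hyb hb')

/-- `colN O E` does not depend on a coordinate outside `O ∪ E`. -/
theorem colN_update {O E : Finset (Fin 4 × Fin T)} {a : Fin 4 × Fin T} (haO : a ∉ O) (haE : a ∉ E)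
    (γ : GConf T V) (x : V) (u : P × V) :
    colN h cl O E (Function.update γ a x) u = colN h cl O E γ u := by
  classical
  unfold colN
  congr 1
  refine Finset.filter_congr fun e he => ?_
  have hb : ∀ b ∈ O ∪ E, ∀ ℓ, BallOn h cl (Function.update γ a x) b ℓ ↔ BallOn h cl γ b ℓ := by
    intro b hb ℓ
    have hne : b ≠ a := by
      rintro rfl
      rcases Finset.mem_union.1 hb with h1 | h1
      · exact haO h1
      · exact haE h1
    simp [BallOn, Function.update_of_ne hne]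
  constructor
  · rintro ⟨c, hc, ℓ, h1, h2, h3⟩
    exact ⟨c, hc, ℓ, h1, (hb c (Finset.mem_union_left _ hc) ℓ).1 h2,
      (hb e (Finset.mem_union_right _ he) ℓ).1 h3⟩
  · rintro ⟨c, hc, ℓ, h1, h2, h3⟩
    exact ⟨c, hc, ℓ, h1, (hb c (Finset.mem_union_left _ hc) ℓ).2 h2,
      (hb e (Finset.mem_union_right _ he) ℓ).2 h3⟩

theorem card_oddB (T : ℕ) : (oddB T).card = 2 * T := by
  have : oddB T = ({0, 2} : Finset (Fin 4)) ×ˢ (univ : Finset (Fin T)) := by
    ext ⟨j, k⟩
    simp [oddB]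
  rw [this, Finset.card_product]
  simp

theorem card_evenB (T : ℕ) : (evenB T).card = 2 * T := by
  have : evenB T = ({1, 3} : Finset (Fin 4)) ×ˢ (univ : Finset (Fin T)) := by
    ext ⟨j, k⟩
    simp [evenB]
  rw [this, Finset.card_product]
  simp

theorem odd_not_even {a : Fin 4 × Fin T} (ha : a ∈ oddB T) : a ∉ evenB T := by
  simp only [oddB, evenB, Finset.mem_filter, Finset.mem_univ, true_and] at ha ⊢
  rcases ha with h1 | h1 <;> rw [h1] <;> decide

theorem even_not_odd {a : Fin 4 × Fin T} (ha : a ∈ evenB T) : a ∉ oddB T := by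
  simp only [oddB, evenB, Finset.mem_filter, Finset.mem_univ, true_and] at ha ⊢
  rcases ha with h1 | h1 <;> rw [h1] <;> decide

end Det

section Num

lemma exp_add_twelve_le {a : ℝ} (ha : 5 ≤ a) : Real.exp a + 12 ≤ Real.exp (a + 1) := by
  have h1 : (2 : ℝ) ≤ Real.exp 1 := by
    have := Real.add_one_le_exp (1 : ℝ)
    linarith
  have h5 : (32 : ℝ) ≤ Real.exp 5 := by
    have : Real.exp 5 = Real.exp 1 ^ 5 := by
      rw [← Real.exp_nat_mul]
      norm_num
    rw [this]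
    calc (32 : ℝ) = 2 ^ 5 := by norm_num
      _ ≤ Real.exp 1 ^ 5 := pow_le_pow_left₀ (by norm_num) h1 5
  have h2 : Real.exp 5 ≤ Real.exp a := Real.exp_le_exp.2 ha
  rw [Real.exp_add]
  nlinarith [Real.exp_pos a]

/-- Absorbing the error term of `col_tail`. -/
lemma tail_absorb {μ : ℝ} (hμ0 : 0 ≤ μ) (hμ1 : μ ≤ 1) {a : ℝ} (ha : 5 ≤ a) {s : ℕ} (hs : s ≤ 36) :
    Real.exp a * μ ^ s + 12 * μ ^ 36 ≤ Real.exp (a + 1) * μ ^ s := by
  have h1 : μ ^ 36 ≤ μ ^ s := pow_le_pow_of_le_one hμ0 hμ1 hs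
  have h2 := exp_add_twelve_le ha
  have h3 : 0 ≤ μ ^ s := pow_nonneg hμ0 s
  nlinarith

end Num

section Prob
variable (hO : OA q h) (Z : Finset (P × V)) (cl : Fin 4 → P) (hcl : Function.Injective cl) (T : ℕ) (hT : 1 ≤ T)
  (μ : ℝ) (hμ : μ = (T : ℝ) ^ 2 / q) (hμ0 : 0 < μ) (hμ1 : μ ≤ 1) (hnum : 1296 * (T : ℝ) ≤ q * μ ^ 3)
include hO hcl hT hμ hμ0 hμ1 hnum

omit hμ0 in
/-- `col_tail` for one center. -/
lemma col_tail1 (hμ0 : 0 < μ) (O E : Finset (Fin 4 × Fin T)) (hOodd : ∀ a ∈ O, a.1 = 0 ∨ a.1 = 2)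
    (hEeven : ∀ e ∈ E, e.1 = 1 ∨ e.1 = 3) (z : P × V) (hoff : ∀ j, z.1 ≠ cl j) (s : ℕ) (hs : s ≤ 36) :
    Pr (fun γ : GConf T V => s ≤ colN h cl O E γ z) ≤ Real.exp 6 * μ ^ s := by
  have h1 := col_tail hO cl hcl T hT O E hOodd hEeven {z} (by simp)
    (by simpa using hoff) s μ hμ hμ1 hnum
  simp only [Finset.mem_singleton, forall_eq, Finset.card_singleton, Nat.cast_one, mul_one, one_mul] at h1
  have h2 := tail_absorb hμ0.le hμ1 (a := 5) (by norm_num) hs
  norm_num at h1 h2 ⊢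
  linarith

omit hμ0 in
/-- `col_tail` for two centers. -/
lemma col_tail2 (hμ0 : 0 < μ) (O E : Finset (Fin 4 × Fin T)) (hOodd : ∀ a ∈ O, a.1 = 0 ∨ a.1 = 2)
    (hEeven : ∀ e ∈ E, e.1 = 1 ∨ e.1 = 3) (z y : P × V) (hne : z ≠ y) (hoffz : ∀ j, z.1 ≠ cl j)
    (hoffy : ∀ j, y.1 ≠ cl j) :
    Pr (fun γ : GConf T V => 12 ≤ colN h cl O E γ z ∧ 12 ≤ colN h cl O E γ y) ≤ Real.exp 10 * μ ^ 24 := by
  classical
  have hcard : ({z, y} : Finset (P × V)).card = 2 := Finset.card_pair hne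
  have h1 := col_tail hO cl hcl T hT O E hOodd hEeven {z, y} (by rw [hcard]; norm_num)
    (by
      intro u hu
      rcases Finset.mem_insert.1 hu with rfl | hu
      · exact hoffz
      · rw [Finset.mem_singleton.1 hu]; exact hoffy) 12 μ hμ hμ1 hnum
  rw [hcard] at h1
  have h2 := tail_absorb hμ0.le hμ1 (a := 9) (by norm_num) (s := 24) (by norm_num)
  have h3 : Pr (fun γ : GConf T V => 12 ≤ colN h cl O E γ z ∧ 12 ≤ colN h cl O E γ y) ≤
      Pr (fun γ : GConf T V => ∀ u ∈ ({z, y} : Finset (P × V)), 12 ≤ colN h cl O E γ u) :=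
    Pr_mono fun γ hγ u hu => by
      rcases Finset.mem_insert.1 hu with rfl | hu
      · exact hγ.1
      · rw [Finset.mem_singleton.1 hu]; exact hγ.2
  norm_num at h1 h2 ⊢
  linarith

/-- `P(Pat z) ≤ e⁶ μ¹²`. -/
theorem pat_up (z : P × V) :
    Pr (fun γ : GConf T V => Pat h Z cl γ z) ≤ Real.exp 6 * μ ^ 12 := by
  by_cases hoff : ∀ j, z.1 ≠ cl j
  · refine (Pr_mono fun γ hγ => pat_colN hO hcl hγ).trans ?_
    exact col_tail1 hO cl hcl T hT μ hμ hμ1 hnum hμ0 _ _ (by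
      intro a ha; simpa [oddB] using ha) (by
      intro a ha; simpa [evenB] using ha) z hoff 12 (by norm_num)
  · have h0 : Pr (fun γ : GConf T V => Pat h Z cl γ z) ≤ Pr (fun _ : GConf T V => False) :=
      Pr_mono fun γ hγ => hoff hγ.off
    have h1 : Pr (fun _ : GConf T V => False) = 0 := by simp [Pr]
    rw [h1] at h0
    exact h0.trans (by positivity)

/-- (c2) two centers. -/
theorem pat_up2 (z y : P × V) (hne : z ≠ y) :
    Pr (fun γ : GConf T V => Pat h Z cl γ z ∧ Pat h Z cl γ y) ≤ Real.exp 10 * μ ^ 24 := by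
  by_cases hoff : (∀ j, z.1 ≠ cl j) ∧ (∀ j, y.1 ≠ cl j)
  · have hsub : Pr (fun γ : GConf T V => Pat h Z cl γ z ∧ Pat h Z cl γ y) ≤
        Pr (fun γ : GConf T V => 12 ≤ colN h cl (oddB T) (evenB T) γ z ∧
          12 ≤ colN h cl (oddB T) (evenB T) γ y) :=
      Pr_mono fun γ hγ => ⟨pat_colN hO hcl hγ.1, pat_colN hO hcl hγ.2⟩
    refine hsub.trans ?_
    exact col_tail2 hO cl hcl T hT μ hμ hμ1 hnum hμ0 _ _ (by
      intro a ha; simpa [oddB] using ha) (by
      intro a ha; simpa [evenB] using ha) z y hne hoff.1 hoff.2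
  · have h0 : Pr (fun γ : GConf T V => Pat h Z cl γ z ∧ Pat h Z cl γ y) ≤
        Pr (fun _ : GConf T V => False) :=
      Pr_mono fun γ hγ => hoff ⟨hγ.1.off, hγ.2.off⟩
    have h1 : Pr (fun _ : GConf T V => False) = 0 := by simp [Pr]
    rw [h1] at h0
    exact h0.trans (by positivity)

/-- (c3) three centers. -/
theorem pat_up3 (z y y' : P × V) (h1 : z ≠ y) (h2 : z ≠ y') (h3 : y ≠ y') :
    Pr (fun γ : GConf T V => Pat h Z cl γ z ∧ Pat h Z cl γ y ∧ Pat h Z cl γ y') ≤ Real.exp 14 * μ ^ 36 := by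
  classical
  by_cases hoff : (∀ j, z.1 ≠ cl j) ∧ (∀ j, y.1 ≠ cl j) ∧ (∀ j, y'.1 ≠ cl j)
  · have hcard : ({z, y, y'} : Finset (P × V)).card = 3 := by
      rw [Finset.card_insert_of_notMem (by simp [h1, h2]), Finset.card_pair h3]
    have hm := col_tail hO cl hcl T hT (oddB T) (evenB T) (by
      intro a ha; simpa [oddB] using ha) (by
      intro a ha; simpa [evenB] using ha) {z, y, y'} (by rw [hcard]) (by
        intro u hu
        simp only [Finset.mem_insert, Finset.mem_singleton] at hu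
        rcases hu with rfl | rfl | rfl
        · exact hoff.1
        · exact hoff.2.1
        · exact hoff.2.2) 12 μ hμ hμ1 hnum
    rw [hcard] at hm
    have h4 := tail_absorb hμ0.le hμ1 (a := 13) (by norm_num) (s := 36) (by norm_num)
    have h5 : Pr (fun γ : GConf T V => Pat h Z cl γ z ∧ Pat h Z cl γ y ∧ Pat h Z cl γ y') ≤
        Pr (fun γ : GConf T V => ∀ u ∈ ({z, y, y'} : Finset (P × V)), 12 ≤ colN h cl (oddB T) (evenB T) γ u) :=
      Pr_mono fun γ hγ u hu => by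
        simp only [Finset.mem_insert, Finset.mem_singleton] at hu
        rcases hu with rfl | rfl | rfl
        · exact pat_colN hO hcl hγ.1
        · exact pat_colN hO hcl hγ.2.1
        · exact pat_colN hO hcl hγ.2.2
    have e1 : (4 * ((3 : ℕ) : ℝ) + 1) = 13 := by norm_num
    have e2 : (3 * 12 : ℕ) = 36 := by norm_num
    rw [e1, e2] at hm
    have e3 : ((13 : ℝ) + 1) = 14 := by norm_num
    rw [e3] at h4
    linarith
  · have h0 : Pr (fun γ : GConf T V => Pat h Z cl γ z ∧ Pat h Z cl γ y ∧ Pat h Z cl γ y') ≤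
        Pr (fun _ : GConf T V => False) :=
      Pr_mono fun γ hγ => hoff ⟨hγ.1.off, hγ.2.1.off, hγ.2.2.off⟩
    have h1 : Pr (fun _ : GConf T V => False) = 0 := by simp [Pr]
    rw [h1] at h0
    exact h0.trans (by positivity)

end Prob

section Prob2
variable (hO : OA q h) (Z : Finset (P × V)) (cl : Fin 4 → P) (hcl : Function.Injective cl) (T : ℕ) (hT : 1 ≤ T)
  (μ : ℝ) (hμ : μ = (T : ℝ) ^ 2 / q) (hμ0 : 0 < μ) (hμ1 : μ ≤ 1) (hnum : 1296 * (T : ℝ) ≤ q * μ ^ 3)
include hO hcl hT hμ hμ0 hμ1 hnum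

/-- (c1, D5, D5') a prescribed line through `z` is a gadget line at `z`. -/
theorem pat_gad_up (z : P × V) (ℓ₀ : L) (hz : On h ℓ₀ z) :
    Pr (fun γ : GConf T V => Pat h Z cl γ z ∧ ∃ j, ℓ₀ ∈ gadL h cl γ z j) ≤
      4 * ((T : ℝ) ^ 2 / (q : ℝ) ^ 2) * (Real.exp 6 * μ ^ 11) := by
  classical
  have hq : (0 : ℝ) < q := by exact_mod_cast hO.q_pos
  by_cases hoff : ∀ j, z.1 ≠ cl j
  · -- the pairs of balls
    set B := oddB T ×ˢ evenB T with hB
    have hBcard : (B.card : ℝ) = 4 * (T : ℝ) ^ 2 := by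
      rw [hB, Finset.card_product, card_oddB, card_evenB]
      push_cast
      ring
    have hsub : Pr (fun γ : GConf T V => Pat h Z cl γ z ∧ ∃ j, ℓ₀ ∈ gadL h cl γ z j) ≤
        Pr (fun γ : GConf T V => ∃ p ∈ B, γ p.1 = h ℓ₀ (cl p.1.1) ∧ (γ p.2 = h ℓ₀ (cl p.2.1) ∧
          11 ≤ colN h cl ((oddB T).erase p.1) ((evenB T).erase p.2) γ z)) := by
      refine Pr_mono fun γ hγ => ?_
      obtain ⟨hp, j, hj⟩ := hγ
      obtain ⟨a, ha, b, hb, hab, hbb⟩ := gad_balls hoff hj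
      refine ⟨(a, b), Finset.mem_product.2 ⟨ha, hb⟩, hab, hbb, ?_⟩
      exact pat_colN_erase2 hO hcl hp ℓ₀ hz a b ha hb hab hbb
    refine hsub.trans ?_
    have hone : ∀ p ∈ B, Pr (fun γ : GConf T V => γ p.1 = h ℓ₀ (cl p.1.1) ∧ (γ p.2 = h ℓ₀ (cl p.2.1) ∧
        11 ≤ colN h cl ((oddB T).erase p.1) ((evenB T).erase p.2) γ z)) ≤
        (Real.exp 6 * μ ^ 11) / (q : ℝ) ^ 2 := by
      rintro ⟨a, b⟩ hp
      obtain ⟨ha, hb⟩ := Finset.mem_product.1 hp
      simp only at ha hb ⊢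
      have hab : a ≠ b := by
        rintro rfl
        exact odd_not_even ha hb
      set O := (oddB T).erase a
      set E := (evenB T).erase b
      have haO : a ∉ O := Finset.notMem_erase a _
      have haE : a ∉ E := fun h1 => odd_not_even ha (Finset.mem_erase.1 h1).2
      have hbO : b ∉ O := fun h1 => even_not_odd hb (Finset.mem_erase.1 h1).2
      have hbE : b ∉ E := Finset.notMem_erase b _
      have e1 := Pr_coord_and a (h ℓ₀ (cl a.1))
        (fun γ : GConf T V => γ b = h ℓ₀ (cl b.1) ∧ 11 ≤ colN h cl O E γ z) (by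
          intro ω x
          rw [Function.update_of_ne (Ne.symm hab), colN_update haO haE])
      have e2 := Pr_coord_and b (h ℓ₀ (cl b.1))
        (fun γ : GConf T V => 11 ≤ colN h cl O E γ z) (by
          intro ω x
          rw [colN_update hbO hbE])
      have e3 := col_tail1 hO cl hcl T hT μ hμ hμ1 hnum hμ0 O E (by
          intro c hc
          have := (Finset.mem_erase.1 hc).2
          simpa [oddB] using this) (by
          intro c hc
          have := (Finset.mem_erase.1 hc).2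
          simpa [evenB] using this) z hoff 11 (by norm_num)
      rw [e1, e2, hO.cardV, div_div, ← sq]
      exact div_le_div_of_nonneg_right e3 (by positivity)
    have hU := Pr_exists_le_card B _ _ hone
    refine hU.trans (le_of_eq ?_)
    rw [hBcard]
    field_simp
  · have h0 : Pr (fun γ : GConf T V => Pat h Z cl γ z ∧ ∃ j, ℓ₀ ∈ gadL h cl γ z j) ≤
        Pr (fun _ : GConf T V => False) :=
      Pr_mono fun γ hγ => hoff hγ.1.off
    have h1 : Pr (fun _ : GConf T V => False) = 0 := by simp [Pr]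
    rw [h1] at h0
    exact h0.trans (by positivity)

/-- (c4) two centers on a line with a further ball; the line is clean of gadget status because `y, z ∈ Z`. -/
theorem pat_ball_up2 (z y : P × V) (hne : z ≠ y) (hzZ : z ∈ Z) (hyZ : y ∈ Z) (ℓ₀ : L) (hz : On h ℓ₀ z) (hy : On h ℓ₀ y) :
    Pr (fun γ : GConf T V => Pat h Z cl γ z ∧ Pat h Z cl γ y ∧ ∃ b, BallOn h cl γ b ℓ₀) ≤
      (4 * T / q) * (Real.exp 10 * μ ^ 24) := by
  classical
  have hq : (0 : ℝ) < q := by exact_mod_cast hO.q_pos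
  by_cases hoff : (∀ j, z.1 ≠ cl j) ∧ (∀ j, y.1 ≠ cl j)
  · have hsub : Pr (fun γ : GConf T V => Pat h Z cl γ z ∧ Pat h Z cl γ y ∧ ∃ b, BallOn h cl γ b ℓ₀) ≤
        Pr (fun γ : GConf T V => ∃ b ∈ (univ : Finset (Fin 4 × Fin T)), γ b = h ℓ₀ (cl b.1) ∧
          (12 ≤ colN h cl ((oddB T).erase b) ((evenB T).erase b) γ z ∧
            12 ≤ colN h cl ((oddB T).erase b) ((evenB T).erase b) γ y)) := by
      refine Pr_mono fun γ hγ => ?_
      obtain ⟨hpz, hpy, b, hb⟩ := hγ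
      have hngz : ∀ j, ℓ₀ ∉ gadL h cl γ z j := fun j hj => hne (hpz.clean j ℓ₀ hj y hyZ hy).symm
      have hngy : ∀ j, ℓ₀ ∉ gadL h cl γ y j := fun j hj => hne (hpy.clean j ℓ₀ hj z hzZ hz)
      exact ⟨b, Finset.mem_univ _, hb, pat_colN_erase hO hcl hpz ℓ₀ hz hngz b hb,
        pat_colN_erase hO hcl hpy ℓ₀ hy hngy b hb⟩
    refine hsub.trans ?_
    have hone : ∀ b ∈ (univ : Finset (Fin 4 × Fin T)), Pr (fun γ : GConf T V => γ b = h ℓ₀ (cl b.1) ∧
          (12 ≤ colN h cl ((oddB T).erase b) ((evenB T).erase b) γ z ∧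
            12 ≤ colN h cl ((oddB T).erase b) ((evenB T).erase b) γ y)) ≤
        (Real.exp 10 * μ ^ 24) / q := by
      intro b _
      have hbO : b ∉ (oddB T).erase b := Finset.notMem_erase b _
      have hbE : b ∉ (evenB T).erase b := Finset.notMem_erase b _
      have e1 := Pr_coord_and b (h ℓ₀ (cl b.1))
        (fun γ : GConf T V => 12 ≤ colN h cl ((oddB T).erase b) ((evenB T).erase b) γ z ∧
            12 ≤ colN h cl ((oddB T).erase b) ((evenB T).erase b) γ y) (by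
          intro ω x
          rw [colN_update hbO hbE, colN_update hbO hbE])
      have e3 := col_tail2 hO cl hcl T hT μ hμ hμ1 hnum hμ0 ((oddB T).erase b) ((evenB T).erase b) (by
          intro c hc
          have := (Finset.mem_erase.1 hc).2
          simpa [oddB] using this) (by
          intro c hc
          have := (Finset.mem_erase.1 hc).2
          simpa [evenB] using this) z y hne hoff.1 hoff.2
      rw [e1, hO.cardV]
      exact div_le_div_of_nonneg_right e3 (by positivity)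
    have hU := Pr_exists_le_card _ _ _ hone
    refine hU.trans (le_of_eq ?_)
    have hc : ((univ : Finset (Fin 4 × Fin T)).card : ℝ) = 4 * T := by
      simp
    rw [hc]
    field_simp
  · have h0 : Pr (fun γ : GConf T V => Pat h Z cl γ z ∧ Pat h Z cl γ y ∧ ∃ b, BallOn h cl γ b ℓ₀) ≤
        Pr (fun _ : GConf T V => False) :=
      Pr_mono fun γ hγ => hoff ⟨hγ.1.off, hγ.2.1.off⟩
    have h1 : Pr (fun _ : GConf T V => False) = 0 := by simp [Pr]
    rw [h1] at h0
    exact h0.trans (by positivity)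

/-- (D4') a center on a non-gadget line with a ball. -/
theorem pat_ball_up (y : P × V) (ℓ₀ : L) (hy : On h ℓ₀ y) :
    Pr (fun γ : GConf T V => Pat h Z cl γ y ∧ (∀ j, ℓ₀ ∉ gadL h cl γ y j) ∧ ∃ b, BallOn h cl γ b ℓ₀) ≤
      (4 * T / q) * (Real.exp 6 * μ ^ 12) := by
  classical
  have hq : (0 : ℝ) < q := by exact_mod_cast hO.q_pos
  by_cases hoff : ∀ j, y.1 ≠ cl j
  · have hsub : Pr (fun γ : GConf T V => Pat h Z cl γ y ∧ (∀ j, ℓ₀ ∉ gadL h cl γ y j) ∧ ∃ b, BallOn h cl γ b ℓ₀) ≤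
        Pr (fun γ : GConf T V => ∃ b ∈ (univ : Finset (Fin 4 × Fin T)), γ b = h ℓ₀ (cl b.1) ∧
          12 ≤ colN h cl ((oddB T).erase b) ((evenB T).erase b) γ y) := by
      refine Pr_mono fun γ hγ => ?_
      obtain ⟨hpy, hng, b, hb⟩ := hγ
      exact ⟨b, Finset.mem_univ _, hb, pat_colN_erase hO hcl hpy ℓ₀ hy hng b hb⟩
    refine hsub.trans ?_
    have hone : ∀ b ∈ (univ : Finset (Fin 4 × Fin T)), Pr (fun γ : GConf T V => γ b = h ℓ₀ (cl b.1) ∧
          12 ≤ colN h cl ((oddB T).erase b) ((evenB T).erase b) γ y) ≤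
        (Real.exp 6 * μ ^ 12) / q := by
      intro b _
      have hbO : b ∉ (oddB T).erase b := Finset.notMem_erase b _
      have hbE : b ∉ (evenB T).erase b := Finset.notMem_erase b _
      have e1 := Pr_coord_and b (h ℓ₀ (cl b.1))
        (fun γ : GConf T V => 12 ≤ colN h cl ((oddB T).erase b) ((evenB T).erase b) γ y) (by
          intro ω x
          rw [colN_update hbO hbE])
      have e3 := col_tail1 hO cl hcl T hT μ hμ hμ1 hnum hμ0 ((oddB T).erase b) ((evenB T).erase b) (by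
          intro c hc
          have := (Finset.mem_erase.1 hc).2
          simpa [oddB] using this) (by
          intro c hc
          have := (Finset.mem_erase.1 hc).2
          simpa [evenB] using this) y hoff 12 (by norm_num)
      rw [e1, hO.cardV]
      exact div_le_div_of_nonneg_right e3 (by positivity)
    have hU := Pr_exists_le_card _ _ _ hone
    refine hU.trans (le_of_eq ?_)
    have hc : ((univ : Finset (Fin 4 × Fin T)).card : ℝ) = 4 * T := by
      simp
    rw [hc]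
    field_simp
  · have h0 : Pr (fun γ : GConf T V => Pat h Z cl γ y ∧ (∀ j, ℓ₀ ∉ gadL h cl γ y j) ∧ ∃ b, BallOn h cl γ b ℓ₀) ≤
        Pr (fun _ : GConf T V => False) :=
      Pr_mono fun γ hγ => hoff hγ.1.off
    have h1 : Pr (fun _ : GConf T V => False) = 0 := by simp [Pr]
    rw [h1] at h0
    exact h0.trans (by positivity)

end Prob2

end Crest.Agent.Ryser
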