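import Crest.Agent.Lib.Ryser.SelectDefs
import Crest.Agent.Lib.Ryser.Design

/-!
# Module SELWRAP: from the selection event to `Design F (Fin G)` (deterministic; plane model of `Plane.lean`).

`On ht ℓ x` and `OnLn x ℓ` are both `ht ℓ x.1 = x.2`, so the two incidence relations agree by `Iff.rfl`.

Data: `Act` = on a normal part the unique point of `Z`; on a special part `cl g j` a subset of `Z ∩ part \ Cls` of size `|Cls ∩ part|`.
`grp z` = a safe group (`Classical.choose` of `hsel.safe`), `gad z j = gadL ht (cl (grp z)) (Γ (grp z)) z j`.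
Fields: see the comments of the proof: cls points are on special parts, by `hcl`, `ptOn ℓ (cl g k) ∈ Cls ↔ k ∈ hitCl ht (cl g) (Γ g) ℓ`;
`gad_clean` from `Pat.clean` and `Safe.c1` and `hitCl = {j, j+1}`; `grp_part` from `c2`; `grp_line` from `c3`
(three elements by `Finset.two_lt_card`); `nongad_hits` from `Pat.shape`; `free_alone` from `c4`;
`free_count`: if `ℓ` is a gadget line at some chosen active on it then only it is active on `ℓ`, otherwise `grp` is injective on the set
by `free_alone` and maps into `{g | Y4 ℓ}`; `pt_line_count` from `d5` (`Finset.card_le_mul_card_image`, fibres ≤ 2 by `grp_line`); `pt_part_count` from `d5'` with `grp_part`.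
-/

open Finset BigOperators

namespace Crest.Agent.Ryser

open Crest.Agent.Lib.Ryser

variable {F : Type} [Field F] [Fintype F] [DecidableEq F]

set_option linter.unusedSectionVars false

/-- All class points. -/
def clsAll {G T : ℕ} (cl : Fin G → Fin 4 → Option F) (Γ : Fin G → GConf T F) : Finset (Pt F) :=
  univ.image fun b : Fin G × Fin 4 × Fin T => (cl b.1 b.2.1, Γ b.1 b.2)

/-- The class points of a part. -/
def clsOf {G T : ℕ} (cl : Fin G → Fin 4 → Option F) (Γ : Fin G → GConf T F) (g : Fin G) (j : Fin 4) : Finset (Pt F) :=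
  univ.image fun k : Fin T => (cl g j, Γ g (j, k))

section WrapAux

variable {G T : ℕ} {cl : Fin G → Fin 4 → Option F} {Γ : Fin G → GConf T F}

lemma mem_clsAll {x : Pt F} : x ∈ clsAll cl Γ ↔ ∃ g j k, x = (cl g j, Γ g (j, k)) := by
  simp only [clsAll, mem_image, mem_univ, true_and, Prod.exists]
  constructor
  · rintro ⟨g, j, k, rfl⟩
    exact ⟨g, j, k, rfl⟩
  · rintro ⟨g, j, k, rfl⟩
    exact ⟨g, j, k, rfl⟩

lemma mem_clsOf {g : Fin G} {j : Fin 4} {x : Pt F} :
    x ∈ clsOf cl Γ g j ↔ ∃ k, x = (cl g j, Γ g (j, k)) := by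
  simp only [clsOf, mem_image, mem_univ, true_and]
  constructor
  · rintro ⟨k, rfl⟩
    exact ⟨k, rfl⟩
  · rintro ⟨k, rfl⟩
    exact ⟨k, rfl⟩

/-- The key translation: class points of a line are the hit classes. -/
lemma ptOn_mem_clsAll (hcl : ∀ g j g' j', cl g j = cl g' j' → g = g' ∧ j = j')
    (l : Ln F) (g : Fin G) (k : Fin 4) :
    ptOn l (cl g k) ∈ clsAll cl Γ ↔ k ∈ hitCl ht (cl g) (Γ g) l := by
  rw [mem_clsAll]
  simp only [hitCl, mem_filter, mem_univ, true_and]
  constructor
  · rintro ⟨g', j', k', h⟩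
    have h1 : cl g k = cl g' j' := congrArg Prod.fst h
    have h2 : ht l (cl g k) = Γ g' (j', k') := congrArg Prod.snd h
    obtain ⟨rfl, rfl⟩ := hcl _ _ _ _ h1
    exact ⟨k', h2.symm⟩
  · rintro ⟨k', h⟩
    exact ⟨g, k, k', by rw [h]; rfl⟩

lemma clsAll_filter (hcl : ∀ g j g' j', cl g j = cl g' j' → g = g' ∧ j = j') (g : Fin G) (j : Fin 4) :
    (clsAll cl Γ).filter (fun z => z.1 = cl g j) = clsOf cl Γ g j := by
  ext x
  simp only [mem_filter, mem_clsAll, mem_clsOf]
  constructor
  · rintro ⟨⟨g', j', k, rfl⟩, h⟩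
    obtain ⟨rfl, rfl⟩ := hcl _ _ _ _ h
    exact ⟨k, rfl⟩
  · rintro ⟨k, rfl⟩
    exact ⟨⟨g, j, k, rfl⟩, rfl⟩

/-- A choice of active points. -/
lemma exists_act (hcl : ∀ g j g' j', cl g j = cl g' j' → g = g' ∧ j = j') (Z : Finset (Pt F))
    (hnormal : ∀ i, (∀ g j, i ≠ cl g j) → (Z.filter fun x => x.1 = i).card = 1)
    (hspecial : ∀ g j, (clsOf cl Γ g j).card ≤ ((Z.filter fun x => x.1 = cl g j) \ clsOf cl Γ g j).card) :
    ∃ sel : Option F → Finset (Pt F), ∀ i,
      sel i ⊆ (Z \ clsAll cl Γ).filter (fun z => z.1 = i) ∧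
      ((∀ g j, i ≠ cl g j) → (sel i).card = 1) ∧
      (∀ g j, i = cl g j → (sel i).card = ((clsAll cl Γ).filter (fun z => z.1 = i)).card) := by
  have h : ∀ i : Option F, ∃ s : Finset (Pt F), s ⊆ (Z \ clsAll cl Γ).filter (fun z => z.1 = i) ∧
      ((∀ g j, i ≠ cl g j) → s.card = 1) ∧
      (∀ g j, i = cl g j → s.card = ((clsAll cl Γ).filter (fun z => z.1 = i)).card) := by
    intro i
    by_cases hi : ∀ g j, i ≠ cl g j
    · refine ⟨(Z \ clsAll cl Γ).filter (fun z => z.1 = i), subset_rfl, fun _ => ?_, fun g j h => absurd h (hi g j)⟩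
      have h1 := hnormal i hi
      have h2 : (Z \ clsAll cl Γ).filter (fun z => z.1 = i) = Z.filter (fun z => z.1 = i) := by
        ext x
        simp only [mem_filter, mem_sdiff]
        constructor
        · rintro ⟨⟨h3, _⟩, h4⟩
          exact ⟨h3, h4⟩
        · rintro ⟨h3, h4⟩
          refine ⟨⟨h3, fun h5 => ?_⟩, h4⟩
          obtain ⟨g, j, k, rfl⟩ := mem_clsAll.1 h5
          exact hi g j h4.symm
      rw [h2, h1]
    · push Not at hi
      obtain ⟨g, j, rfl⟩ := hi
      have h3 : (Z.filter fun x => x.1 = cl g j) \ clsOf cl Γ g j ⊆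
          (Z \ clsAll cl Γ).filter (fun z => z.1 = cl g j) := by
        intro x hx
        obtain ⟨hx1, hx2⟩ := mem_sdiff.1 hx
        obtain ⟨hx3, hx4⟩ := mem_filter.1 hx1
        refine mem_filter.2 ⟨mem_sdiff.2 ⟨hx3, fun hx5 => hx2 ?_⟩, hx4⟩
        rw [← clsAll_filter hcl]
        exact mem_filter.2 ⟨hx5, hx4⟩
      obtain ⟨s, hs1, hs2⟩ := Finset.exists_subset_card_eq (hspecial g j)
      refine ⟨s, hs1.trans h3, fun h => absurd rfl (h g j), fun g' j' _ => ?_⟩
      rw [clsAll_filter hcl, hs2]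
  choose sel hsel using h
  exact ⟨sel, hsel⟩

end WrapAux

/-- Deterministic wrap-up. -/
theorem design_of_selection {G T : ℕ} (hG : 1 ≤ G) (hT : 1 ≤ T)
    (cl : Fin G → Fin 4 → Option F) (hcl : ∀ g j g' j', cl g j = cl g' j' → g = g' ∧ j = j')
    (Z : Finset (Pt F)) (Γ : Fin G → GConf T F) (hsel : SelGood (ht (F := F)) Z cl Γ)
    (hnormal : ∀ i, (∀ g j, i ≠ cl g j) → (Z.filter fun x => x.1 = i).card = 1)
    (hspecial : ∀ g j, (clsOf cl Γ g j).card ≤ ((Z.filter fun x => x.1 = cl g j) \ clsOf cl Γ g j).card)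
    (R rho : ℕ)
    (hline : ∀ l, ((Z ∪ clsAll cl Γ).filter fun x => OnLn x l).card ≤ R)
    (hpart : ∀ i, ((Z ∪ clsAll cl Γ).filter fun x => x.1 = i).card ≤ R)
    (hrho : ∀ u : Pt F, rho ≤ ((Crest.Agent.Lib.Ryser.linesThrough u).filter fun l => ∀ x ∈ Z ∪ clsAll cl Γ, OnLn x l → x = u).card)
    (hR : R + 2 ≤ rho)
    (hstab : ∀ S : Finset (Pt F), S.card ≤ Fintype.card F →
      (∀ l : Ln F, (∀ x ∈ Z ∪ clsAll cl Γ, ¬ OnLn x l) → ∃ x ∈ S, OnLn x l) →
      (∃ l : Ln F, ∀ x, OnLn x l → x ∉ Z ∪ clsAll cl Γ → x ∈ S) ∨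
      (∃ i : Option F, ∀ y, (i, y) ∉ Z ∪ clsAll cl Γ → (i, y) ∈ S)) :
    Nonempty (Design F (Fin G)) := by
  classical
  -- the group of an active point
  have hgr : ∀ z : Pt F, ∃ g : Fin G, z ∈ Z → Safe ht Z cl Γ z g := by
    intro z
    by_cases hz : z ∈ Z
    · obtain ⟨g, hg⟩ := hsel.safe z hz
      exact ⟨g, fun _ => hg⟩
    · exact ⟨⟨0, hG⟩, fun h => absurd h hz⟩
  choose grp hgrp using hgr
  -- the chosen actives
  obtain ⟨sel, hs⟩ := exists_act (Γ := Γ) hcl Z hnormal hspecial
  set Cls := clsAll cl Γ with hCls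
  let Act : Finset (Pt F) := univ.biUnion sel
  have mem_Act : ∀ {z : Pt F}, z ∈ Act ↔ z ∈ sel z.1 := by
    intro z
    simp only [Act, mem_biUnion, mem_univ, true_and]
    constructor
    · rintro ⟨i, hi⟩
      have := mem_filter.1 ((hs i).1 hi)
      rw [this.2]
      exact hi
    · intro h
      exact ⟨_, h⟩
  have Act_sub : ∀ {z : Pt F}, z ∈ Act → z ∈ Z \ Cls := fun {z} hz =>
    (mem_filter.1 ((hs z.1).1 (mem_Act.1 hz))).1
  have Act_Z : ∀ {z : Pt F}, z ∈ Act → z ∈ Z := fun hz => (mem_sdiff.1 (Act_sub hz)).1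
  have Act_filter : ∀ i : Option F, Act.filter (fun z => z.1 = i) = sel i := by
    intro i
    ext z
    simp only [mem_filter, mem_Act]
    constructor
    · rintro ⟨h1, rfl⟩
      exact h1
    · intro h1
      have := (mem_filter.1 ((hs i).1 h1)).2
      exact ⟨this ▸ h1, this⟩
  have safeA : ∀ {z : Pt F}, z ∈ Act → Safe ht Z cl Γ z (grp z) := fun {z} hz => hgrp z (Act_Z hz)
  have patA : ∀ {z : Pt F}, z ∈ Act → Pat ht Z (cl (grp z)) (Γ (grp z)) z := fun hz => (safeA hz).pat
  let gad : Pt F → Fin 4 → Finset (Ln F) := fun z j => gadL ht (cl (grp z)) (Γ (grp z)) z j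
  have mem_gad : ∀ {z : Pt F} {j : Fin 4} {l : Ln F},
      l ∈ gad z j ↔ OnLn z l ∧ hitCl ht (cl (grp z)) (Γ (grp z)) l = {j, j + 1} := by
    intro z j l
    simp only [gad, gadL, mem_filter, Crest.Agent.Ryser.linesThrough, mem_univ, true_and]
    exact Iff.rfl
  have mem_cls : ∀ (l : Ln F) (g : Fin G) (k : Fin 4),
      ptOn l (cl g k) ∈ Cls ↔ k ∈ hitCl ht (cl g) (Γ g) l := fun l g k => ptOn_mem_clsAll hcl l g k
  have ne_succ : ∀ j : Fin 4, j ≠ j + 1 := by decide
  -- no `Pat` for two actives in the same group on the same line with a third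
  have grp_line3 : ∀ (l : Ln F) (g : Fin G) {a b c : Pt F}, a ∈ Act → b ∈ Act → c ∈ Act →
      OnLn a l → OnLn b l → OnLn c l → grp a = g → grp b = g → grp c = g →
      a ≠ b → a ≠ c → b ≠ c → False := by
    intro l g a b c ha hb hc hal hbl hcl' hag hbg hcg hab hac hbc
    have h1 := (safeA ha).c3 b (Act_Z hb) c (Act_Z hc) hab.symm hac.symm hbc l hal hbl hcl'
    rw [hag] at h1
    apply h1
    constructor
    · have := patA hb
      rwa [hbg] at this
    · have := patA hc
      rwa [hcg] at this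
  refine ⟨{
    cl := cl
    Cls := Cls
    Act := Act
    Zall := Z ∪ Cls
    grp := grp
    gad := gad
    R := R
    rho := rho
    cl_inj := hcl
    cls_sub := subset_union_right
    act_sub := fun _ hz => mem_union_left _ (Act_Z hz)
    act_cls := by
      rw [Finset.disjoint_left]
      intro z hz
      exact (mem_sdiff.1 (Act_sub hz)).2
    cls_special := by
      intro x hx
      obtain ⟨g, j, k, rfl⟩ := mem_clsAll.1 hx
      exact ⟨g, j, rfl⟩
    act_normal := by
      intro i hi
      rw [Act_filter]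
      exact (hs i).2.1 hi
    act_special := by
      intro g j
      rw [Act_filter]
      exact (hs _).2.2 g j rfl
    cls_nonempty := by
      intro g j
      refine ⟨(cl g j, Γ g (j, ⟨0, hT⟩)), mem_filter.2 ⟨?_, rfl⟩⟩
      exact mem_clsAll.2 ⟨g, j, _, rfl⟩
    gad_through := fun z _ j l hl => (mem_gad.1 hl).1
    gad_card := fun z hz j => (patA hz).three j
    gad_cls := by
      intro z _ j l hl
      have h2 := (mem_gad.1 hl).2
      constructor
      · apply (mem_cls _ _ _).2
        rw [h2]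
        simp
      · apply (mem_cls _ _ _).2
        rw [h2]
        simp
    gad_clean := by
      intro z hz j l hl x hx hxl
      rcases mem_union.1 hx with hx | hx
      · exact Or.inl ((patA hz).clean j l hl x hx hxl)
      · obtain ⟨g', j', k, rfl⟩ := mem_clsAll.1 hx
        by_cases hg : g' = grp z
        · subst hg
          have h2 := (mem_gad.1 hl).2
          have h3 : j' ∈ hitCl ht (cl (grp z)) (Γ (grp z)) l :=
            (mem_cls l _ _).1 (by
              have : ptOn l (cl (grp z) j') = (cl (grp z) j', Γ (grp z) (j', k)) := by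
                rw [show Γ (grp z) (j', k) = ht l (cl (grp z) j') from hxl.symm]
                rfl
              rw [this]
              exact hx)
          rw [h2] at h3
          simp only [mem_insert, mem_singleton] at h3
          rcases h3 with rfl | rfl
          · exact Or.inr (Or.inl rfl)
          · exact Or.inr (Or.inr rfl)
        · exact Or.inl ((safeA hz).c1 g' hg j l hl (j', k) hxl.symm)
    grp_part := by
      intro z hz y hy hne hzy he
      have h1 := (safeA hz).c2 y (Act_Z hy) (Ne.symm hne) hzy.symm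
      rw [he] at h1
      exact h1 (patA hy)
    grp_line := by
      intro l g
      by_contra hlt
      push Not at hlt
      obtain ⟨a, ha, b, hb, c, hc, hab, hac, hbc⟩ := Finset.two_lt_card.1 hlt
      obtain ⟨ha1, ha2, ha3⟩ := mem_filter.1 ha
      obtain ⟨hb1, hb2, hb3⟩ := mem_filter.1 hb
      obtain ⟨hc1, hc2, hc3⟩ := mem_filter.1 hc
      exact grp_line3 l g ha1 hb1 hc1 ha2 hb2 hc2 ha3 hb3 hc3 hab hac hbc
    nongad_hits := by
      intro z hz l hzl hng
      have h0 : (univ.filter (fun k : Fin 4 => ptOn l (cl (grp z) k) ∈ Cls)) =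
          hitCl ht (cl (grp z)) (Γ (grp z)) l := by
        ext k
        rw [mem_filter]
        simp only [mem_univ, true_and]
        exact mem_cls _ _ _
      rw [h0]
      rcases (patA hz).shape l hzl with h | ⟨j, hj⟩
      · exact h
      · exact absurd (mem_gad.2 ⟨hzl, hj⟩) (hng j)
    free_alone := by
      intro z hz l hzl _ hk y hy hyl hne he
      obtain ⟨k, hk⟩ := hk
      obtain ⟨k', hk'⟩ : ∃ k', Γ (grp z) (k, k') = ht l (cl (grp z) k) := by
        have := (mem_cls _ _ _).1 hk
        simpa [hitCl] using this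
      have h1 := (safeA hz).c4 l hzl ⟨(k, k'), hk'⟩ y (Act_Z hy) hne hyl
      rw [← he] at h1
      exact h1 (patA hy)
    free_count := by
      intro l
      by_cases hgadl : ∃ z ∈ Act, OnLn z l ∧ ∃ j, l ∈ gad z j
      · -- only `z` is active on `l`
        obtain ⟨z, hz, hzl, j, hj⟩ := hgadl
        have hsub : Act.filter (fun z => OnLn z l ∧ ∃ k, ptOn l (cl (grp z) k) ∈ Cls) ⊆ {z} := by
          intro y hy
          obtain ⟨hy1, hy2, _⟩ := mem_filter.1 hy
          exact mem_singleton.2 ((patA hz).clean j l hj y (Act_Z hy1) hy2)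
        refine (card_le_card hsub).trans ?_
        simp
      · push Not at hgadl
        refine le_trans ?_ (hsel.d4 l)
        apply Finset.card_le_card_of_injOn grp
        · intro z hz
          obtain ⟨h1, h2, k, h3⟩ := mem_filter.1 hz
          obtain ⟨k', hk'⟩ : ∃ k', Γ (grp z) (k, k') = ht l (cl (grp z) k) := by
            have := (mem_cls _ _ _).1 h3
            simpa [hitCl] using this
          refine mem_filter.2 ⟨mem_univ _, z, Act_Z h1, h2, patA h1, ?_, ⟨(k, k'), hk'⟩⟩
          exact hgadl z h1 h2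
        · intro z hz y hy he
          obtain ⟨h1, h2, k, h3⟩ := mem_filter.1 hz
          obtain ⟨h1', h2', k', h3'⟩ := mem_filter.1 hy
          by_contra hne
          obtain ⟨k'', hk''⟩ : ∃ k', Γ (grp z) (k, k') = ht l (cl (grp z) k) := by
            have := (mem_cls _ _ _).1 h3
            simpa [hitCl] using this
          have h4 := (safeA h1).c4 l h2 ⟨(k, k''), hk''⟩ y (Act_Z h1') (Ne.symm hne) h2'
          rw [show grp z = grp y from he] at h4
          exact h4 (patA h1')
    pt_line_count := by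
      intro p l hp
      have hsub : (Act.filter (fun z => OnLn z l ∧ ∃ j, ∃ l' ∈ gad z j, OnLn p l')).image grp ⊆
          univ.filter (fun g : Fin G => Y5 ht Z (Z.filter (On ht l)) (cl g) (Γ g) p) := by
        intro g hg
        obtain ⟨z, hz, rfl⟩ := mem_image.1 hg
        obtain ⟨h1, h2, h3⟩ := mem_filter.1 hz
        exact mem_filter.2 ⟨mem_univ _, z, mem_filter.2 ⟨Act_Z h1, h2⟩, patA h1, h3⟩
      have hY := (card_le_card hsub).trans (hsel.d5 p l hp)
      have hfib : ∀ g ∈ (Act.filter (fun z => OnLn z l ∧ ∃ j, ∃ l' ∈ gad z j, OnLn p l')).image grp,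
          ((Act.filter (fun z => OnLn z l ∧ ∃ j, ∃ l' ∈ gad z j, OnLn p l')).filter
            (fun z => grp z = g)).card ≤ 2 := by
        intro g _
        by_contra hlt
        push Not at hlt
        obtain ⟨a, ha, b, hb, c, hc, hab, hac, hbc⟩ := Finset.two_lt_card.1 hlt
        obtain ⟨ha0, ha3⟩ := mem_filter.1 ha
        obtain ⟨hb0, hb3⟩ := mem_filter.1 hb
        obtain ⟨hc0, hc3⟩ := mem_filter.1 hc
        obtain ⟨ha1, ha2, _⟩ := mem_filter.1 ha0
        obtain ⟨hb1, hb2, _⟩ := mem_filter.1 hb0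
        obtain ⟨hc1, hc2, _⟩ := mem_filter.1 hc0
        exact grp_line3 l g ha1 hb1 hc1 ha2 hb2 hc2 ha3 hb3 hc3 hab hac hbc
      have hmul := Finset.card_le_mul_card_image _ 2 hfib
      calc _ ≤ 2 * _ := hmul
        _ ≤ 2 * 4 := Nat.mul_le_mul_left _ hY
        _ = 8 := rfl
    pt_part_count := by
      intro p i hp
      refine le_trans ?_ (hsel.d5' p i hp)
      apply Finset.card_le_card_of_injOn grp
      · intro z hz
        obtain ⟨h1, h2, h3⟩ := mem_filter.1 hz
        exact mem_filter.2 ⟨mem_univ _, z, mem_filter.2 ⟨Act_Z h1, h2⟩, patA h1, h3⟩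
      · intro z hz y hy he
        obtain ⟨h1, h2, _⟩ := mem_filter.1 hz
        obtain ⟨h1', h2', _⟩ := mem_filter.1 hy
        by_contra hne
        have h4 := (safeA h1).c2 y (Act_Z h1') (Ne.symm hne) (h2'.trans h2.symm)
        rw [show grp z = grp y from he] at h4
        exact h4 (patA h1')
    ball_line := hline
    ball_part := hpart
    rho_lb := hrho
    R_lt := hR
    stability := hstab
  }⟩

end Crest.Agent.Ryser
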